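import Vale.Agent.P369.Basic

/-! Beam-splitter amplitudes (task P369-Box, part 1).
One mode: with `P m m' = (cX - s)^m (sX + c)^m'`, multiplication by `cX - s` or `sX + c` gives the
creation relations; `derivative P = m c P(m-1,m') + m' s P(m,m'-1)` gives annA, and
` (m+m') P - X P' = -s m P(m-1,m') + c m' P(m,m'-1)` gives annB. Several modes: split off the
factor `j` of the product (`Finset.mul_prod_erase`). Orthogonality of columns: induction on the
total number in `y` with creA/creB moved to the other side through annA/annB (finite sums);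
rows: `amp c s x y = amp c (-s) y x` (both satisfy the same recursion). -/

namespace Vale.Agent.P369

open Finset

section one
open Polynomial

/-- the one-mode generating polynomial -/
noncomputable def ampP (c s : ℝ) (m m' : ℕ) : ℝ[X] :=
  (C c * X - C s) ^ m * (C s * X + C c) ^ m'

/-- homogeneous coefficients -/
noncomputable def ampQ (c s : ℝ) (k l m m' : ℕ) : ℝ :=
  if k + l = m + m' then (ampP c s m m').coeff k else 0

/-- square root of the factorial -/
noncomputable def sf (k : ℕ) : ℝ := √(k.factorial : ℝ)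

lemma sf_pos (k : ℕ) : 0 < sf k := Real.sqrt_pos.mpr (by exact_mod_cast k.factorial_pos)

lemma sf_zero : sf 0 = 1 := by simp [sf]

lemma sf_succ (k : ℕ) : sf (k + 1) = √((k : ℝ) + 1) * sf k := by
  unfold sf
  rw [Nat.factorial_succ, ← Real.sqrt_mul (by positivity)]
  push_cast; rfl

lemma sqrt_mul_sf (k : ℕ) : √(k : ℝ) * sf k = k * sf (k - 1) := by
  cases k with
  | zero => simp
  | succ k =>
    rw [sf_succ, Nat.add_sub_cancel]
    push_cast
    rw [← mul_assoc, Real.mul_self_sqrt (by positivity)]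

lemma sqrt_mul_sf_pred (k : ℕ) : √(k : ℝ) * sf (k - 1) = if k = 0 then 0 else sf k := by
  cases k with
  | zero => simp
  | succ k =>
    rw [sf_succ, Nat.add_sub_cancel]
    push_cast
    simp

lemma amp1_eq (c s : ℝ) (k l m m' : ℕ) :
    amp1 c s k l m m' = sf k * sf l / (sf m * sf m') * ampQ c s k l m m' := by
  unfold amp1 ampQ
  split_ifs with h
  · congr 1
    unfold sf
    push_cast
    rw [Real.sqrt_div (by positivity), Real.sqrt_mul (by positivity),
      Real.sqrt_mul (by positivity)]
  · simp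

lemma ampP_natDegree (c s : ℝ) (m m' : ℕ) : (ampP c s m m').natDegree ≤ m + m' := by
  unfold ampP
  have h1 : (C c * X - C s : ℝ[X]).natDegree ≤ 1 := by compute_degree
  have h2 : (C s * X + C c : ℝ[X]).natDegree ≤ 1 := by compute_degree
  refine natDegree_mul_le.trans (add_le_add ?_ ?_)
  · exact natDegree_pow_le.trans (by nlinarith)
  · exact natDegree_pow_le.trans (by nlinarith)

lemma ampP_coeff_big (c s : ℝ) {m m' k : ℕ} (h : m + m' < k) : (ampP c s m m').coeff k = 0 :=
  coeff_eq_zero_of_natDegree_lt (lt_of_le_of_lt (ampP_natDegree c s m m') h)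

lemma coeff_lin_mul (a b : ℝ) (P : ℝ[X]) (k : ℕ) :
    ((C a * X + C b) * P).coeff k = a * (if k = 0 then 0 else P.coeff (k - 1)) + b * P.coeff k := by
  cases k with
  | zero => simp [add_mul, mul_assoc]
  | succ k => simp [add_mul, mul_assoc, coeff_X_mul]

lemma ampQ_cre (c s a b : ℝ) (k l m m' : ℕ) :
    (if k + l = m + m' + 1 then ((C a * X + C b) * ampP c s m m').coeff k else 0)
      = a * (if k = 0 then 0 else ampQ c s (k - 1) l m m')
        + b * (if l = 0 then 0 else ampQ c s k (l - 1) m m') := by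
  unfold ampQ
  by_cases h : k + l = m + m' + 1
  · rw [if_pos h, coeff_lin_mul]
    congr 2
    · by_cases hk : k = 0
      · simp [hk]
      · rw [if_neg hk, if_neg hk, if_pos (by omega)]
    · by_cases hl : l = 0
      · rw [if_pos hl, ampP_coeff_big c s (by omega)]
      · rw [if_neg hl, if_pos (by omega)]
  · rw [if_neg h]
    have h1 : (if k = 0 then (0 : ℝ) else
        if k - 1 + l = m + m' then (ampP c s m m').coeff (k - 1) else 0) = 0 := by
      by_cases hk : k = 0
      · simp [hk]
      · rw [if_neg hk, if_neg (by omega)]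
    have h2 : (if l = 0 then (0 : ℝ) else
        if k + (l - 1) = m + m' then (ampP c s m m').coeff k else 0) = 0 := by
      by_cases hl : l = 0
      · simp [hl]
      · rw [if_neg hl, if_neg (by omega)]
    rw [h1, h2]; simp

lemma ampQ_creA (c s : ℝ) (k l m m' : ℕ) :
    ampQ c s k l (m + 1) m' = c * (if k = 0 then 0 else ampQ c s (k - 1) l m m')
        - s * (if l = 0 then 0 else ampQ c s k (l - 1) m m') := by
  have h := ampQ_cre c s c (-s) k l m m'
  have e : ampP c s (m + 1) m' = (C c * X + C (-s)) * ampP c s m m' := by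
    unfold ampP; rw [map_neg]; ring
  rw [← e] at h
  have e2 : (k + l = m + m' + 1) = (k + l = m + 1 + m') := by
    apply propext; omega
  rw [sub_eq_add_neg, ← neg_mul, ← h]
  unfold ampQ
  simp only [e2]

lemma ampQ_creB (c s : ℝ) (k l m m' : ℕ) :
    ampQ c s k l m (m' + 1) = s * (if k = 0 then 0 else ampQ c s (k - 1) l m m')
        + c * (if l = 0 then 0 else ampQ c s k (l - 1) m m') := by
  have h := ampQ_cre c s s c k l m m'
  have e : ampP c s m (m' + 1) = (C s * X + C c) * ampP c s m m' := by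
    unfold ampP; ring
  rw [← e] at h
  rw [← h]
  rfl

lemma natCast_mul_pow_pred (u : ℝ[X]) (m : ℕ) : (m : ℝ[X]) * u ^ (m - 1) * u = m * u ^ m := by
  cases m with
  | zero => simp
  | succ m => rw [Nat.add_sub_cancel, pow_succ]; ring

lemma ampP_derivative (c s : ℝ) (m m' : ℕ) :
    derivative (ampP c s m m')
      = C (c * m) * ampP c s (m - 1) m' + C (s * m') * ampP c s m (m' - 1) := by
  unfold ampP
  simp only [derivative_mul, derivative_pow, derivative_sub, derivative_add, derivative_C,
    derivative_X, map_mul, map_natCast]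
  ring

lemma ampP_euler (c s : ℝ) (m m' : ℕ) :
    C ((m : ℝ) + m') * ampP c s m m' - X * derivative (ampP c s m m')
      = C (-s * m) * ampP c s (m - 1) m' + C (c * m') * ampP c s m (m' - 1) := by
  rw [ampP_derivative]
  unfold ampP
  have h1 := natCast_mul_pow_pred (C c * X - C s) m
  have h2 := natCast_mul_pow_pred (C s * X + C c) m'
  simp only [map_mul, map_natCast, map_add, map_neg]
  linear_combination (-(C s * X + C c) ^ m') * h1 - (C c * X - C s) ^ m * h2

lemma mul_ampQ_predA (c s : ℝ) {k l m m' : ℕ} :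
    (m : ℝ) * ampQ c s k l (m - 1) m'
      = if k + l + 1 = m + m' then m * (ampP c s (m - 1) m').coeff k else 0 := by
  unfold ampQ
  cases m with
  | zero => simp
  | succ m =>
    rw [Nat.add_sub_cancel]
    by_cases h : k + l = m + m'
    · rw [if_pos h, if_pos (by omega)]
    · rw [if_neg h, if_neg (by omega), mul_zero]

lemma mul_ampQ_predB (c s : ℝ) {k l m m' : ℕ} :
    (m' : ℝ) * ampQ c s k l m (m' - 1)
      = if k + l + 1 = m + m' then m' * (ampP c s m (m' - 1)).coeff k else 0 := by
  unfold ampQ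
  cases m' with
  | zero => simp
  | succ m' =>
    rw [Nat.add_sub_cancel]
    by_cases h : k + l = m + m'
    · rw [if_pos h, if_pos (by omega)]
    · rw [if_neg h, if_neg (by omega), mul_zero]

lemma ampQ_annA (c s : ℝ) (k l m m' : ℕ) :
    ((k : ℝ) + 1) * ampQ c s (k + 1) l m m'
      = c * (m * ampQ c s k l (m - 1) m') + s * (m' * ampQ c s k l m (m' - 1)) := by
  rw [mul_ampQ_predA, mul_ampQ_predB]
  unfold ampQ
  by_cases h : k + l + 1 = m + m'
  · rw [if_pos h, if_pos h, if_pos (by omega)]
    have := congrArg (fun P => coeff P k) (ampP_derivative c s m m')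
    simp only [coeff_derivative, coeff_add, coeff_C_mul] at this
    linear_combination this
  · rw [if_neg h, if_neg h, if_neg (by omega)]; simp

lemma ampQ_annB (c s : ℝ) (k l m m' : ℕ) :
    ((l : ℝ) + 1) * ampQ c s k (l + 1) m m'
      = -s * (m * ampQ c s k l (m - 1) m') + c * (m' * ampQ c s k l m (m' - 1)) := by
  rw [mul_ampQ_predA, mul_ampQ_predB]
  unfold ampQ
  by_cases h : k + l + 1 = m + m'
  · rw [if_pos h, if_pos h, if_pos (by omega)]
    have := congrArg (fun P => coeff P k) (ampP_euler c s m m')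
    have hX : (X * derivative (ampP c s m m')).coeff k = k * (ampP c s m m').coeff k := by
      cases k with
      | zero => simp
      | succ k => rw [coeff_X_mul, coeff_derivative]; push_cast; ring
    simp only [coeff_sub, coeff_add, coeff_C_mul, hX] at this
    have h' : (m : ℝ) + m' = k + l + 1 := by exact_mod_cast h.symm
    rw [h'] at this
    linear_combination this
  · rw [if_neg h, if_neg h, if_neg (by omega)]; simp

lemma amp1_annA (c s : ℝ) (k l m m' : ℕ) :
    √((k : ℝ) + 1) * amp1 c s (k + 1) l m m'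
      = c * √(m : ℝ) * amp1 c s k l (m - 1) m' + s * √(m' : ℝ) * amp1 c s k l m (m' - 1) := by
  simp only [amp1_eq, sf_succ]
  have h := ampQ_annA c s k l m m'
  have h1 := sqrt_mul_sf m
  have h2 := sqrt_mul_sf m'
  have h3 : √((k : ℝ) + 1) * √((k : ℝ) + 1) = k + 1 := Real.mul_self_sqrt (by positivity)
  have p1 := (sf_pos m).ne'
  have p2 := (sf_pos m').ne'
  have p3 := (sf_pos (m - 1)).ne'
  have p4 := (sf_pos (m' - 1)).ne'
  have e1 : √(m : ℝ) = m * sf (m - 1) / sf m := by field_simp; linarith
  have e2 : √(m' : ℝ) = m' * sf (m' - 1) / sf m' := by field_simp; linarith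
  rw [e1, e2]
  field_simp
  linear_combination (sf k * sf l) * h + sf k * sf l * ampQ c s (k + 1) l m m' * h3

lemma amp1_annB (c s : ℝ) (k l m m' : ℕ) :
    √((l : ℝ) + 1) * amp1 c s k (l + 1) m m'
      = -s * √(m : ℝ) * amp1 c s k l (m - 1) m' + c * √(m' : ℝ) * amp1 c s k l m (m' - 1) := by
  simp only [amp1_eq, sf_succ]
  have h := ampQ_annB c s k l m m'
  have h1 := sqrt_mul_sf m
  have h2 := sqrt_mul_sf m'
  have h3 : √((l : ℝ) + 1) * √((l : ℝ) + 1) = l + 1 := Real.mul_self_sqrt (by positivity)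
  have p1 := (sf_pos m).ne'
  have p2 := (sf_pos m').ne'
  have p3 := (sf_pos (m - 1)).ne'
  have p4 := (sf_pos (m' - 1)).ne'
  have e1 : √(m : ℝ) = m * sf (m - 1) / sf m := by field_simp; linarith
  have e2 : √(m' : ℝ) = m' * sf (m' - 1) / sf m' := by field_simp; linarith
  rw [e1, e2]
  field_simp
  linear_combination (sf k * sf l) * h + sf k * sf l * ampQ c s k (l + 1) m m' * h3

lemma sqrt_mul_amp1_predA (c s : ℝ) (k l m m' : ℕ) :
    √(k : ℝ) * amp1 c s (k - 1) l m m'
      = sf k * sf l / (sf m * sf m') * (if k = 0 then 0 else ampQ c s (k - 1) l m m') := by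
  rw [amp1_eq]
  have h := sqrt_mul_sf_pred k
  by_cases hk : k = 0
  · simp [hk]
  · rw [if_neg hk] at h ⊢
    rw [← h]; ring

lemma sqrt_mul_amp1_predB (c s : ℝ) (k l m m' : ℕ) :
    √(l : ℝ) * amp1 c s k (l - 1) m m'
      = sf k * sf l / (sf m * sf m') * (if l = 0 then 0 else ampQ c s k (l - 1) m m') := by
  rw [amp1_eq]
  have h := sqrt_mul_sf_pred l
  by_cases hl : l = 0
  · simp [hl]
  · rw [if_neg hl] at h ⊢
    rw [← h]; ring

lemma amp1_creA (c s : ℝ) (k l m m' : ℕ) :
    √((m : ℝ) + 1) * amp1 c s k l (m + 1) m'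
      = c * √(k : ℝ) * amp1 c s (k - 1) l m m' - s * √(l : ℝ) * amp1 c s k (l - 1) m m' := by
  rw [mul_assoc c, mul_assoc s, sqrt_mul_amp1_predA, sqrt_mul_amp1_predB, amp1_eq, ampQ_creA,
    sf_succ]
  have p0 : √((m : ℝ) + 1) ≠ 0 := (Real.sqrt_pos.mpr (by positivity)).ne'
  have p1 := (sf_pos m).ne'
  have p2 := (sf_pos m').ne'
  field_simp

lemma amp1_creB (c s : ℝ) (k l m m' : ℕ) :
    √((m' : ℝ) + 1) * amp1 c s k l m (m' + 1)
      = s * √(k : ℝ) * amp1 c s (k - 1) l m m' + c * √(l : ℝ) * amp1 c s k (l - 1) m m' := by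
  rw [mul_assoc c, mul_assoc s, sqrt_mul_amp1_predA, sqrt_mul_amp1_predB, amp1_eq, ampQ_creB,
    sf_succ]
  have p0 : √((m' : ℝ) + 1) ≠ 0 := (Real.sqrt_pos.mpr (by positivity)).ne'
  have p1 := (sf_pos m).ne'
  have p2 := (sf_pos m').ne'
  field_simp

lemma amp1_supp {c s : ℝ} {k l m m' : ℕ} (h : amp1 c s k l m m' ≠ 0) : k + l = m + m' := by
  by_contra h'
  exact h (by simp [amp1, h'])

lemma amp1_zero (c s : ℝ) : amp1 c s 0 0 0 0 = 1 := by simp [amp1]

end one

variable {n : ℕ} (c s : ℝ)

/-- the product of the amplitudes of the modes other than `j` -/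
noncomputable def ampRest (j : Fin n) (x y : Occ n × Occ n) : ℝ :=
  ∏ i ∈ univ.erase j, amp1 c s (x.1 i) (x.2 i) (y.1 i) (y.2 i)

lemma amp_split (j : Fin n) (x y x' y' : Occ n × Occ n)
    (h : ∀ i, i ≠ j → x.1 i = x'.1 i ∧ x.2 i = x'.2 i ∧ y.1 i = y'.1 i ∧ y.2 i = y'.2 i) :
    amp c s x y = amp1 c s (x.1 j) (x.2 j) (y.1 j) (y.2 j) * ampRest c s j x' y' := by
  unfold amp ampRest
  rw [← Finset.mul_prod_erase univ _ (mem_univ j)]
  congr 1
  refine Finset.prod_congr rfl fun i hi => ?_
  obtain ⟨h1, h2, h3, h4⟩ := h i (ne_of_mem_erase hi)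
  rw [h1, h2, h3, h4]

lemma occ_induction {P : Occ n × Occ n → Prop} (h0 : P 0)
    (hA : ∀ (z : Occ n × Occ n) (j : Fin n), P z → P (z.1 + Pi.single j 1, z.2))
    (hB : ∀ (z : Occ n × Occ n) (j : Fin n), P z → P (z.1, z.2 + Pi.single j 1)) :
    ∀ y, P y := by
  have key : ∀ N : ℕ, ∀ y : Occ n × Occ n, ∑ j, y.1 j + ∑ j, y.2 j = N → P y := by
    intro N
    induction N with
    | zero =>
      intro y hy
      have h1 : ∑ j, y.1 j = 0 := by omega
      have h2 : ∑ j, y.2 j = 0 := by omega
      have : y = 0 := by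
        refine Prod.ext (funext fun j => ?_) (funext fun j => ?_)
        · exact (Finset.sum_eq_zero_iff.mp h1) j (mem_univ j)
        · exact (Finset.sum_eq_zero_iff.mp h2) j (mem_univ j)
      rw [this]; exact h0
    | succ N ih =>
      intro y hy
      have hs : ∀ (u : Occ n) (j : Fin n), u j ≠ 0 → u - Pi.single j 1 + Pi.single j 1 = u := by
        intro u j hj
        funext i
        by_cases hi : i = j
        · subst hi; simp; omega
        · simp [Pi.single_eq_of_ne hi]
      have hsum : ∀ (u : Occ n) (j : Fin n),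
          ∑ i, (u + Pi.single j 1 : Occ n) i = ∑ i, u i + 1 := by
        intro u j
        simp [Finset.sum_add_distrib]
      by_cases h1 : ∃ j, y.1 j ≠ 0
      · obtain ⟨j, hj⟩ := h1
        have e := hs y.1 j hj
        have := hA (y.1 - Pi.single j 1, y.2) j (ih _ (by
          have := hsum (y.1 - Pi.single j 1) j
          rw [e] at this
          simp only
          omega))
        simp only [e] at this
        exact this
      · by_cases h2 : ∃ j, y.2 j ≠ 0
        · obtain ⟨j, hj⟩ := h2
          have e := hs y.2 j hj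
          have := hB (y.1, y.2 - Pi.single j 1) j (ih _ (by
            have := hsum (y.2 - Pi.single j 1) j
            rw [e] at this
            simp only
            omega))
          simp only [e] at this
          exact this
        · push Not at h1 h2
          simp [h1, h2] at hy
  exact fun y => key _ y rfl

theorem amp_supp {x y : Occ n × Occ n} (h : amp c s x y ≠ 0) : x.1 + x.2 = y.1 + y.2 := by
  funext j
  exact amp1_supp (Finset.prod_ne_zero_iff.mp h j (mem_univ j))

theorem amp_zero_left (y : Occ n × Occ n) : amp c s 0 y = if y = 0 then 1 else 0 := by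
  split_ifs with h
  · subst h; simp [amp, amp1_zero]
  · by_contra h'
    have := amp_supp c s h'
    apply h
    refine Prod.ext (funext fun j => ?_) (funext fun j => ?_)
    · have := congrFun this j
      simp only [Prod.fst_zero, Prod.snd_zero, Pi.add_apply, Pi.zero_apply] at this ⊢
      omega
    · have := congrFun this j
      simp only [Prod.fst_zero, Prod.snd_zero, Pi.add_apply, Pi.zero_apply] at this ⊢
      omega

theorem amp_zero_right (x : Occ n × Occ n) : amp c s x 0 = if x = 0 then 1 else 0 := by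
  split_ifs with h
  · subst h; simp [amp, amp1_zero]
  · by_contra h'
    have := amp_supp c s h'
    apply h
    refine Prod.ext (funext fun j => ?_) (funext fun j => ?_)
    · have := congrFun this j
      simp only [Prod.fst_zero, Prod.snd_zero, Pi.add_apply, Pi.zero_apply] at this ⊢
      omega
    · have := congrFun this j
      simp only [Prod.fst_zero, Prod.snd_zero, Pi.add_apply, Pi.zero_apply] at this ⊢
      omega

theorem amp_annA (j : Fin n) (x y : Occ n × Occ n) :
    √((x.1 j : ℝ) + 1) * amp c s (x.1 + Pi.single j 1, x.2) y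
      = c * √(y.1 j : ℝ) * amp c s x (y.1 - Pi.single j 1, y.2)
        + s * √(y.2 j : ℝ) * amp c s x (y.1, y.2 - Pi.single j 1) := by
  rw [amp_split c s j (x.1 + Pi.single j 1, x.2) y x y (fun i hi => by simp [Pi.single_eq_of_ne hi]),
    amp_split c s j x (y.1 - Pi.single j 1, y.2) x y (fun i hi => by simp [Pi.single_eq_of_ne hi]),
    amp_split c s j x (y.1, y.2 - Pi.single j 1) x y (fun i hi => by simp [Pi.single_eq_of_ne hi])]
  simp only [Pi.add_apply, Pi.sub_apply, Pi.single_eq_same]
  linear_combination ampRest c s j x y * amp1_annA c s (x.1 j) (x.2 j) (y.1 j) (y.2 j)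

theorem amp_annB (j : Fin n) (x y : Occ n × Occ n) :
    √((x.2 j : ℝ) + 1) * amp c s (x.1, x.2 + Pi.single j 1) y
      = -s * √(y.1 j : ℝ) * amp c s x (y.1 - Pi.single j 1, y.2)
        + c * √(y.2 j : ℝ) * amp c s x (y.1, y.2 - Pi.single j 1) := by
  rw [amp_split c s j (x.1, x.2 + Pi.single j 1) y x y (fun i hi => by simp [Pi.single_eq_of_ne hi]),
    amp_split c s j x (y.1 - Pi.single j 1, y.2) x y (fun i hi => by simp [Pi.single_eq_of_ne hi]),
    amp_split c s j x (y.1, y.2 - Pi.single j 1) x y (fun i hi => by simp [Pi.single_eq_of_ne hi])]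
  simp only [Pi.add_apply, Pi.sub_apply, Pi.single_eq_same]
  linear_combination ampRest c s j x y * amp1_annB c s (x.1 j) (x.2 j) (y.1 j) (y.2 j)

theorem amp_creA (j : Fin n) (x y : Occ n × Occ n) :
    √((y.1 j : ℝ) + 1) * amp c s x (y.1 + Pi.single j 1, y.2)
      = c * √(x.1 j : ℝ) * amp c s (x.1 - Pi.single j 1, x.2) y
        - s * √(x.2 j : ℝ) * amp c s (x.1, x.2 - Pi.single j 1) y := by
  rw [amp_split c s j x (y.1 + Pi.single j 1, y.2) x y (fun i hi => by simp [Pi.single_eq_of_ne hi]),
    amp_split c s j (x.1 - Pi.single j 1, x.2) y x y (fun i hi => by simp [Pi.single_eq_of_ne hi]),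
    amp_split c s j (x.1, x.2 - Pi.single j 1) y x y (fun i hi => by simp [Pi.single_eq_of_ne hi])]
  simp only [Pi.add_apply, Pi.sub_apply, Pi.single_eq_same]
  linear_combination ampRest c s j x y * amp1_creA c s (x.1 j) (x.2 j) (y.1 j) (y.2 j)

theorem amp_creB (j : Fin n) (x y : Occ n × Occ n) :
    √((y.2 j : ℝ) + 1) * amp c s x (y.1, y.2 + Pi.single j 1)
      = s * √(x.1 j : ℝ) * amp c s (x.1 - Pi.single j 1, x.2) y
        + c * √(x.2 j : ℝ) * amp c s (x.1, x.2 - Pi.single j 1) y := by
  rw [amp_split c s j x (y.1, y.2 + Pi.single j 1) x y (fun i hi => by simp [Pi.single_eq_of_ne hi]),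
    amp_split c s j (x.1 - Pi.single j 1, x.2) y x y (fun i hi => by simp [Pi.single_eq_of_ne hi]),
    amp_split c s j (x.1, x.2 - Pi.single j 1) y x y (fun i hi => by simp [Pi.single_eq_of_ne hi])]
  simp only [Pi.add_apply, Pi.sub_apply, Pi.single_eq_same]
  linear_combination ampRest c s j x y * amp1_creB c s (x.1 j) (x.2 j) (y.1 j) (y.2 j)

theorem amp_swap (x y : Occ n × Occ n) : amp c s x y = amp c (-s) y x := by
  induction x using occ_induction generalizing y with
  | h0 => rw [amp_zero_left, amp_zero_right]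
  | hA z j ih =>
    have h1 := amp_annA c s j z y
    have h2 := amp_creA c (-s) j y z
    have p0 : √((z.1 j : ℝ) + 1) ≠ 0 := (Real.sqrt_pos.mpr (by positivity)).ne'
    apply mul_left_cancel₀ p0
    rw [h1, h2, ih, ih]; ring
  | hB z j ih =>
    have h1 := amp_annB c s j z y
    have h2 := amp_creB c (-s) j y z
    have p0 : √((z.2 j : ℝ) + 1) ≠ 0 := (Real.sqrt_pos.mpr (by positivity)).ne'
    apply mul_left_cancel₀ p0
    rw [h1, h2, ih, ih]

theorem amp_finite_col (y : Occ n × Occ n) : {x | amp c s x y ≠ 0}.Finite := by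
  refine ((Set.finite_Iic (y.1 + y.2)).prod (Set.finite_Iic (y.1 + y.2))).subset ?_
  intro x hx
  have := amp_supp c s hx
  constructor
  · intro j
    have := congrFun this j
    simp only [Pi.add_apply] at this ⊢
    omega
  · intro j
    have := congrFun this j
    simp only [Pi.add_apply] at this ⊢
    omega

theorem amp_finite_row (x : Occ n × Occ n) : {y | amp c s x y ≠ 0}.Finite := by
  have := amp_finite_col c (-s) x
  simpa only [← amp_swap] using this

lemma add_single_sub (u : Occ n) (j : Fin n) : u + Pi.single j 1 - Pi.single j 1 = u := by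
  funext i; simp

lemma sub_single_add {u : Occ n} {j : Fin n} (hj : u j ≠ 0) :
    u - Pi.single j 1 + Pi.single j 1 = u := by
  funext i
  by_cases hi : i = j
  · subst hi; simp; omega
  · simp [Pi.single_eq_of_ne hi]

lemma hasSum_shiftA_iff {α : Type*} [AddCommMonoid α] [TopologicalSpace α] (j : Fin n)
    (T : Occ n × Occ n → α) (h0 : ∀ x : Occ n × Occ n, x.1 j = 0 → T x = 0) {a : α} :
    HasSum (fun w : Occ n × Occ n => T (w.1 + Pi.single j 1, w.2)) a ↔ HasSum T a := by
  have hinj : Function.Injective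
      (fun w : Occ n × Occ n => ((w.1 + Pi.single j 1, w.2) : Occ n × Occ n)) := by
    intro w w' hw
    simp only [Prod.mk.injEq, add_left_inj] at hw
    exact Prod.ext hw.1 hw.2
  refine hinj.hasSum_iff (f := T) ?_
  intro x hx
  apply h0
  by_contra hj
  exact hx ⟨(x.1 - Pi.single j 1, x.2), by simp [sub_single_add hj]⟩

lemma hasSum_shiftB_iff {α : Type*} [AddCommMonoid α] [TopologicalSpace α] (j : Fin n)
    (T : Occ n × Occ n → α) (h0 : ∀ x : Occ n × Occ n, x.2 j = 0 → T x = 0) {a : α} :
    HasSum (fun w : Occ n × Occ n => T (w.1, w.2 + Pi.single j 1)) a ↔ HasSum T a := by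
  have hinj : Function.Injective
      (fun w : Occ n × Occ n => ((w.1, w.2 + Pi.single j 1) : Occ n × Occ n)) := by
    intro w w' hw
    simp only [Prod.mk.injEq, add_left_inj] at hw
    exact Prod.ext hw.1 hw.2
  refine hinj.hasSum_iff (f := T) ?_
  intro x hx
  apply h0
  by_contra hj
  exact hx ⟨(x.1, x.2 - Pi.single j 1), by simp [sub_single_add hj]⟩

lemma hasSum_shiftA (j : Fin n) (F : Occ n × Occ n → ℝ) (G : Occ n × Occ n → ℝ) {a : ℝ}
    (h : HasSum (fun w : Occ n × Occ n =>
      F w * (√((w.1 j : ℝ) + 1) * G (w.1 + Pi.single j 1, w.2))) a) :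
    HasSum (fun x : Occ n × Occ n => √(x.1 j : ℝ) * F (x.1 - Pi.single j 1, x.2) * G x) a := by
  refine (hasSum_shiftA_iff j _ (fun x hx => by simp [hx])).mp ?_
  have e : (fun w : Occ n × Occ n => F w * (√((w.1 j : ℝ) + 1) * G (w.1 + Pi.single j 1, w.2)))
      = fun w : Occ n × Occ n => √((((w.1 + Pi.single j 1 : Occ n) j : ℕ) : ℝ))
        * F (w.1 + Pi.single j 1 - Pi.single j 1, w.2) * G (w.1 + Pi.single j 1, w.2) := by
    funext w
    rw [add_single_sub]
    simp only [Pi.add_apply, Pi.single_eq_same]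
    push_cast
    ring
  rw [e] at h
  exact h

lemma hasSum_shiftB (j : Fin n) (F : Occ n × Occ n → ℝ) (G : Occ n × Occ n → ℝ) {a : ℝ}
    (h : HasSum (fun w : Occ n × Occ n =>
      F w * (√((w.2 j : ℝ) + 1) * G (w.1, w.2 + Pi.single j 1))) a) :
    HasSum (fun x : Occ n × Occ n => √(x.2 j : ℝ) * F (x.1, x.2 - Pi.single j 1) * G x) a := by
  refine (hasSum_shiftB_iff j _ (fun x hx => by simp [hx])).mp ?_
  have e : (fun w : Occ n × Occ n => F w * (√((w.2 j : ℝ) + 1) * G (w.1, w.2 + Pi.single j 1)))
      = fun w : Occ n × Occ n => √((((w.2 + Pi.single j 1 : Occ n) j : ℕ) : ℝ))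
        * F (w.1, w.2 + Pi.single j 1 - Pi.single j 1) * G (w.1, w.2 + Pi.single j 1) := by
    funext w
    rw [add_single_sub]
    simp only [Pi.add_apply, Pi.single_eq_same]
    push_cast
    ring
  rw [e] at h
  exact h

lemma sqrt_delta_A (j : Fin n) (z y : Occ n × Occ n) :
    √(y.1 j : ℝ) * (if z = (y.1 - Pi.single j 1, y.2) then 1 else 0)
      = √((z.1 j : ℝ) + 1) * (if (z.1 + Pi.single j 1, z.2) = y then 1 else 0) := by
  by_cases h : (z.1 + Pi.single j 1, z.2) = y
  · subst h
    simp
  · rw [if_neg h, mul_zero]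
    by_cases hj : y.1 j = 0
    · simp [hj]
    · rw [if_neg, mul_zero]
      rintro rfl
      exact h (by simp [sub_single_add hj])

lemma sqrt_delta_B (j : Fin n) (z y : Occ n × Occ n) :
    √(y.2 j : ℝ) * (if z = (y.1, y.2 - Pi.single j 1) then 1 else 0)
      = √((z.2 j : ℝ) + 1) * (if (z.1, z.2 + Pi.single j 1) = y then 1 else 0) := by
  by_cases h : (z.1, z.2 + Pi.single j 1) = y
  · subst h
    simp
  · rw [if_neg h, mul_zero]
    by_cases hj : y.2 j = 0
    · simp [hj]
    · rw [if_neg, mul_zero]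
      rintro rfl
      exact h (by simp [sub_single_add hj])

theorem amp_orth_col (hcs : c ^ 2 + s ^ 2 = 1) (y y' : Occ n × Occ n) :
    HasSum (fun x => amp c s x y * amp c s x y') (if y = y' then 1 else 0) := by
  classical
  induction y using occ_induction generalizing y' with
  | h0 =>
    have : HasSum (fun x => amp c s x 0 * amp c s x y') (amp c s 0 0 * amp c s 0 y') :=
      hasSum_single 0 (fun x hx => by rw [amp_zero_right, if_neg hx, zero_mul])
    rw [amp_zero_left, amp_zero_left, if_pos rfl, one_mul] at this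
    simpa only [eq_comm] using this
  | hA z j ih =>
    have p0 : √((z.1 j : ℝ) + 1) ≠ 0 := (Real.sqrt_pos.mpr (by positivity)).ne'
    have i1 := ih (y'.1 - Pi.single j 1, y'.2)
    have i2 := ih (y'.1, y'.2 - Pi.single j 1)
    have hA := hasSum_shiftA j (fun w => amp c s w z) (fun w => amp c s w y')
      (((i1.mul_left (c * √(y'.1 j : ℝ))).add (i2.mul_left (s * √(y'.2 j : ℝ)))).congr_fun
        (fun w => by rw [amp_annA]; ring))
    have hB := hasSum_shiftB j (fun w => amp c s w z) (fun w => amp c s w y')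
      (((i1.mul_left (-s * √(y'.1 j : ℝ))).add (i2.mul_left (c * √(y'.2 j : ℝ)))).congr_fun
        (fun w => by rw [amp_annB]; ring))
    have h := ((hA.mul_left c).sub (hB.mul_left s)).div_const (√((z.1 j : ℝ) + 1))
    have e := sqrt_delta_A j z y'
    have hv : (if (z.1 + Pi.single j 1, z.2) = y' then (1 : ℝ) else 0) =
        (c * (c * √(y'.1 j : ℝ) * (if z = (y'.1 - Pi.single j 1, y'.2) then 1 else 0)
          + s * √(y'.2 j : ℝ) * (if z = (y'.1, y'.2 - Pi.single j 1) then 1 else 0))
        - s * (-s * √(y'.1 j : ℝ) * (if z = (y'.1 - Pi.single j 1, y'.2) then 1 else 0)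
          + c * √(y'.2 j : ℝ) * (if z = (y'.1, y'.2 - Pi.single j 1) then 1 else 0)))
          / √((z.1 j : ℝ) + 1) := by
      rw [eq_div_iff p0]
      linear_combination -e - √(y'.1 j : ℝ) *
        (if z = (y'.1 - Pi.single j 1, y'.2) then (1 : ℝ) else 0) * hcs
    rw [hv]
    refine h.congr_fun fun x => ?_
    rw [eq_div_iff p0]
    linear_combination amp c s x y' * amp_creA c s j x z
  | hB z j ih =>
    have p0 : √((z.2 j : ℝ) + 1) ≠ 0 := (Real.sqrt_pos.mpr (by positivity)).ne'
    have i1 := ih (y'.1 - Pi.single j 1, y'.2)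
    have i2 := ih (y'.1, y'.2 - Pi.single j 1)
    have hA := hasSum_shiftA j (fun w => amp c s w z) (fun w => amp c s w y')
      (((i1.mul_left (c * √(y'.1 j : ℝ))).add (i2.mul_left (s * √(y'.2 j : ℝ)))).congr_fun
        (fun w => by rw [amp_annA]; ring))
    have hB := hasSum_shiftB j (fun w => amp c s w z) (fun w => amp c s w y')
      (((i1.mul_left (-s * √(y'.1 j : ℝ))).add (i2.mul_left (c * √(y'.2 j : ℝ)))).congr_fun
        (fun w => by rw [amp_annB]; ring))
    have h := ((hA.mul_left s).add (hB.mul_left c)).div_const (√((z.2 j : ℝ) + 1))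
    have e := sqrt_delta_B j z y'
    have hv : (if (z.1, z.2 + Pi.single j 1) = y' then (1 : ℝ) else 0) =
        (s * (c * √(y'.1 j : ℝ) * (if z = (y'.1 - Pi.single j 1, y'.2) then 1 else 0)
          + s * √(y'.2 j : ℝ) * (if z = (y'.1, y'.2 - Pi.single j 1) then 1 else 0))
        + c * (-s * √(y'.1 j : ℝ) * (if z = (y'.1 - Pi.single j 1, y'.2) then 1 else 0)
          + c * √(y'.2 j : ℝ) * (if z = (y'.1, y'.2 - Pi.single j 1) then 1 else 0)))
          / √((z.2 j : ℝ) + 1) := by
      rw [eq_div_iff p0]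
      linear_combination -e - √(y'.2 j : ℝ) *
        (if z = (y'.1, y'.2 - Pi.single j 1) then (1 : ℝ) else 0) * hcs
    rw [hv]
    refine h.congr_fun fun x => ?_
    rw [eq_div_iff p0]
    linear_combination amp c s x y' * amp_creB c s j x z

theorem amp_orth_row (hcs : c ^ 2 + s ^ 2 = 1) (x x' : Occ n × Occ n) :
    HasSum (fun y => amp c s x y * amp c s x' y) (if x = x' then 1 else 0) := by
  have := amp_orth_col c (-s) (by rw [neg_sq]; exact hcs) x x'
  simpa only [← amp_swap] using this

theorem amp_continuous (x y : Occ n × Occ n) :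
    Continuous (fun p : ℝ × ℝ => amp p.1 p.2 x y) := by
  induction x using occ_induction generalizing y with
  | h0 => simp only [amp_zero_left]; exact continuous_const
  | hA z j ih =>
    have p0 : √((z.1 j : ℝ) + 1) ≠ 0 := (Real.sqrt_pos.mpr (by positivity)).ne'
    have : (fun p : ℝ × ℝ => amp p.1 p.2 (z.1 + Pi.single j 1, z.2) y) = fun p : ℝ × ℝ =>
        (p.1 * √(y.1 j : ℝ) * amp p.1 p.2 z (y.1 - Pi.single j 1, y.2)
          + p.2 * √(y.2 j : ℝ) * amp p.1 p.2 z (y.1, y.2 - Pi.single j 1))
          / √((z.1 j : ℝ) + 1) := by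
      funext p
      rw [← amp_annA]; field_simp
    rw [this]
    have h1 := ih (y.1 - Pi.single j 1, y.2)
    have h2 := ih (y.1, y.2 - Pi.single j 1)
    exact (((continuous_fst.mul continuous_const).mul h1).add
      ((continuous_snd.mul continuous_const).mul h2)).div_const _
  | hB z j ih =>
    have p0 : √((z.2 j : ℝ) + 1) ≠ 0 := (Real.sqrt_pos.mpr (by positivity)).ne'
    have : (fun p : ℝ × ℝ => amp p.1 p.2 (z.1, z.2 + Pi.single j 1) y) = fun p : ℝ × ℝ =>
        (-p.2 * √(y.1 j : ℝ) * amp p.1 p.2 z (y.1 - Pi.single j 1, y.2)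
          + p.1 * √(y.2 j : ℝ) * amp p.1 p.2 z (y.1, y.2 - Pi.single j 1))
          / √((z.2 j : ℝ) + 1) := by
      funext p
      rw [← amp_annB]; field_simp
    rw [this]
    have h1 := ih (y.1 - Pi.single j 1, y.2)
    have h2 := ih (y.1, y.2 - Pi.single j 1)
    exact (((continuous_snd.neg.mul continuous_const).mul h1).add
      ((continuous_fst.mul continuous_const).mul h2)).div_const _

end Vale.Agent.P369
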