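import Vale.Agent.P369.Defs
import Vale.Agent.P358.Entropy

/-! Shared finite-dimensional definitions for the proof of the entropy photon-number
inequality. `S` is the entropy in nats of a Hermitian matrix (file P358/Entropy). -/

set_option linter.unusedSectionVars false

namespace Vale.Agent.P369

open Matrix Finset
open Vale.Agent.P358 (S)
open scoped ComplexOrder Kronecker

/-- logarithmic mean -/
noncomputable def logMean (x y : ℝ) : ℝ :=
  if x = y then x else (x - y) / (Real.log x - Real.log y)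

/-- inverse temperature of the thermal state with mean photon number `N` -/
noncomputable def bet (N : ℝ) : ℝ := Real.log (1 + 1 / N)

/-- temperature -/
noncomputable def al (N : ℝ) : ℝ := 1 / bet N

/-- the kernel `k_N(x) = β_N Λ(N x, N+1)` -/
noncomputable def kk (N x : ℝ) : ℝ := bet N * logMean (N * x) (N + 1)

/-- density matrices -/
def DState {ι : Type} [Fintype ι] (A : Matrix ι ι ℂ) : Prop := A.PosSemidef ∧ A.trace = 1

/-- real diagonal matrix -/
def rdiag {ι : Type} [DecidableEq ι] (p : ι → ℝ) : Matrix ι ι ℂ := diagonal (fun i => (p i : ℂ))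

/-- squared Frobenius norm -/
noncomputable def fro2 {ι κ : Type} [Fintype ι] [Fintype κ] (X : Matrix ι κ ℂ) : ℝ :=
  ∑ i, ∑ j, ‖X i j‖ ^ 2

/-- trace over the second factor -/
noncomputable def ptr {ι κ : Type} [Fintype κ] (W : Matrix (ι × κ) (ι × κ) ℂ) : Matrix ι ι ℂ :=
  fun i k => ∑ l, W (i, l) (k, l)

/-- the output `Tr_D V (X ⊗ Y) V†` -/
noncomputable def Phi {A B C D : Type} [Fintype A] [Fintype B] [Fintype D]
    (V : Matrix (C × D) (A × B) ℂ) (X : Matrix A A ℂ) (Y : Matrix B B ℂ) : Matrix C C ℂ :=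
  ptr (V * (X ⊗ₖ Y) * Vᴴ)

/-- extension by zero of a finite matrix along `e` -/
noncomputable def zext {κ ι : Type} [Fintype κ] [DecidableEq ι] (e : κ → ι) (M : Matrix κ κ ℂ)
    (k l : ι) : ℂ :=
  ∑ i, ∑ j, if e i = k ∧ e j = l then M i j else 0

/-- the box of occupation numbers `≤ M` -/
abbrev Box (n M : ℕ) : Type := Fin n → Fin (M + 1)

def occ {n M : ℕ} (k : Box n M) : Occ n := fun j => (k j : ℕ)

/-- one-mode beam-splitter amplitude `⟨k,l|U|m,m'⟩` -/
noncomputable def amp1 (c s : ℝ) (k l m m' : ℕ) : ℝ :=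
  if k + l = m + m' then
    √(((k.factorial * l.factorial : ℕ) : ℝ) / ((m.factorial * m'.factorial : ℕ) : ℝ)) *
      ((Polynomial.C c * Polynomial.X - Polynomial.C s) ^ m *
        (Polynomial.C s * Polynomial.X + Polynomial.C c) ^ m').coeff k
  else 0

/-- `n`-mode beam-splitter amplitude -/
noncomputable def amp {n : ℕ} (c s : ℝ) (x y : Occ n × Occ n) : ℝ :=
  ∏ j, amp1 c s (x.1 j) (x.2 j) (y.1 j) (y.2 j)

/-- the beam splitter restricted to a box -/
noncomputable def Vb (n M : ℕ) (c s : ℝ) :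
    Matrix (Box n (2 * M) × Box n (2 * M)) (Box n M × Box n M) ℂ :=
  fun x y => (amp c s (occ x.1, occ x.2) (occ y.1, occ y.2) : ℝ)

/-- truncated annihilation operator -/
noncomputable def ann (n M : ℕ) (j : Fin n) : Matrix (Box n M) (Box n M) ℂ :=
  fun k l => if occ l = occ k + Pi.single j 1 then ((√(occ l j : ℝ) : ℝ) : ℂ) else 0

/-- projection on the top level of mode `j` -/
noncomputable def top (n M : ℕ) (j : Fin n) : Matrix (Box n M) (Box n M) ℂ :=
  rdiag (fun k => if occ k j = M then 1 else 0)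

/-- total number operator -/
noncomputable def Hn (n M : ℕ) : Matrix (Box n M) (Box n M) ℂ :=
  rdiag (fun k => ∑ j, (occ k j : ℝ))

/-- exponential penalty -/
noncomputable def Gam (n M : ℕ) (γ : ℝ) : Matrix (Box n M) (Box n M) ℂ :=
  rdiag (fun k => ∑ j, γ ^ occ k j)

/-- mean photon number -/
noncomputable def en {n M : ℕ} (A : Matrix (Box n M) (Box n M) ℂ) : ℝ :=
  ∑ k, (∑ j, (occ k j : ℝ)) * (A k k).re

/-- expected penalty -/
noncomputable def pen {n M : ℕ} (γ : ℝ) (A : Matrix (Box n M) (Box n M) ℂ) : ℝ :=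
  ∑ k, (∑ j, γ ^ occ k j) * (A k k).re

/-- the detailed-balance defect ` (N+1) a X - N X a` -/
noncomputable def Jop {A : Type} [Fintype A] (N : ℝ) (a X : Matrix A A ℂ) : Matrix A A ℂ :=
  ((N + 1 : ℝ) : ℂ) • (a * X) - (N : ℂ) • (X * a)

/-- The algebraic relations of one mode of a truncated beam splitter. -/
structure Rel {A B C D : Type} [Fintype A] [Fintype B] [Fintype C] [Fintype D]
    [DecidableEq A] [DecidableEq B] [DecidableEq C] [DecidableEq D]
    (c s : ℝ) (V : Matrix (C × D) (A × B) ℂ) (a Q : Matrix A A ℂ) (a' Q' : Matrix B B ℂ)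
    (b : Matrix C C ℂ) (d : Matrix D D ℂ) : Prop where
  cs : c ^ 2 + s ^ 2 = 1
  iso : Vᴴ * V = 1
  r1 : (b ⊗ₖ (1 : Matrix D D ℂ)) * V
    = V * ((c : ℂ) • (a ⊗ₖ (1 : Matrix B B ℂ)) + (s : ℂ) • ((1 : Matrix A A ℂ) ⊗ₖ a'))
  r1' : ((1 : Matrix C C ℂ) ⊗ₖ d) * V
    = V * ((c : ℂ) • ((1 : Matrix A A ℂ) ⊗ₖ a') - (s : ℂ) • (a ⊗ₖ (1 : Matrix B B ℂ)))
  r2 : (a ⊗ₖ (1 : Matrix B B ℂ)) * Vᴴ = ((1 - Q) ⊗ₖ (1 : Matrix B B ℂ)) * Vᴴ *
    ((c : ℂ) • (b ⊗ₖ (1 : Matrix D D ℂ)) - (s : ℂ) • ((1 : Matrix C C ℂ) ⊗ₖ d))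
  r2' : ((1 : Matrix A A ℂ) ⊗ₖ a') * Vᴴ = ((1 : Matrix A A ℂ) ⊗ₖ (1 - Q')) * Vᴴ *
    ((s : ℂ) • (b ⊗ₖ (1 : Matrix D D ℂ)) + (c : ℂ) • ((1 : Matrix C C ℂ) ⊗ₖ d))
  hQ : Qᴴ = Q
  QQ : Q * Q = Q
  Qa : Q * a = 0
  hQ' : Q'ᴴ = Q'
  QQ' : Q' * Q' = Q'
  Qa' : Q' * a' = 0

/-- the penalised objective -/
noncomputable def Obj {A B C D : Type} [Fintype A] [Fintype B] [Fintype C] [Fintype D]
    [DecidableEq A] [DecidableEq B] [DecidableEq C]
    (V : Matrix (C × D) (A × B) ℂ) (α αA αB δ : ℝ) (GA : Matrix A A ℂ) (GB : Matrix B B ℂ)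
    (X : Matrix A A ℂ) (Y : Matrix B B ℂ) : ℝ :=
  α * S (Phi V X Y + (δ : ℂ) • 1) - αA * S X - αB * S Y + (X * GA).trace.re + (Y * GB).trace.re

/-- minimisers of the objective over pairs of states -/
def IsMinimiser {A B C D : Type} [Fintype A] [Fintype B] [Fintype C] [Fintype D]
    [DecidableEq A] [DecidableEq B] [DecidableEq C]
    (V : Matrix (C × D) (A × B) ℂ) (α αA αB δ : ℝ) (GA : Matrix A A ℂ) (GB : Matrix B B ℂ)
    (X : Matrix A A ℂ) (Y : Matrix B B ℂ) : Prop :=
  DState X ∧ DState Y ∧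
    ∀ X' Y', DState X' → DState Y' → Obj V α αA αB δ GA GB X Y ≤ Obj V α αA αB δ GA GB X' Y'

section
variable {A B C D : Type} [Fintype A] [Fintype B] [Fintype C] [Fintype D]
  [DecidableEq A] [DecidableEq B] [DecidableEq C] [DecidableEq D]

lemma rdiag_herm (p : A → ℝ) : (rdiag p).IsHermitian := P358.isHermitian_diag_real p

lemma rdiag_conjTranspose (p : A → ℝ) : (rdiag p)ᴴ = rdiag p := rdiag_herm p

lemma S_rdiag (p : A → ℝ) : S (rdiag p) = ∑ i, Real.negMulLog (p i) := P358.trf_diagonal p _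

lemma trace_mul_rdiag (X : Matrix A A ℂ) (p : A → ℝ) :
    (X * rdiag p).trace.re = ∑ k, p k * (X k k).re := by
  simp [rdiag, trace, mul_diagonal, mul_comm]

lemma trace_ptr_mul (W : Matrix (C × D) (C × D) ℂ) (Z : Matrix C C ℂ) :
    (ptr W * Z).trace = (W * (Z ⊗ₖ (1 : Matrix D D ℂ))).trace := by
  simp only [trace, diag_apply, Matrix.mul_apply, ptr, Fintype.sum_prod_type, kroneckerMap_apply, Matrix.one_apply,
    mul_ite, mul_one, mul_zero, Finset.sum_ite_eq', Finset.mem_univ, if_true, Finset.sum_mul]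
  refine Finset.sum_congr rfl fun i _ => ?_
  rw [Finset.sum_comm]

lemma trace_ptr (W : Matrix (C × D) (C × D) ℂ) : (ptr W).trace = W.trace := by
  have := trace_ptr_mul W 1
  simpa using this

lemma ptr_conjTranspose (W : Matrix (C × D) (C × D) ℂ) : (ptr W)ᴴ = ptr Wᴴ := by
  ext i k; simp [ptr, conjTranspose_apply]

lemma ptr_add (W W' : Matrix (C × D) (C × D) ℂ) : ptr (W + W') = ptr W + ptr W' := by
  ext i k; simp [ptr, Finset.sum_add_distrib]

lemma ptr_sub (W W' : Matrix (C × D) (C × D) ℂ) : ptr (W - W') = ptr W - ptr W' := by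
  ext i k; simp [ptr, Finset.sum_sub_distrib]

lemma ptr_smul (z : ℂ) (W : Matrix (C × D) (C × D) ℂ) : ptr (z • W) = z • ptr W := by
  ext i k; simp [ptr, Finset.mul_sum]

lemma ptr_posSemidef {W : Matrix (C × D) (C × D) ℂ} (h : W.PosSemidef) : (ptr W).PosSemidef := by
  have : ptr W = ∑ l : D, W.submatrix (fun i => (i, l)) (fun i => (i, l)) := by
    ext i k; simp [ptr, Matrix.sum_apply]
  rw [this]
  exact posSemidef_sum _ fun l _ => h.submatrix _

lemma Phi_posSemidef (V : Matrix (C × D) (A × B) ℂ) {X : Matrix A A ℂ} {Y : Matrix B B ℂ}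
    (hX : X.PosSemidef) (hY : Y.PosSemidef) : (Phi V X Y).PosSemidef :=
  ptr_posSemidef ((hX.kronecker hY).mul_mul_conjTranspose_same V)

lemma trace_Phi_mul (V : Matrix (C × D) (A × B) ℂ) (X : Matrix A A ℂ) (Y : Matrix B B ℂ)
    (Z : Matrix C C ℂ) :
    (Phi V X Y * Z).trace = ((X ⊗ₖ Y) * (Vᴴ * (Z ⊗ₖ (1 : Matrix D D ℂ)) * V)).trace := by
  rw [Phi, trace_ptr_mul, Matrix.mul_assoc, Matrix.mul_assoc, trace_mul_comm V]
  simp only [Matrix.mul_assoc]

lemma trace_Phi {V : Matrix (C × D) (A × B) ℂ} (hV : Vᴴ * V = 1) (X : Matrix A A ℂ)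
    (Y : Matrix B B ℂ) : (Phi V X Y).trace = X.trace * Y.trace := by
  have := trace_Phi_mul V X Y 1
  simpa [hV, trace_kronecker] using this

lemma Phi_dstate {V : Matrix (C × D) (A × B) ℂ} (hV : Vᴴ * V = 1) {X : Matrix A A ℂ}
    {Y : Matrix B B ℂ} (hX : DState X) (hY : DState Y) : DState (Phi V X Y) :=
  ⟨Phi_posSemidef V hX.1 hY.1, by rw [trace_Phi hV, hX.2, hY.2, one_mul]⟩

lemma fro2_eq_trace {ι κ : Type} [Fintype ι] [Fintype κ] (X : Matrix ι κ ℂ) :
    fro2 X = (Xᴴ * X).trace.re := by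
  simp only [fro2, trace, diag_apply, Matrix.mul_apply, conjTranspose_apply, Complex.re_sum]
  rw [Finset.sum_comm]
  refine Finset.sum_congr rfl fun i _ => Finset.sum_congr rfl fun j _ => ?_
  simp [Complex.conj_mul', ← Complex.ofReal_pow]

lemma fro2_nonneg {ι κ : Type} [Fintype ι] [Fintype κ] (X : Matrix ι κ ℂ) : 0 ≤ fro2 X := by
  unfold fro2; positivity

end

section
variable {κ ι : Type} [Fintype κ] [DecidableEq ι]

lemma zext_apply {e : κ → ι} (he : Function.Injective e) (M : Matrix κ κ ℂ) (i j : κ) :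
    zext e M (e i) (e j) = M i j := by
  classical
  simp [zext, he.eq_iff, ite_and]

lemma zext_left {e : κ → ι} (M : Matrix κ κ ℂ) {k : ι} (hk : ∀ i, e i ≠ k) (l : ι) :
    zext e M k l = 0 := by
  simp [zext, hk]

lemma zext_right {e : κ → ι} (M : Matrix κ κ ℂ) (k : ι) {l : ι} (hl : ∀ i, e i ≠ l) :
    zext e M k l = 0 := by
  simp [zext, hl]

end

lemma occ_injective {n M : ℕ} : Function.Injective (occ : Box n M → Occ n) := by
  intro k l h; funext j; exact Fin.ext (congrFun h j)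

lemma occ_le {n M : ℕ} (k : Box n M) (j : Fin n) : occ k j ≤ M := Nat.lt_succ_iff.mp (k j).2

lemma exists_occ {n M : ℕ} {k : Occ n} (h : ∀ j, k j ≤ M) : ∃ i : Box n M, occ i = k :=
  ⟨fun j => ⟨k j, Nat.lt_succ_iff.mpr (h j)⟩, rfl⟩

lemma trace_mul_Hn {n M : ℕ} (A : Matrix (Box n M) (Box n M) ℂ) :
    (A * Hn n M).trace.re = en A := trace_mul_rdiag _ _

lemma trace_mul_Gam {n M : ℕ} (γ : ℝ) (A : Matrix (Box n M) (Box n M) ℂ) :
    (A * Gam n M γ).trace.re = pen γ A := trace_mul_rdiag _ _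

lemma bet_pos {N : ℝ} (h : 0 < N) : 0 < bet N :=
  Real.log_pos (by have : 0 < 1 / N := by positivity
                   linarith)

lemma al_pos {N : ℝ} (h : 0 < N) : 0 < al N := by
  have := bet_pos h; unfold al; positivity

lemma al_mul_bet {N : ℝ} (h : 0 < N) : al N * bet N = 1 := by
  have := bet_pos h; unfold al; field_simp

lemma logMean_pos {x y : ℝ} (hx : 0 < x) (hy : 0 < y) : 0 < logMean x y := by
  unfold logMean
  split_ifs with h
  · exact hx
  · rcases lt_or_gt_of_ne h with h | h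
    · exact div_pos_of_neg_of_neg (by linarith) (by linarith [Real.log_lt_log hx h])
    · exact div_pos (by linarith) (by linarith [Real.log_lt_log hy h])

lemma logMean_comm (x y : ℝ) : logMean x y = logMean y x := by
  unfold logMean
  by_cases h : x = y
  · simp [h]
  · rw [if_neg h, if_neg (Ne.symm h), ← neg_sub y x, ← neg_sub (Real.log y), neg_div_neg_eq]

lemma logMean_self (x : ℝ) : logMean x x = x := by simp [logMean]

lemma logMean_mul_log {x y : ℝ} (hx : 0 < x) (hy : 0 < y) :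
    logMean x y * (Real.log x - Real.log y) = x - y := by
  unfold logMean
  split_ifs with h
  · simp [h]
  · have : Real.log x - Real.log y ≠ 0 := fun h' =>
      h (Real.log_injOn_pos hx hy (by linarith))
    field_simp

lemma logMean_div {x y : ℝ} (hx : 0 < x) (hy : 0 < y) : logMean x y = y * logMean (x / y) 1 := by
  unfold logMean
  by_cases h : x = y
  · subst h; simp [hx.ne']
  · have h' : x / y ≠ 1 := fun h' => h (by field_simp at h'; exact h')
    rw [if_neg h, if_neg h', Real.log_div hx.ne' hy.ne', Real.log_one, sub_zero]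
    field_simp

lemma kk_pos {N x : ℝ} (hN : 0 < N) (hx : 0 < x) : 0 < kk N x :=
  mul_pos (bet_pos hN) (logMean_pos (by positivity) (by positivity))

lemma kk_mul {N x : ℝ} (hN : 0 < N) (hx : 0 < x) :
    kk N x * (1 - al N * Real.log x) = N + 1 - N * x := by
  have h := logMean_mul_log (x := N * x) (y := N + 1) (by positivity) (by positivity)
  have hb : bet N = Real.log (N + 1) - Real.log N := by
    unfold bet
    rw [← Real.log_div (by positivity) hN.ne']; congr 1; field_simp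
  have h2 := al_mul_bet hN
  rw [Real.log_mul hN.ne' hx.ne'] at h
  unfold kk
  have : bet N * (1 - al N * Real.log x) = -(Real.log N + Real.log x - Real.log (N + 1)) := by
    have : bet N * (1 - al N * Real.log x) = bet N - (al N * bet N) * Real.log x := by ring
    rw [this, h2, hb]; ring
  calc bet N * logMean (N * x) (N + 1) * (1 - al N * Real.log x)
      = logMean (N * x) (N + 1) * (bet N * (1 - al N * Real.log x)) := by ring
    _ = _ := by rw [this, mul_neg, h]; ring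

lemma kk_one {N : ℝ} (hN : 0 < N) : kk N 1 = 1 := by
  have := kk_mul hN one_pos
  simpa using this

end Vale.Agent.P369
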