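import Vale.Agent.P369.Basic

/-! Limits of finite matrices as operators on a Hilbert space with a basis (task P369-Fock). -/

set_option linter.unusedSectionVars false

namespace Vale.Agent.P369

open Matrix Finset Filter Topology
open Vale.Agent.P358 (S)
open scoped ComplexOrder

variable {ι : Type} {H : Type} [NormedAddCommGroup H] [InnerProductSpace ℂ H] [CompleteSpace H]

theorem entry_ext (e : HilbertBasis ι ℂ H) {T T' : H →L[ℂ] H}
    (h : ∀ k l, entry e T k l = entry e T' k l) : T = T' := by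
  have h1 : ∀ l, T (e l) = T' (e l) := fun l => e.repr.injective (by
    ext k; rw [e.repr_apply_apply, e.repr_apply_apply]; exact h k l)
  ext x
  refine ((e.hasSum_repr x).mapL T).unique ?_
  simpa only [map_smul, h1] using (e.hasSum_repr x).mapL T'

/-- compressions of a positive operator are positive semidefinite -/
theorem compress_posSemidef (e : HilbertBasis ι ℂ H) {T : H →L[ℂ] H} (hT : T.IsPositive)
    {κ : Type} [Fintype κ] (em : κ → ι) :
    (Matrix.of fun i j => entry e T (em i) (em j)).PosSemidef := by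
  refine posSemidef_iff_dotProduct_mulVec.mpr ⟨?_, fun v => ?_⟩
  · ext i j
    simp [entry, conjTranspose_apply, hT.inner_left_eq_inner_right]
  · convert hT.inner_nonneg_right (∑ i, v i • e (em i)) using 1
    simp only [dotProduct, mulVec, of_apply, entry, map_sum, map_smul, sum_inner, inner_sum,
      inner_smul_left, inner_smul_right, Pi.star_apply, RCLike.star_def, Finset.mul_sum]
    rw [Finset.sum_comm]
    exact Finset.sum_congr rfl fun _ _ => Finset.sum_congr rfl fun _ _ => by ring

/-- functional calculus on an eigenvector: induction over `C(spectrum ℝ T, ℝ)` with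
`ContinuousMap.induction_on_of_compact` applied to `cfcHom`, for `v ≠ 0` (then `lam` lies in
the spectrum). -/
theorem cfc_eigen {T : H →L[ℂ] H} (hT : IsSelfAdjoint T) {v : H} {lam : ℝ}
    (hv : T v = (lam : ℂ) • v) {f : ℝ → ℝ} (hf : Continuous f) :
    (cfc f T) v = (f lam : ℂ) • v := by
  rcases eq_or_ne v 0 with rfl | h0
  · simp
  have hl : lam ∈ spectrum ℝ T := fun hu => h0 (by
    obtain ⟨u, hu⟩ := hu
    have h1 := congrArg (fun A : H →L[ℂ] H => A v) u.inv_mul
    simpa [hu, hv, Algebra.algebraMap_eq_smul_one] using h1.symm)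
  have key : ∀ g : C(spectrum ℝ T, ℝ), cfcHom hT g v = (g ⟨lam, hl⟩ : ℂ) • v := by
    intro g
    induction g using ContinuousMap.induction_on_of_compact with
    | const r =>
      rw [show ContinuousMap.const (spectrum ℝ T) r = algebraMap ℝ _ r from rfl,
        AlgHomClass.commutes]
      simp [Algebra.algebraMap_eq_smul_one]
    | id => rw [cfcHom_id hT, hv]; rfl
    | star_id => rw [star_trivial, cfcHom_id hT, hv]; rfl
    | add f g hf hg => simp [hf, hg, add_smul]
    | mul f g hf hg => simp [hf, hg, smul_smul, mul_comm, -Complex.coe_smul]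
    | frequently f hf =>
      have hc := cfcHom_continuous (R := ℝ) hT
      exact (isClosed_eq (f := fun g : C(spectrum ℝ T, ℝ) => cfcHom hT g v)
        (g := fun g => (g ⟨lam, hl⟩ : ℂ) • v) (by fun_prop) (by fun_prop)).closure_subset
        (mem_closure_iff_frequently.mpr hf)
  rw [cfc_apply f T, key]
  rfl

lemma fock_parseval (e : HilbertBasis ι ℂ H) (x : H) :
    HasSum (fun k => ‖inner ℂ (e k) x‖ ^ 2) (‖x‖ ^ 2) := by
  have := (e.hasSum_inner_mul_inner x x).mapL Complex.reCLM
  simp only [Complex.reCLM_apply, inner_self_eq_norm_sq_to_K] at this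
  convert this using 2 with k
  · rw [← inner_conj_symm x, Complex.conj_mul', ← Complex.ofReal_pow, Complex.ofReal_re]
  · simp [← Complex.ofReal_pow]

lemma fock_norm (e : HilbertBasis ι ℂ H) (T : H →L[ℂ] H) {c : ℝ}
    (h : ∀ F G : Finset ι, ∑ k ∈ F, ∑ l ∈ G, ‖entry e T k l‖ ^ 2 ≤ c) : ‖T‖ ≤ √c := by
  have hc : 0 ≤ c := by simpa using h ∅ ∅
  refine T.opNorm_le_bound (Real.sqrt_nonneg _) fun x => ?_
  rw [← sq_le_sq₀ (norm_nonneg _) (by positivity), mul_pow, Real.sq_sqrt hc]
  refine hasSum_le_of_sum_le (fock_parseval e (T x)) fun F => ?_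
  have h1 := hasSum_sum (s := F) fun k _ => fock_parseval e (T.adjoint (e k))
  have h2 := hasSum_le_of_sum_le h1 (c := c) fun G => by
    rw [Finset.sum_comm]
    simpa only [ContinuousLinearMap.adjoint_inner_right, norm_inner_symm (T _), entry] using h F G
  refine le_trans ?_ (mul_le_mul_of_nonneg_right h2 (sq_nonneg _))
  rw [Finset.sum_mul]
  refine Finset.sum_le_sum fun k _ => ?_
  rw [← T.adjoint_inner_left, ← mul_pow]
  exact pow_le_pow_left₀ (norm_nonneg _) (norm_inner_le_norm _ _) 2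

lemma fock_entry (e : HilbertBasis ι ℂ H) {T : H →L[ℂ] H} (hT : T.IsPositive) (k l : ι) :
    ‖entry e T k l‖ ^ 2 ≤ (entry e T k k).re * (entry e T l l).re := by
  have hX := compress_posSemidef e hT ![k, l]
  have h := (Complex.le_def.mp hX.det_nonneg).1
  have h1 : ∀ k, (entry e T k k).im = 0 := fun k =>
    ((Complex.le_def.mp (hT.inner_nonneg_right (e k))).2).symm
  have h2 := hX.1.apply 1 0
  simp only [of_apply, cons_val_zero, cons_val_one] at h2
  simp only [det_fin_two, of_apply, cons_val_zero, cons_val_one, ← h2,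
    RCLike.star_def, Complex.mul_conj', Complex.sub_re, Complex.mul_re, h1, Complex.zero_re,
    ← Complex.ofReal_pow, Complex.ofReal_re] at h
  linarith

lemma fock_term (e : HilbertBasis ι ℂ H) {T : H →L[ℂ] H} (hT : T.IsPositive) (h1 : ‖T‖ ≤ 1) :
    spectrum ℝ T ⊆ Set.Icc 0 1 ∧ ∀ k, 0 ≤ entropyTerm e T k ∧
      ∀ y : ℝ, entropyTerm e T k ≤ y * (entry e T k k).re + Real.exp (-y) := by
  have h0 : 0 ≤ T := (ContinuousLinearMap.nonneg_iff_isPositive T).mpr hT
  have hs : spectrum ℝ T ⊆ Set.Icc 0 1 := fun x hx => ⟨spectrum_nonneg_of_nonneg h0 hx,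
    (le_abs_self x).trans ((spectrum.norm_le_norm_mul_of_mem hx).trans
      (mul_le_one₀ h1 (norm_nonneg _) ContinuousLinearMap.norm_id_le))⟩
  refine ⟨hs, fun k => ⟨?_, fun y => ?_⟩⟩
  · exact ((ContinuousLinearMap.nonneg_iff_isPositive _).mp (cfc_nonneg (a := T) fun x hx =>
      Real.negMulLog_nonneg (hs hx).1 (hs hx).2)).re_inner_nonneg_right (e k)
  · have h2 : cfc Real.negMulLog T ≤ cfc (fun x : ℝ => y * x + Real.exp (-y)) T :=
      cfc_mono fun x hx => by
        have h3 := Real.negMulLog_le_one_sub_self (x := x * Real.exp y)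
          (mul_nonneg (hs hx).1 (Real.exp_pos _).le)
        rw [Real.negMulLog_mul, Real.negMulLog.eq_1 (Real.exp y), Real.log_exp] at h3
        have h4 := mul_le_mul_of_nonneg_left h3 (Real.exp_pos (-y)).le
        have h5 : Real.exp (-y) * Real.exp y = 1 := by rw [← Real.exp_add]; simp
        have h6 := (hs hx).1
        have e1 : Real.exp (-y) * (Real.exp y * x.negMulLog + x * (-Real.exp y * y))
          = x.negMulLog - x * y := by linear_combination (x.negMulLog - x * y) * h5
        have e2 : Real.exp (-y) * (1 - x * Real.exp y) = Real.exp (-y) - x := by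
          linear_combination (-x) * h5
        linarith
    have hsa := hT.isSelfAdjoint
    rw [cfc_add_const _ _ T, cfc_const_mul_id y T] at h2
    have h3 := h2.re_inner_nonneg_right (e k)
    simpa [Algebra.algebraMap_eq_smul_one, inner_add_right, inner_sub_right, entry, entropyTerm,
      inner_smul_right, ← Complex.coe_smul, e.orthonormal.1 k, -Complex.ofReal_exp] using h3

lemma fock_tail (h : ι → ℝ) (hθ : ∀ θ : ℝ, 0 < θ → Summable (fun k => Real.exp (-(θ * h k))))
    {E : ℝ} (q a : ℕ → ι → ℝ) (hq : ∀ N (G : Finset ι), ∑ k ∈ G, q N k ≤ E)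
    (ha : ∀ θ : ℝ, ∀ N k, a N k ≤ θ * q N k + Real.exp (-(θ * h k))) {ε : ℝ} (hε : 0 < ε) :
    ∃ F : Finset ι, ∀ N G, Disjoint G F → ∑ k ∈ G, a N k ≤ ε := by
  have hE : 0 ≤ E := by simpa using hq 0 ∅
  have h1 : 0 < ε / 2 / (E + 1) := by positivity
  obtain ⟨F, hF⟩ := (hθ _ h1).vanishing (Iic_mem_nhds (half_pos hε))
  refine ⟨F, fun N G hG => (Finset.sum_le_sum fun k _ => ha (ε / 2 / (E + 1)) N k).trans ?_⟩
  have h2 := mul_le_mul_of_nonneg_left ((hq N G).trans (le_add_of_nonneg_right zero_le_one)) h1.le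
  rw [div_mul_cancel₀ _ (by positivity)] at h2
  rw [Finset.sum_add_distrib, ← Finset.mul_sum]
  linarith [Set.mem_Iic.mp (hF G hG)]

lemma fock_split [DecidableEq ι] {a : ι → ℝ} (h0 : ∀ k, 0 ≤ a k) {F : Finset ι} {ε : ℝ}
    (h : ∀ G, Disjoint G F → ∑ k ∈ G, a k ≤ ε) (G : Finset ι) :
    ∑ k ∈ G, a k ≤ ∑ k ∈ F, a k + ε := by
  rw [← Finset.sum_inter_add_sum_sdiff G F]
  exact add_le_add (Finset.sum_le_sum_of_subset_of_nonneg inter_subset_right fun k _ _ => h0 k)
    (h _ sdiff_disjoint)

lemma fock_conv [DecidableEq ι] {a : ℕ → ι → ℝ} {b : ι → ℝ} {s : ℕ → ℝ} (h0 : ∀ N k, 0 ≤ a N k)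
    (hs : ∀ N, HasSum (a N) (s N)) (hb : ∀ k, Tendsto (fun N => a N k) atTop (𝓝 (b k)))
    (ht : ∀ ε : ℝ, 0 < ε → ∃ F : Finset ι, ∀ N G, Disjoint G F → ∑ k ∈ G, a N k ≤ ε) :
    Summable b ∧ Tendsto s atTop (𝓝 (∑' k, b k)) := by
  have hb0 : ∀ k, 0 ≤ b k := fun k => ge_of_tendsto' (hb k) fun N => h0 N k
  have hG : ∀ G : Finset ι, Tendsto (fun N => ∑ k ∈ G, a N k) atTop (𝓝 (∑ k ∈ G, b k)) :=
    fun G => tendsto_finsetSum _ fun k _ => hb k
  have h1 : Summable b := by
    obtain ⟨F, hF⟩ := ht 1 one_pos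
    exact summable_of_sum_le hb0 (fock_split hb0 fun G h => le_of_tendsto' (hG G) (hF · G h))
  refine ⟨h1, Metric.tendsto_nhds.mpr fun ε hε => ?_⟩
  obtain ⟨F, hF⟩ := ht (ε / 2) (half_pos hε)
  have h2 := hasSum_le_of_sum_le h1.hasSum
    (fock_split hb0 fun G h => le_of_tendsto' (hG G) (hF · G h))
  have h3 := sum_le_hasSum F (fun k _ => hb0 k) h1.hasSum
  filter_upwards [Metric.tendsto_nhds.mp (hG F) _ (half_pos hε)] with N hN
  have h4 := hasSum_le_of_sum_le (hs N) (fock_split (h0 N) (hF N))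
  have h5 := sum_le_hasSum F (fun k _ => h0 N k) (hs N)
  rw [Real.dist_eq, abs_lt] at hN ⊢
  constructor <;> linarith

section
variable {κ : Type} [Fintype κ]

/-- a finite matrix as an operator -/
noncomputable def fop (e : HilbertBasis ι ℂ H) (em : κ → ι) (M : Matrix κ κ ℂ) : H →L[ℂ] H :=
  ∑ i, ∑ j, M i j • InnerProductSpace.rankOne ℂ (e (em i)) (e (em j))

lemma fop_entry [DecidableEq ι] (e : HilbertBasis ι ℂ H) (em : κ → ι) (M : Matrix κ κ ℂ)
    (k l : ι) : entry e (fop e em M) k l = zext em M k l := by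
  simp only [entry, fop, zext, _root_.sum_apply, _root_.smul_apply, inner_sum, inner_smul_right,
    InnerProductSpace.rankOne_apply, orthonormal_iff_ite.mp e.orthonormal, ite_and, mul_ite,
    mul_one, mul_zero, eq_comm (a := k)]

lemma fop_pos (e : HilbertBasis ι ℂ H) (em : κ → ι) {M : Matrix κ κ ℂ} (hM : M.PosSemidef) :
    (fop e em M).IsPositive := by
  refine (ContinuousLinearMap.isPositive_iff_complex _).mpr fun x => ?_
  have h := hM.dotProduct_mulVec_nonneg fun j => inner ℂ (e (em j)) x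
  have h1 : inner ℂ (fop e em M x) x =
      star (star (fun j => inner ℂ (e (em j)) x) ⬝ᵥ M *ᵥ fun j => inner ℂ (e (em j)) x) := by
    simp [fop, dotProduct, mulVec, Finset.mul_sum, mul_comm, mul_assoc, mul_left_comm]
  rw [h1, (IsSelfAdjoint.of_nonneg h).star_eq]
  exact ⟨Complex.ext rfl (Complex.le_def.mp h).2, (Complex.le_def.mp h).1⟩

lemma fop_hasSum {em : κ → ι} (hem : Function.Injective em) {φ : ι → ℝ}
    (h : ∀ k, (∀ i, em i ≠ k) → φ k = 0) : HasSum φ (∑ i, φ (em i)) :=
  (hem.hasSum_iff fun k hk => h k fun i hi => hk ⟨i, hi⟩).mp (hasSum_fintype _)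

lemma fop_entropy [DecidableEq ι] [DecidableEq κ] (e : HilbertBasis ι ℂ H) {em : κ → ι}
    (hem : Function.Injective em) {M : Matrix κ κ ℂ} (hM : M.PosSemidef) :
    HasSum (entropyTerm e (fop e em M)) (S M) := by
  obtain ⟨U, h1, h2, h3, -⟩ := P358.spectral hM.1
  have hsa := (fop_pos e em hM).isSelfAdjoint
  have ho := orthonormal_iff_ite.mp e.orthonormal
  have hMU : M * U = U * diagonal fun i => (hM.1.eigenvalues i : ℂ) := by
    conv_lhs => rw [h3, Matrix.mul_assoc, h1, Matrix.mul_one]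
  have hv : ∀ m, fop e em M (∑ i, U i m • e (em i))
      = (hM.1.eigenvalues m : ℂ) • ∑ i, U i m • e (em i) := fun m => by
    simp only [fop, _root_.sum_apply, _root_.smul_apply,
      InnerProductSpace.rankOne_apply, inner_sum, inner_smul_right, ho, hem.eq_iff, mul_ite,
      mul_one, mul_zero, Finset.sum_ite_eq, mem_univ, if_true, smul_smul, ← Finset.sum_smul,
      Finset.smul_sum, ← Matrix.mul_apply, hMU, mul_diagonal, mul_comm]
  have he : ∀ j, e (em j) = ∑ m, star (U j m) • ∑ i, U i m • e (em i) := fun j => by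
    simp only [Finset.smul_sum, smul_smul]
    rw [Finset.sum_comm]
    simp only [← Finset.sum_smul, ← conjTranspose_apply, mul_comm (Uᴴ _ _), ← Matrix.mul_apply, h2]
    simp [one_apply]
  convert fop_hasSum hem (φ := entropyTerm e (fop e em M)) fun k hk => ?_ using 1
  · have h4 : ∀ j, entropyTerm e (fop e em M) (em j)
        = ∑ m, ‖U j m‖ ^ 2 * Real.negMulLog (hM.1.eigenvalues m) := fun j => by
      rw [entropyTerm, entry]
      nth_rewrite 2 [he j]
      rw [map_sum]
      simp only [map_smul, cfc_eigen hsa (hv _) Real.continuous_negMulLog,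
        inner_sum, inner_smul_right, ho, hem.eq_iff, mul_ite, mul_one, mul_zero,
        Finset.sum_ite_eq, mem_univ, if_true, Complex.re_sum]
      refine Finset.sum_congr rfl fun m _ => ?_
      rw [mul_left_comm, Complex.re_ofReal_mul, mul_comm]
      simp [Complex.conj_mul', ← Complex.ofReal_pow]
    have hcol : ∀ j, ∑ k, ‖U k j‖ ^ 2 = 1 := fun j => by
      have := congrArg Complex.re (congrFun (congrFun h1 j) j)
      simpa [mul_apply, Complex.conj_mul', ← Complex.ofReal_pow] using this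
    simp only [h4]
    rw [Finset.sum_comm]
    simp only [← Finset.sum_mul, hcol, one_mul]
    exact P358.trf_eq hM.1 _
  · rw [entropyTerm, entry, cfc_eigen hsa (lam := 0) (by simp [fop, ho, hk])
      Real.continuous_negMulLog]
    simp

end

/-- Limit theorem under an energy bound.
Suggested proof. `T N = ∑ i j, M N i j • rankOne (e (em i)) (e (em j))` has entries
`zext (em N) (M N)`, is positive, and has spectrum in `[0,1]`.
(1) If `∑_{(k,l) ∈ F×F} ‖entry e T k l‖² ≤ c²` for all finite `F` then `‖T‖ ≤ c`.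
(2) `|M k l|² ≤ M k k · M l l`, and `F_R = {h ≤ R}` is finite (summability at `θ = 1`), with
`∑_{k ∉ F_R} M k k ≤ E/R`; so the squares of the entries outside `F_R × F_R` sum to at most
`2E/R`, the sequence `T N` is Cauchy in norm, and its limit `T` has entries `ker`, is positive,
has trace one and finite energy.
(3) `S (M N) = ∑_k entropyTerm e (T N) k` (spectral theorem for `M N` and cfc_eigen).
(4) `entropyTerm e (T N) k → entropyTerm e T k` by `Filter.Tendsto.cfc`.
(5) for a state `ρ` and `w > 0`: `0 ≤ entropyTerm e ρ k ≤ -log w · ρ_kk + w` (from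
`negMulLog x ≤ -x log w + w - x`, `cfc_mono`/`cfc_nonneg`); with `w = exp(-θ h k)` the tail over
`k ∉ F` is at most `θ E + ∑_{k ∉ F} exp(-θ h k)`, uniformly in `N`. -/
theorem fock_limit [DecidableEq ι] (e : HilbertBasis ι ℂ H) (h : ι → ℝ) (h0 : ∀ k, 0 ≤ h k)
    (hθ : ∀ θ : ℝ, 0 < θ → Summable (fun k => Real.exp (-(θ * h k))))
    (κ : ℕ → Type) [∀ N, Fintype (κ N)] [∀ N, DecidableEq (κ N)]
    (em : ∀ N, κ N → ι) (hem : ∀ N, Function.Injective (em N))
    (M : ∀ N, Matrix (κ N) (κ N) ℂ) (hM : ∀ N, DState (M N))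
    (E : ℝ) (hE : ∀ N, ∑ i, h (em N i) * (M N i i).re ≤ E)
    (ker : ι → ι → ℂ)
    (hker : ∀ k l, Tendsto (fun N => zext (em N) (M N) k l) atTop (𝓝 (ker k l))) :
    ∃ T : H →L[ℂ] H, (∀ k l, entry e T k l = ker k l) ∧ IsState e T ∧
      Summable (fun k => h k * (ker k k).re) ∧ Summable (entropyTerm e T) ∧
      Tendsto (fun N => S (M N)) atTop (𝓝 (entropy e T)) := by
  set T := fun N => fop e (em N) (M N) with hT
  have hP : ∀ N, (T N).IsPositive := fun N => fop_pos e _ (hM N).1
  simp only [← fop_entry e] at hker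
  set p := fun N k => (entry e (T N) k k).re with hp
  have hp0 : ∀ N k, 0 ≤ p N k := fun N k => (hP N).re_inner_nonneg_right (e k)
  have hz : ∀ N k, (∀ i, em N i ≠ k) → p N k = 0 := fun N k hk => by
    simp only [hp, hT, fop_entry, zext_left _ hk, Complex.zero_re]
  have hp1 : ∀ N, HasSum (p N) 1 := fun N => by
    have := congrArg Complex.re (hM N).2
    simp only [trace, diag_apply, Complex.re_sum, Complex.one_re] at this
    simpa only [hp, hT, fop_entry, zext_apply (hem N), this] using fop_hasSum (hem N) (hz N)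
  have hp2 : ∀ N (G : Finset ι), ∑ k ∈ G, p N k ≤ 1 := fun N G =>
    sum_le_hasSum G (fun k _ => hp0 N k) (hp1 N)
  have hq : ∀ N (G : Finset ι), ∑ k ∈ G, h k * p N k ≤ E := fun N G =>
    (sum_le_hasSum G (fun k _ => mul_nonneg (h0 k) (hp0 N k)) (fop_hasSum (hem N)
      (φ := fun k => h k * p N k) fun k hk => by rw [hz N k hk, mul_zero])).trans
      (by simpa only [hp, hT, fop_entry, zext_apply (hem N)] using hE N)
  have ht := @fock_tail _ h hθ E _ p hq fun θ N k => by
    have h1 : p N k ≤ 1 := by simpa using hp2 N {k}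
    have h2 := Real.add_one_le_exp (-(θ * h k))
    nlinarith [mul_le_mul_of_nonneg_left h2 (hp0 N k), Real.exp_pos (-(θ * h k))]
  have hn : ∀ N, ‖T N‖ ≤ 1 := fun N => by
    refine (fock_norm e _ (c := 1) fun F G => ?_).trans (by simp)
    refine (Finset.sum_le_sum fun k _ => Finset.sum_le_sum fun l _ =>
      fock_entry e (hP N) k l).trans ?_
    rw [← Finset.sum_mul_sum]
    exact mul_le_one₀ (hp2 N F) (Finset.sum_nonneg fun k _ => hp0 N k) (hp2 N G)
  obtain ⟨R, hR⟩ : ∃ R, Tendsto T atTop (𝓝 R) := by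
    refine cauchySeq_tendsto_of_complete (cauchySeq_iff_tendsto_dist_atTop_0.mpr
      (tendsto_order.mpr ⟨fun a ha => .of_forall fun _ => ha.trans_le dist_nonneg, fun a ha => ?_⟩))
    obtain ⟨F, hF⟩ := @ht (a ^ 2 / 16) (by positivity)
    have h1 : Tendsto (fun x : ℕ × ℕ => ∑ k ∈ F, ∑ l ∈ F,
        ‖entry e (T x.1) k l - entry e (T x.2) k l‖ ^ 2) atTop (𝓝 0) := by
      have := tendsto_finsetSum F fun k _ => tendsto_finsetSum F fun l _ =>
        (((hker k l).comp (tendsto_fst (g := (atTop : Filter ℕ)))).sub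
          ((hker k l).comp tendsto_snd)).norm.pow 2
      simpa [prod_atTop_atTop_eq] using this
    filter_upwards [h1.eventually (gt_mem_nhds (half_pos (pow_pos ha 2)))] with x hx
    set r := fun N k => if k ∈ F then 0 else p N k with hr
    have hr1 : ∀ N (G : Finset ι), ∑ k ∈ G, r N k ≤ a ^ 2 / 16 := fun N G => by
      rw [hr, Finset.sum_ite, Finset.sum_const_zero, zero_add]
      exact hF N _ (Finset.disjoint_left.mpr fun k hk => (mem_filter.mp hk).2)
    have hr0 : ∀ N k, 0 ≤ r N k := fun N k => by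
      simp only [hr]; split_ifs; exacts [le_rfl, hp0 N k]
    have hr2 : ∀ N (G G' : Finset ι),
        ∑ k ∈ G, ∑ l ∈ G', (r N k * p N l + p N k * r N l) ≤ a ^ 2 / 8 := fun N G G' => by
      simp only [Finset.sum_add_distrib, ← Finset.sum_mul_sum]
      have := mul_le_mul (hr1 N G) (hp2 N G') (Finset.sum_nonneg fun k _ => hp0 N k) (by positivity)
      have := mul_le_mul (hp2 N G) (hr1 N G') (Finset.sum_nonneg fun k _ => hr0 N k) zero_le_one
      linarith
    rw [dist_eq_norm]
    refine (fock_norm e _ (c := ∑ k ∈ F, ∑ l ∈ F, ‖entry e (T x.1) k l - entry e (T x.2) k l‖ ^ 2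
      + a ^ 2 / 2) fun G G' => ?_).trans_lt ((Real.sqrt_lt' ha).mpr (by linarith))
    have h2 : ∀ k l, ‖entry e (T x.1 - T x.2) k l‖ ^ 2 ≤
        (if k ∈ F then if l ∈ F then ‖entry e (T x.1) k l - entry e (T x.2) k l‖ ^ 2 else 0 else 0)
        + (2 * (r x.1 k * p x.1 l + p x.1 k * r x.1 l)
          + 2 * (r x.2 k * p x.2 l + p x.2 k * r x.2 l)) := fun k l => by
      have a1 := fock_entry e (hP x.1) k l
      have a2 := fock_entry e (hP x.2) k l
      have a3 := parallelogram_law_with_norm ℝ (entry e (T x.1) k l) (entry e (T x.2) k l)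
      have a4 := sq_nonneg ‖entry e (T x.1) k l + entry e (T x.2) k l‖
      have a5 := mul_nonneg (hp0 x.1 k) (hp0 x.1 l)
      have a6 := mul_nonneg (hp0 x.2 k) (hp0 x.2 l)
      rw [show entry e (T x.1 - T x.2) k l = entry e (T x.1) k l - entry e (T x.2) k l by
        simp [entry]]
      simp only [hr, hp] at a5 a6 ⊢
      split_ifs <;> linarith
    refine (Finset.sum_le_sum fun k _ => Finset.sum_le_sum fun l _ => h2 k l).trans ?_
    have a1 := hr2 x.1 G G'
    have a2 := hr2 x.2 G G'
    simp only [Finset.sum_add_distrib, ← Finset.mul_sum] at a1 a2 ⊢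
    refine add_le_add ?_ ?_
    · simp only [Finset.sum_ite_irrel, Finset.sum_const_zero, Finset.sum_ite_mem]
      exact (Finset.sum_le_sum fun k _ => Finset.sum_le_sum_of_subset_of_nonneg inter_subset_right
        fun _ _ _ => sq_nonneg _).trans (Finset.sum_le_sum_of_subset_of_nonneg inter_subset_right
        fun _ _ _ => by positivity)
    · linarith
  have hc : ∀ k l, Continuous fun A : H →L[ℂ] H => entry e A k l := fun k l => by
    unfold entry; fun_prop
  have he : ∀ k l, entry e R k l = ker k l := fun k l =>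
    tendsto_nhds_unique (((hc k l).tendsto R).comp hR) (hker k l)
  have hRP : R.IsPositive := (ContinuousLinearMap.nonneg_iff_isPositive R).mp
    (ge_of_tendsto' hR fun N => (ContinuousLinearMap.nonneg_iff_isPositive _).mpr (hP N))
  have hRn : ‖R‖ ≤ 1 := le_of_tendsto' hR.norm hn
  have hpl : ∀ k, Tendsto (fun N => p N k) atTop (𝓝 (ker k k).re) := fun k =>
    (Complex.continuous_re.tendsto _).comp (hker k k)
  obtain ⟨h1, h2⟩ := fock_conv hp0 hp1 hpl fun ε hε => ht hε
  obtain ⟨h3, h4⟩ := fock_conv (b := entropyTerm e R)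
    (fun N k => ((fock_term e (hP N) (hn N)).2 k).1) (fun N => fop_entropy e (hem N) (hM N).1)
    (fun k => (Complex.continuous_re.tendsto _).comp (((hc k k).tendsto _).comp
      (hR.cfc isCompact_Icc Real.negMulLog (.of_forall fun N => (fock_term e (hP N) (hn N)).1)
        (.of_forall fun N => (hP N).isSelfAdjoint) (fock_term e hRP hRn).1 hRP.isSelfAdjoint)))
    fun ε hε => fock_tail h hθ _ _ hq (fun θ N k => by
      simpa only [mul_assoc] using ((fock_term e (hP N) (hn N)).2 k).2 (θ * h k)) hε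
  refine ⟨R, he, ⟨hRP, ?_⟩, summable_of_sum_le (c := E) (fun k => mul_nonneg (h0 k)
    (ge_of_tendsto' (hpl k) fun N => hp0 N k)) fun G => le_of_tendsto'
      (tendsto_finsetSum G fun k _ => (hpl k).const_mul (h k)) (hq · G), h3, h4⟩
  have h5 := h1.hasSum.mapL Complex.ofRealCLM
  rw [← tendsto_nhds_unique tendsto_const_nhds h2] at h5
  convert h5 using 2 with k
  · rw [← he]
    exact Complex.ext rfl (Complex.le_def.mp (hRP.inner_nonneg_right (e k))).2.symm
  · rfl

end Vale.Agent.P369
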