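import Vale.Agent.P369.Box
import Vale.Agent.P369.Fock

/-! The beam-splitter unitary: matrix entries and existence (task P369-Beam). -/

namespace Vale.Agent.P369

open Matrix Finset
open scoped ComplexOrder

variable {n : ℕ} {K : Type} [NormedAddCommGroup K] [InnerProductSpace ℂ K] [CompleteSpace K]

section general
variable {ι : Type}

omit [CompleteSpace K] in
lemma coeffs_basis [DecidableEq ι] (f : HilbertBasis ι ℂ K) (x y : ι) :
    coeffs f (f y) x = if x = y then 1 else 0 :=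
  orthonormal_iff_ite.mp f.orthonormal x y

omit [CompleteSpace K] in
lemma coeffs_ext (f : HilbertBasis ι ℂ K) {u v : K} (h : ∀ x, coeffs f u x = coeffs f v x) :
    u = v := by
  apply f.repr.injective
  ext x
  rw [f.repr_apply_apply, f.repr_apply_apply]
  exact h x

omit [CompleteSpace K] in
lemma coeffs_add (f : HilbertBasis ι ℂ K) (u v : K) (x : ι) :
    coeffs f (u + v) x = coeffs f u x + coeffs f v x := inner_add_right _ _ _

omit [CompleteSpace K] in
lemma coeffs_smul (f : HilbertBasis ι ℂ K) (z : ℂ) (u : K) (x : ι) :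
    coeffs f (z • u) x = z * coeffs f u x := inner_smul_right _ _ _

omit [CompleteSpace K] in
lemma coeffs_sum (f : HilbertBasis ι ℂ K) {κ : Type} (t : Finset κ) (u : κ → K) (x : ι) :
    coeffs f (∑ i ∈ t, u i) x = ∑ i ∈ t, coeffs f (u i) x := inner_sum _ _ _

omit [CompleteSpace K] in
lemma hasSum_coeffs (f : HilbertBasis ι ℂ K) (T : K →L[ℂ] K) (ψ : K) (x : ι) :
    HasSum (fun y => entry f T x y * coeffs f ψ y) (coeffs f (T ψ) x) := by
  have h := ((innerSL ℂ (f x)).comp T).hasSum (f.hasSum_repr ψ)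
  refine h.congr_fun fun y => ?_
  simp only [ContinuousLinearMap.comp_apply, map_smul, innerSL_apply_apply, smul_eq_mul,
    f.repr_apply_apply, entry, coeffs]
  ring

lemma coeffs_star (f : HilbertBasis ι ℂ K) (T : K →L[ℂ] K) (x y : ι) :
    coeffs f (star T (f x)) y = star (entry f T x y) := by
  rw [coeffs, entry, ContinuousLinearMap.star_eq_adjoint, ContinuousLinearMap.adjoint_inner_right,
    Complex.star_def, inner_conj_symm]

end general

omit [CompleteSpace K] in
lemma annA_basis (f : HilbertBasis (Occ n × Occ n) ℂ K) (j : Fin n) (x y : Occ n × Occ n) :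
    annA j (coeffs f (f y)) x
      = ((√(y.1 j : ℝ) : ℝ) : ℂ) * coeffs f (f (y.1 - Pi.single j 1, y.2)) x := by
  have h := congrArg (fun t : ℝ => (t : ℂ)) (sqrt_delta_A j x y)
  simp only [annA, coeffs_basis]
  simp only [Complex.ofReal_mul, apply_ite (fun t : ℝ => (t : ℂ)), Complex.ofReal_one,
    Complex.ofReal_zero] at h
  exact h.symm

omit [CompleteSpace K] in
lemma annB_basis (f : HilbertBasis (Occ n × Occ n) ℂ K) (j : Fin n) (x y : Occ n × Occ n) :
    annB j (coeffs f (f y)) x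
      = ((√(y.2 j : ℝ) : ℝ) : ℂ) * coeffs f (f (y.1, y.2 - Pi.single j 1)) x := by
  have h := congrArg (fun t : ℝ => (t : ℂ)) (sqrt_delta_B j x y)
  simp only [annB, coeffs_basis]
  simp only [Complex.ofReal_mul, apply_ite (fun t : ℝ => (t : ℂ)), Complex.ofReal_one,
    Complex.ofReal_zero] at h
  exact h.symm

/-- Apply the two relations to `ψ = f y` and
`φ = c √(y.1 j) f (y.1 - e_j, y.2) + s √(y.2 j) f (y.1, y.2 - e_j)` (resp. `-s`, `c`); induction on
the total number in `x`, comparing with amp_annA, amp_annB; for `x = 0` use `star U (f 0) = f 0`. -/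
theorem entry_beam (f : HilbertBasis (Occ n × Occ n) ℂ K) {η : ℝ} {U : K →L[ℂ] K}
    (hU : IsBeamSplitter f η U) (x y : Occ n × Occ n) :
    entry f U x y = (amp (√η) (√(1 - η)) x y : ℝ) := by
  obtain ⟨hu, h0, hA, hB⟩ := hU
  induction x using occ_induction generalizing y with
  | h0 =>
    have := ContinuousLinearMap.inner_map_map_of_mem_unitary hu (f 0) (f y)
    rw [h0] at this
    rw [entry, this, amp_zero_left]
    have h2 := coeffs_basis f 0 y
    rw [coeffs] at h2
    rw [h2]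
    by_cases hy : y = 0
    · simp [hy]
    · simp [hy, Ne.symm hy]
  | hA z j ih =>
    have p0 : ((√((z.1 j : ℝ) + 1) : ℝ) : ℂ) ≠ 0 :=
      Complex.ofReal_ne_zero.mpr (Real.sqrt_pos.mpr (by positivity)).ne'
    have h := hA j (f y)
      ((((√η : ℝ) : ℂ) * ((√(y.1 j : ℝ) : ℝ) : ℂ)) • f (y.1 - Pi.single j 1, y.2)
        + (((√(1 - η) : ℝ) : ℂ) * ((√(y.2 j : ℝ) : ℝ) : ℂ)) • f (y.1, y.2 - Pi.single j 1))
      (fun x => by rw [coeffs_add, coeffs_smul, coeffs_smul, annA_basis, annB_basis]; ring) z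
    rw [map_add, map_smul, map_smul, coeffs_add, coeffs_smul, coeffs_smul] at h
    apply mul_left_cancel₀ p0
    rw [← Complex.ofReal_mul, amp_annA]
    push_cast
    rw [← ih, ← ih]
    exact h
  | hB z j ih =>
    have p0 : ((√((z.2 j : ℝ) + 1) : ℝ) : ℂ) ≠ 0 :=
      Complex.ofReal_ne_zero.mpr (Real.sqrt_pos.mpr (by positivity)).ne'
    have h := hB j (f y)
      ((-((√(1 - η) : ℝ) : ℂ) * ((√(y.1 j : ℝ) : ℝ) : ℂ)) • f (y.1 - Pi.single j 1, y.2)
        + (((√η : ℝ) : ℂ) * ((√(y.2 j : ℝ) : ℝ) : ℂ)) • f (y.1, y.2 - Pi.single j 1))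
      (fun x => by rw [coeffs_add, coeffs_smul, coeffs_smul, annA_basis, annB_basis]; ring) z
    rw [map_add, map_smul, map_smul, coeffs_add, coeffs_smul, coeffs_smul] at h
    apply mul_left_cancel₀ p0
    rw [← Complex.ofReal_mul, amp_annB]
    push_cast
    rw [← ih, ← ih]
    exact h

/-- the image of a basis vector -/
noncomputable def beamVec (f : HilbertBasis (Occ n × Occ n) ℂ K) (c s : ℝ) (y : Occ n × Occ n) :
    K :=
  ∑ x ∈ (amp_finite_col c s y).toFinset, ((amp c s x y : ℝ) : ℂ) • f x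

omit [CompleteSpace K] in
lemma coeffs_beamVec (f : HilbertBasis (Occ n × Occ n) ℂ K) (c s : ℝ) (x y : Occ n × Occ n) :
    coeffs f (beamVec f c s y) x = (amp c s x y : ℝ) := by
  simp only [beamVec, coeffs_sum, coeffs_smul, coeffs_basis, mul_ite, mul_one, mul_zero,
    Finset.sum_ite_eq, Set.Finite.mem_toFinset, Set.mem_ofPred_eq]
  split_ifs with h
  · rfl
  · rw [not_not.mp h]; simp

omit [CompleteSpace K] in
lemma beamVec_orthonormal (f : HilbertBasis (Occ n × Occ n) ℂ K) {c s : ℝ}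
    (hcs : c ^ 2 + s ^ 2 = 1) : Orthonormal ℂ (beamVec f c s) := by
  rw [orthonormal_iff_ite]
  intro y y'
  have h1 := f.hasSum_inner_mul_inner (beamVec f c s y) (beamVec f c s y')
  have h2 := Complex.hasSum_ofReal.mpr (amp_orth_col c s hcs y y')
  have h3 : HasSum (fun x => ((amp c s x y * amp c s x y' : ℝ) : ℂ))
      (inner ℂ (beamVec f c s y) (beamVec f c s y')) := by
    refine h1.congr_fun fun x => ?_
    have e1 := coeffs_beamVec f c s x y
    have e2 := coeffs_beamVec f c s x y'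
    rw [coeffs] at e1 e2
    rw [← inner_conj_symm, e1, e2, Complex.conj_ofReal, Complex.ofReal_mul]
  rw [h3.unique h2]
  split_ifs <;> simp

omit [CompleteSpace K] in
lemma basis_eq_sum_beamVec (f : HilbertBasis (Occ n × Occ n) ℂ K) {c s : ℝ}
    (hcs : c ^ 2 + s ^ 2 = 1) (x : Occ n × Occ n) :
    f x = ∑ y ∈ (amp_finite_row c s x).toFinset, ((amp c s x y : ℝ) : ℂ) • beamVec f c s y := by
  refine coeffs_ext f fun x' => ?_
  simp only [coeffs_sum, coeffs_smul, coeffs_basis, coeffs_beamVec, ← Complex.ofReal_mul,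
    ← Complex.ofReal_sum]
  have h1 : HasSum (fun y => amp c s x y * amp c s x' y)
      (∑ y ∈ (amp_finite_row c s x).toFinset, amp c s x y * amp c s x' y) := by
    refine hasSum_sum_of_ne_finset_zero fun y hy => ?_
    simp only [Set.Finite.mem_toFinset, Set.mem_ofPred_eq, not_not] at hy
    rw [hy, zero_mul]
  rw [h1.unique (amp_orth_row c s hcs x x')]
  by_cases h : x = x'
  · simp [h]
  · simp [h, Ne.symm h]

lemma exists_unitary_amp (f : HilbertBasis (Occ n × Occ n) ℂ K) {c s : ℝ}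
    (hcs : c ^ 2 + s ^ 2 = 1) :
    ∃ U : K →L[ℂ] K, U ∈ unitary (K →L[ℂ] K) ∧ ∀ x y, entry f U x y = (amp c s x y : ℝ) := by
  have hsp : ⊤ ≤ (Submodule.span ℂ (Set.range (beamVec f c s))).topologicalClosure := by
    rw [← f.dense_span]
    refine Submodule.topologicalClosure_mono (Submodule.span_le.mpr ?_)
    rintro _ ⟨x, rfl⟩
    rw [basis_eq_sum_beamVec f hcs x]
    exact Submodule.sum_mem _ fun y _ => Submodule.smul_mem _ _ (Submodule.subset_span ⟨y, rfl⟩)
  let b : HilbertBasis (Occ n × Occ n) ℂ K := HilbertBasis.mk (beamVec_orthonormal f hcs) hsp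
  have hb : ∀ y, b y = beamVec f c s y := fun y =>
    congrFun (HilbertBasis.coe_mk (beamVec_orthonormal f hcs) hsp) y
  let e : K ≃ₗᵢ[ℂ] K := f.repr.trans b.repr.symm
  refine ⟨(Unitary.linearIsometryEquiv.symm e : unitary (K →L[ℂ] K)),
    (Unitary.linearIsometryEquiv.symm e).property, fun x y => ?_⟩
  have he : e (f y) = beamVec f c s y := by
    simp only [e, LinearIsometryEquiv.trans_apply]
    rw [f.repr_self, b.repr_symm_single, hb]
  rw [← coeffs_beamVec f c s x y, ← he]
  rfl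

lemma summable_amp_mul (c s : ℝ) (x : Occ n × Occ n) (F : Occ n × Occ n → ℂ) :
    Summable (fun w => ((amp c s x w : ℝ) : ℂ) * F w) := by
  refine summable_of_ne_finset_zero (s := (amp_finite_row c s x).toFinset) fun y hy => ?_
  simp only [Set.Finite.mem_toFinset, Set.mem_ofPred_eq, not_not] at hy
  rw [hy]; simp

lemma hasSum_annA (c s : ℝ) (j : Fin n) (x : Occ n × Occ n) (ψ : Occ n × Occ n → ℂ) :
    HasSum (fun y : Occ n × Occ n =>
      ((√(y.1 j : ℝ) * amp c s x (y.1 - Pi.single j 1, y.2) : ℝ) : ℂ) * ψ y)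
      (∑' w, ((amp c s x w : ℝ) : ℂ) * annA j ψ w) := by
  refine (hasSum_shiftA_iff j _ (fun y hy => by simp [hy])).mp ?_
  refine (summable_amp_mul c s x (annA j ψ)).hasSum.congr_fun fun w => ?_
  simp only [add_single_sub, annA, Pi.add_apply, Pi.single_eq_same]
  push_cast
  ring

lemma hasSum_annB (c s : ℝ) (j : Fin n) (x : Occ n × Occ n) (ψ : Occ n × Occ n → ℂ) :
    HasSum (fun y : Occ n × Occ n =>
      ((√(y.2 j : ℝ) * amp c s x (y.1, y.2 - Pi.single j 1) : ℝ) : ℂ) * ψ y)
      (∑' w, ((amp c s x w : ℝ) : ℂ) * annB j ψ w) := by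
  refine (hasSum_shiftB_iff j _ (fun y hy => by simp [hy])).mp ?_
  refine (summable_amp_mul c s x (annB j ψ)).hasSum.congr_fun fun w => ?_
  simp only [add_single_sub, annB, Pi.add_apply, Pi.single_eq_same]
  push_cast
  ring

omit [CompleteSpace K] in
lemma coeffs_comb (f : HilbertBasis (Occ n × Occ n) ℂ K) {c s : ℝ} {U : K →L[ℂ] K}
    (hU : ∀ x y, entry f U x y = (amp c s x y : ℝ)) (j : Fin n) (a b : ℂ) {ψ φ : K}
    (h : ∀ x, coeffs f φ x = a * annA j (coeffs f ψ) x + b * annB j (coeffs f ψ) x)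
    (x : Occ n × Occ n) :
    HasSum (fun y : Occ n × Occ n =>
      (a * ((√(y.1 j : ℝ) * amp c s x (y.1 - Pi.single j 1, y.2) : ℝ) : ℂ)
        + b * ((√(y.2 j : ℝ) * amp c s x (y.1, y.2 - Pi.single j 1) : ℝ) : ℂ)) * coeffs f ψ y)
      (coeffs f (U φ) x) := by
  have h1 := hasSum_coeffs f U φ x
  have h2 := ((summable_amp_mul c s x (annA j (coeffs f ψ))).hasSum.mul_left a).add
    ((summable_amp_mul c s x (annB j (coeffs f ψ))).hasSum.mul_left b)
  have h3 := h1.unique (h2.congr_fun fun y => by rw [hU, h]; ring)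
  rw [h3]
  exact (((hasSum_annA c s j x (coeffs f ψ)).mul_left a).add
    ((hasSum_annB c s j x (coeffs f ψ)).mul_left b)).congr_fun fun y => by ring

/-- `v y = ∑_x amp x y • f x` (finite sum) is orthonormal (amp_orth_col) with dense span
(amp_orth_row: `f x = ∑_y amp x y • v y`), so `HilbertBasis.mk` gives a basis `b`, and
`U = b.repr.symm ∘ f.repr`. For general `ψ`: `coeffs f (U ψ) x = ∑_y amp x y * coeffs f ψ y`
(finite sum, from `star U (f x) = ∑_y amp x y • f y`), then amp_annA, amp_annB and a shift of the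
summation index. -/
theorem exists_beam (f : HilbertBasis (Occ n × Occ n) ℂ K) {η : ℝ} (h0 : 0 ≤ η) (h1 : η ≤ 1) :
    ∃ U : K →L[ℂ] K, IsBeamSplitter f η U := by
  have hcs : √η ^ 2 + √(1 - η) ^ 2 = 1 := by
    rw [Real.sq_sqrt h0, Real.sq_sqrt (by linarith)]; ring
  obtain ⟨U, hu, hU⟩ := exists_unitary_amp f hcs
  refine ⟨U, hu, ?_, fun j ψ φ h x => ?_, fun j ψ φ h x => ?_⟩
  · refine coeffs_ext f fun x => ?_
    rw [coeffs_basis]
    refine (hU x 0).trans ?_
    rw [amp_zero_right]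
    split_ifs <;> simp
  · have h2 := coeffs_comb f hU j _ _ h x
    have h3 := (hasSum_coeffs f U ψ (x.1 + Pi.single j 1, x.2)).mul_left
      ((√((x.1 j : ℝ) + 1) : ℝ) : ℂ)
    refine h3.unique (h2.congr_fun fun y => ?_)
    rw [hU, ← mul_assoc, ← Complex.ofReal_mul, amp_annA]
    push_cast; ring
  · have h2 := coeffs_comb f hU j _ _ h x
    have h3 := (hasSum_coeffs f U ψ (x.1, x.2 + Pi.single j 1)).mul_left
      ((√((x.2 j : ℝ) + 1) : ℝ) : ℂ)
    refine h3.unique (h2.congr_fun fun y => ?_)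
    rw [hU, ← mul_assoc, ← Complex.ofReal_mul, amp_annB]
    push_cast; ring

lemma star_basis_eq (f : HilbertBasis (Occ n × Occ n) ℂ K) {c s : ℝ} {U : K →L[ℂ] K}
    (hU : ∀ x y, entry f U x y = (amp c s x y : ℝ)) (M : ℕ) (x : Occ n × Occ n)
    (hx : ∀ j, x.1 j + x.2 j ≤ M) :
    star U (f x) = ∑ y : Box n M × Box n M,
      ((amp c s x (occ y.1, occ y.2) : ℝ) : ℂ) • f (occ y.1, occ y.2) := by
  refine coeffs_ext f fun w => ?_
  rw [coeffs_star, hU, Complex.star_def, Complex.conj_ofReal]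
  simp only [coeffs_sum, coeffs_smul, coeffs_basis, mul_ite, mul_one, mul_zero]
  by_cases hw : ∃ y : Box n M × Box n M, w = (occ y.1, occ y.2)
  · obtain ⟨y, rfl⟩ := hw
    rw [Finset.sum_eq_single y, if_pos rfl]
    · intro y' _ hy
      exact if_neg fun h => hy (occPair_injective h).symm
    · simp
  · rw [Finset.sum_eq_zero fun y _ => if_neg fun h => hw ⟨y, h⟩]
    by_contra h'
    have h2 := amp_supp c s (fun h => h' (by rw [h]; simp))
    have h3 : ∀ j, w.1 j ≤ M ∧ w.2 j ≤ M := by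
      intro j
      have h4 := congrFun h2 j
      have h5 := hx j
      simp only [Pi.add_apply] at h4
      omega
    obtain ⟨i1, e1⟩ := exists_occ fun j => (h3 j).1
    obtain ⟨i2, e2⟩ := exists_occ fun j => (h3 j).2
    exact hw ⟨(i1, i2), Prod.ext e1.symm e2.symm⟩

/-- `star U (f x) = ∑_y amp x y • f y`, and the support lies in the box `M` by amp_supp. -/
theorem entry_conj (f : HilbertBasis (Occ n × Occ n) ℂ K) {c s : ℝ} {U : K →L[ℂ] K}
    (hU : ∀ x y, entry f U x y = (amp c s x y : ℝ)) (σ : K →L[ℂ] K) (M : ℕ)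
    (i i' : Box n (2 * M) × Box n (2 * M)) (hi : ∀ j, occ i.1 j + occ i.2 j ≤ M)
    (hi' : ∀ j, occ i'.1 j + occ i'.2 j ≤ M) :
    entry f (U * σ * star U) (occ i.1, occ i.2) (occ i'.1, occ i'.2)
      = (Vb n M c s * (Matrix.of fun y y' : Box n M × Box n M =>
          entry f σ (occ y.1, occ y.2) (occ y'.1, occ y'.2)) * (Vb n M c s)ᴴ) i i' := by
  have e : entry f (U * σ * star U) (occ i.1, occ i.2) (occ i'.1, occ i'.2)
      = inner ℂ (star U (f (occ i.1, occ i.2))) (σ (star U (f (occ i'.1, occ i'.2)))) := by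
    rw [entry, ContinuousLinearMap.star_eq_adjoint, ContinuousLinearMap.adjoint_inner_left]
    rfl
  rw [e, star_basis_eq f hU M _ hi, star_basis_eq f hU M _ hi', map_sum, inner_sum,
    Matrix.mul_apply]
  refine Finset.sum_congr rfl fun y' _ => ?_
  rw [map_smul, inner_smul_right, sum_inner, Matrix.mul_apply, Vb_conjTranspose_apply, mul_comm]
  congr 1
  refine Finset.sum_congr rfl fun y _ => ?_
  rw [inner_smul_left, Complex.conj_ofReal]
  rfl

end Vale.Agent.P369
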