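import Vale.Agent.P369.Amp

/-! The beam splitter on a box of occupation numbers (task P369-Box, part 2). -/

namespace Vale.Agent.P369

open Matrix Finset
open scoped ComplexOrder Kronecker

variable {n M : ℕ}

lemma sum_box_ite (u : Occ n) (F : Occ n → ℂ) :
    ∑ i : Box n M, (if occ i = u then F (occ i) else 0) = if ∀ j, u j ≤ M then F u else 0 := by
  split_ifs with h
  · obtain ⟨i0, rfl⟩ := exists_occ h
    simp [occ_injective.eq_iff]
  · refine Finset.sum_eq_zero fun i _ => if_neg ?_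
    rintro rfl
    exact h (occ_le i)

lemma add_single_le_iff (j : Fin n) (k : Box n M) :
    (∀ i, (occ k + Pi.single j 1 : Occ n) i ≤ M) ↔ occ k j < M := by
  constructor
  · intro h
    have := h j
    simp only [Pi.add_apply, Pi.single_eq_same] at this
    omega
  · intro h i
    by_cases hi : i = j
    · subst hi
      simp only [Pi.add_apply, Pi.single_eq_same]
      omega
    · simp only [Pi.add_apply, Pi.single_eq_of_ne hi, add_zero]
      exact occ_le k i

lemma sum_ann_mul (j : Fin n) (k : Box n M) (F : Occ n → ℂ) :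
    ∑ i, ann n M j k i * F (occ i)
      = if occ k j < M then ((√((occ k j : ℝ) + 1) : ℝ) : ℂ) * F (occ k + Pi.single j 1)
        else 0 := by
  have h := sum_box_ite (M := M) (occ k + Pi.single j 1)
    (fun u => ((√(u j : ℝ) : ℝ) : ℂ) * F u)
  simp only [add_single_le_iff] at h
  simp only [Pi.add_apply, Pi.single_eq_same, Nat.cast_add, Nat.cast_one] at h
  rw [← h]
  refine Finset.sum_congr rfl fun i _ => ?_
  simp only [ann, ite_mul, zero_mul]

lemma ann_eq (j : Fin n) (i l : Box n M) :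
    ann n M j i l
      = if occ i = occ l - Pi.single j 1 then ((√(occ l j : ℝ) : ℝ) : ℂ) else 0 := by
  unfold ann
  by_cases h0 : occ l j = 0
  · simp [h0]
  · refine if_congr ⟨fun h => ?_, fun h => ?_⟩ rfl rfl
    · rw [h, add_single_sub]
    · rw [h, sub_single_add h0]

lemma sum_mul_ann (j : Fin n) (l : Box n M) (F : Occ n → ℂ) :
    ∑ i, F (occ i) * ann n M j i l
      = ((√(occ l j : ℝ) : ℝ) : ℂ) * F (occ l - Pi.single j 1) := by
  have h := sum_box_ite (M := M) (occ l - Pi.single j 1)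
    (fun u => ((√(occ l j : ℝ) : ℝ) : ℂ) * F u)
  have h1 : ∀ i, (occ l - Pi.single j 1 : Occ n) i ≤ M :=
    fun i => (Nat.sub_le _ _).trans (occ_le l i)
  rw [if_pos h1] at h
  rw [← h]
  refine Finset.sum_congr rfl fun i _ => ?_
  rw [ann_eq]
  split_ifs <;> simp [mul_comm]

lemma star_ann (j : Fin n) (k l : Box n M) : star (ann n M j k l) = ann n M j k l := by
  unfold ann
  split_ifs <;> simp

theorem ann_mul_apply (j : Fin n) (C : Matrix (Box n M) (Box n M) ℂ) (k l : Box n M) :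
    (ann n M j * C) k l
      = ((√((occ k j : ℝ) + 1) : ℝ) : ℂ) * zext occ C (occ k + Pi.single j 1) (occ l) := by
  have h := sum_ann_mul j k (fun u => zext occ C u (occ l))
  simp only [zext_apply occ_injective] at h
  rw [Matrix.mul_apply, h]
  split_ifs with h'
  · rfl
  · rw [zext_left, mul_zero]
    intro i hi
    exact h' ((add_single_le_iff j k).mp (hi ▸ occ_le i))

theorem mul_ann_apply (j : Fin n) (C : Matrix (Box n M) (Box n M) ℂ) (k l : Box n M) :
    (C * ann n M j) k l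
      = ((√(occ l j : ℝ) : ℝ) : ℂ) * zext occ C (occ k) (occ l - Pi.single j 1) := by
  have h := sum_mul_ann j l (fun u => zext occ C (occ k) u)
  simp only [zext_apply occ_injective] at h
  rw [Matrix.mul_apply, h]

theorem annH_mul_ann (j : Fin n) :
    (ann n M j)ᴴ * ann n M j = rdiag (fun k => (occ k j : ℝ)) := by
  ext k l
  have h := sum_mul_ann j l
    (fun u => if u = occ k - Pi.single j 1 then ((√(occ k j : ℝ) : ℝ) : ℂ) else 0)
  simp only [← ann_eq] at h
  simp only [Matrix.mul_apply, conjTranspose_apply, star_ann, h, rdiag, diagonal_apply]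
  by_cases hkl : k = l
  · subst hkl
    simp only [if_true]
    rw [← Complex.ofReal_mul, Real.mul_self_sqrt (by positivity)]
  · rw [if_neg hkl]
    by_cases hk : occ k j = 0
    · simp [hk]
    by_cases hl : occ l j = 0
    · simp [hl]
    rw [if_neg, mul_zero]
    intro h'
    apply hkl
    apply occ_injective
    rw [← sub_single_add hk, ← h', sub_single_add hl]

theorem ann_mul_annH (j : Fin n) :
    ann n M j * (ann n M j)ᴴ = rdiag (fun k => if occ k j < M then (occ k j : ℝ) + 1 else 0) := by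
  ext k l
  have h := sum_ann_mul j k
    (fun u => if u = occ l + Pi.single j 1 then ((√(u j : ℝ) : ℝ) : ℂ) else 0)
  have e : ∀ i, (if occ i = occ l + Pi.single j 1 then ((√(occ i j : ℝ) : ℝ) : ℂ) else 0)
      = ann n M j l i := fun i => rfl
  simp only [e] at h
  simp only [Matrix.mul_apply, conjTranspose_apply, star_ann, h, rdiag, diagonal_apply,
    add_left_inj, occ_injective.eq_iff]
  by_cases hkl : k = l
  · subst hkl
    simp only [if_true, Pi.add_apply, Pi.single_eq_same, Nat.cast_add, Nat.cast_one]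
    split_ifs
    · rw [← Complex.ofReal_mul, Real.mul_self_sqrt (by positivity)]
    · simp
  · simp [hkl]

theorem ann_comm_Hn (j : Fin n) : ann n M j * Hn n M - Hn n M * ann n M j = ann n M j := by
  ext k l
  simp only [Hn, rdiag, Matrix.sub_apply, mul_diagonal, diagonal_mul, ann]
  split_ifs with h
  · have : ∑ i, (occ l i : ℝ) = ∑ i, (occ k i : ℝ) + 1 := by
      have : ∑ i, occ l i = ∑ i, occ k i + 1 := by
        rw [h]; simp [Finset.sum_add_distrib]
      exact_mod_cast this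
    rw [this]; push_cast; ring
  · simp

theorem fro2_ann_le (j : Fin n) : fro2 (ann n M j) ≤ ((M : ℝ) + 1) ^ (n + 1) := by
  rw [fro2_eq_trace, annH_mul_ann]
  have h := trace_mul_rdiag (1 : Matrix (Box n M) (Box n M) ℂ) (fun k => (occ k j : ℝ))
  rw [Matrix.one_mul] at h
  rw [h]
  calc ∑ k : Box n M, (occ k j : ℝ) * ((1 : Matrix (Box n M) (Box n M) ℂ) k k).re
      ≤ ∑ _k : Box n M, ((M : ℝ) + 1) := by
        refine Finset.sum_le_sum fun k _ => ?_
        have : (occ k j : ℝ) ≤ M := by exact_mod_cast occ_le k j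
        simp only [one_apply_eq, Complex.one_re, mul_one]
        linarith
    _ = ((M : ℝ) + 1) ^ (n + 1) := by
        simp [pow_succ, mul_add]

section kron
variable {A B C D E : Type} [Fintype A] [Fintype B] [Fintype C] [Fintype D]
  [DecidableEq A] [DecidableEq B] [DecidableEq C] [DecidableEq D]

omit [Fintype A] [Fintype B] [DecidableEq A] [DecidableEq B] [DecidableEq C] in
lemma kron_one_mul_apply {C' : Type} (b : Matrix C' C ℂ) (V : Matrix (C × D) E ℂ) (x : C' × D)
    (y : E) : ((b ⊗ₖ (1 : Matrix D D ℂ)) * V) x y = ∑ z, b x.1 z * V (z, x.2) y := by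
  simp [Matrix.mul_apply, Fintype.sum_prod_type, kroneckerMap_apply, Matrix.one_apply]

omit [Fintype A] [Fintype B] [DecidableEq A] [DecidableEq B] [DecidableEq D] in
lemma one_kron_mul_apply {D' : Type} (d : Matrix D' D ℂ) (V : Matrix (C × D) E ℂ) (x : C × D')
    (y : E) : (((1 : Matrix C C ℂ) ⊗ₖ d) * V) x y = ∑ z, d x.2 z * V (x.1, z) y := by
  simp [Matrix.mul_apply, Fintype.sum_prod_type, kroneckerMap_apply, Matrix.one_apply]

omit [Fintype A] [Fintype B] [DecidableEq A] [DecidableEq B] [DecidableEq C] in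
lemma mul_kron_one_apply {C' : Type} (b : Matrix C C' ℂ) (V : Matrix E (C × D) ℂ) (x : E)
    (y : C' × D) : (V * (b ⊗ₖ (1 : Matrix D D ℂ))) x y = ∑ z, V x (z, y.2) * b z y.1 := by
  simp [Matrix.mul_apply, Fintype.sum_prod_type, kroneckerMap_apply, Matrix.one_apply]

omit [Fintype A] [Fintype B] [DecidableEq A] [DecidableEq B] [DecidableEq D] in
lemma mul_one_kron_apply {D' : Type} (d : Matrix D D' ℂ) (V : Matrix E (C × D) ℂ) (x : E)
    (y : C × D') : (V * ((1 : Matrix C C ℂ) ⊗ₖ d)) x y = ∑ z, V x (y.1, z) * d z y.2 := by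
  simp [Matrix.mul_apply, Fintype.sum_prod_type, kroneckerMap_apply, Matrix.one_apply]

end kron

lemma amp_box_zero {c s : ℝ} {u : Occ n × Occ n} (y : Box n M × Box n M)
    (h : ¬ ((∀ j, u.1 j ≤ 2 * M) ∧ ∀ j, u.2 j ≤ 2 * M)) : amp c s u (occ y.1, occ y.2) = 0 := by
  by_contra h'
  have h2 := amp_supp c s h'
  apply h
  constructor <;> intro j <;> have h3 := congrFun h2 j <;> have h4 := occ_le y.1 j <;>
    have h5 := occ_le y.2 j <;> simp only [Pi.add_apply] at h3 <;> omega

lemma Vb_conjTranspose_apply (c s : ℝ) (y : Box n M × Box n M)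
    (x : Box n (2 * M) × Box n (2 * M)) :
    (Vb n M c s)ᴴ y x = (amp c s (occ x.1, occ x.2) (occ y.1, occ y.2) : ℝ) := by
  simp [conjTranspose_apply, Vb]

lemma occPair_injective :
    Function.Injective (fun x : Box n M × Box n M => ((occ x.1, occ x.2) : Occ n × Occ n)) := by
  intro x y h
  simp only [Prod.mk.injEq] at h
  exact Prod.ext (occ_injective h.1) (occ_injective h.2)

lemma Vb_iso_aux (n M : ℕ) {c s : ℝ} (hcs : c ^ 2 + s ^ 2 = 1) :
    (Vb n M c s)ᴴ * Vb n M c s = 1 := by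
  ext y y'
  have h := amp_orth_col c s hcs (occ y.1, occ y.2) (occ y'.1, occ y'.2)
  have h2 := ((occPair_injective (n := n) (M := 2 * M)).hasSum_iff
    (f := fun x => amp c s x (occ y.1, occ y.2) * amp c s x (occ y'.1, occ y'.2)) (by
      intro x hx
      rw [amp_box_zero y, zero_mul]
      rintro ⟨h1, h2⟩
      obtain ⟨i1, e1⟩ := exists_occ h1
      obtain ⟨i2, e2⟩ := exists_occ h2
      exact hx ⟨(i1, i2), Prod.ext e1 e2⟩)).mpr h
  have h3 := (hasSum_fintype _).unique h2
  have e : (((occ y.1, occ y.2) : Occ n × Occ n) = (occ y'.1, occ y'.2)) ↔ y = y' :=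
    (occPair_injective (n := n) (M := M)).eq_iff
  simp only [Function.comp, e] at h3
  rw [Matrix.mul_apply, Matrix.one_apply]
  simp only [Vb_conjTranspose_apply]
  simp only [Vb, ← Complex.ofReal_mul, ← Complex.ofReal_sum, h3]
  split_ifs <;> simp

lemma one_sub_top (j : Fin n) :
    1 - top n M j = rdiag (fun k : Box n M => if occ k j < M then 1 else 0) := by
  ext k l
  simp only [top, rdiag, Matrix.sub_apply, Matrix.one_apply, diagonal_apply]
  have := occ_le k j
  by_cases hkl : k = l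
  · by_cases h : occ k j = M
    · simp [hkl ▸ h, hkl]
    · have h' : occ k j < M := by omega
      subst hkl
      simp [h, h']
  · simp [hkl]

lemma top_mul_top (j : Fin n) : top n M j * top n M j = top n M j := by
  simp only [top, rdiag, diagonal_mul_diagonal]
  congr 1
  funext k
  split_ifs <;> simp

lemma top_mul_ann (j : Fin n) : top n M j * ann n M j = 0 := by
  ext k l
  simp only [top, rdiag, diagonal_mul, ann, Matrix.zero_apply]
  by_cases h : occ k j = M
  · rw [if_neg (c := occ l = occ k + Pi.single j 1), mul_zero]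
    intro h'
    have h1 := congrFun h' j
    have h2 := occ_le l j
    simp only [Pi.add_apply, Pi.single_eq_same] at h1
    omega
  · simp [h]

lemma Vb_mul_annA (c s : ℝ) (j : Fin n) (x : Box n (2 * M) × Box n (2 * M))
    (y : Box n M × Box n M) :
    (Vb n M c s * (ann n M j ⊗ₖ (1 : Matrix (Box n M) (Box n M) ℂ))) x y
      = ((√(occ y.1 j : ℝ) * amp c s (occ x.1, occ x.2) (occ y.1 - Pi.single j 1, occ y.2) : ℝ) :
        ℂ) := by
  rw [mul_kron_one_apply, Complex.ofReal_mul]
  exact sum_mul_ann j y.1 (fun u => (amp c s (occ x.1, occ x.2) (u, occ y.2) : ℝ))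

lemma Vb_mul_annB (c s : ℝ) (j : Fin n) (x : Box n (2 * M) × Box n (2 * M))
    (y : Box n M × Box n M) :
    (Vb n M c s * ((1 : Matrix (Box n M) (Box n M) ℂ) ⊗ₖ ann n M j)) x y
      = ((√(occ y.2 j : ℝ) * amp c s (occ x.1, occ x.2) (occ y.1, occ y.2 - Pi.single j 1) : ℝ) :
        ℂ) := by
  rw [mul_one_kron_apply, Complex.ofReal_mul]
  exact sum_mul_ann j y.2 (fun u => (amp c s (occ x.1, occ x.2) (occ y.1, u) : ℝ))

lemma annA_mul_Vb (c s : ℝ) (j : Fin n) (x : Box n (2 * M) × Box n (2 * M))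
    (y : Box n M × Box n M) :
    ((ann n (2 * M) j ⊗ₖ (1 : Matrix (Box n (2 * M)) (Box n (2 * M)) ℂ)) * Vb n M c s) x y
      = ((√((occ x.1 j : ℝ) + 1) *
          amp c s (occ x.1 + Pi.single j 1, occ x.2) (occ y.1, occ y.2) : ℝ) : ℂ) := by
  rw [kron_one_mul_apply, Complex.ofReal_mul]
  refine (sum_ann_mul j x.1 (fun u => (amp c s (u, occ x.2) (occ y.1, occ y.2) : ℝ))).trans ?_
  split_ifs with h
  · rfl
  · rw [amp_box_zero y (fun h' => h ((add_single_le_iff j x.1).mp h'.1))]; simp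

lemma annB_mul_Vb (c s : ℝ) (j : Fin n) (x : Box n (2 * M) × Box n (2 * M))
    (y : Box n M × Box n M) :
    (((1 : Matrix (Box n (2 * M)) (Box n (2 * M)) ℂ) ⊗ₖ ann n (2 * M) j) * Vb n M c s) x y
      = ((√((occ x.2 j : ℝ) + 1) *
          amp c s (occ x.1, occ x.2 + Pi.single j 1) (occ y.1, occ y.2) : ℝ) : ℂ) := by
  rw [one_kron_mul_apply, Complex.ofReal_mul]
  refine (sum_ann_mul j x.2 (fun u => (amp c s (occ x.1, u) (occ y.1, occ y.2) : ℝ))).trans ?_
  split_ifs with h
  · rfl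
  · rw [amp_box_zero y (fun h' => h ((add_single_le_iff j x.2).mp h'.2))]; simp

lemma VbH_mul_annA (c s : ℝ) (j : Fin n) (y : Box n M × Box n M)
    (x : Box n (2 * M) × Box n (2 * M)) :
    ((Vb n M c s)ᴴ * (ann n (2 * M) j ⊗ₖ (1 : Matrix (Box n (2 * M)) (Box n (2 * M)) ℂ))) y x
      = ((√(occ x.1 j : ℝ) * amp c s (occ x.1 - Pi.single j 1, occ x.2) (occ y.1, occ y.2) : ℝ) :
        ℂ) := by
  rw [mul_kron_one_apply, Complex.ofReal_mul]
  simp only [Vb_conjTranspose_apply]
  exact sum_mul_ann j x.1 (fun u => (amp c s (u, occ x.2) (occ y.1, occ y.2) : ℝ))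

lemma VbH_mul_annB (c s : ℝ) (j : Fin n) (y : Box n M × Box n M)
    (x : Box n (2 * M) × Box n (2 * M)) :
    ((Vb n M c s)ᴴ * ((1 : Matrix (Box n (2 * M)) (Box n (2 * M)) ℂ) ⊗ₖ ann n (2 * M) j)) y x
      = ((√(occ x.2 j : ℝ) * amp c s (occ x.1, occ x.2 - Pi.single j 1) (occ y.1, occ y.2) : ℝ) :
        ℂ) := by
  rw [mul_one_kron_apply, Complex.ofReal_mul]
  simp only [Vb_conjTranspose_apply]
  exact sum_mul_ann j x.2 (fun u => (amp c s (occ x.1, u) (occ y.1, occ y.2) : ℝ))

lemma sum_rdiag_mul {A : Type} [Fintype A] [DecidableEq A] (p : A → ℝ) (k : A) (F : A → ℂ) :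
    ∑ z, rdiag p k z * F z = p k * F k := by
  simp [rdiag, diagonal_apply]

/-- iso from amp_orth_col (the support of a column lies in the box `2M`); r1, r1' from
amp_annA, amp_annB; r2, r2' are the adjoints of amp_creA, amp_creB. -/
theorem rel_box (n M : ℕ) {c s : ℝ} (hcs : c ^ 2 + s ^ 2 = 1) (j : Fin n) :
    Rel c s (Vb n M c s) (ann n M j) (top n M j) (ann n M j) (top n M j)
      (ann n (2 * M) j) (ann n (2 * M) j) := by
  refine ⟨hcs, Vb_iso_aux n M hcs, ?_, ?_, ?_, ?_, rdiag_conjTranspose _, top_mul_top j,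
    top_mul_ann j, rdiag_conjTranspose _, top_mul_top j, top_mul_ann j⟩
  · ext x y
    rw [Matrix.mul_add, Matrix.mul_smul, Matrix.mul_smul, Matrix.add_apply, Matrix.smul_apply,
      Matrix.smul_apply, annA_mul_Vb, Vb_mul_annA, Vb_mul_annB,
      amp_annA c s j (occ x.1, occ x.2) (occ y.1, occ y.2)]
    simp only [smul_eq_mul]
    push_cast; ring
  · ext x y
    rw [Matrix.mul_sub, Matrix.mul_smul, Matrix.mul_smul, Matrix.sub_apply, Matrix.smul_apply,
      Matrix.smul_apply, annB_mul_Vb, Vb_mul_annA, Vb_mul_annB,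
      amp_annB c s j (occ x.1, occ x.2) (occ y.1, occ y.2)]
    simp only [smul_eq_mul]
    push_cast; ring
  · ext y x
    rw [Matrix.mul_assoc, kron_one_mul_apply, kron_one_mul_apply, one_sub_top, sum_rdiag_mul,
      Matrix.mul_sub, Matrix.mul_smul, Matrix.mul_smul, Matrix.sub_apply, Matrix.smul_apply,
      Matrix.smul_apply, VbH_mul_annA, VbH_mul_annB]
    simp only [Vb_conjTranspose_apply]
    refine (sum_ann_mul j y.1 (fun u => (amp c s (occ x.1, occ x.2) (u, occ y.2) : ℝ))).trans ?_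
    split_ifs with h
    · rw [← Complex.ofReal_mul, amp_creA c s j (occ x.1, occ x.2) (occ y.1, occ y.2)]
      simp only [smul_eq_mul]
      push_cast; ring
    · simp
  · ext y x
    rw [Matrix.mul_assoc, one_kron_mul_apply, one_kron_mul_apply, one_sub_top, sum_rdiag_mul,
      Matrix.mul_add, Matrix.mul_smul, Matrix.mul_smul, Matrix.add_apply, Matrix.smul_apply,
      Matrix.smul_apply, VbH_mul_annA, VbH_mul_annB]
    simp only [Vb_conjTranspose_apply]
    refine (sum_ann_mul j y.2 (fun u => (amp c s (occ x.1, occ x.2) (occ y.1, u) : ℝ))).trans ?_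
    split_ifs with h
    · rw [← Complex.ofReal_mul, amp_creB c s j (occ x.1, occ x.2) (occ y.1, occ y.2)]
      simp only [smul_eq_mul]
      push_cast; ring
    · simp

theorem Vb_iso (n M : ℕ) {c s : ℝ} (hcs : c ^ 2 + s ^ 2 = 1) :
    (Vb n M c s)ᴴ * Vb n M c s = 1 := by
  exact Vb_iso_aux n M hcs

/-- number conservation: `diag(h) V = V diag(h)` by amp_supp, then cyclicity of the trace. -/
theorem Vb_energy {c s : ℝ} (hcs : c ^ 2 + s ^ 2 = 1)
    (W : Matrix (Box n M × Box n M) (Box n M × Box n M) ℂ) :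
    ∑ x, (∑ j, (occ x.1 j : ℝ) + ∑ j, (occ x.2 j : ℝ)) *
        ((Vb n M c s * W * (Vb n M c s)ᴴ) x x).re
      = ∑ y, (∑ j, (occ y.1 j : ℝ) + ∑ j, (occ y.2 j : ℝ)) * (W y y).re := by
  have hD : rdiag (fun x : Box n (2 * M) × Box n (2 * M) =>
        ∑ j, (occ x.1 j : ℝ) + ∑ j, (occ x.2 j : ℝ)) * Vb n M c s
      = Vb n M c s * rdiag (fun y : Box n M × Box n M =>
        ∑ j, (occ y.1 j : ℝ) + ∑ j, (occ y.2 j : ℝ)) := by
    ext x y
    simp only [rdiag, diagonal_mul, mul_diagonal, Vb]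
    by_cases h : amp c s (occ x.1, occ x.2) (occ y.1, occ y.2) = 0
    · simp [h]
    · have h2 := amp_supp c s h
      have h3 : ∑ j, (occ x.1 j : ℝ) + ∑ j, (occ x.2 j : ℝ)
          = ∑ j, (occ y.1 j : ℝ) + ∑ j, (occ y.2 j : ℝ) := by
        rw [← Finset.sum_add_distrib, ← Finset.sum_add_distrib]
        refine Finset.sum_congr rfl fun j _ => ?_
        have := congrFun h2 j
        simp only [Pi.add_apply] at this
        exact_mod_cast this
      rw [h3, mul_comm]
  rw [← trace_mul_rdiag, ← trace_mul_rdiag, Matrix.mul_assoc, Matrix.mul_assoc,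
    trace_mul_comm (Vb n M c s), Matrix.mul_assoc, Matrix.mul_assoc, hD,
    ← Matrix.mul_assoc (Vb n M c s)ᴴ, Vb_iso n M hcs, Matrix.one_mul]

lemma psd_entry_sq_le {A : Type} {X : Matrix A A ℂ} (hX : X.PosSemidef) (k l : A) :
    ‖X k l‖ ^ 2 ≤ (X k k).re * (X l l).re := by
  have h := (hX.submatrix ![k, l]).det_nonneg
  rw [det_fin_two] at h
  simp only [submatrix_apply, cons_val_zero, cons_val_one] at h
  have h1 : X l k = star (X k l) := (hX.1.apply l k).symm
  have hk : (X k k).im = 0 := (Complex.nonneg_iff.mp (hX.diag_nonneg (i := k))).2.symm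
  have h2 := (Complex.nonneg_iff.mp h).1
  rw [h1, Complex.sub_re, Complex.mul_re, hk, zero_mul, sub_zero, Complex.star_def,
    Complex.mul_conj, Complex.ofReal_re, Complex.normSq_eq_norm_sq] at h2
  linarith

lemma psd_entry_le {A : Type} {X : Matrix A A ℂ} (hX : X.PosSemidef) (k l : A) :
    ‖X k l‖ ≤ ((X k k).re + (X l l).re) / 2 := by
  have h := psd_entry_sq_le hX k l
  have hk := P358.diag_re_nonneg hX k
  have hl := P358.diag_re_nonneg hX l
  refine abs_le_of_sq_le_sq' ?_ (by positivity) |>.2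
  nlinarith [sq_nonneg ((X k k).re - (X l l).re)]

lemma ann_comm_Gam (γ : ℝ) (j : Fin n) :
    ann n M j * Gam n M γ - Gam n M γ * ann n M j
      = ((γ - 1 : ℝ) : ℂ) • (rdiag (fun k : Box n M => γ ^ occ k j) * ann n M j) := by
  ext k l
  simp only [Gam, rdiag, Matrix.sub_apply, mul_diagonal, diagonal_mul, ann, Matrix.smul_apply,
    smul_eq_mul]
  split_ifs with h
  · have : ∑ i, γ ^ occ l i = ∑ i, γ ^ occ k i + (γ - 1) * γ ^ occ k j := by
      rw [← Finset.add_sum_erase univ _ (mem_univ j),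
        ← Finset.add_sum_erase univ (fun i => γ ^ occ k i) (mem_univ j)]
      have e : ∑ i ∈ univ.erase j, γ ^ occ l i = ∑ i ∈ univ.erase j, γ ^ occ k i := by
        refine Finset.sum_congr rfl fun i hi => ?_
        rw [h]; simp [Pi.single_eq_of_ne (ne_of_mem_erase hi)]
      rw [e, h]
      simp only [Pi.add_apply, Pi.single_eq_same, pow_succ]
      ring
    rw [this]; push_cast; ring
  · simp

lemma rdiag_mul_ann (f : ℕ → ℝ) (j : Fin n) :
    rdiag (fun k : Box n M => f (occ k j)) * ann n M j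
      = ann n M j * rdiag (fun k : Box n M => f (occ k j - 1)) := by
  ext k l
  simp only [rdiag, mul_diagonal, diagonal_mul, ann]
  split_ifs with h
  · have : occ l j - 1 = occ k j := by rw [h]; simp
    rw [this, mul_comm]
  · simp

lemma rdiag_mul_rdiag {A : Type} [Fintype A] [DecidableEq A] (p q : A → ℝ) :
    rdiag p * rdiag q = rdiag (fun k => p k * q k) := by
  simp [rdiag, diagonal_mul_diagonal]

lemma single_le_pen {γ : ℝ} (hγ : 0 ≤ γ) (j : Fin n) (k : Box n M) :
    γ ^ occ k j ≤ ∑ i, γ ^ occ k i :=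
  Finset.single_le_sum (f := fun i => γ ^ occ k i) (fun i _ => by positivity) (mem_univ j)

lemma sum_ite_le {A : Type} [Fintype A] (P : A → Prop) [DecidablePred P]
    (hP : ∀ a b, P a → P b → a = b) {t : ℝ} (ht : 0 ≤ t) :
    ∑ a, (if P a then t else 0) ≤ t := by
  by_cases h : ∃ a, P a
  · obtain ⟨a, ha⟩ := h
    rw [Finset.sum_eq_single a, if_pos ha]
    · intro b _ hb
      exact if_neg fun hb' => hb (hP _ _ hb' ha)
    · simp
  · push Not at h
    simp [h, ht]

/-- `[a, Γ] = (γ-1) diag(γ^(k j)) a`; Cauchy-Schwarz in the state `X`: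
`|tr X g a|² ≤ tr X g · tr X a† g a`, `a† g a = diag(k_j γ^(k_j - 1)) ≤ M Γ`. -/
theorem penalty_mean {γ : ℝ} (hγ : 1 ≤ γ) (j : Fin n) {X : Matrix (Box n M) (Box n M) ℂ}
    (hX : X.PosSemidef) :
    ‖(X * (ann n M j * Gam n M γ - Gam n M γ * ann n M j)).trace‖
      ≤ (γ - 1) * √(M : ℝ) * pen γ X := by
  have hγ0 : 0 ≤ γ := by linarith
  rw [ann_comm_Gam, Matrix.mul_smul, trace_smul, norm_smul, Complex.norm_real,
    Real.norm_of_nonneg (by linarith), mul_assoc]
  refine mul_le_mul_of_nonneg_left ?_ (by linarith)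
  have hd := P358.diag_re_nonneg hX
  set w : Box n M → ℝ := fun k => √(M : ℝ) * ((∑ i, γ ^ occ k i) * (X k k).re) / 2 with hw
  have hw0 : ∀ k, 0 ≤ w k := fun k => by
    have := hd k
    simp only [hw]; positivity
  have key : ∀ l k, ‖X l k * (rdiag (fun k : Box n M => γ ^ occ k j) * ann n M j) k l‖
      ≤ (if occ l = occ k + Pi.single j 1 then w l else 0)
        + (if occ l = occ k + Pi.single j 1 then w k else 0) := by
    intro l k
    simp only [rdiag, diagonal_mul, ann]
    split_ifs with h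
    · rw [norm_mul, norm_mul, Complex.norm_real, Complex.norm_real,
        Real.norm_of_nonneg (by positivity), Real.norm_of_nonneg (by positivity)]
      have h1 := psd_entry_le hX l k
      have h2 : √(occ l j : ℝ) ≤ √(M : ℝ) := Real.sqrt_le_sqrt (by exact_mod_cast occ_le l j)
      have h3 : γ ^ occ k j ≤ ∑ i, γ ^ occ l i := by
        refine le_trans ?_ (single_le_pen hγ0 j l)
        refine pow_le_pow_right₀ hγ ?_
        rw [h]; simp
      have h4 := single_le_pen hγ0 j k
      have h5 := hd l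
      have h6 := hd k
      calc ‖X l k‖ * (γ ^ occ k j * √(occ l j : ℝ))
          ≤ ((X l l).re + (X k k).re) / 2 * (γ ^ occ k j * √(M : ℝ)) := by gcongr
        _ = √(M : ℝ) * (γ ^ occ k j * (X l l).re) / 2
            + √(M : ℝ) * (γ ^ occ k j * (X k k).re) / 2 := by ring
        _ ≤ w l + w k := by simp only [hw]; gcongr
    · simp
  calc ‖(X * (rdiag (fun k : Box n M => γ ^ occ k j) * ann n M j)).trace‖
      = ‖∑ l, ∑ k, X l k * (rdiag (fun k : Box n M => γ ^ occ k j) * ann n M j) k l‖ := by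
        simp only [trace, diag_apply, Matrix.mul_apply (M := X)]
    _ ≤ ∑ l, ∑ k, ((if occ l = occ k + Pi.single j 1 then w l else 0)
        + (if occ l = occ k + Pi.single j 1 then w k else 0)) :=
        (norm_sum_le _ _).trans (Finset.sum_le_sum fun l _ =>
          (norm_sum_le _ _).trans (Finset.sum_le_sum fun k _ => key l k))
    _ ≤ ∑ l, w l + ∑ k, w k := by
        simp only [Finset.sum_add_distrib]
        refine add_le_add (Finset.sum_le_sum fun l _ => ?_) ?_
        · refine sum_ite_le _ (fun a b ha hb => occ_injective ?_) (hw0 l)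
          exact add_right_cancel (ha.symm.trans hb)
        · rw [Finset.sum_comm]
          refine Finset.sum_le_sum fun k _ => ?_
          exact sum_ite_le _ (fun a b ha hb => occ_injective (ha.trans hb.symm)) (hw0 k)
    _ = √(M : ℝ) * pen γ X := by
        simp only [hw, pen, Finset.mul_sum _ _ (√(M : ℝ)), ← Finset.sum_add_distrib]
        exact Finset.sum_congr rfl fun k _ => by ring

lemma drift_scalar {γ r : ℝ} (hγ : 1 ≤ γ) (hr : 0 < r) (hrγ : r * γ < r + 1) :
    ∃ K : ℝ, 0 ≤ K ∧ ∀ m : ℕ,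
      r * (((m : ℝ) + 1) * γ ^ m) - (r + 1) * (m * γ ^ (m - 1)) ≤ K := by
  have hγ0 : 0 < γ := by linarith
  obtain ⟨N, hN⟩ := exists_nat_ge (r * γ / (r + 1 - r * γ))
  have hN' : r * γ ≤ N * (r + 1 - r * γ) := by
    rwa [div_le_iff₀ (by linarith)] at hN
  refine ⟨r * γ ^ N, by positivity, fun m => ?_⟩
  cases m with
  | zero =>
    have : 1 ≤ γ ^ N := one_le_pow₀ hγ
    simp only [Nat.cast_zero, zero_add, pow_zero, mul_one, zero_mul, mul_zero, sub_zero]
    nlinarith
  | succ m =>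
    rw [Nat.add_sub_cancel, pow_succ]
    push_cast
    have hp : 0 < γ ^ m := by positivity
    have e : r * (((m : ℝ) + 1 + 1) * (γ ^ m * γ)) - (r + 1) * ((m + 1) * γ ^ m)
        = γ ^ m * (r * γ - (m + 1) * (r + 1 - r * γ)) := by ring
    rw [e]
    by_cases hm : N ≤ m + 1
    · have h1 : (N : ℝ) ≤ m + 1 := by exact_mod_cast hm
      have h2 : r * γ - (m + 1) * (r + 1 - r * γ) ≤ 0 := by nlinarith
      have : 0 ≤ r * γ ^ N := by positivity
      nlinarith
    · have h1 : γ ^ (m + 1) ≤ γ ^ N := pow_le_pow_right₀ hγ (by omega)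
      rw [pow_succ] at h1
      have h2 : 0 ≤ ((m : ℝ) + 1) * (r + 1 - r * γ) := by
        have : 0 ≤ r + 1 - r * γ := by linarith
        positivity
      nlinarith

/-- the trace equals ` (γ-1) ∑_k X_kk [(r+1) k_j γ^(k_j-1) - r (k_j+1) γ^(k_j) 1(k_j<M)]` and the
bracket is bounded below uniformly in `k_j` because `rγ < r+1`. -/
theorem penalty_drift {γ r : ℝ} (hγ : 1 ≤ γ) (hr : 0 < r) (hrγ : r * γ < r + 1) :
    ∃ K : ℝ, 0 ≤ K ∧ ∀ (n M : ℕ) (j : Fin n) (X : Matrix (Box n M) (Box n M) ℂ), DState X →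
      -(((ann n M j * Gam n M γ - Gam n M γ * ann n M j)ᴴ * Jop r (ann n M j) X).trace.re)
        ≤ K := by
  obtain ⟨K, hK, hm⟩ := drift_scalar hγ hr hrγ
  refine ⟨(γ - 1) * K, mul_nonneg (by linarith) hK, fun n M j X hX => ?_⟩
  have hγ0 : 0 < γ := by linarith
  have e1 : ((ann n M j)ᴴ * rdiag (fun k : Box n M => γ ^ occ k j) * (ann n M j * X)).trace.re
      = ∑ k, ((occ k j : ℝ) * γ ^ (occ k j - 1)) * (X k k).re := by
    rw [← trace_mul_rdiag, ← rdiag_mul_rdiag, ← annH_mul_ann, trace_mul_comm X,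
      Matrix.mul_assoc (ann n M j)ᴴ (ann n M j), ← rdiag_mul_ann (fun m => γ ^ m)]
    simp only [Matrix.mul_assoc]
  have e2 : ((ann n M j)ᴴ * rdiag (fun k : Box n M => γ ^ occ k j) * (X * ann n M j)).trace.re
      = ∑ k, ((if occ k j < M then (occ k j : ℝ) + 1 else 0) * γ ^ occ k j) * (X k k).re := by
    rw [← trace_mul_rdiag, ← rdiag_mul_rdiag, ← ann_mul_annH, trace_mul_comm _ (X * _)]
    simp only [Matrix.mul_assoc]
  have e3 : ((ann n M j * Gam n M γ - Gam n M γ * ann n M j)ᴴ * Jop r (ann n M j) X).trace.re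
      = (γ - 1) * ((r + 1) * ∑ k, ((occ k j : ℝ) * γ ^ (occ k j - 1)) * (X k k).re
        - r * ∑ k, ((if occ k j < M then (occ k j : ℝ) + 1 else 0) * γ ^ occ k j)
          * (X k k).re) := by
    rw [← e1, ← e2, ann_comm_Gam, conjTranspose_smul, conjTranspose_mul, rdiag_conjTranspose, Jop,
      Matrix.smul_mul, Matrix.mul_sub, Matrix.mul_smul, Matrix.mul_smul, trace_smul, trace_sub,
      trace_smul, trace_smul]
    simp only [Complex.star_def, Complex.conj_ofReal, smul_eq_mul, Complex.re_ofReal_mul,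
      Complex.sub_re]
  rw [e3, ← mul_neg]
  refine mul_le_mul_of_nonneg_left ?_ (by linarith)
  have hd := P358.diag_re_nonneg hX.1
  have ht : ∑ k, (X k k).re = 1 := by
    have := congrArg Complex.re hX.2
    simpa [trace] using this
  calc _ = ∑ k, (r * ((if occ k j < M then (occ k j : ℝ) + 1 else 0) * γ ^ occ k j)
          - (r + 1) * ((occ k j : ℝ) * γ ^ (occ k j - 1))) * (X k k).re := by
        rw [neg_sub, Finset.mul_sum, Finset.mul_sum, ← Finset.sum_sub_distrib]
        exact Finset.sum_congr rfl fun k _ => by ring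
    _ ≤ ∑ k, K * (X k k).re := by
        refine Finset.sum_le_sum fun k _ => mul_le_mul_of_nonneg_right ?_ (hd k)
        refine le_trans ?_ (hm (occ k j))
        have : (if occ k j < M then (occ k j : ℝ) + 1 else 0) ≤ (occ k j : ℝ) + 1 := by
          split_ifs
          · exact le_rfl
          · positivity
        gcongr
    _ = K := by rw [← Finset.mul_sum, ht, mul_one]

theorem top_weight {γ : ℝ} (hγ : 0 ≤ γ) (j : Fin n) {X : Matrix (Box n M) (Box n M) ℂ}
    (hX : X.PosSemidef) : γ ^ M * (X * top n M j).trace.re ≤ pen γ X := by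
  rw [top, trace_mul_rdiag, pen, Finset.mul_sum]
  refine Finset.sum_le_sum fun k _ => ?_
  have hd := P358.diag_re_nonneg hX k
  rw [← mul_assoc]
  refine mul_le_mul_of_nonneg_right ?_ hd
  have := single_le_pen hγ j k
  split_ifs with h
  · rw [h] at this
    rwa [mul_one]
  · rw [mul_zero]; exact le_trans (by positivity) this

/-- inclusion of a small box in a large one -/
noncomputable def inc (n K M : ℕ) : Matrix (Box n M) (Box n K) ℂ :=
  fun k l => if occ k = occ l then 1 else 0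

lemma sum_inc_mul {K : ℕ} (k : Box n M) (F : Occ n → ℂ) :
    ∑ l, inc n K M k l * F (occ l) = if ∀ j, occ k j ≤ K then F (occ k) else 0 := by
  rw [← sum_box_ite (M := K)]
  refine Finset.sum_congr rfl fun l _ => ?_
  simp only [inc, ite_mul, one_mul, zero_mul, eq_comm]

lemma sum_mul_inc {K : ℕ} (h : K ≤ M) (l : Box n K) (F : Occ n → ℂ) :
    ∑ k, F (occ k) * inc n K M k l = F (occ l) := by
  have h1 := sum_box_ite (M := M) (occ l) F
  rw [if_pos (fun j => (occ_le l j).trans h)] at h1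
  rw [← h1]
  refine Finset.sum_congr rfl fun k _ => ?_
  simp only [inc, mul_ite, mul_one, mul_zero]

lemma rdiag_mul_inc {K : ℕ} (f : Occ n → ℝ) :
    rdiag (fun k : Box n M => f (occ k)) * inc n K M
      = inc n K M * rdiag (fun k : Box n K => f (occ k)) := by
  ext k l
  simp only [rdiag, mul_diagonal, diagonal_mul, inc]
  split_ifs with h
  · rw [h, mul_comm]
  · simp

theorem inc_iso {K : ℕ} (h : K ≤ M) : (inc n K M)ᴴ * inc n K M = 1 := by
  ext l l'
  have h1 := sum_mul_inc h l' (fun u => if u = occ l then 1 else 0)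
  rw [Matrix.mul_apply, Matrix.one_apply]
  simp only [occ_injective.eq_iff] at h1
  rw [show (if l = l' then (1 : ℂ) else 0) = if l' = l then 1 else 0 from if_congr eq_comm rfl rfl,
    ← h1]
  refine Finset.sum_congr rfl fun k _ => ?_
  simp only [conjTranspose_apply, inc]
  split_ifs <;> simp

theorem inc_dstate {K : ℕ} (h : K ≤ M) {X : Matrix (Box n K) (Box n K) ℂ} (hX : DState X) :
    DState (inc n K M * X * (inc n K M)ᴴ) := by
  refine ⟨hX.1.mul_mul_conjTranspose_same _, ?_⟩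
  rw [trace_mul_comm, ← Matrix.mul_assoc, inc_iso h, Matrix.one_mul, hX.2]

lemma trace_inc_rdiag {K : ℕ} (h : K ≤ M) (f : Occ n → ℝ) (X : Matrix (Box n K) (Box n K) ℂ) :
    (inc n K M * X * (inc n K M)ᴴ * rdiag (fun k : Box n M => f (occ k))).trace
      = (X * rdiag (fun k : Box n K => f (occ k))).trace := by
  rw [Matrix.mul_assoc, Matrix.mul_assoc, trace_mul_comm (inc n K M), Matrix.mul_assoc,
    Matrix.mul_assoc, rdiag_mul_inc, ← Matrix.mul_assoc (inc n K M)ᴴ, inc_iso h, Matrix.one_mul]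

theorem en_inc {K : ℕ} (h : K ≤ M) (X : Matrix (Box n K) (Box n K) ℂ) :
    en (inc n K M * X * (inc n K M)ᴴ) = en X := by
  rw [← trace_mul_Hn, ← trace_mul_Hn]
  exact congrArg Complex.re (trace_inc_rdiag h (fun u => ∑ j, (u j : ℝ)) X)

theorem pen_inc {K : ℕ} (h : K ≤ M) (γ : ℝ) (X : Matrix (Box n K) (Box n K) ℂ) :
    pen γ (inc n K M * X * (inc n K M)ᴴ) = pen γ X := by
  rw [← trace_mul_Gam, ← trace_mul_Gam]
  exact congrArg Complex.re (trace_inc_rdiag h (fun u => ∑ j, γ ^ u j) X)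

lemma ptr_conj {C D C' D' : Type} [Fintype C] [Fintype D] [Fintype C'] [Fintype D']
    [DecidableEq C] [DecidableEq D] [DecidableEq C'] [DecidableEq D']
    (E : Matrix C' C ℂ) (F : Matrix D' D ℂ) (hF : Fᴴ * F = 1) (W : Matrix (C × D) (C × D) ℂ) :
    ptr ((E ⊗ₖ F) * W * (E ⊗ₖ F)ᴴ) = E * ptr W * Eᴴ := by
  rw [ext_iff_trace_mul_right]
  intro Z
  have e : (E ⊗ₖ F)ᴴ * (Z ⊗ₖ (1 : Matrix D' D' ℂ)) * (E ⊗ₖ F)
      = (Eᴴ * Z * E) ⊗ₖ (1 : Matrix D D ℂ) := by
    rw [conjTranspose_kronecker, ← mul_kronecker_mul, ← mul_kronecker_mul, Matrix.mul_one, hF]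
  rw [trace_ptr_mul, Matrix.mul_assoc, Matrix.mul_assoc, trace_mul_comm (E ⊗ₖ F),
    Matrix.mul_assoc, e, ← trace_ptr_mul, Matrix.mul_assoc E, Matrix.mul_assoc E,
    trace_mul_comm E]
  simp only [Matrix.mul_assoc]

lemma Vb_mul_inc {K : ℕ} (h : K ≤ M) (c s : ℝ) :
    Vb n M c s * (inc n K M ⊗ₖ inc n K M)
      = (inc n (2 * K) (2 * M) ⊗ₖ inc n (2 * K) (2 * M)) * Vb n K c s := by
  ext x y
  have l1 : (Vb n M c s * (inc n K M ⊗ₖ inc n K M)) x y
      = (amp c s (occ x.1, occ x.2) (occ y.1, occ y.2) : ℝ) := by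
    rw [Matrix.mul_apply, Fintype.sum_prod_type,
      ← sum_mul_inc h y.1 (fun u => (amp c s (occ x.1, occ x.2) (u, occ y.2) : ℝ))]
    refine Finset.sum_congr rfl fun z1 _ => ?_
    rw [← sum_mul_inc h y.2 (fun u => (amp c s (occ x.1, occ x.2) (occ z1, u) : ℝ)),
      Finset.sum_mul]
    refine Finset.sum_congr rfl fun z2 _ => ?_
    simp only [Vb, kroneckerMap_apply]
    ring
  have l2 : ((inc n (2 * K) (2 * M) ⊗ₖ inc n (2 * K) (2 * M)) * Vb n K c s) x y
      = if ∀ j, occ x.1 j ≤ 2 * K then (if ∀ j, occ x.2 j ≤ 2 * K then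
          ((amp c s (occ x.1, occ x.2) (occ y.1, occ y.2) : ℝ) : ℂ) else 0) else 0 := by
    rw [Matrix.mul_apply, Fintype.sum_prod_type,
      ← sum_inc_mul x.1 (fun u => if ∀ j, occ x.2 j ≤ 2 * K then
          ((amp c s (u, occ x.2) (occ y.1, occ y.2) : ℝ) : ℂ) else 0)]
    refine Finset.sum_congr rfl fun z1 _ => ?_
    rw [← sum_inc_mul x.2 (fun u => ((amp c s (occ z1, u) (occ y.1, occ y.2) : ℝ) : ℂ)),
      Finset.mul_sum]
    refine Finset.sum_congr rfl fun z2 _ => ?_
    simp only [Vb, kroneckerMap_apply]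
    ring
  rw [l1, l2]
  split_ifs with h1 h2
  · rfl
  · rw [amp_box_zero y (fun h' => h2 h'.2)]; simp
  · rw [amp_box_zero y (fun h' => h1 h'.1)]; simp

/-- `V_M (E ⊗ E) = (E' ⊗ E') V_K` by amp_supp, and `ptr ((E' ⊗ E') W (E' ⊗ E')†) = E' (ptr W) E'†`. -/
theorem Phi_inc {K : ℕ} (h : K ≤ M) (c s : ℝ) (X Y : Matrix (Box n K) (Box n K) ℂ) :
    Phi (Vb n M c s) (inc n K M * X * (inc n K M)ᴴ) (inc n K M * Y * (inc n K M)ᴴ)
      = inc n (2 * K) (2 * M) * Phi (Vb n K c s) X Y * (inc n (2 * K) (2 * M))ᴴ := by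
  rw [Phi, Phi, ← ptr_conj _ _ (inc_iso (by omega : 2 * K ≤ 2 * M)), mul_kronecker_mul,
    mul_kronecker_mul, ← conjTranspose_kronecker]
  congr 1
  calc Vb n M c s * (inc n K M ⊗ₖ inc n K M * X ⊗ₖ Y * (inc n K M ⊗ₖ inc n K M)ᴴ) * (Vb n M c s)ᴴ
      = (Vb n M c s * (inc n K M ⊗ₖ inc n K M)) * X ⊗ₖ Y
        * (Vb n M c s * (inc n K M ⊗ₖ inc n K M))ᴴ := by
        simp only [conjTranspose_mul, Matrix.mul_assoc]
    _ = _ := by
        rw [Vb_mul_inc h]
        simp only [conjTranspose_mul, Matrix.mul_assoc]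

theorem Phi_Vb_continuous (X Y : Matrix (Box n M) (Box n M) ℂ) :
    Continuous (fun p : ℝ × ℝ => Phi (Vb n M p.1 p.2) X Y) := by
  have hV : Continuous (fun p : ℝ × ℝ => Vb n M p.1 p.2) :=
    continuous_matrix fun x y => Complex.continuous_ofReal.comp (amp_continuous _ _)
  have hW : Continuous (fun p : ℝ × ℝ => Vb n M p.1 p.2 * (X ⊗ₖ Y) * (Vb n M p.1 p.2)ᴴ) :=
    (hV.matrix_mul continuous_const).matrix_mul hV.matrix_conjTranspose
  exact continuous_matrix fun i k =>
    continuous_finsetSum _ fun l _ => hW.matrix_elem (i, l) (k, l)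

end Vale.Agent.P369
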