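import Vale.Agent.P369.Scalar

/-! The interpolation theorem. -/

set_option linter.unusedSectionVars false

namespace Vale.Agent.P369

open Matrix Finset Real Set

/-- `T† f T ≤ h` for multiplication operators `f`, `h`. -/
def Dom {I J : Type} [Fintype I] [Fintype J] (T : Matrix J I ℂ) (f : J → ℝ) (h : I → ℝ) : Prop :=
  ∀ z : I → ℂ, ∑ j, f j * ‖(T *ᵥ z) j‖ ^ 2 ≤ ∑ i, h i * ‖z i‖ ^ 2

section
variable {I J : Type} [Fintype I] [Fintype J] {T : Matrix J I ℂ}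

lemma Dom.add {f f' : J → ℝ} {h h' : I → ℝ} (a : Dom T f h) (b : Dom T f' h') :
    Dom T (fun j => f j + f' j) (fun i => h i + h' i) := by
  intro z
  simp only [add_mul, Finset.sum_add_distrib]
  exact add_le_add (a z) (b z)

lemma Dom.smul {f : J → ℝ} {h : I → ℝ} (a : Dom T f h) {c : ℝ} (hc : 0 ≤ c) :
    Dom T (fun j => c * f j) (fun i => c * h i) := by
  intro z
  simp only [mul_assoc, ← Finset.mul_sum]
  exact mul_le_mul_of_nonneg_left (a z) hc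

lemma Dom.mono {f f' : J → ℝ} {h h' : I → ℝ} (a : Dom T f h) (hf : ∀ j, f' j ≤ f j)
    (hh : ∀ i, h i ≤ h' i) : Dom T f' h' := by
  intro z
  refine le_trans (Finset.sum_le_sum fun j _ => ?_) (le_trans (a z) (Finset.sum_le_sum fun i _ => ?_))
  · exact mul_le_mul_of_nonneg_right (hf j) (by positivity)
  · exact mul_le_mul_of_nonneg_right (hh i) (by positivity)

lemma Dom.congr {f f' : J → ℝ} {h h' : I → ℝ} (a : Dom T f h) (hf : ∀ j, f j = f' j)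
    (hh : ∀ i, h i = h' i) : Dom T f' h' :=
  a.mono (fun j => (hf j).ge) (fun i => (hh i).le)

lemma adj_sum (T : Matrix J I ℂ) (v : J → ℂ) (z : I → ℂ) :
    ∑ i, star ((Tᴴ *ᵥ v) i) * z i = ∑ j, star (v j) * (T *ᵥ z) j := by
  simp only [mulVec, dotProduct, conjTranspose_apply, star_sum, star_mul', star_star,
    Finset.sum_mul, Finset.mul_sum]
  rw [Finset.sum_comm]
  exact Finset.sum_congr rfl fun j _ => Finset.sum_congr rfl fun i _ => by ring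

lemma re_star_mul_le (a b : ℂ) {f : ℝ} (hf : 0 < f) :
    (star a * b).re ≤ (1 / 2) * (f⁻¹ * ‖a‖ ^ 2) + (1 / 2) * (f * ‖b‖ ^ 2) := by
  have h1 : (star a * b).re ≤ ‖a‖ * ‖b‖ := by
    calc (star a * b).re ≤ ‖star a * b‖ := Complex.re_le_norm _
      _ = _ := by rw [norm_mul, norm_star]
  have h2 : 0 ≤ f⁻¹ * (‖a‖ - f * ‖b‖) ^ 2 := by positivity
  have h3 : f⁻¹ * (‖a‖ - f * ‖b‖) ^ 2 = f⁻¹ * ‖a‖ ^ 2 - 2 * (‖a‖ * ‖b‖) + f * ‖b‖ ^ 2 := by
    field_simp; ring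
  linarith

lemma Dom.dual {f : J → ℝ} {h : I → ℝ} (a : Dom T f h) (hf : ∀ j, 0 < f j) (hh : ∀ i, 0 < h i) :
    Dom Tᴴ (fun i => (h i)⁻¹) (fun j => (f j)⁻¹) := by
  intro v
  set z : I → ℂ := fun i => (((h i)⁻¹ : ℝ) : ℂ) * (Tᴴ *ᵥ v) i with hz
  have e1 : ∑ i, (h i)⁻¹ * ‖(Tᴴ *ᵥ v) i‖ ^ 2 = (∑ i, star ((Tᴴ *ᵥ v) i) * z i).re := by
    rw [Complex.re_sum]
    refine Finset.sum_congr rfl fun i _ => ?_
    rw [hz]
    simp only
    rw [mul_left_comm, Complex.re_ofReal_mul]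
    simp [Complex.conj_mul', ← Complex.ofReal_pow]
  have e2 : ∑ i, h i * ‖z i‖ ^ 2 = ∑ i, (h i)⁻¹ * ‖(Tᴴ *ᵥ v) i‖ ^ 2 := by
    refine Finset.sum_congr rfl fun i _ => ?_
    have := hh i
    rw [hz]
    simp only [norm_mul, Complex.norm_real, Real.norm_eq_abs, abs_of_pos (inv_pos.mpr this)]
    field_simp
  have e3 : (∑ j, star (v j) * (T *ᵥ z) j).re ≤ (1 / 2) * ∑ j, (f j)⁻¹ * ‖v j‖ ^ 2
      + (1 / 2) * ∑ j, f j * ‖(T *ᵥ z) j‖ ^ 2 := by
    rw [Complex.re_sum, Finset.mul_sum, Finset.mul_sum, ← Finset.sum_add_distrib]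
    exact Finset.sum_le_sum fun j _ => re_star_mul_le _ _ (hf j)
  have e4 := a z
  rw [adj_sum] at e1
  linarith

lemma Dom.integral {F : ℝ → J → ℝ} {G : ℝ → I → ℝ} (a : ∀ θ ∈ Icc (0 : ℝ) 1, Dom T (F θ) (G θ))
    (hF : ∀ j, ContinuousOn (fun θ => F θ j) (Icc 0 1))
    (hG : ∀ i, ContinuousOn (fun θ => G θ i) (Icc 0 1)) :
    Dom T (fun j => ∫ θ in (0 : ℝ)..1, F θ j) (fun i => ∫ θ in (0 : ℝ)..1, G θ i) := by
  intro z
  have iF : ∀ j (c : ℝ), IntervalIntegrable (fun θ => F θ j * c) MeasureTheory.volume 0 1 :=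
    fun j c => ((hF j).mul continuousOn_const).intervalIntegrable_of_Icc zero_le_one
  have iG : ∀ i (c : ℝ), IntervalIntegrable (fun θ => G θ i * c) MeasureTheory.volume 0 1 :=
    fun i c => ((hG i).mul continuousOn_const).intervalIntegrable_of_Icc zero_le_one
  simp only [← intervalIntegral.integral_mul_const]
  rw [← intervalIntegral.integral_finsetSum fun j _ => iF j _,
    ← intervalIntegral.integral_finsetSum fun i _ => iG i _]
  refine intervalIntegral.integral_mono_on zero_le_one ?_ ?_ fun θ hθ => a θ hθ z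
  · exact (continuousOn_finsetSum _ fun j _ => (hF j).mul continuousOn_const).intervalIntegrable_of_Icc
      zero_le_one
  · exact (continuousOn_finsetSum _ fun i _ => (hG i).mul continuousOn_const).intervalIntegrable_of_Icc
      zero_le_one

lemma integral_pos_of_cont {F : ℝ → ℝ} (hF : ContinuousOn F (Icc 0 1))
    (hp : ∀ θ ∈ Icc (0 : ℝ) 1, 0 < F θ) : 0 < ∫ θ in (0 : ℝ)..1, F θ :=
  intervalIntegral.intervalIntegral_pos_of_pos_on (hF.intervalIntegrable_of_Icc zero_le_one)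
    (fun θ hθ => hp θ (Ioo_subset_Icc_self hθ)) zero_lt_one

/-- parallel integrals -/
lemma Dom.par {F : ℝ → J → ℝ} {G : ℝ → I → ℝ}
    (a : ∀ θ ∈ Icc (0 : ℝ) 1, Dom T (fun j => (F θ j)⁻¹) (fun i => (G θ i)⁻¹))
    (hF : ∀ j, ContinuousOn (fun θ => F θ j) (Icc 0 1))
    (hG : ∀ i, ContinuousOn (fun θ => G θ i) (Icc 0 1))
    (pF : ∀ θ ∈ Icc (0 : ℝ) 1, ∀ j, 0 < F θ j) (pG : ∀ θ ∈ Icc (0 : ℝ) 1, ∀ i, 0 < G θ i) :
    Dom T (fun j => (∫ θ in (0 : ℝ)..1, F θ j)⁻¹) (fun i => (∫ θ in (0 : ℝ)..1, G θ i)⁻¹) := by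
  have b : ∀ θ ∈ Icc (0 : ℝ) 1, Dom Tᴴ (G θ) (F θ) := fun θ hθ => by
    have := (a θ hθ).dual (fun j => inv_pos.mpr (pF θ hθ j)) (fun i => inv_pos.mpr (pG θ hθ i))
    simpa using this
  have c := (Dom.integral b hG hF).dual
    (fun i => integral_pos_of_cont (hG i) fun θ hθ => pG θ hθ i)
    (fun j => integral_pos_of_cont (hF j) fun θ hθ => pF θ hθ j)
  simpa using c

/-- rescaled matrix -/
def resc (u : J → ℝ) (T : Matrix J I ℂ) (v : I → ℝ) : Matrix J I ℂ :=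
  fun j i => (u j : ℂ) * T j i * (v i : ℂ)

lemma resc_mulVec (u : J → ℝ) (T : Matrix J I ℂ) (v : I → ℝ) (z : I → ℂ) (j : J) :
    (resc u T v *ᵥ z) j = (u j : ℂ) * (T *ᵥ fun i => (v i : ℂ) * z i) j := by
  simp only [mulVec, dotProduct, resc, Finset.mul_sum]
  exact Finset.sum_congr rfl fun i _ => by ring

lemma dom_resc {u : J → ℝ} {v : I → ℝ} (hv : ∀ i, v i ≠ 0) {f : J → ℝ} {h : I → ℝ} :
    Dom (resc u T v) f h ↔ Dom T (fun j => f j * u j ^ 2) (fun i => h i / v i ^ 2) := by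
  have key : ∀ z : I → ℂ, (∑ j, f j * ‖(resc u T v *ᵥ z) j‖ ^ 2 ≤ ∑ i, h i * ‖z i‖ ^ 2) ↔
      (∑ j, f j * u j ^ 2 * ‖(T *ᵥ fun i => (v i : ℂ) * z i) j‖ ^ 2
        ≤ ∑ i, h i / v i ^ 2 * ‖(v i : ℂ) * z i‖ ^ 2) := by
    intro z
    have e1 : ∀ j, f j * ‖(resc u T v *ᵥ z) j‖ ^ 2
        = f j * u j ^ 2 * ‖(T *ᵥ fun i => (v i : ℂ) * z i) j‖ ^ 2 := fun j => by
      rw [resc_mulVec, norm_mul, mul_pow, Complex.norm_real, Real.norm_eq_abs, sq_abs]; ring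
    have e2 : ∀ i, h i * ‖z i‖ ^ 2 = h i / v i ^ 2 * ‖(v i : ℂ) * z i‖ ^ 2 := fun i => by
      have := hv i
      rw [norm_mul, mul_pow, Complex.norm_real, Real.norm_eq_abs, sq_abs]; field_simp
    simp only [e1, e2]
  constructor
  · intro a z
    have := (key fun i => ((v i)⁻¹ : ℝ) * z i).mp (a _)
    have e : ∀ i, (v i : ℂ) * ((((v i)⁻¹ : ℝ) : ℂ) * z i) = z i := fun i => by
      have : (v i : ℂ) ≠ 0 := by exact_mod_cast hv i
      push_cast; field_simp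
    simpa only [e] using this
  · intro a z
    exact (key z).mpr (a _)

end

/-- `f` is an interpolation function with constant `ρ` for spectra in `s`. -/
def Good (f : ℝ → ℝ) (s : Set ℝ) (ρ : ℝ) : Prop :=
  ∀ (I J : Type) [Fintype I] [Fintype J] (T : Matrix J I ℂ) (Y : J → ℝ) (Z : I → ℝ),
    (∀ j, Y j ∈ s) → (∀ i, Z i ∈ s) → Dom T (fun _ => 1) (fun _ => 1) → Dom T Y Z →
      Dom T (fun j => f (Y j)) (fun i => ρ * f (Z i))

lemma Good.swap {f : ℝ → ℝ} {s : Set ℝ} {ρ : ℝ} (hs : ∀ y ∈ s, 0 < y) (hf : ∀ y ∈ s, 0 < f y)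
    (hρ : 0 < ρ) (a : Good f s ρ) : Good (fun y => y / f y) s ρ := by
  intro I J _ _ T Y Z hY hZ d1 d2
  have pY := fun j => hs _ (hY j)
  have pZ := fun i => hs _ (hZ i)
  have hv : ∀ j, √(Y j) ≠ 0 := fun j => (Real.sqrt_pos.mpr (pY j)).ne'
  have sY : ∀ j, √(Y j) ^ 2 = Y j := fun j => Real.sq_sqrt (pY j).le
  have sZ : ∀ i, (√(Z i))⁻¹ ^ 2 = (Z i)⁻¹ := fun i => by rw [inv_pow, Real.sq_sqrt (pZ i).le]
  have b := a J I (resc (fun i => (√(Z i))⁻¹) Tᴴ (fun j => √(Y j))) Z Y hZ hY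
    ((dom_resc hv).mpr ((d2.dual pY pZ).congr (fun i => by rw [sZ, one_mul])
      (fun j => by rw [sY, one_div])))
    ((dom_resc hv).mpr ((d1.dual (fun _ => one_pos) (fun _ => one_pos)).congr
      (fun i => by rw [sZ, mul_inv_cancel₀ (pZ i).ne', inv_one])
      (fun j => by rw [sY, div_self (pY j).ne', inv_one])))
  have c := ((dom_resc hv).mp b).dual
    (fun i => by rw [sZ]; exact mul_pos (hf _ (hZ i)) (inv_pos.mpr (pZ i)))
    (fun j => by rw [sY]; exact div_pos (mul_pos hρ (hf _ (hY j))) (pY j))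
  rw [conjTranspose_conjTranspose] at c
  refine (c.smul hρ.le).congr (fun j => ?_) (fun i => ?_)
  · have := hf _ (hY j)
    have := pY j
    simp only [sY]; field_simp
  · have := hf _ (hZ i)
    have := pZ i
    simp only [sZ]; field_simp

lemma good_logMean : Good (fun y => logMean y 1) (Ioi 0) 1 := by
  intro I J _ _ T Y Z hY hZ d1 d2
  have pos : ∀ {y : ℝ}, 0 < y → ∀ θ ∈ Icc (0 : ℝ) 1, 0 < θ * y + (1 - θ) := by
    intro y hy θ hθ
    rcases eq_or_lt_of_le hθ.1 with h | h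
    · rw [← h]; norm_num
    · have := mul_pos h hy; linarith [hθ.2]
  have cont : ∀ {y : ℝ}, 0 < y → ContinuousOn (fun θ : ℝ => (θ * y + (1 - θ))⁻¹) (Icc 0 1) :=
    fun hy => ContinuousOn.inv₀ (by fun_prop) fun θ hθ => (pos hy θ hθ).ne'
  have := Dom.par (T := T) (F := fun θ j => (θ * Y j + (1 - θ))⁻¹)
    (G := fun θ i => (θ * Z i + (1 - θ))⁻¹)
    (fun θ hθ => ((d2.smul hθ.1).add (d1.smul (sub_nonneg.mpr hθ.2))).congr
      (fun j => by simp) (fun i => by simp))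
    (fun j => cont (hY j)) (fun i => cont (hZ i))
    (fun θ hθ j => inv_pos.mpr (pos (hY j) θ hθ)) (fun θ hθ i => inv_pos.mpr (pos (hZ i) θ hθ))
  refine this.congr (fun j => ?_) (fun i => ?_)
  · rw [← inv_logMean_one (hY j), inv_inv]
  · rw [← inv_logMean_one (hZ i), inv_inv, one_mul]

section boot
variable {H0 : ℝ → ℝ} (hc : ContinuousOn H0 (Ioc 0 1))
  (hb : ∀ y ∈ Ioc (0 : ℝ) 1, 0 < H0 y ∧ H0 y ≤ 1) {δ : ℝ} (hδ : 0 < δ)
include hc hb hδ

lemma conv_mem {y y' θ : ℝ} (hy : y ∈ Icc δ 1) (hy' : y' ∈ Icc δ 1) (hθ : θ ∈ Icc (0 : ℝ) 1) :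
    θ * y + (1 - θ) * y' ∈ Icc δ 1 := by
  obtain ⟨h1, h2⟩ := hy
  obtain ⟨h3, h4⟩ := hy'
  obtain ⟨h5, h6⟩ := hθ
  constructor <;> nlinarith

lemma mem_Ioc_of {y : ℝ} (hy : y ∈ Icc δ 1) : y ∈ Ioc (0 : ℝ) 1 := ⟨hδ.trans_le hy.1, hy.2⟩

lemma Iint_cont {y y' : ℝ} (hy : y ∈ Icc δ 1) (hy' : y' ∈ Icc δ 1) :
    ContinuousOn (fun θ : ℝ => (1 + H0 (θ * y + (1 - θ) * y')) / (2 * (θ * y + (1 - θ) * y')))
      (Icc 0 1) := by
  refine ContinuousOn.div (continuousOn_const.add (hc.comp (by fun_prop) fun θ hθ =>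
    mem_Ioc_of hc hb hδ (conv_mem hc hb hδ hy hy' hθ))) (by fun_prop) fun θ hθ => ?_
  have := (mem_Ioc_of hc hb hδ (conv_mem hc hb hδ hy hy' hθ)).1
  positivity

lemma Iint_int_pos {y y' θ : ℝ} (hy : y ∈ Icc δ 1) (hy' : y' ∈ Icc δ 1) (hθ : θ ∈ Icc (0 : ℝ) 1) :
    0 < (1 + H0 (θ * y + (1 - θ) * y')) / (2 * (θ * y + (1 - θ) * y')) := by
  have h := mem_Ioc_of hc hb hδ (conv_mem hc hb hδ hy hy' hθ)
  have := h.1
  have := (hb _ h).1
  positivity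

lemma Iint_pos {y y' : ℝ} (hy : y ∈ Icc δ 1) (hy' : y' ∈ Icc δ 1) : 0 < Iint H0 y y' :=
  integral_pos_of_cont (Iint_cont hc hb hδ hy hy') fun _ hθ => Iint_int_pos hc hb hδ hy hy' hθ

lemma dom_Iint {ρ : ℝ} (hρ : 1 ≤ ρ) (a : Good H0 (Icc δ 1) ρ) {I J : Type} [Fintype I] [Fintype J]
    (T : Matrix J I ℂ) (Y Y' : J → ℝ) (Z Z' : I → ℝ) (hY : ∀ j, Y j ∈ Icc δ 1)
    (hY' : ∀ j, Y' j ∈ Icc δ 1) (hZ : ∀ i, Z i ∈ Icc δ 1) (hZ' : ∀ i, Z' i ∈ Icc δ 1)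
    (d1 : Dom T (fun _ => 1) (fun _ => 1)) (d2 : Dom T Y Z) (d3 : Dom T Y' Z') :
    Dom T (fun j => (Iint H0 (Y j) (Y' j))⁻¹)
      (fun i => (1 + (ρ - 1) / 2) * (Iint H0 (Z i) (Z' i))⁻¹) := by
  have hρ' : 0 < 1 + (ρ - 1) / 2 := by linarith
  have g1 : Good (fun y => 1 + H0 y) (Icc δ 1) (1 + (ρ - 1) / 2) := by
    intro I J _ _ T Y Z hY hZ d1 d2
    refine (d1.add (a I J T Y Z hY hZ d1 d2)).mono (fun j => le_rfl) fun i => ?_
    have := (hb _ (mem_Ioc_of hc hb hδ (hZ i))).2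
    nlinarith
  have g2 := g1.swap (fun y hy => (mem_Ioc_of hc hb hδ hy).1)
    (fun y hy => by have := (hb _ (mem_Ioc_of hc hb hδ hy)).1; positivity) hρ'
  have := Dom.par (T := T)
    (F := fun θ j => (1 + H0 (θ * Y j + (1 - θ) * Y' j)) / (2 * (θ * Y j + (1 - θ) * Y' j)))
    (G := fun θ i => (1 + (ρ - 1) / 2)⁻¹ *
      ((1 + H0 (θ * Z i + (1 - θ) * Z' i)) / (2 * (θ * Z i + (1 - θ) * Z' i))))
    (fun θ hθ => ((g2 I J T _ _ (fun j => conv_mem hc hb hδ (hY j) (hY' j) hθ)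
      (fun i => conv_mem hc hb hδ (hZ i) (hZ' i) hθ) d1
      ((d2.smul hθ.1).add (d3.smul (sub_nonneg.mpr hθ.2)))).smul (c := 2) (by norm_num)).congr
      (fun j => by rw [inv_div]; ring) (fun i => by rw [mul_inv, inv_inv, inv_div]; ring))
    (fun j => Iint_cont hc hb hδ (hY j) (hY' j))
    (fun i => continuousOn_const.mul (Iint_cont hc hb hδ (hZ i) (hZ' i)))
    (fun θ hθ j => Iint_int_pos hc hb hδ (hY j) (hY' j) hθ)
    (fun θ hθ i => mul_pos (inv_pos.mpr hρ') (Iint_int_pos hc hb hδ (hZ i) (hZ' i) hθ))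
  refine this.congr (fun j => rfl) fun i => ?_
  rw [intervalIntegral.integral_const_mul, mul_inv, inv_inv]
  rfl

lemma good_H0 (hI : ∀ y ∈ Ioc (0 : ℝ) 1, Iint H0 y 1 = (H0 y)⁻¹) (hδ1 : δ ≤ 1) :
    Good H0 (Icc δ 1) 1 := by
  have one : (1 : ℝ) ∈ Icc δ 1 := ⟨hδ1, le_rfl⟩
  have step : ∀ ρ, 1 ≤ ρ → Good H0 (Icc δ 1) ρ → Good H0 (Icc δ 1) (1 + (ρ - 1) / 2) := by
    intro ρ hρ a I J _ _ T Y Z hY hZ d1 d2
    refine (dom_Iint hc hb hδ hρ a T Y (fun _ => 1) Z (fun _ => 1) hY (fun _ => one) hZ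
      (fun _ => one) d1 d2 d1).congr (fun j => ?_) (fun i => ?_)
    · rw [hI _ (mem_Ioc_of hc hb hδ (hY j)), inv_inv]
    · rw [hI _ (mem_Ioc_of hc hb hδ (hZ i)), inv_inv]
  obtain ⟨y0, hy0, hmin⟩ := isCompact_Icc.exists_isMinOn ⟨1, one⟩
    (hc.mono fun y hy => mem_Ioc_of hc hb hδ hy)
  have p0 := hb _ (mem_Ioc_of hc hb hδ hy0)
  have hR : 1 ≤ (H0 y0)⁻¹ := (one_le_inv₀ p0.1).mpr p0.2
  have base : Good H0 (Icc δ 1) (H0 y0)⁻¹ := by
    intro I J _ _ T Y Z hY hZ d1 _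
    refine d1.mono (fun j => (hb _ (mem_Ioc_of hc hb hδ (hY j))).2) fun i => ?_
    rw [← div_eq_inv_mul, le_div_iff₀ p0.1, one_mul]
    exact hmin (hZ i)
  have all : ∀ k : ℕ, Good H0 (Icc δ 1) (1 + ((H0 y0)⁻¹ - 1) * (1 / 2) ^ k) := by
    intro k
    induction k with
    | zero => simpa using base
    | succ k ih =>
      have h1 : 0 ≤ ((H0 y0)⁻¹ - 1) * (1 / 2) ^ k := mul_nonneg (by linarith) (by positivity)
      have := step _ (by linarith) ih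
      convert this using 1
      ring
  intro I J _ _ T Y Z hY hZ d1 d2 z
  have lim : Filter.Tendsto (fun k : ℕ => (1 + ((H0 y0)⁻¹ - 1) * (1 / 2) ^ k) *
      ∑ i, H0 (Z i) * ‖z i‖ ^ 2) Filter.atTop
      (nhds ((1 + ((H0 y0)⁻¹ - 1) * 0) * ∑ i, H0 (Z i) * ‖z i‖ ^ 2)) :=
    (((tendsto_pow_atTop_nhds_zero_of_lt_one (by norm_num) (by norm_num)).const_mul _).const_add
      _).mul_const _
  simp only [mul_zero, add_zero, one_mul] at lim ⊢
  refine ge_of_tendsto' lim fun k => ?_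
  have := all k I J T Y Z hY hZ d1 d2 z
  simpa only [mul_assoc, ← Finset.mul_sum] using this

end boot

lemma exists_lower {I : Type} [Fintype I] (f : I → ℝ) (hf : ∀ i, 0 < f i) :
    ∃ δ, 0 < δ ∧ ∀ i, δ ≤ f i := by
  have h0 : 0 ≤ ∑ i, (f i)⁻¹ := Finset.sum_nonneg fun i _ => (inv_pos.mpr (hf i)).le
  refine ⟨(1 + ∑ i, (f i)⁻¹)⁻¹, by positivity, fun i => ?_⟩
  rw [inv_le_comm₀ (by positivity) (hf i)]
  have := Finset.single_le_sum (f := fun i => (f i)⁻¹) (fun i _ => (inv_pos.mpr (hf i)).le)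
    (Finset.mem_univ i)
  linarith

lemma split_ineq {A B G H : ℝ} (hA : 0 < A) (hB : 0 < B) (h : (G + H / 2) * (A + B) = A * B)
    (v w : ℂ) :
    G * ‖v + w‖ ^ 2 ≤ (A - H) * ‖v‖ ^ 2 + (B - H) * ‖w‖ ^ 2 + H / 2 * ‖w - v‖ ^ 2 := by
  have par : ‖w - v‖ ^ 2 = 2 * ‖v‖ ^ 2 + 2 * ‖w‖ ^ 2 - ‖v + w‖ ^ 2 := by
    have := parallelogram_law_with_norm ℂ w v
    rw [add_comm v w]; nlinarith
  have hG : 0 ≤ G + H / 2 := by
    by_contra hn
    push Not at hn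
    nlinarith [mul_pos hA hB]
  have tri : ‖v + w‖ ^ 2 ≤ (‖v‖ + ‖w‖) ^ 2 :=
    pow_le_pow_left₀ (norm_nonneg _) (norm_add_le _ _) 2
  have q : (G + H / 2) * (‖v‖ + ‖w‖) ^ 2 ≤ A * ‖v‖ ^ 2 + B * ‖w‖ ^ 2 := by
    have hAB : 0 < A + B := by positivity
    refine le_of_mul_le_mul_right ?_ hAB
    have : (G + H / 2) * (‖v‖ + ‖w‖) ^ 2 * (A + B) = A * B * (‖v‖ + ‖w‖) ^ 2 := by
      rw [← h]; ring
    rw [this]
    nlinarith [sq_nonneg (A * ‖v‖ - B * ‖w‖)]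
  have := mul_le_mul_of_nonneg_left tri hG
  rw [par]
  nlinarith

theorem interpolation {I J : Type} [Fintype I] [Fintype J] (T : Matrix J I ℂ) (x N : J → ℝ)
    (y : I → ℝ) {t ε : ℝ} (hx : ∀ j, 0 < x j) (hN : ∀ j, 0 < N j) (hy : ∀ i, 0 < y i)
    (ht : 0 < t) (hε : 0 ≤ ε)
    (h1 : Dom T (fun _ => 1) (fun _ => 1 - ε)) (h2 : Dom T x (fun i => (1 - ε) * y i))
    (h3 : Dom T (fun j => bet (N j) * N j * logMean (x j) 1)
      (fun i => bet t * t * logMean (y i) 1))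
    (h4 : Dom T (fun j => bet (N j) * (N j + 1) * logMean (x j) 1)
      (fun i => bet t * (t + 1) * logMean (y i) 1))
    (h5 : Dom T (fun j => bet (N j) ^ 2 * N j * (N j + 1) * logMean (x j) 1)
      (fun i => bet t ^ 2 * t * (t + 1) * logMean (y i) 1)) :
    ∃ sm sp : I → ℝ, (∀ i, kk t (y i) = y i * sm i + sp i) ∧ ∀ z : I → ℂ,
      ∑ j, kk (N j) (x j) * ‖(T *ᵥ z) j‖ ^ 2 + ε * ∑ i, (y i * sm i ^ 2 + sp i ^ 2) * ‖z i‖ ^ 2
        ≤ ∑ i, kk t (y i) * ‖z i‖ ^ 2 := by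
  obtain ⟨H0, hc, hb, hI, hχ, hχ', hid⟩ := exists_H0
  have d1 : Dom T (fun _ => 1) (fun _ => 1) := h1.mono (fun _ => le_rfl) fun _ => by linarith
  have d2 : Dom T x y := h2.mono (fun _ => le_rfl) fun i => by nlinarith [hy i]
  have pL : ∀ {u : ℝ}, 0 < u → 0 < logMean u 1 := fun hu => logMean_pos hu one_pos
  have dL := good_logMean I J T x y hx hy d1 d2
  have dxL := good_logMean.swap (fun y hy => hy) (fun y hy => pL hy) one_pos I J T x y hx hy d1 d2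
  have hv : ∀ i, (√(logMean (y i) 1))⁻¹ ≠ 0 := fun i =>
    inv_ne_zero (Real.sqrt_pos.mpr (pL (hy i))).ne'
  have norm : ∀ (f : J → ℝ) (h : I → ℝ),
      Dom (resc (fun j => √(logMean (x j) 1)) T (fun i => (√(logMean (y i) 1))⁻¹)) f h ↔
        Dom T (fun j => f j * logMean (x j) 1) (fun i => h i * logMean (y i) 1) := by
    intro f h
    rw [dom_resc hv]
    have e1 : (fun j => f j * √(logMean (x j) 1) ^ 2) = fun j => f j * logMean (x j) 1 :=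
      funext fun j => by rw [Real.sq_sqrt (pL (hx j)).le]
    have e2 : (fun i => h i / (√(logMean (y i) 1))⁻¹ ^ 2) = fun i => h i * logMean (y i) 1 :=
      funext fun i => by rw [inv_pow, Real.sq_sqrt (pL (hy i)).le, div_inv_eq_mul]
    rw [e1, e2]
  have pχ : ∀ {u : ℝ}, 0 < u → 0 < u / logMean u 1 ^ 2 := fun hu => by
    have := pL hu; positivity
  have pχ' : ∀ {M : ℝ}, 0 < M → 0 < bet M ^ 2 * M * (M + 1) := fun hM => by
    have := bet_pos hM; positivity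
  obtain ⟨δ1, p1, q1⟩ := exists_lower _ fun j => pχ (hx j)
  obtain ⟨δ2, p2, q2⟩ := exists_lower _ fun j => pχ' (hN j)
  obtain ⟨δ3, p3, q3⟩ := exists_lower _ fun i => pχ (hy i)
  set δ := min (min δ1 δ2) (min δ3 (bet t ^ 2 * t * (t + 1))) with hδdef
  have hδ : 0 < δ := lt_min (lt_min p1 p2) (lt_min p3 (pχ' ht))
  have m1 : ∀ j, x j / logMean (x j) 1 ^ 2 ∈ Icc δ 1 := fun j =>
    ⟨((min_le_left _ _).trans (min_le_left _ _)).trans (q1 j), hχ _ (hx j)⟩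
  have m2 : ∀ j, bet (N j) ^ 2 * N j * (N j + 1) ∈ Icc δ 1 := fun j =>
    ⟨((min_le_left _ _).trans (min_le_right _ _)).trans (q2 j), hχ' _ (hN j)⟩
  have m3 : ∀ i, y i / logMean (y i) 1 ^ 2 ∈ Icc δ 1 := fun i =>
    ⟨((min_le_right _ _).trans (min_le_left _ _)).trans (q3 i), hχ _ (hy i)⟩
  have m4 : bet t ^ 2 * t * (t + 1) ∈ Icc δ 1 :=
    ⟨(min_le_right _ _).trans (min_le_right _ _), hχ' _ ht⟩
  have dH := (norm _ _).mp (dom_Iint hc hb hδ le_rfl (good_H0 hc hb hδ hI (m4.1.trans m4.2)) _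
    _ _ _ (fun _ => bet t ^ 2 * t * (t + 1)) m1 m2 m3 (fun _ => m4)
    ((norm _ _).mpr (dL.congr (fun j => by simp) (fun i => by simp)))
    ((norm _ _).mpr (dxL.congr
      (fun j => by have := pL (hx j); field_simp) (fun i => by have := pL (hy i); field_simp)))
    ((norm _ _).mpr h5))
  set HJ : J → ℝ := fun j =>
    (Iint H0 (x j / logMean (x j) 1 ^ 2) (bet (N j) ^ 2 * N j * (N j + 1)))⁻¹ with hHJ
  set HI : I → ℝ := fun i =>
    (Iint H0 (y i / logMean (y i) 1 ^ 2) (bet t ^ 2 * t * (t + 1)))⁻¹ with hHI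
  have pHJ : ∀ j, 0 < HJ j := fun j => inv_pos.mpr (Iint_pos hc hb hδ (m1 j) (m2 j))
  have pHI : ∀ i, 0 < HI i := fun i => inv_pos.mpr (Iint_pos hc hb hδ (m3 i) m4)
  have dH' : Dom T (fun j => HJ j * logMean (x j) 1) (fun i => HI i * logMean (y i) 1) :=
    dH.congr (fun j => rfl) fun i => by simp [hHI]
  set A : I → ℝ := fun i => y i / logMean (y i) 1 + bet t * (t + 1) + HI i with hA
  set B : I → ℝ := fun i => 1 / logMean (y i) 1 + bet t * t + HI i with hB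
  have pA : ∀ i, 0 < A i := fun i => by
    have := pL (hy i); have := hy i; have := bet_pos ht; have := pHI i
    simp only [hA]; positivity
  have pB : ∀ i, 0 < B i := fun i => by
    have := pL (hy i); have := hy i; have := bet_pos ht; have := pHI i
    simp only [hB]; positivity
  have idI := fun i => hid t (y i) _ (HI i) (A i) (B i) _ ht (hy i) rfl rfl rfl rfl rfl
  refine ⟨fun i => B i / (A i + B i), fun i => A i / (A i + B i), fun i => ?_, fun z => ?_⟩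
  · have h := (idI i).2
    have := pL (hy i); have := pA i; have := pB i
    field_simp at h ⊢
    linarith
  set zm : I → ℂ := fun i => ((B i / (A i + B i) : ℝ) : ℂ) * z i with hzm
  set zp : I → ℂ := fun i => ((A i / (A i + B i) : ℝ) : ℂ) * z i with hzp
  have hsum : z = zm + zp := by
    funext i
    have : B i / (A i + B i) + A i / (A i + B i) = 1 := by
      have := pA i; have := pB i; field_simp; ring
    simp only [hzm, hzp, Pi.add_apply]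
    rw [← add_mul, ← Complex.ofReal_add, this]; simp
  have nm : ∀ i, ‖zm i‖ ^ 2 = (B i / (A i + B i)) ^ 2 * ‖z i‖ ^ 2 := fun i => by
    simp only [hzm]; rw [norm_mul, mul_pow, Complex.norm_real, Real.norm_eq_abs, sq_abs]
  have np : ∀ i, ‖zp i‖ ^ 2 = (A i / (A i + B i)) ^ 2 * ‖z i‖ ^ 2 := fun i => by
    simp only [hzp]; rw [norm_mul, mul_pow, Complex.norm_real, Real.norm_eq_abs, sq_abs]
  have nd : ∀ i, ‖(zp - zm) i‖ ^ 2 = (A i / (A i + B i) - B i / (A i + B i)) ^ 2 * ‖z i‖ ^ 2 :=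
    fun i => by
      simp only [hzp, hzm, Pi.sub_apply]
      rw [← sub_mul, ← Complex.ofReal_sub, norm_mul, mul_pow, Complex.norm_real, Real.norm_eq_abs,
        sq_abs]
  have pt : ∀ j, kk (N j) (x j) * ‖(T *ᵥ z) j‖ ^ 2 ≤ x j * ‖(T *ᵥ zm) j‖ ^ 2
      + bet (N j) * (N j + 1) * logMean (x j) 1 * ‖(T *ᵥ zm) j‖ ^ 2 + 1 * ‖(T *ᵥ zp) j‖ ^ 2
      + bet (N j) * N j * logMean (x j) 1 * ‖(T *ᵥ zp) j‖ ^ 2
      + (1 / 2) * (HJ j * logMean (x j) 1 * ‖(T *ᵥ (zp - zm)) j‖ ^ 2) := by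
    intro j
    have hL := pL (hx j)
    have := hx j; have := hN j; have := bet_pos (hN j); have := pHJ j
    have h := (hid (N j) (x j) _ (HJ j) _ _ _ (hN j) (hx j) rfl rfl rfl rfl rfl).1
    have s := split_ineq (by positivity) (by positivity) h ((T *ᵥ zm) j) ((T *ᵥ zp) j)
    have e1 : (T *ᵥ z) j = (T *ᵥ zm) j + (T *ᵥ zp) j := by
      conv_lhs => rw [hsum]
      rw [mulVec_add]; rfl
    have e2 : (T *ᵥ (zp - zm)) j = (T *ᵥ zp) j - (T *ᵥ zm) j := by rw [mulVec_sub]; rfl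
    rw [e1, e2]
    have s' := mul_le_mul_of_nonneg_left s hL.le
    have f1 : logMean (x j) 1 * (kk (N j) (x j) / logMean (x j) 1 *
        ‖(T *ᵥ zm) j + (T *ᵥ zp) j‖ ^ 2) = kk (N j) (x j) * ‖(T *ᵥ zm) j + (T *ᵥ zp) j‖ ^ 2 := by
      field_simp
    rw [f1] at s'
    refine s'.trans (le_of_eq ?_)
    field_simp
    ring
  have b1 := h2 zm
  have b2 := h4 zm
  have b3 := h1 zp
  have b4 := h3 zp
  have b5 := dH' (zp - zm)
  have tot := Finset.sum_le_sum fun j (_ : j ∈ Finset.univ) => pt j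
  simp only [Finset.sum_add_distrib, ← Finset.mul_sum] at tot
  simp only [← Finset.mul_sum] at b3
  have fin : ∑ i, kk t (y i) * ‖z i‖ ^ 2 = ∑ i, (1 - ε) * y i * ‖zm i‖ ^ 2
      + ∑ i, bet t * (t + 1) * logMean (y i) 1 * ‖zm i‖ ^ 2 + (1 - ε) * ∑ i, ‖zp i‖ ^ 2
      + ∑ i, bet t * t * logMean (y i) 1 * ‖zp i‖ ^ 2
      + (1 / 2) * ∑ i, HI i * logMean (y i) 1 * ‖(zp - zm) i‖ ^ 2
      + ε * ∑ i, (y i * (B i / (A i + B i)) ^ 2 + (A i / (A i + B i)) ^ 2) * ‖z i‖ ^ 2 := by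
    simp only [Finset.mul_sum, ← Finset.sum_add_distrib]
    refine Finset.sum_congr rfl fun i _ => ?_
    rw [nm, np, nd]
    have h := (idI i).1
    have hL := pL (hy i)
    have := pA i; have := pB i
    have k1 : kk t (y i) = logMean (y i) 1 * (A i * B i / (A i + B i) - HI i / 2) := by
      rw [← h]; field_simp; ring
    have k2 : y i = logMean (y i) 1 * (A i - bet t * (t + 1) - HI i) := by
      simp only [hA]; field_simp; ring
    have k3 : (1 : ℝ) = logMean (y i) 1 * (B i - bet t * t - HI i) := by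
      simp only [hB]; field_simp; ring
    have k4 : kk t (y i) = y i * (B i / (A i + B i)) ^ 2
        + bet t * (t + 1) * logMean (y i) 1 * (B i / (A i + B i)) ^ 2
        + 1 * (A i / (A i + B i)) ^ 2 + bet t * t * logMean (y i) 1 * (A i / (A i + B i)) ^ 2
        + (1 / 2) * (HI i * logMean (y i) 1) * (A i / (A i + B i) - B i / (A i + B i)) ^ 2 := by
      rw [k1]
      generalize logMean (y i) 1 = L at k2 k3 ⊢
      rw [k2]
      conv_rhs => enter [1, 1, 2, 1]; rw [k3]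
      field_simp
      ring
    rw [k4]; ring
  rw [fin]
  linarith

end Vale.Agent.P369
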