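import Vale.Agent.P369.KeySide

/-! The key estimate at a minimiser. -/

set_option linter.unusedSectionVars false

namespace Vale.Agent.P369

open Matrix Finset Real
open Vale.Agent.P358 (S)
open scoped ComplexOrder Kronecker

section
variable {A B C D : Type} [Fintype A] [Fintype B] [Fintype C] [Fintype D]
  [DecidableEq A] [DecidableEq B] [DecidableEq C] [DecidableEq D]

theorem energy_rel {c s : ℝ} {V : Matrix (C × D) (A × B) ℂ} {a Q : Matrix A A ℂ}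
    {a' Q' : Matrix B B ℂ} {b : Matrix C C ℂ} {d : Matrix D D ℂ} (h : Rel c s V a Q a' Q' b d)
    {X : Matrix A A ℂ} {Y : Matrix B B ℂ} (hX : DState X) (hY : DState Y) :
    c ^ 2 * (X * (aᴴ * a)).trace.re + s ^ 2 * (Y * (a'ᴴ * a')).trace.re
      ≤ (Phi V X Y * (bᴴ * b)).trace.re + ‖(X * a).trace‖ * ‖(Y * a').trace‖ := by
  have e : Vᴴ * ((bᴴ * b) ⊗ₖ (1 : Matrix D D ℂ)) * V
      = ((b ⊗ₖ (1 : Matrix D D ℂ)) * V)ᴴ * ((b ⊗ₖ (1 : Matrix D D ℂ)) * V) := by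
    rw [conjTranspose_mul, conjTranspose_kronecker, conjTranspose_one, ← Matrix.mul_assoc,
      Matrix.mul_assoc Vᴴ (bᴴ ⊗ₖ (1 : Matrix D D ℂ)), ← mul_kronecker_mul, Matrix.mul_one]
  have e2 : (Phi V X Y * (bᴴ * b)).trace = (c : ℂ) ^ 2 * (X * (aᴴ * a)).trace
      + (s : ℂ) ^ 2 * (Y * (a'ᴴ * a')).trace + c * s * (star (X * a).trace * (Y * a').trace
        + (X * a).trace * star (Y * a').trace) := by
    rw [trace_Phi_mul, e, h.r1, conjTranspose_mul, Matrix.mul_assoc, ← Matrix.mul_assoc Vᴴ, h.iso,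
      Matrix.one_mul, conjTranspose_add, conjTranspose_smul, conjTranspose_smul,
      conjTranspose_kronecker, conjTranspose_kronecker, conjTranspose_one, conjTranspose_one,
      ← trace_herm_mul_star hX.1.1, ← trace_herm_mul_star hY.1.1]
    simp only [Matrix.add_mul, Matrix.mul_add, Matrix.mul_smul, Matrix.smul_mul,
      ← mul_kronecker_mul, Matrix.mul_one, Matrix.one_mul, trace_add, trace_smul, trace_kronecker,
      hX.2, hY.2, smul_eq_mul, Complex.star_def, Complex.conj_ofReal]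
    ring
  have b1 : ‖(c : ℂ) * s * (star (X * a).trace * (Y * a').trace
      + (X * a).trace * star (Y * a').trace)‖ ≤ ‖(X * a).trace‖ * ‖(Y * a').trace‖ := by
    have h1 := norm_add_le (star (X * a).trace * (Y * a').trace)
      ((X * a).trace * star (Y * a').trace)
    rw [norm_mul, norm_mul, norm_star, norm_star] at h1
    rw [norm_mul, norm_mul, Complex.norm_real, Complex.norm_real, Real.norm_eq_abs,
      Real.norm_eq_abs]
    have h2 : |c| * |s| ≤ 1 / 2 := by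
      nlinarith [sq_nonneg (|c| - |s|), sq_abs c, sq_abs s, h.cs]
    calc _ ≤ 1 / 2 * (‖(X * a).trace‖ * ‖(Y * a').trace‖ + ‖(X * a).trace‖ * ‖(Y * a').trace‖) :=
          mul_le_mul h2 h1 (norm_nonneg _) (by norm_num)
      _ = _ := by ring
  have b2 := (abs_le.mp ((Complex.abs_re_le_norm _).trans b1)).1
  rw [e2, Complex.add_re, Complex.add_re, ← Complex.ofReal_pow, ← Complex.ofReal_pow,
    Complex.re_ofReal_mul, Complex.re_ofReal_mul]
  linarith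

lemma hess_of_min {V : Matrix (C × D) (A × B) ℂ} (hV : Vᴴ * V = 1) {α αA αB δ : ℝ} (hα : 0 ≤ α) (hαA : 0 ≤ αA)
    {GA : Matrix A A ℂ} {GB : Matrix B B ℂ} (hG : GA.IsHermitian) {p : A → ℝ} {q : B → ℝ}
    {w : C → ℝ} (hp : ∀ i, 0 < p i) (hp1 : ∑ i, p i = 1) (hw0 : ∀ i, 0 < w i)
    (hw : Phi V (rdiag p) (rdiag q) + (δ : ℂ) • 1 = rdiag w)
    (h : IsMinimiser V α αA αB δ GA GB (rdiag p) (rdiag q)) :
    (∃ lam : ℝ, (α : ℂ) • EAl V (rdiag q) (rdiag fun i => log (w i))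
      = (αA : ℂ) • rdiag (fun i => log (p i)) + GA + (lam : ℂ) • 1) ∧
    ∀ W : Matrix C C ℂ, α * ∑ m, ∑ m', logMean (p m) (p m') *
        ‖cen (rdiag p) (EAl V (rdiag q) W) m m'‖ ^ 2
      ≤ αA * ∑ i, ∑ k, logMean (w i) (w k) * ‖W i k‖ ^ 2 :=
  one_side (PhiA V (rdiag q)) (EAl V (rdiag q)) (Phi_adj V _)
    (Phi_star V (rdiag_conjTranspose q))
    (fun X => (trace_Phi hV X _).trans (by rw [h.2.1.2, mul_one])) hα hαA hG p hp hp1 w hw0 hw fun X hX => by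
      have := h.2.2 X (rdiag q) hX h.2.1
      simp only [Obj, hw] at this
      change _ ≤ α * S (Phi V X (rdiag q) + (δ : ℂ) • 1) - _ + _
      linarith

lemma hess_combine {ε η r s t lA lB lC nA nB nC : ℝ} (ht : 0 < t) (hA : 0 ≤ lA) (hB : 0 ≤ lB)
    (hC : 0 ≤ nC) (h1 : (1 - ε) * al t * nA ≤ η * al r * nC)
    (h2 : (1 - ε) * al t * nB ≤ (1 - η) * al s * nC)
    (h3 : bet t * (η * (al r * lA) + (1 - η) * (al s * lB)) ≤ lC) :
    (1 - ε) * (lA * nA + lB * nB) ≤ lC * nC := by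
  have hb := bet_pos ht
  have e := al_mul_bet ht
  have k1 := mul_le_mul_of_nonneg_left h1 (mul_nonneg hb.le hA)
  have k2 := mul_le_mul_of_nonneg_left h2 (mul_nonneg hb.le hB)
  have k3 := mul_le_mul_of_nonneg_right h3 hC
  have e1 : bet t * lA * ((1 - ε) * al t * nA) = (1 - ε) * lA * nA := by
    linear_combination ((1 - ε) * lA * nA) * e
  have e2 : bet t * lB * ((1 - ε) * al t * nB) = (1 - ε) * lB * nB := by
    linear_combination ((1 - ε) * lB * nB) * e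
  nlinarith

lemma final_cs {t : ℝ} (ht : 0 < t) {w : C → ℝ} (hw : ∀ i, 0 < w i) (b W : Matrix C C ℂ)
    {sm sp : C × C → ℝ} (hk : ∀ i k, kk t (w i / w k) = w i / w k * sm (i, k) + sp (i, k)) :
    ‖(Wᴴ * Jop t b (rdiag w)).trace‖ ^ 2
      ≤ (∑ i, ∑ k, (w i / w k * sm (i, k) ^ 2 + sp (i, k) ^ 2) * (w k * ‖Zop t b w i k‖ ^ 2)) *
        (rdiag w * (Wᴴ * W + W * Wᴴ)).trace.re := by
  have e : (rdiag w * (Wᴴ * W + W * Wᴴ)).trace.re
      = ∑ i, ∑ k, (w i / w k + 1) * (w k * ‖W i k‖ ^ 2) := by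
    have h1 := nrm_id hw W
    rw [wn_eq, conjTranspose_conjTranspose] at h1
    rw [Matrix.mul_add, trace_add, Complex.add_re, ← h1, ← wn_eq, nrm, wn,
      ← Finset.sum_add_distrib]
    refine Finset.sum_congr rfl fun i _ => ?_
    rw [← Finset.sum_add_distrib]
    exact Finset.sum_congr rfl fun k _ => by ring
  rw [e, trace_weighted W _ _ _ (Jop_apply ht b hw), ← Fintype.sum_prod_type',
    ← Fintype.sum_prod_type', ← Fintype.sum_prod_type']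
  refine le_trans (pow_le_pow_left₀ (norm_nonneg _) (norm_sum_le _ _) 2) ?_
  refine Finset.sum_sq_le_sum_mul_sum_of_sq_le_mul _ (fun x _ => ?_) (fun x _ => ?_) fun x _ => ?_
  · have := hw x.1; have := hw x.2; positivity
  · have := hw x.1; have := hw x.2; positivity
  · have h1 := div_pos (hw x.1) (hw x.2)
    rw [norm_mul, norm_mul, norm_star, Complex.norm_real, Real.norm_eq_abs, mul_pow, sq_abs, hk]
    generalize w x.1 / w x.2 = y at h1
    have h2 : (y * sm (x.1, x.2) + sp (x.1, x.2)) ^ 2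
        ≤ (y * sm (x.1, x.2) ^ 2 + sp (x.1, x.2) ^ 2) * (y + 1) := by
      nlinarith [mul_nonneg h1.le (sq_nonneg (sm (x.1, x.2) - sp (x.1, x.2)))]
    have h3 := mul_le_mul_of_nonneg_right h2
      (sq_nonneg (w x.2 * (‖W x.1 x.2‖ * ‖Zop t b w x.1 x.2‖)))
    calc _ = (y * sm (x.1, x.2) + sp (x.1, x.2)) ^ 2 *
          (w x.2 * (‖W x.1 x.2‖ * ‖Zop t b w x.1 x.2‖)) ^ 2 := by ring
      _ ≤ _ := h3
      _ = _ := by ring

lemma fro2_rdiag (l : C → ℝ) : fro2 (rdiag l) = ∑ i, l i ^ 2 := by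
  rw [fro2_eq_trace, rdiag_conjTranspose, trace_mul_rdiag]
  simp [rdiag, sq]

lemma fro2_neg (X : Matrix C C ℂ) : fro2 (-X) = fro2 X := by simp [fro2]

lemma fro2_conjTranspose (X : Matrix C C ℂ) : fro2 Xᴴ = fro2 X := by
  rw [← fn_sq, fn_conjTranspose, fn_sq]

lemma fn_G1 {c s P : ℝ} (hcs : c ^ 2 + s ^ 2 = 1) {b : Matrix C C ℂ} {d : Matrix D D ℂ}
    (hP : 1 ≤ P) (hC : (Fintype.card C : ℝ) ≤ P) (hD : (Fintype.card D : ℝ) ≤ P)
    (hb : fro2 b ≤ P) (hd : fro2 d ≤ P) : fn (G1 c s b d) ≤ 2 * P := by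
  have h1 : fn (b ⊗ₖ (1 : Matrix D D ℂ)) ≤ P := fn_le (by linarith) (by
    rw [fro2_kron_one, sq]; exact mul_le_mul hD hb (fro2_nonneg _) (by linarith))
  have h2 : fn ((1 : Matrix C C ℂ) ⊗ₖ d) ≤ P := fn_le (by linarith) (by
    rw [fro2_one_kron, sq]; exact mul_le_mul hC hd (fro2_nonneg _) (by linarith))
  have hc : |c| ≤ 1 := abs_le_one_iff_mul_self_le_one.mpr (by nlinarith [sq_nonneg s])
  have hs : |s| ≤ 1 := abs_le_one_iff_mul_self_le_one.mpr (by nlinarith [sq_nonneg c])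
  refine (fn_sub _ _).trans ?_
  rw [fn_smul, fn_smul]
  have := mul_le_mul hc h1 (fn_nonneg _) zero_le_one
  have := mul_le_mul hs h2 (fn_nonneg _) zero_le_one
  linarith

lemma fn_Zop {t P : ℝ} (ht : 0 < t) {b : Matrix C C ℂ} {w : C → ℝ} (hP : 1 ≤ P)
    (hb : fro2 b ≤ P) (hL : fn (rdiag fun i => log (w i)) ≤ P ^ 2) :
    fn (Zop t b w) ≤ (1 + 2 * al t) * P ^ 3 := by
  have hat := al_pos ht
  have h1 : fn b ≤ P := fn_le (by linarith) (by nlinarith)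
  have h2 := fn_mul_le h1 hL
  have h3 := fn_mul_le hL h1
  have h4 := (fn_sub _ _).trans (add_le_add h2 h3)
  have h5 : P ≤ P ^ 3 := by simpa using pow_le_pow_right₀ hP (show 1 ≤ 3 by norm_num)
  refine (fn_add _ _).trans ?_
  rw [fn_smul, abs_of_pos hat]
  have := mul_le_mul_of_nonneg_left h4 hat.le
  nlinarith

lemma trace_re_le_fn (Z b : Matrix C C ℂ) : (Zᴴ * b).trace.re ≤ fn Z * fn b := by
  have h := ip_cs (p := fun _ : C => 1) (fun _ => zero_le_one) Z b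
  have e : rdiag (fun _ : C => (1 : ℝ)) = 1 := by simp [rdiag]
  have e2 : ∀ M : Matrix C C ℂ, wn (fun _ : C => 1) M = fn M ^ 2 := fun M => by
    rw [fn_sq]; simp [wn, fro2]
  rw [e, Matrix.one_mul, e2, e2, ← mul_pow] at h
  exact (Complex.re_le_norm _).trans
    (abs_le_of_sq_le_sq' h (mul_nonneg (fn_nonneg _) (fn_nonneg _))).2

lemma trace_mul_re_nonneg {M N : Matrix C C ℂ} (hM : M.PosSemidef) (hN : N.PosSemidef) :
    0 ≤ (M * N).trace.re := by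
  obtain ⟨U, -, -, e, -⟩ := P358.spectral hM.1
  rw [e, Matrix.mul_assoc, Matrix.mul_assoc, trace_mul_comm, Matrix.mul_assoc, trace_mul_comm,
    Matrix.mul_assoc Uᴴ]
  change 0 ≤ (Uᴴ * (N * U) * rdiag _).trace.re
  rw [trace_mul_rdiag, ← Matrix.mul_assoc]
  exact Finset.sum_nonneg fun k _ => mul_nonneg (hM.eigenvalues_nonneg k)
    (P358.diag_re_nonneg (hN.conjTranspose_mul_mul_same U) k)

lemma mean_eq {c s : ℝ} {V : Matrix (C × D) (A × B) ℂ} {a Q : Matrix A A ℂ}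
    {a' Q' : Matrix B B ℂ} {b : Matrix C C ℂ} {d : Matrix D D ℂ} (h : Rel c s V a Q a' Q' b d)
    {p : A → ℝ} {q : B → ℝ} (hp1 : ∑ i, p i = 1) (hq1 : ∑ i, q i = 1) :
    (Phi V (rdiag p) (rdiag q) * b).trace = c * (rdiag p * a).trace + s * (rdiag q * a').trace := by
  have tX : (rdiag p).trace = 1 := by rw [trace_rdiag, hp1]; simp
  have tY : (rdiag q).trace = 1 := by rw [trace_rdiag, hq1]; simp
  rw [Phi_adj, h.EA_b tY, Matrix.mul_add, Matrix.mul_smul, Matrix.mul_smul, trace_add,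
    trace_smul, trace_smul, Matrix.mul_one, tX]
  simp

lemma mean_le {η : ℝ} {V : Matrix (C × D) (A × B) ℂ} {a Q : Matrix A A ℂ}
    {a' Q' : Matrix B B ℂ} {b : Matrix C C ℂ} {d : Matrix D D ℂ}
    (h : Rel (√η) (√(1 - η)) V a Q a' Q' b d) (hη : 0 ≤ η) (hη1 : η ≤ 1)
    {p : A → ℝ} {q : B → ℝ} (hp1 : ∑ i, p i = 1) (hq1 : ∑ i, q i = 1) :
    ‖(Phi V (rdiag p) (rdiag q) * b).trace‖ ≤ ‖(rdiag p * a).trace‖ + ‖(rdiag q * a').trace‖ := by
  rw [mean_eq h hp1 hq1]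
  refine (norm_add_le _ _).trans (add_le_add ?_ ?_)
  all_goals
    rw [norm_mul, Complex.norm_real, Real.norm_eq_abs, abs_of_nonneg (Real.sqrt_nonneg _)]
    exact mul_le_of_le_one_left (norm_nonneg _) (Real.sqrt_le_one.mpr (by linarith))

lemma total_balance {η r s t δ : ℝ} {V : Matrix (C × D) (A × B) ℂ} {a Q : Matrix A A ℂ}
    {a' Q' : Matrix B B ℂ} {b : Matrix C C ℂ} {d : Matrix D D ℂ}
    (h : Rel (√η) (√(1 - η)) V a Q a' Q' b d) (hη : 0 ≤ η) (hη1 : η ≤ 1) (ht0 : 0 < t)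
    (ht : t = η * r + (1 - η) * s) {p : A → ℝ} {q : B → ℝ} {w : C → ℝ} (hp1 : ∑ i, p i = 1)
    (hq1 : ∑ i, q i = 1) (hw0 : ∀ i, 0 < w i)
    (hw : Phi V (rdiag p) (rdiag q) + (δ : ℂ) • 1 = rdiag w) :
    nrm (kk t) w (Zop t b w) =
      (((√η : ℝ) : ℂ) ^ 2 * (((r : ℂ) + 1) * (Phi V (rdiag p) (rdiag q) * ((Zop t b w)ᴴ * b)).trace
        - r * (Phi V (rdiag p) (rdiag q) * (b * (Zop t b w)ᴴ)).trace)
      - (√η : ℝ) * (√(1 - η) : ℝ) * (V * (rdiag p ⊗ₖ rdiag q) * Vᴴ * ((Zop t b w)ᴴ ⊗ₖ d)).trace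
      - (√η : ℝ) * star (Phi V (rdiag p) (rdiag q) * b).trace * (rdiag p * a).trace).re +
      (((√(1 - η) : ℝ) : ℂ) ^ 2 *
        (((s : ℂ) + 1) * (Phi V (rdiag p) (rdiag q) * ((Zop t b w)ᴴ * b)).trace
        - s * (Phi V (rdiag p) (rdiag q) * (b * (Zop t b w)ᴴ)).trace)
      - (√(1 - η) : ℝ) * (√η : ℝ) * (V * (rdiag p ⊗ₖ rdiag q) * Vᴴ * ((Zop t b w)ᴴ ⊗ₖ (-d))).trace
      - (√(1 - η) : ℝ) * star (Phi V (rdiag p) (rdiag q) * b).trace * (rdiag q * a').trace).re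
      + ‖(Phi V (rdiag p) (rdiag q) * b).trace‖ ^ 2 + δ * ((Zop t b w)ᴴ * b).trace.re := by
  have e1 : nrm (kk t) w (Zop t b w) = ((Zop t b w)ᴴ * Jop t b (rdiag w)).trace.re := by
    rw [trace_weighted _ _ _ _ (Jop_apply ht0 b hw0), nrm]
    simp only [Complex.re_sum]
    refine Finset.sum_congr rfl fun i _ => Finset.sum_congr rfl fun k _ => ?_
    rw [Complex.re_ofReal_mul]
    simp [Complex.conj_mul', ← Complex.ofReal_pow, mul_assoc]
  have hc : ((√η : ℝ) : ℂ) ^ 2 = η := by exact_mod_cast Real.sq_sqrt hη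
  have hs : ((√(1 - η) : ℝ) : ℂ) ^ 2 = 1 - η := by
    exact_mod_cast Real.sq_sqrt (show 0 ≤ 1 - η by linarith)
  have hm := mean_eq h hp1 hq1
  have e2 : ‖(Phi V (rdiag p) (rdiag q) * b).trace‖ ^ 2
      = (star (Phi V (rdiag p) (rdiag q) * b).trace * (Phi V (rdiag p) (rdiag q) * b).trace).re := by
    simp [Complex.conj_mul', ← Complex.ofReal_pow]
  rw [e1, e2, ← Complex.re_ofReal_mul, ← Complex.add_re, ← Complex.add_re, ← Complex.add_re, hc, hs,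
    kron_neg, Matrix.mul_neg, trace_neg]
  congr 1
  generalize Zop t b w = Z
  rw [← hw, Jop]
  simp only [Matrix.mul_sub, Matrix.mul_add, Matrix.add_mul, Matrix.mul_smul, Matrix.smul_mul,
    Matrix.mul_one, Matrix.one_mul, trace_sub, trace_add, trace_smul, smul_eq_mul]
  have f1 : (Zᴴ * (b * Phi V (rdiag p) (rdiag q))).trace
      = (Phi V (rdiag p) (rdiag q) * (Zᴴ * b)).trace := by
    rw [← Matrix.mul_assoc, trace_mul_comm]
  have f2 : (Zᴴ * (Phi V (rdiag p) (rdiag q) * b)).trace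
      = (Phi V (rdiag p) (rdiag q) * (b * Zᴴ)).trace := by
    rw [trace_mul_comm, Matrix.mul_assoc]
  rw [f1, f2, ht]
  push_cast
  linear_combination (-star (Phi V (rdiag p) (rdiag q) * b).trace) * hm

noncomputable def K3 (ε η r s t : ℝ) : ℝ :=
  K2 ε (√η) r t + K2 ε (√(1 - η)) s t + (K1 ε (√η) t + K1 ε (√(1 - η)) t) ^ 2 + (1 + 2 * al t)

lemma interp_at_min {ε η r s t δ : ℝ} (hε : 0 < ε) (hε1 : ε ≤ 1 / 2) (hη : 0 < η) (hη1 : η < 1)
    (hr : 0 < r) (hs : 0 < s) (ht : t = η * r + (1 - η) * s) {V : Matrix (C × D) (A × B) ℂ}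
    (hV : Vᴴ * V = 1) {p : A → ℝ} {q : B → ℝ} {w : C → ℝ} (hp : ∀ i, 0 < p i) (hq : ∀ i, 0 < q i)
    (hp1 : ∑ i, p i = 1) (hq1 : ∑ i, q i = 1) (hw0 : ∀ i, 0 < w i) (hδ : 0 ≤ δ)
    (hw : Phi V (rdiag p) (rdiag q) + (δ : ℂ) • 1 = rdiag w)
    (HA : ∀ W : Matrix C C ℂ, (1 - ε) * al t * ∑ m, ∑ m', logMean (p m) (p m') *
        ‖cen (rdiag p) (EAl V (rdiag q) W) m m'‖ ^ 2
      ≤ η * al r * ∑ i, ∑ k, logMean (w i) (w k) * ‖W i k‖ ^ 2)
    (HB : ∀ W : Matrix C C ℂ, (1 - ε) * al t * ∑ m, ∑ m', logMean (q m) (q m') *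
        ‖cen (rdiag q) (EAl (swV V) (rdiag p) W) m m'‖ ^ 2
      ≤ (1 - η) * al s * ∑ i, ∑ k, logMean (w i) (w k) * ‖W i k‖ ^ 2) :
    ∃ sm sp : C × C → ℝ, (∀ i k, kk t (w i / w k) = w i / w k * sm (i, k) + sp (i, k)) ∧ ∀ W,
      (1 - ε) * (nrm (kk r) p (cen (rdiag p) (EAl V (rdiag q) W))
        + nrm (kk s) q (cen (rdiag q) (EAl (swV V) (rdiag p) W))) +
        ε * ∑ i, ∑ k, (w i / w k * sm (i, k) ^ 2 + sp (i, k) ^ 2) * (w k * ‖W i k‖ ^ 2)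
          ≤ nrm (kk t) w W := by
  have ht0 : 0 < t := by rw [ht]; have : 0 < 1 - η := by linarith
                         positivity
  have h1 : ∀ W, wn p (cen (rdiag p) (EAl V (rdiag q) W))
      + wn q (cen (rdiag q) (EAl (swV V) (rdiag p) W)) ≤ wn w W := by
    intro W
    refine (anova hV (fun i => (hp i).le) (fun i => (hq i).le) hp1 hq1 W).trans ?_
    rw [wn_eq w, ← hw, Matrix.add_mul, trace_add, Complex.add_re, Matrix.smul_mul, Matrix.one_mul,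
      trace_smul, smul_eq_mul, Complex.re_ofReal_mul, ← fro2_eq_trace]
    have := mul_nonneg hδ (fro2_nonneg W)
    linarith
  have hX := rdiag_conjTranspose p
  have hY := rdiag_conjTranspose q
  refine interp_ops (cen (rdiag p) ∘ₗ EAl V (rdiag q)) (cen (rdiag q) ∘ₗ EAl (swV V) (rdiag p))
    hp hq hw0 hr hs ht0 hε.le (by linarith) h1 (fun W => ?_) fun lA lB lC hl W => ?_
  · have := h1 Wᴴ
    rwa [EAl_star V hY, EAl_star (swV V) hX, cen_star hX, cen_star hY] at this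
  · rw [nrm_L hp, nrm_L hq, nrm_L hw0]
    have hnC : 0 ≤ ∑ i, ∑ k, logMean (w i) (w k) * ‖W i k‖ ^ 2 :=
      Finset.sum_nonneg fun i _ => Finset.sum_nonneg fun k _ =>
        mul_nonneg (logMean_pos (hw0 i) (hw0 k)).le (by positivity)
    have br := bet_pos hr
    have bs := bet_pos hs
    have bt := bet_pos ht0
    have er := al_mul_bet hr
    have es := al_mul_bet hs
    rcases hl with ⟨rfl, rfl, rfl⟩ | ⟨rfl, rfl, rfl⟩ | ⟨rfl, rfl, rfl⟩
    · refine hess_combine ht0 (by positivity) (by positivity) hnC (HA W) (HB W) (le_of_eq ?_)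
      rw [← mul_assoc (al r), ← mul_assoc (al s), er, es, ht]; ring
    · refine hess_combine ht0 (by positivity) (by positivity) hnC (HA W) (HB W) (le_of_eq ?_)
      rw [← mul_assoc (al r), ← mul_assoc (al s), er, es, ht]; ring
    · refine hess_combine ht0 (by positivity) (by positivity) hnC (HA W) (HB W) ?_
      have e1 : al r * (bet r ^ 2 * r * (r + 1)) = bet r * r * (r + 1) := by
        linear_combination (bet r * r * (r + 1)) * er
      have e2 : al s * (bet s ^ 2 * s * (s + 1)) = bet s * s * (s + 1) := by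
        linear_combination (bet s * s * (s + 1)) * es
      have := mul_le_mul_of_nonneg_left (phi_concave hr hs hη.le hη1.le) bt.le
      rw [e1, e2]
      rw [← ht] at this
      linarith

lemma out_bounds {t δ P : ℝ} (ht0 : 0 < t) {Φ b : Matrix C C ℂ} (hΦ : DState Φ) {w : C → ℝ}
    (hw : Φ + (δ : ℂ) • 1 = rdiag w) (hP : 1 ≤ P) (hδ : exp (-P) ≤ δ) (hδ1 : δ ≤ 1)
    (nC : (Fintype.card C : ℝ) ≤ P) (nD : (Fintype.card D : ℝ) ≤ P) (fb : fro2 b ≤ P) :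
    (∀ i, 0 < w i) ∧ fn ((rdiag fun i => log (w i)) ⊗ₖ (1 : Matrix D D ℂ)) ≤ P ^ 2 ∧
      fn (Zop t b w) ≤ (1 + 2 * al t) * P ^ 3 ∧
      fn ((Zop t b w)ᴴ ⊗ₖ (1 : Matrix D D ℂ)) ≤ (1 + 2 * al t) * P ^ 4 := by
  have hat := al_pos ht0
  have hδ0 : 0 < δ := (exp_pos _).trans_le hδ
  have hPhi : Φ = rdiag fun i => w i - δ := by
    rw [eq_sub_of_add_eq hw]
    ext i j; by_cases hij : i = j <;> simp [rdiag, hij]
  have hw1 : ∀ i, 0 ≤ w i - δ := fun i => by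
    have := P358.diag_re_nonneg hΦ.1 i
    rw [hPhi] at this; simpa [rdiag] using this
  have hw2 : ∑ i, (w i - δ) = 1 := by
    have := hΦ.2; rw [hPhi, trace_rdiag] at this; exact_mod_cast this
  have hw0 : ∀ i, 0 < w i := fun i => by linarith [hw1 i]
  have hlog : ∀ i, log (w i) ^ 2 ≤ P ^ 2 := fun i => by
    refine sq_le_sq' ?_ ?_
    · rw [Real.le_log_iff_exp_le (hw0 i)]; linarith [hw1 i]
    · have := Real.log_le_sub_one_of_pos (hw0 i)
      have := le_one_of_sum hw1 hw2 i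
      linarith
  have hL : fro2 (rdiag fun i => log (w i)) ≤ P * P ^ 2 := by
    rw [fro2_rdiag]
    calc _ ≤ ∑ _i : C, P ^ 2 := Finset.sum_le_sum fun i _ => hlog i
      _ = Fintype.card C * P ^ 2 := by simp
      _ ≤ _ := mul_le_mul_of_nonneg_right nC (by positivity)
  have P3 : P * P ^ 2 ≤ (P ^ 2) ^ 2 := by
    have := pow_le_pow_right₀ hP (show 3 ≤ 4 by norm_num); nlinarith
  have bL1 : fn ((rdiag fun i => log (w i)) ⊗ₖ (1 : Matrix D D ℂ)) ≤ P ^ 2 :=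
    fn_le (by positivity) (by
      rw [fro2_kron_one]
      calc _ ≤ P * (P * P ^ 2) := mul_le_mul nD hL (fro2_nonneg _) (by linarith)
        _ = _ := by ring)
  have bZ := fn_Zop ht0 hP fb (fn_le (by positivity) (hL.trans P3))
  have bZ1 : fn ((Zop t b w)ᴴ ⊗ₖ (1 : Matrix D D ℂ)) ≤ (1 + 2 * al t) * P ^ 4 :=
    fn_le (by positivity) (by
      rw [fro2_kron_one, fro2_conjTranspose, ← fn_sq]
      calc _ ≤ P ^ 2 * ((1 + 2 * al t) * P ^ 3) ^ 2 :=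
            mul_le_mul (nD.trans (by nlinarith)) (pow_le_pow_left₀ (fn_nonneg _) bZ 2)
              (by positivity) (by positivity)
        _ = _ := by ring)
  exact ⟨hw0, bL1, bZ, bZ1⟩

lemma sq_arith {x u v ζ : ℝ} (hx : 0 ≤ x) (h : x ≤ u * ζ + v * ζ) (h0 : 0 ≤ ζ) (h1 : ζ ≤ 1) :
    x ^ 2 ≤ (u + v) ^ 2 * ζ := by
  have h2 := pow_le_pow_left₀ hx h 2
  have h3 : ζ ^ 2 ≤ ζ := by nlinarith
  have := mul_le_mul_of_nonneg_left h3 (sq_nonneg (u + v))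
  nlinarith

lemma delta_bound {α δ P ζ : ℝ} (hα : 0 ≤ α) (hδ0 : 0 ≤ δ) (hP : 1 ≤ P) {Z b : Matrix C C ℂ}
    (bZ : fn Z ≤ α * P ^ 3) (fb : fro2 b ≤ P) (hζδ : P ^ 8 * δ ≤ ζ) :
    δ * (Zᴴ * b).trace.re ≤ α * ζ := by
  have h1 := trace_re_le_fn Z b
  have h2 : fn b ≤ P := fn_le (by linarith) (by nlinarith)
  have h3 := h1.trans (mul_le_mul bZ h2 (fn_nonneg _) (by positivity))
  have h4 := pow_le_pow_right₀ hP (show 4 ≤ 8 by norm_num)
  calc _ ≤ δ * (α * P ^ 3 * P) := mul_le_mul_of_nonneg_left h3 hδ0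
    _ = α * (P ^ 4 * δ) := by ring
    _ ≤ _ := mul_le_mul_of_nonneg_left ((mul_le_mul_of_nonneg_right h4 hδ0).trans hζδ) hα

lemma key_diag {ε η r s t : ℝ} (hε : 0 < ε) (hε1 : ε ≤ 1 / 2) (hη : 0 < η) (hη1 : η < 1)
    (hr : 0 < r) (hs : 0 < s) (ht : t = η * r + (1 - η) * s)
    {V : Matrix (C × D) (A × B) ℂ} {a Q GA DA : Matrix A A ℂ} {a' Q' GB DB : Matrix B B ℂ}
    {b : Matrix C C ℂ} {d : Matrix D D ℂ} {δ P ζ : ℝ} {p : A → ℝ} {q : B → ℝ} {w : C → ℝ}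
    (hp : ∀ i, 0 < p i) (hq : ∀ i, 0 < q i)
    (hw : Phi V (rdiag p) (rdiag q) + (δ : ℂ) • 1 = rdiag w)
    (h : Rel (√η) (√(1 - η)) V a Q a' Q' b d) (hGA : GA.IsHermitian) (hGB : GB.IsHermitian)
    (cA : a * GA - GA * a = ((ε * η : ℝ) : ℂ) • a + DA)
    (cB : a' * GB - GB * a' = ((ε * (1 - η) : ℝ) : ℂ) • a' + DB)
    (hmin : IsMinimiser V ((1 - ε) * al t) (η * al r) ((1 - η) * al s) δ GA GB (rdiag p) (rdiag q))
    (hP : 1 ≤ P) (hδ : exp (-P) ≤ δ) (hδ1 : δ ≤ 1)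
    (nA : (Fintype.card A : ℝ) ≤ P) (nB : (Fintype.card B : ℝ) ≤ P)
    (nC : (Fintype.card C : ℝ) ≤ P) (nD : (Fintype.card D : ℝ) ≤ P)
    (fa : fro2 a ≤ P) (fa' : fro2 a' ≤ P) (fb : fro2 b ≤ P) (fd : fro2 d ≤ P)
    (hζ1 : ζ ≤ 1) (hζδ : P ^ 8 * δ ≤ ζ) (tA : P ^ 16 * (rdiag p * Q).trace.re ≤ ζ ^ 2)
    (tB : P ^ 16 * (rdiag q * Q').trace.re ≤ ζ ^ 2)
    (mA : ‖(rdiag p * DA).trace‖ ≤ ζ) (mB : ‖(rdiag q * DB).trace‖ ≤ ζ)
    (dA : -((DAᴴ * Jop r a (rdiag p)).trace.re) ≤ ζ)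
    (dB : -((DBᴴ * Jop s a' (rdiag q)).trace.re) ≤ ζ) :
    ‖(rdiag p * a).trace‖ ≤ K1 ε (√η) t * ζ ∧ ‖(rdiag q * a').trace‖ ≤ K1 ε (√(1 - η)) t * ζ ∧
      ∀ W : Matrix C C ℂ, ‖(Wᴴ * Jop t b (rdiag w)).trace‖ ^ 2
        ≤ K3 ε η r s t / ε * ζ * (rdiag w * (Wᴴ * W + W * Wᴴ)).trace.re := by
  have hη' : 0 < 1 - η := by linarith
  have ht0 : 0 < t := by rw [ht]; positivity
  have hat := al_pos ht0
  have hζ : 0 ≤ ζ := (norm_nonneg _).trans mA
  have hδ0 : 0 < δ := (exp_pos _).trans_le hδ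
  have hc := Real.sq_sqrt hη.le
  have hs' := Real.sq_sqrt hη'.le
  have hp1 : ∑ i, p i = 1 := by
    have := hmin.1.2; rw [trace_rdiag] at this; exact_mod_cast this
  have hq1 : ∑ i, q i = 1 := by
    have := hmin.2.1.2; rw [trace_rdiag] at this; exact_mod_cast this
  obtain ⟨hw0, bL1, bZ, bZ1⟩ := out_bounds (D := D) ht0 (Phi_dstate h.iso hmin.1 hmin.2.1) hw hP hδ
    hδ1 nC nD fb
  have bV : fro2 V ≤ P ^ 2 := by
    rw [fro2_eq_trace, h.iso, trace_one, sq]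
    simpa using mul_le_mul nA nB (by positivity) (by linarith)
  have ba : fn (aᴴ ⊗ₖ (1 : Matrix B B ℂ)) ≤ P := fn_le (by linarith) (by
    rw [fro2_kron_one, fro2_conjTranspose, sq]
    exact mul_le_mul nB fa (fro2_nonneg _) (by linarith))
  have ba' : fn (a'ᴴ ⊗ₖ (1 : Matrix A A ℂ)) ≤ P := fn_le (by linarith) (by
    rw [fro2_kron_one, fro2_conjTranspose, sq]
    exact mul_le_mul nA fa' (fro2_nonneg _) (by linarith))
  have hα : 0 ≤ (1 - ε) * al t := mul_nonneg (by linarith) hat.le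
  have hw' : Phi (swV V) (rdiag q) (rdiag p) + (δ : ℂ) • 1 = rdiag w := by rw [Phi_swap, hw]
  obtain ⟨⟨lA, sA⟩, HA⟩ := 
    hess_of_min h.iso hα (mul_nonneg hη.le (al_pos hr).le) hGA hp hp1 hw0 hw hmin
  obtain ⟨⟨lB, sB⟩, HB⟩ :=
    hess_of_min h.swap.iso hα (mul_nonneg hη'.le (al_pos hs).le) hGB hq hq1 hw0 hw' hmin.swap
  obtain ⟨xA, yA⟩ := side hε hε1 (Real.sqrt_pos.mpr hη) hr ht0 h hp (fun i => (hq i).le) hp1 hq1
    hw (by rw [hc]; exact sA) (by rw [hc]; exact cA) hP (fn_le (by linarith) bV)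
    (fn_G1 h.cs hP nC nD fb fd) bL1 ba bZ1 hζ1 tA mA dA
  obtain ⟨xB, yB⟩ := side hε hε1 (Real.sqrt_pos.mpr hη') hs ht0 h.swap hq (fun i => (hp i).le)
    hq1 hp1 hw' (by rw [hs']; exact sB) (by rw [hs']; exact cB) hP
    (fn_le (by linarith) (by rw [fro2_swV]; exact bV))
    (fn_G1 h.swap.cs hP nC nD fb (by rw [fro2_neg]; exact fd)) bL1 ba' bZ1 hζ1 tB mB dB
  refine ⟨xA, xB, fun W => ?_⟩
  obtain ⟨sm, sp, hk, hI⟩ := interp_at_min hε hε1 hη hη1 hr hs ht h.iso hp hq hp1 hq1 hw0 hδ0.le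
    hw HA HB
  refine (final_cs ht0 hw0 b W hk).trans (mul_le_mul_of_nonneg_right ?_ ?_)
  · have k0 := hI (Zop t b w)
    have k1 := total_balance h hη.le hη1.le ht0 ht hp1 hq1 hw0 hw
    rw [Phi_swap, swap_omega] at yB
    have k2 := sq_arith (norm_nonneg _)
      ((mean_le h hη.le hη1.le hp1 hq1).trans (add_le_add xA xB)) hζ hζ1
    have k3 := delta_bound (by positivity) hδ0.le hP bZ fb hζδ
    rw [div_mul_eq_mul_div, le_div_iff₀ hε, K3]
    linarith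
  · exact trace_mul_re_nonneg
      (hw ▸ (Phi_posSemidef V hmin.1.1 hmin.2.1.1).add (PosSemidef.one.smul (by exact_mod_cast hδ0.le)))
      ((posSemidef_conjTranspose_mul_self W).add (posSemidef_self_mul_conjTranspose W))

lemma conj_mul {U : Matrix A A ℂ} (hU : U * Uᴴ = 1) (M N : Matrix A A ℂ) :
    Uᴴ * M * U * (Uᴴ * N * U) = Uᴴ * (M * N) * U := by
  simp only [Matrix.mul_assoc]
  rw [← Matrix.mul_assoc U, hU, Matrix.one_mul]

lemma conj_trace {U : Matrix A A ℂ} (hU : U * Uᴴ = 1) (M : Matrix A A ℂ) :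
    (Uᴴ * M * U).trace = M.trace := by
  rw [trace_mul_cycle, hU, Matrix.one_mul]

lemma conj_star (U M : Matrix A A ℂ) : (Uᴴ * M * U)ᴴ = Uᴴ * Mᴴ * U := by
  simp only [conjTranspose_mul, conjTranspose_conjTranspose, Matrix.mul_assoc]

lemma conj_Jop {U : Matrix A A ℂ} (hU : U * Uᴴ = 1) (N : ℝ) (a X : Matrix A A ℂ) :
    Jop N (Uᴴ * a * U) (Uᴴ * X * U) = Uᴴ * Jop N a X * U := by
  simp only [Jop, conj_mul hU, Matrix.mul_sub, Matrix.sub_mul, Matrix.mul_smul, Matrix.smul_mul]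

lemma conj_comm {U : Matrix A A ℂ} (hU : U * Uᴴ = 1) {a G Dd : Matrix A A ℂ} {z : ℂ}
    (h : a * G - G * a = z • a + Dd) :
    Uᴴ * a * U * (Uᴴ * G * U) - Uᴴ * G * U * (Uᴴ * a * U) = z • (Uᴴ * a * U) + Uᴴ * Dd * U := by
  rw [conj_mul hU, conj_mul hU, ← Matrix.sub_mul, ← Matrix.mul_sub, h, Matrix.mul_add,
    Matrix.add_mul, Matrix.mul_smul, Matrix.smul_mul]

end

theorem key {ε η r s t : ℝ} (hε : 0 < ε) (hε1 : ε ≤ 1 / 2) (hη : 0 < η) (hη1 : η < 1)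
    (hr : 0 < r) (hs : 0 < s) (ht : t = η * r + (1 - η) * s) :
    ∃ Kc : ℝ, 0 ≤ Kc ∧ ∀ {A B C D : Type} [Fintype A] [Fintype B] [Fintype C] [Fintype D]
      [DecidableEq A] [DecidableEq B] [DecidableEq C] [DecidableEq D]
      (V : Matrix (C × D) (A × B) ℂ) (a Q GA DA X : Matrix A A ℂ) (a' Q' GB DB Y : Matrix B B ℂ)
      (b : Matrix C C ℂ) (d : Matrix D D ℂ) (δ P ζ : ℝ),
      Rel (√η) (√(1 - η)) V a Q a' Q' b d → GA.IsHermitian → GB.IsHermitian →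
      a * GA - GA * a = ((ε * η : ℝ) : ℂ) • a + DA →
      a' * GB - GB * a' = ((ε * (1 - η) : ℝ) : ℂ) • a' + DB →
      IsMinimiser V ((1 - ε) * al t) (η * al r) ((1 - η) * al s) δ GA GB X Y →
      1 ≤ P → exp (-P) ≤ δ → δ ≤ 1 →
      (Fintype.card A : ℝ) ≤ P → (Fintype.card B : ℝ) ≤ P → (Fintype.card C : ℝ) ≤ P →
      (Fintype.card D : ℝ) ≤ P → fro2 a ≤ P → fro2 a' ≤ P → fro2 b ≤ P → fro2 d ≤ P →
      ζ ≤ 1 → P ^ 8 * δ ≤ ζ → P ^ 16 * (X * Q).trace.re ≤ ζ ^ 2 →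
      P ^ 16 * (Y * Q').trace.re ≤ ζ ^ 2 →
      ‖(X * DA).trace‖ ≤ ζ → ‖(Y * DB).trace‖ ≤ ζ →
      -((DAᴴ * Jop r a X).trace.re) ≤ ζ → -((DBᴴ * Jop s a' Y).trace.re) ≤ ζ →
      ‖(X * a).trace‖ ≤ Kc * ζ ∧ ‖(Y * a').trace‖ ≤ Kc * ζ ∧
      ∀ W : Matrix C C ℂ, ‖(Wᴴ * Jop t b (Phi V X Y + (δ : ℂ) • 1)).trace‖ ^ 2
        ≤ Kc * ζ * ((Phi V X Y + (δ : ℂ) • 1) * (Wᴴ * W + W * Wᴴ)).trace.re := by
  have hη' : 0 < 1 - η := by linarith
  have ht0 : 0 < t := by rw [ht]; positivity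
  have hat := al_pos ht0
  have k1 : 0 ≤ K1 ε (√η) t := by unfold K1; positivity
  have k2 : 0 ≤ K1 ε (√(1 - η)) t := by unfold K1; positivity
  have k3 : 0 ≤ K3 ε η r s t / ε := by unfold K3 K2; positivity
  refine ⟨K1 ε (√η) t + K1 ε (√(1 - η)) t + K3 ε η r s t / ε, by positivity, ?_⟩
  intro A B C D _ _ _ _ _ _ _ _ V a Q GA DA X a' Q' GB DB Y b d δ P ζ h hGA hGB cA cB hmin hP hδ
    hδ1 nA nB nC nD fa fa' fb fd hζ1 hζδ tA tB mA mB dA dB
  have hζ : 0 ≤ ζ := (norm_nonneg _).trans mA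
  have hδ0 : 0 < δ := (exp_pos _).trans_le hδ
  obtain ⟨pX, pY⟩ := minimiser_posDef (mul_nonneg (by linarith) hat.le)
    (mul_pos hη (al_pos hr)) (mul_pos hη' (al_pos hs)) hδ0 hmin
  have hC' : (Phi V X Y + (δ : ℂ) • 1).PosSemidef :=
    (Phi_posSemidef V hmin.1.1 hmin.2.1.1).add
      (PosSemidef.one.smul (by exact_mod_cast hδ0.le))
  obtain ⟨UA, -, hA, -, eA⟩ := P358.spectral pX.1
  obtain ⟨UB, -, hB, -, eB⟩ := P358.spectral pY.1
  obtain ⟨UC, hC0, hC, -, eC⟩ := P358.spectral hC'.1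
  change _ = rdiag _ at eA eB eC
  have hw : Phi (conjV V UA UB UC) (rdiag pX.1.eigenvalues) (rdiag pY.1.eigenvalues)
      + (δ : ℂ) • 1 = rdiag hC'.1.eigenvalues := by
    rw [← eA, ← eB, ← eC, Phi_conj V UC hA hB, Matrix.mul_add, Matrix.add_mul, Matrix.mul_smul,
      Matrix.smul_mul, Matrix.mul_one, hC0]
  obtain ⟨x1, x2, x3⟩ := key_diag hε hε1 hη hη1 hr hs ht pX.eigenvalues_pos pY.eigenvalues_pos hw
    (h.conj hA hB hC) (isHermitian_conjTranspose_mul_mul UA hGA)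
    (isHermitian_conjTranspose_mul_mul UB hGB) (conj_comm hA cA) (conj_comm hB cB)
    (by rw [← eA, ← eB]; exact hmin.conj hA hB hC) hP hδ hδ1 nA nB nC nD
    (by rw [fro2_conj _ hA]; exact fa) (by rw [fro2_conj _ hB]; exact fa')
    (by rw [fro2_conj _ hC]; exact fb) fd hζ1 hζδ
    (by rw [← eA, conj_mul hA, conj_trace hA]; exact tA)
    (by rw [← eB, conj_mul hB, conj_trace hB]; exact tB)
    (by rw [← eA, conj_mul hA, conj_trace hA]; exact mA)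
    (by rw [← eB, conj_mul hB, conj_trace hB]; exact mB)
    (by rw [← eA, conj_Jop hA, conj_star, conj_mul hA, conj_trace hA]; exact dA)
    (by rw [← eB, conj_Jop hB, conj_star, conj_mul hB, conj_trace hB]; exact dB)
  rw [← eA, conj_mul hA, conj_trace hA] at x1
  rw [← eB, conj_mul hB, conj_trace hB] at x2
  refine ⟨x1.trans (by gcongr; linarith), x2.trans (by gcongr; linarith), fun W => ?_⟩
  have x4 := x3 (UCᴴ * W * UC)
  rw [← eC, conj_Jop hC, conj_star, conj_mul hC, conj_mul hC, conj_mul hC, conj_trace hC,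
    ← Matrix.add_mul, ← Matrix.mul_add, conj_mul hC, conj_trace hC] at x4
  refine x4.trans (mul_le_mul_of_nonneg_right (by gcongr; linarith) ?_)
  exact trace_mul_re_nonneg hC' ((posSemidef_conjTranspose_mul_self W).add
    (posSemidef_self_mul_conjTranspose W))

end Vale.Agent.P369
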