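import Vale.Agent.P369.Second

/-! Existence of minimisers, first and second order conditions, unitary covariance
(task P369-Min). -/

set_option linter.unusedSectionVars false

namespace Vale.Agent.P369

open Matrix Finset Filter Topology Real
open Vale.Agent.P358 (S)
open scoped ComplexOrder Kronecker

variable {A B C D : Type} [Fintype A] [Fintype B] [Fintype C] [Fintype D]
  [DecidableEq A] [DecidableEq B] [DecidableEq C] [DecidableEq D]

lemma min_smul_one {δ : ℝ} (hδ : 0 ≤ δ) : ((δ : ℂ) • (1 : Matrix A A ℂ)).PosSemidef :=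
  PosSemidef.one.smul (by exact_mod_cast hδ)

lemma min_mixed [Nonempty A] : DState ((((1 : ℝ) / Fintype.card A : ℝ) : ℂ) • (1 : Matrix A A ℂ)) :=
  ⟨min_smul_one (by positivity), by simp⟩

lemma min_entry {X : Matrix A A ℂ} (hX : X.PosSemidef) (i j : A) :
    ‖X i j‖ ^ 2 ≤ (X i i).re * (X j j).re := by
  have h := (Complex.le_def.mp (hX.submatrix ![i, j]).det_nonneg).1
  have h1 : ∀ k, (X k k).im = 0 := fun k => ((Complex.le_def.mp (hX.diag_nonneg (i := k))).2).symm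
  simp only [det_fin_two, submatrix_apply, cons_val_zero, cons_val_one, ← hX.1.apply j i,
    RCLike.star_def, Complex.mul_conj', Complex.sub_re, Complex.mul_re, h1, Complex.zero_re,
    ← Complex.ofReal_pow, Complex.ofReal_re] at h
  linarith

lemma min_compact : IsCompact {X : Matrix A A ℂ | DState X} := by
  have h1 : IsCompact (Set.pi Set.univ fun _ : A => Set.pi Set.univ fun _ : A =>
      Metric.closedBall (0 : ℂ) 1) :=
    isCompact_univ_pi fun _ => isCompact_univ_pi fun _ => isCompact_closedBall _ _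
  have h2 : {X : Matrix A A ℂ | DState X} = ({X : Matrix A A ℂ | Xᴴ = X} ∩
      ⋂ v : A → ℂ, {X : Matrix A A ℂ | 0 ≤ star v ⬝ᵥ X *ᵥ v}) ∩ {X | X.trace = 1} := by
    ext X
    simp only [Set.mem_ofPred_eq, Set.mem_inter_iff, Set.mem_iInter, DState,
      posSemidef_iff_dotProduct_mulVec, IsHermitian]
  refine h1.of_isClosed_subset ?_ fun X hX i _ j _ => ?_
  · rw [h2]
    exact ((isClosed_eq (by fun_prop) continuous_id).inter (isClosed_iInter fun v =>
      isClosed_le continuous_const (by fun_prop))).inter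
      (isClosed_eq (by fun_prop) continuous_const)
  · have h3 : ∀ k, (X k k).re ≤ 1 := fun k => by
      have := congrArg Complex.re hX.2
      simp only [trace, Complex.re_sum, Complex.one_re] at this
      rw [← this]
      exact Finset.single_le_sum (f := fun k => (X k k).re)
        (fun k _ => P358.diag_re_nonneg hX.1 k) (Finset.mem_univ k)
    rw [mem_closedBall_zero_iff, ← sq_le_one_iff₀ (norm_nonneg _)]
    exact (min_entry hX.1 i j).trans (mul_le_one₀ (h3 i) (P358.diag_re_nonneg hX.1 j) (h3 j))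

/-- pairs of states form a nonempty compact set and `Obj` is continuous on it
(S_continuousOn, Phi_posSemidef). -/
theorem exists_minimiser [Nonempty A] [Nonempty B] (V : Matrix (C × D) (A × B) ℂ)
    (α αA αB : ℝ) {δ : ℝ} (hδ : 0 ≤ δ) (GA : Matrix A A ℂ) (GB : Matrix B B ℂ) :
    ∃ X Y, IsMinimiser V α αA αB δ GA GB X Y := by
  have hc : Continuous fun p : Matrix A A ℂ × Matrix B B ℂ => Phi V p.1 p.2 :=
    continuous_matrix fun i j => by
      simp only [Phi, ptr, Matrix.mul_apply, kroneckerMap_apply]; fun_prop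
  obtain ⟨⟨X, Y⟩, h1, h2⟩ := ((min_compact (A := A)).prod (min_compact (A := B))).exists_isMinOn
    (f := fun p => Obj V α αA αB δ GA GB p.1 p.2) ⟨(_, _), min_mixed, min_mixed⟩ (by
      unfold Obj
      refine ContinuousOn.add (ContinuousOn.add (ContinuousOn.sub (ContinuousOn.sub
        (continuousOn_const.mul (S_continuousOn.comp (hc.add continuous_const).continuousOn
          fun p hp => (Phi_posSemidef V hp.1.1 hp.2.1).add (min_smul_one hδ)))
        (continuousOn_const.mul (S_continuousOn.comp continuousOn_fst fun p hp => hp.1.1)))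
        (continuousOn_const.mul (S_continuousOn.comp continuousOn_snd fun p hp => hp.2.1)))
        (by fun_prop)) (by fun_prop))
  exact ⟨X, Y, h1.1, h1.2, fun X' Y' hX hY => h2 (a := (X', Y')) ⟨hX, hY⟩⟩

/-- the output as a linear map of the first input -/
noncomputable def min_PhiL (V : Matrix (C × D) (A × B) ℂ) (Y : Matrix B B ℂ) :
    Matrix A A ℂ →ₗ[ℂ] Matrix C C ℂ where
  toFun X := Phi V X Y
  map_add' X X' := by simp [Phi, add_kronecker, Matrix.mul_add, Matrix.add_mul, ptr_add]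
  map_smul' c X := by simp [Phi, smul_kronecker, ptr_smul]

/-- the output as a linear map of the second input -/
noncomputable def min_PhiR (V : Matrix (C × D) (A × B) ℂ) (X : Matrix A A ℂ) :
    Matrix B B ℂ →ₗ[ℂ] Matrix C C ℂ where
  toFun Y := Phi V X Y
  map_add' Y Y' := by simp [Phi, kronecker_add, Matrix.mul_add, Matrix.add_mul, ptr_add]
  map_smul' c Y := by simp [Phi, kronecker_smul, ptr_smul]

lemma min_S_lin {W : Matrix C C ℂ} (hW : W.PosDef) (Z : Matrix C C ℂ) :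
    ∃ c : ℝ, ∀ σ : ℝ, (W + (σ : ℂ) • Z).PosSemidef → S (W + (σ : ℂ) • Z) ≤ S W + σ * c := by
  obtain ⟨U, -, h2, -, h4⟩ := P358.spectral hW.1
  refine ⟨-∑ i, ((Uᴴ * Z * U) i i).re * log (hW.1.eigenvalues i) - (Uᴴ * Z * U).trace.re,
    fun σ hσ => ?_⟩
  have h5 := klein (hσ.conjTranspose_mul_mul_same U) _ hW.eigenvalues_pos
  rw [P358.S_conj' hσ.1 h2, Matrix.mul_add, Matrix.add_mul, h4, Matrix.mul_smul,
    Matrix.smul_mul] at h5
  rw [show S W = ∑ i, negMulLog (hW.1.eigenvalues i) from P358.trf_eq hW.1 _]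
  generalize Uᴴ * Z * U = Z' at h5 ⊢
  simp only [Matrix.add_apply, diagonal_apply_eq, Matrix.smul_apply, smul_eq_mul, Complex.add_re,
    Complex.ofReal_re, Complex.re_ofReal_mul, add_mul, Finset.sum_add_distrib, trace_add,
    trace_smul, trace_diagonal, Complex.re_sum, mul_assoc, ← Finset.mul_sum] at h5
  simp only [negMulLog, neg_mul, Finset.sum_neg_distrib]
  linarith

lemma min_posDef (Ψ : Matrix A A ℂ →ₗ[ℂ] Matrix C C ℂ)
    (hΨ : ∀ X : Matrix A A ℂ, X.PosSemidef → (Ψ X).PosSemidef) {α αA δ : ℝ} (hα : 0 ≤ α)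
    (hA : 0 < αA) (hδ : 0 < δ) {G X : Matrix A A ℂ} (hX : DState X)
    (hmin : ∀ X', DState X' → α * S (Ψ X + (δ : ℂ) • 1) - αA * S X + (X * G).trace.re
      ≤ α * S (Ψ X' + (δ : ℂ) • 1) - αA * S X' + (X' * G).trace.re) : X.PosDef := by
  by_contra hs
  have hne : Nonempty A := by
    by_contra h
    rw [not_nonempty_iff] at h
    have := hX.2
    simp [trace] at this
  have hd : (1 : ℝ) ≤ Fintype.card A := by exact_mod_cast Fintype.card_pos
  set d : ℝ := (Fintype.card A : ℝ) with hdd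
  set Z : Matrix A A ℂ := ((1 / d : ℝ) : ℂ) • 1 - X with hZ
  obtain ⟨c, hc⟩ := min_S_lin (PosDef.posSemidef_add (hΨ X hX.1)
    (PosDef.one.smul (a := (δ : ℂ)) (by exact_mod_cast hδ))) (Ψ Z)
  set c3 := α * c + αA * S X + (Z * G).trace.re with hc3
  set T := d + d * |c3| / αA + 1 with hT
  have hT1 : d ≤ exp T := by
    have : 0 ≤ d * |c3| / αA := by positivity
    linarith [add_one_le_exp T]
  set σ := d * exp (-T) with hσ
  have h0 : 0 < σ := by positivity
  have h1 : σ ≤ 1 := by rw [hσ, exp_neg, ← div_eq_mul_inv, div_le_one (exp_pos _)]; exact hT1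
  have e1 : ((1 - σ : ℝ) : ℂ) • X + ((σ / d : ℝ) : ℂ) • 1 = X + (σ : ℂ) • Z := by
    rw [hZ]; push_cast; module
  have hP : DState (X + (σ : ℂ) • Z) := by
    rw [← e1]
    refine ⟨(hX.1.smul (by exact_mod_cast sub_nonneg.mpr h1)).add (min_smul_one (by positivity)),
      ?_⟩
    rw [trace_add, trace_smul, trace_smul, hX.2, trace_one, smul_eq_mul, smul_eq_mul,
      ← Complex.ofReal_natCast, ← hdd, ← Complex.ofReal_mul, div_mul_cancel₀ _ (by linarith)]
    simp
  have b1 := hmin _ hP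
  have b2 := S_mix hX hs h0.le h1
  rw [← hdd, e1, hσ, mul_div_cancel_left₀ _ (by linarith), negMulLog, log_exp, ← hσ] at b2
  have e2 : Ψ (X + (σ : ℂ) • Z) + (δ : ℂ) • 1 = Ψ X + (δ : ℂ) • 1 + (σ : ℂ) • Ψ Z := by
    rw [map_add, map_smul]; abel
  have b3 := hc σ (e2 ▸ (hΨ _ hP.1).add (min_smul_one hδ.le))
  rw [e2, Matrix.add_mul, Matrix.smul_mul, trace_add, trace_smul, Complex.add_re, smul_eq_mul,
    Complex.re_ofReal_mul] at b1
  have b4 : αA * T * exp (-T) ≤ d * c3 * exp (-T) := by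
    have := mul_le_mul_of_nonneg_left b2 hA.le
    have := mul_le_mul_of_nonneg_left b3 hα
    have e3 : d * c3 * exp (-T) = σ * (α * c + αA * S X + (Z * G).trace.re) := by
      rw [hσ, hc3]; ring
    rw [e3]
    linarith
  have b5 := le_of_mul_le_mul_right b4 (exp_pos _)
  have e4 : αA * T = αA * (d + 1) + d * |c3| := by rw [hT]; field_simp; ring
  nlinarith [le_abs_self c3]

/-- If `X` were singular, compare with `X_σ = (1-σ) X + σ/d`: S_mix gives the gain
`αA η(σ/d)`, while klein in the eigenbasis of the positive definite matrix `Phi V X Y + δ`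
bounds the loss by `O(σ)`; `η(σ/d)/σ → ∞`. -/
theorem minimiser_posDef {V : Matrix (C × D) (A × B) ℂ} {α αA αB δ : ℝ} (hα : 0 ≤ α)
    (hA : 0 < αA) (hB : 0 < αB) (hδ : 0 < δ) {GA : Matrix A A ℂ} {GB : Matrix B B ℂ}
    {X : Matrix A A ℂ} {Y : Matrix B B ℂ} (h : IsMinimiser V α αA αB δ GA GB X Y) :
    X.PosDef ∧ Y.PosDef := by
  refine ⟨min_posDef (min_PhiL V Y) (fun X hX => Phi_posSemidef V hX h.2.1.1) hα hA hδ (G := GA)
    h.1 fun X' hX' => ?_, min_posDef (min_PhiR V X) (fun Y hY => Phi_posSemidef V h.1.1 hY) hα hB hδ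
    (G := GB) h.2.1 fun Y' hY' => ?_⟩
  · have := h.2.2 X' Y hX' h.2.1
    simp only [Obj] at this
    change α * S (Phi V X Y + _) - _ + _ ≤ α * S (Phi V X' Y + _) - _ + _
    linarith
  · have := h.2.2 X Y' h.1 hY'
    simp only [Obj] at this
    change α * S (Phi V X Y + _) - _ + _ ≤ α * S (Phi V X Y' + _) - _ + _
    linarith

theorem adj_star (Ψ : Matrix A A ℂ → Matrix C C ℂ) (E : Matrix C C ℂ → Matrix A A ℂ)
    (hadj : ∀ X W, (Ψ X * W).trace = (X * E W).trace) (hstar : ∀ X, Ψ Xᴴ = (Ψ X)ᴴ)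
    (W : Matrix C C ℂ) : E Wᴴ = (E W)ᴴ := by
  refine ext_iff_trace_mul_left.mpr fun X => ?_
  have h1 := congrArg star (hadj Xᴴ W)
  rw [← trace_conjTranspose, ← trace_conjTranspose, conjTranspose_mul, conjTranspose_mul,
    conjTranspose_conjTranspose, ← hstar, conjTranspose_conjTranspose, trace_mul_comm,
    trace_mul_comm (E W)ᴴ] at h1
  rw [← hadj, h1]

/-- the Hessian form -/
noncomputable def min_Q (p : A → ℝ) (Z : Matrix A A ℂ) : ℝ :=
  ∑ i, ∑ j, ‖Z i j‖ ^ 2 / logMean (p i) (p j)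

lemma min_Q_polar (p : A → ℝ) (Z : Matrix A A ℂ) :
    min_Q p (Z + Zᴴ) + min_Q p (Complex.I • (Z - Zᴴ)) = 4 * min_Q p Z := by
  have h1 : min_Q p Z = ∑ i, ∑ j, ‖Z j i‖ ^ 2 / logMean (p i) (p j) := by
    rw [min_Q, Finset.sum_comm]; simp only [logMean_comm]
  rw [show 4 * min_Q p Z = 2 * (min_Q p Z + min_Q p Z) by ring]
  nth_rewrite 2 [h1]
  simp only [min_Q, ← Finset.sum_add_distrib, Finset.mul_sum]
  refine Finset.sum_congr rfl fun i _ => Finset.sum_congr rfl fun j _ => ?_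
  have := parallelogram_law_with_norm ℝ (Z i j) (star (Z j i))
  simp only [Matrix.add_apply, Matrix.smul_apply, Matrix.sub_apply, conjTranspose_apply,
    smul_eq_mul, norm_mul, Complex.norm_I, one_mul, norm_star] at this ⊢
  rw [← add_div, ← add_div, ← mul_div_assoc]
  congr 1

lemma min_scalar {L R c : ℝ}
    (h : ∀ ε : ℝ, 0 < ε → ∀ᶠ σ : ℝ in 𝓝 0, 0 ≤ σ * L + σ ^ 2 * R + c * (ε * σ ^ 2)) :
    L = 0 ∧ 0 ≤ R := by
  have h0 : Tendsto (fun σ : ℝ => L + σ * (R + c)) (𝓝 0) (𝓝 L) :=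
    Continuous.tendsto' (by fun_prop) _ _ (by simp)
  have h1 : 0 ≤ L := by
    refine ge_of_tendsto (h0.mono_left (nhdsWithin_le_nhds (s := Set.Ioi 0))) ?_
    filter_upwards [nhdsWithin_le_nhds (h 1 one_pos), self_mem_nhdsWithin] with σ h1 h2
    exact le_of_mul_le_mul_left (by linarith) h2
  have h2 : L ≤ 0 := by
    refine le_of_tendsto (h0.mono_left (nhdsWithin_le_nhds (s := Set.Iio 0))) ?_
    filter_upwards [nhdsWithin_le_nhds (h 1 one_pos), self_mem_nhdsWithin] with σ h1 h2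
    exact le_of_mul_le_mul_left (a := -σ) (by linarith)
      (neg_pos.mpr h2)
  obtain rfl : L = 0 := le_antisymm h2 h1
  refine ⟨rfl, ?_⟩
  have h3 : Tendsto (fun ε : ℝ => R + c * ε) (𝓝 0) (𝓝 R) :=
    Continuous.tendsto' (by fun_prop) _ _ (by simp)
  refine ge_of_tendsto (h3.mono_left (nhdsWithin_le_nhds (s := Set.Ioi 0))) ?_
  filter_upwards [self_mem_nhdsWithin] with ε hε
  obtain ⟨σ, h4, h5⟩ := (((h ε hε).filter_mono (nhdsWithin_le_nhds (s := Set.Ioi 0))).and
    self_mem_nhdsWithin).exists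
  exact le_of_mul_le_mul_left (by linarith) (pow_pos h5 2)

lemma min_lin (X : Matrix A A ℂ) (p : A → ℝ) : ∑ i, (X i i).re * (log (p i) + 1) =
    (X * rdiag fun i => log (p i)).trace.re + X.trace.re := by
  rw [trace_mul_rdiag, trace, Complex.re_sum, ← Finset.sum_add_distrib]
  exact Finset.sum_congr rfl fun i _ => by simp only [diag_apply]; ring

open scoped MatrixOrder Matrix.Norms.L2Operator in
lemma min_small (p : A → ℝ) (hp : ∀ i, 0 < p i) {Z : Matrix A A ℂ} (hZ : Z.IsHermitian) :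
    ∀ᶠ σ : ℝ in 𝓝 0, (rdiag p + (σ : ℂ) • Z).PosSemidef := by
  have h0 : Tendsto (fun σ : ℝ => ‖-((σ : ℂ) • Z)‖) (𝓝 0) (𝓝 0) :=
    Continuous.tendsto' (by fun_prop) _ _ (by simp)
  filter_upwards [eventually_all.mpr fun i => h0.eventually (gt_mem_nhds (hp i))] with σ hσ
  have h1 : (-((σ : ℂ) • Z)).IsHermitian := by rw [IsHermitian]; simp [hZ.eq]
  have h2 := IsSelfAdjoint.le_algebraMap_norm_self (a := -((σ : ℂ) • Z)) h1
  rw [Algebra.algebraMap_eq_smul_one] at h2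
  have h3 : (rdiag fun i => p i - ‖-((σ : ℂ) • Z)‖).PosSemidef :=
    posSemidef_diagonal_iff.mpr fun i => by exact_mod_cast (sub_pos.mpr (hσ i)).le
  refine (congrArg PosSemidef ?_).mp (h3.add h2)
  ext i j
  by_cases h : i = j
  · simp [rdiag, h]; ring
  · simp [rdiag, h]

/-- First and second order conditions. For traceless Hermitian `Z`, `rdiag p + σ Z` is a state
for small `σ`; second_order for both entropies gives
`re tr Z (-α E(log w) + αA log p + G) = 0` and `α Q_w(Ψ Z) ≤ αA Q_p(Z)` with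
`Q_p(Z) = ∑ ‖Z i j‖²/logMean (p i) (p j)`. A Hermitian matrix orthogonal to all traceless
Hermitian matrices is a real multiple of `1`. The Hessian bound extends to all traceless `Z`
by `Q(Z + Zᴴ) + Q(i(Z - Zᴴ)) = 4 Q(Z)`. Duality: with `Y = E W - tr(p E W)`,
`Z m m' = logMean (p m) (p m') * Y m m'` is traceless and
`∑ logMean ‖Y‖² = tr Zᴴ (E W) = tr (Ψ Z)ᴴ W ≤ √(Q_w(Ψ Z)) √(∑ logMean ‖W‖²)`, `Q_p(Z) = ∑ logMean ‖Y‖²`. -/
theorem one_side (Ψ : Matrix A A ℂ →ₗ[ℂ] Matrix C C ℂ) (E : Matrix C C ℂ → Matrix A A ℂ)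
    (hadj : ∀ X W, (Ψ X * W).trace = (X * E W).trace) (hstar : ∀ X, Ψ Xᴴ = (Ψ X)ᴴ)
    (htr : ∀ X, (Ψ X).trace = X.trace) {α αA δ : ℝ} (hα : 0 ≤ α) (hαA : 0 ≤ αA) {G : Matrix A A ℂ} (hG : G.IsHermitian)
    (p : A → ℝ) (hp : ∀ i, 0 < p i) (hp1 : ∑ i, p i = 1) (w : C → ℝ) (hw : ∀ i, 0 < w i)
    (hΨ : Ψ (rdiag p) + (δ : ℂ) • 1 = rdiag w)
    (hmin : ∀ X, DState X → α * S (rdiag w) - αA * S (rdiag p) + (rdiag p * G).trace.re
      ≤ α * S (Ψ X + (δ : ℂ) • 1) - αA * S X + (X * G).trace.re) :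
    (∃ lam : ℝ, (α : ℂ) • E (rdiag fun i => log (w i))
      = (αA : ℂ) • rdiag (fun i => log (p i)) + G + (lam : ℂ) • 1) ∧
    ∀ W : Matrix C C ℂ,
      α * ∑ m, ∑ m', logMean (p m) (p m') * ‖(E W - (rdiag p * E W).trace • 1) m m'‖ ^ 2
        ≤ αA * ∑ i, ∑ k, logMean (w i) (w k) * ‖W i k‖ ^ 2 := by
  have key : ∀ Z : Matrix A A ℂ, Z.IsHermitian → Z.trace = 0 →
      (Z * ((αA : ℂ) • rdiag (fun i => log (p i)) + G -
        (α : ℂ) • E (rdiag fun i => log (w i)))).trace.re = 0 ∧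
      0 ≤ (αA * min_Q p Z - α * min_Q w (Ψ Z)) / 2 := by
    intro Z hZ hZ0
    have hΨZ : (Ψ Z).IsHermitian := by rw [IsHermitian, ← hstar, hZ.eq]
    refine min_scalar (c := α + αA) fun ε hε => ?_
    filter_upwards [second_order p hp hZ hε, second_order w hw hΨZ hε, min_small p hp hZ]
      with σ h1 h2 h3
    have h4 := hmin _ ⟨h3, by
      rw [trace_add, trace_smul, hZ0, smul_zero, add_zero, rdiag, trace_diagonal]
      exact_mod_cast hp1⟩
    have e1 : Ψ (rdiag p + (σ : ℂ) • Z) + (δ : ℂ) • 1 = rdiag w + (σ : ℂ) • Ψ Z := by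
      rw [map_add, map_smul, ← hΨ]; abel
    rw [e1, S_rdiag, S_rdiag, Matrix.add_mul, Matrix.smul_mul, trace_add, trace_smul,
      Complex.add_re, smul_eq_mul, Complex.re_ofReal_mul] at h4
    rw [min_lin, hZ0] at h1
    rw [min_lin, htr, hZ0, hadj] at h2
    have h5 := mul_le_mul_of_nonneg_left (abs_le.mp h1).1 hαA
    have h6 := mul_le_mul_of_nonneg_left (abs_le.mp h2).2 hα
    simp only [Matrix.mul_sub, Matrix.mul_add, Matrix.mul_smul, trace_sub, trace_add, trace_smul,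
      smul_eq_mul, Complex.sub_re, Complex.add_re, Complex.re_ofReal_mul, min_Q]
    simp only [Complex.zero_re, add_zero] at h5 h6
    linarith
  constructor
  · set M := (αA : ℂ) • rdiag (fun i => log (p i)) + G - (α : ℂ) • E (rdiag fun i => log (w i))
      with hM
    have hMh : M.IsHermitian := by
      rw [IsHermitian, hM, conjTranspose_sub, conjTranspose_add, conjTranspose_smul,
        conjTranspose_smul, ← adj_star Ψ E hadj hstar, rdiag_conjTranspose, rdiag_conjTranspose,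
        hG.eq]
      simp
    have hd : (Fintype.card A : ℂ) ≠ 0 := by
      have : Nonempty A := by
        by_contra h
        rw [not_nonempty_iff] at h
        simp at hp1
      exact_mod_cast Fintype.card_ne_zero
    set l : ℝ := M.trace.re / Fintype.card A with hl
    have hZ : (M - (l : ℂ) • 1).IsHermitian := by
      rw [IsHermitian, conjTranspose_sub, hMh.eq]; simp
    have hZ0 : (M - (l : ℂ) • 1).trace = 0 := by
      rw [trace_sub, trace_smul, trace_one, hl, Complex.ofReal_div, ← P358.trace_eq_re hMh,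
        smul_eq_mul, Complex.ofReal_natCast, div_mul_cancel₀ _ hd, sub_self]
    have h1 := (key _ hZ hZ0).1
    have h2 : ((M - (l : ℂ) • 1)ᴴ * (M - (l : ℂ) • 1)).trace = 0 := by
      rw [P358.trace_eq_re (isHermitian_conjTranspose_mul_self _), hZ.eq, Matrix.mul_sub,
        Matrix.mul_smul, Matrix.mul_one, trace_sub, trace_smul, hZ0, smul_zero, sub_zero, h1,
        Complex.ofReal_zero]
    have h3 := trace_conjTranspose_mul_self_eq_zero_iff.mp h2
    refine ⟨-l, ?_⟩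
    rw [sub_eq_zero] at h3
    rw [Complex.ofReal_neg, neg_smul, ← h3, hM]
    abel
  · intro W
    have hQ : ∀ Z : Matrix A A ℂ, Z.trace = 0 → α * min_Q w (Ψ Z) ≤ αA * min_Q p Z := by
      intro Z hZ
      have h1 := (key (Z + Zᴴ) (isHermitian_add_transpose_self Z)
        (by rw [trace_add, trace_conjTranspose, hZ]; simp)).2
      have h2 := (key (Complex.I • (Z - Zᴴ)) (by
        rw [IsHermitian]; simp [← smul_neg])
        (by rw [trace_smul, trace_sub, trace_conjTranspose, hZ]; simp)).2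
      rw [map_add, hstar] at h1
      rw [map_smul, map_sub, hstar] at h2
      have h3 := min_Q_polar p Z
      have h4 := min_Q_polar w (Ψ Z)
      have h5 := congrArg (αA * ·) h3
      have h6 := congrArg (α * ·) h4
      simp only [mul_add] at h5 h6
      linarith
    set Y := E W - (rdiag p * E W).trace • 1 with hY
    set T := ∑ m, ∑ m', logMean (p m) (p m') * ‖Y m m'‖ ^ 2 with hT
    set R := ∑ i, ∑ k, logMean (w i) (w k) * ‖W i k‖ ^ 2 with hR
    set Z : Matrix A A ℂ := Matrix.of fun m m' => (logMean (p m) (p m') : ℂ) * Y m m' with hZ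
    have hZ0 : Z.trace = 0 := by
      have : Z.trace = (rdiag p * Y).trace := by
        simp [hZ, trace, rdiag, logMean_self, diagonal_mul]
      rw [this, hY, Matrix.mul_sub, Matrix.mul_smul, Matrix.mul_one, trace_sub, trace_smul, rdiag,
        trace_diagonal, ← Complex.ofReal_sum, hp1]
      simp
    have h1 : min_Q p Z = T := by
      refine Finset.sum_congr rfl fun m _ => Finset.sum_congr rfl fun m' _ => ?_
      have := logMean_pos (hp m) (hp m')
      simp only [hZ, of_apply, norm_mul, Complex.norm_real, Real.norm_of_nonneg this.le]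
      field_simp
    have h2 : (Zᴴ * Y).trace.re = T := by
      simp only [trace, diag_apply, Matrix.mul_apply, conjTranspose_apply, Complex.re_sum, hZ,
        of_apply, star_mul', RCLike.star_def, Complex.conj_ofReal, mul_assoc, Complex.conj_mul',
        ← Complex.ofReal_pow, ← Complex.ofReal_mul, Complex.ofReal_re]
      exact Finset.sum_comm
    have h3 : (Zᴴ * Y).trace = ((Ψ Z)ᴴ * W).trace := by
      rw [← hstar, hadj, hY, Matrix.mul_sub, Matrix.mul_smul, Matrix.mul_one, trace_sub, trace_smul,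
        trace_conjTranspose, hZ0]
      simp
    have h4 : T ≤ ∑ x : C × C, ‖Ψ Z x.1 x.2‖ * ‖W x.1 x.2‖ := by
      rw [← h2, h3, Fintype.sum_prod_type, Finset.sum_comm]
      simp only [trace, diag_apply, Matrix.mul_apply, conjTranspose_apply, Complex.re_sum]
      refine Finset.sum_le_sum fun i _ => Finset.sum_le_sum fun k _ =>
        (Complex.re_le_norm _).trans (by simp)
    have h5 := Finset.sum_sq_le_sum_mul_sum_of_sq_le_mul Finset.univ
      (r := fun x : C × C => ‖Ψ Z x.1 x.2‖ * ‖W x.1 x.2‖)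
      (f := fun x => ‖Ψ Z x.1 x.2‖ ^ 2 / logMean (w x.1) (w x.2))
      (g := fun x => logMean (w x.1) (w x.2) * ‖W x.1 x.2‖ ^ 2)
      (fun x _ => div_nonneg (sq_nonneg _) (logMean_pos (hw _) (hw _)).le)
      (fun x _ => mul_nonneg (logMean_pos (hw _) (hw _)).le (sq_nonneg _))
      (fun x _ => le_of_eq (by have := logMean_pos (hw x.1) (hw x.2); field_simp))
    rw [Fintype.sum_prod_type (f := fun x : C × C => _ / _),
      Fintype.sum_prod_type (f := fun x : C × C => logMean _ _ * _)] at h5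
    have hT0 : 0 ≤ T := Finset.sum_nonneg fun _ _ => Finset.sum_nonneg fun _ _ =>
      mul_nonneg (logMean_pos (hp _) (hp _)).le (sq_nonneg _)
    have hR0 : 0 ≤ R := Finset.sum_nonneg fun _ _ => Finset.sum_nonneg fun _ _ =>
      mul_nonneg (logMean_pos (hw _) (hw _)).le (sq_nonneg _)
    have h6 : T ^ 2 ≤ min_Q w (Ψ Z) * R := (pow_le_pow_left₀ hT0 h4 2).trans h5
    have h7 := hQ Z hZ0
    rw [h1] at h7
    rcases hT0.eq_or_lt with h | h
    · rw [← h, mul_zero]; positivity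
    · refine le_of_mul_le_mul_right ?_ h
      nlinarith [mul_le_mul_of_nonneg_left h6 hα, mul_le_mul_of_nonneg_right h7 hR0]

/-- change of bases -/
noncomputable def conjV (V : Matrix (C × D) (A × B) ℂ) (UA : Matrix A A ℂ) (UB : Matrix B B ℂ)
    (UC : Matrix C C ℂ) : Matrix (C × D) (A × B) ℂ :=
  (UCᴴ ⊗ₖ (1 : Matrix D D ℂ)) * V * (UA ⊗ₖ UB)

lemma min_ptr (W : Matrix (C × D) (C × D) ℂ) (U U' : Matrix C C ℂ) :
    ptr ((U ⊗ₖ (1 : Matrix D D ℂ)) * W * (U' ⊗ₖ (1 : Matrix D D ℂ))) = U * ptr W * U' := by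
  refine ext_iff_trace_mul_right.mpr fun Z => ?_
  rw [trace_ptr_mul, Matrix.mul_assoc U, Matrix.mul_assoc U, trace_mul_comm U, Matrix.mul_assoc _ U',
    Matrix.mul_assoc (ptr W), trace_ptr_mul, Matrix.mul_assoc, Matrix.mul_assoc, trace_mul_comm,
    Matrix.mul_assoc, ← mul_kronecker_mul, ← mul_kronecker_mul]
  simp

theorem Phi_conj (V : Matrix (C × D) (A × B) ℂ) {UA : Matrix A A ℂ} {UB : Matrix B B ℂ}
    (UC : Matrix C C ℂ) (hA : UA * UAᴴ = 1) (hB : UB * UBᴴ = 1) (X : Matrix A A ℂ)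
    (Y : Matrix B B ℂ) :
    Phi (conjV V UA UB UC) (UAᴴ * X * UA) (UBᴴ * Y * UB) = UCᴴ * Phi V X Y * UC := by
  have h1 : (UA ⊗ₖ UB) * ((UAᴴ * X * UA) ⊗ₖ (UBᴴ * Y * UB)) * (UA ⊗ₖ UB)ᴴ = X ⊗ₖ Y := by
    rw [conjTranspose_kronecker, ← mul_kronecker_mul, ← mul_kronecker_mul]
    simp only [← Matrix.mul_assoc, hA, hB, Matrix.one_mul]
    simp only [Matrix.mul_assoc, hA, hB, Matrix.mul_one]
  rw [Phi, Phi, ← min_ptr, ← h1, conjV]
  simp only [conjTranspose_mul, conjTranspose_kronecker UCᴴ, conjTranspose_conjTranspose,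
    conjTranspose_one, Matrix.mul_assoc]

lemma min_tr {U : Matrix A A ℂ} (hU : U * Uᴴ = 1) (X G : Matrix A A ℂ) :
    (Uᴴ * X * U * (Uᴴ * G * U)).trace = (X * G).trace := by
  rw [← Matrix.mul_assoc, trace_mul_comm]
  simp only [← Matrix.mul_assoc, hU, Matrix.one_mul]
  rw [Matrix.mul_assoc X, hU, Matrix.mul_one]

lemma min_dstate {U X : Matrix A A ℂ} (hX : DState X) (hU : U * Uᴴ = 1) :
    DState (Uᴴ * X * U) :=
  ⟨hX.1.conjTranspose_mul_mul_same U, by
    rw [trace_mul_comm, ← Matrix.mul_assoc, hU, Matrix.one_mul, hX.2]⟩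

lemma min_obj (V : Matrix (C × D) (A × B) ℂ) (α αA αB δ : ℝ) (GA : Matrix A A ℂ)
    (GB : Matrix B B ℂ) {X : Matrix A A ℂ} {Y : Matrix B B ℂ} (hX : X.PosSemidef)
    (hY : Y.PosSemidef) {UA : Matrix A A ℂ} {UB : Matrix B B ℂ}
    {UC : Matrix C C ℂ} (hA : UA * UAᴴ = 1) (hB : UB * UBᴴ = 1) (hC : UC * UCᴴ = 1) :
    Obj (conjV V UA UB UC) α αA αB δ (UAᴴ * GA * UA) (UBᴴ * GB * UB)
      (UAᴴ * X * UA) (UBᴴ * Y * UB) = Obj V α αA αB δ GA GB X Y := by
  have h1 : UCᴴ * Phi V X Y * UC + (δ : ℂ) • 1 = UCᴴ * (Phi V X Y + (δ : ℂ) • 1) * UC := by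
    simp [Matrix.mul_add, Matrix.add_mul, mul_eq_one_comm.mp hC]
  have h2 : (Phi V X Y + (δ : ℂ) • 1).IsHermitian :=
    (Phi_posSemidef V hX hY).1.add (by rw [IsHermitian]; simp)
  rw [Obj, Obj, Phi_conj V UC hA hB, h1, P358.S_conj' h2 hC, P358.S_conj' hX.1 hA,
    P358.S_conj' hY.1 hB, min_tr hA, min_tr hB]

theorem IsMinimiser.conj {V : Matrix (C × D) (A × B) ℂ} {α αA αB δ : ℝ} {GA : Matrix A A ℂ}
    {GB : Matrix B B ℂ} {X : Matrix A A ℂ} {Y : Matrix B B ℂ}
    (h : IsMinimiser V α αA αB δ GA GB X Y) {UA : Matrix A A ℂ} {UB : Matrix B B ℂ}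
    {UC : Matrix C C ℂ} (hA : UA * UAᴴ = 1) (hB : UB * UBᴴ = 1) (hC : UC * UCᴴ = 1) :
    IsMinimiser (conjV V UA UB UC) α αA αB δ (UAᴴ * GA * UA) (UBᴴ * GB * UB)
      (UAᴴ * X * UA) (UBᴴ * Y * UB) := by
  have hA' : UAᴴ * UA = 1 := mul_eq_one_comm.mp hA
  have hB' : UBᴴ * UB = 1 := mul_eq_one_comm.mp hB
  refine ⟨min_dstate h.1 hA, min_dstate h.2.1 hB, fun X' Y' hX hY => ?_⟩
  have h1 := min_dstate (U := UAᴴ) hX (by simpa using hA')
  have h2 := min_dstate (U := UBᴴ) hY (by simpa using hB')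
  have h3 := min_obj V α αA αB δ GA GB h1.1 h2.1 hA hB hC
  simp only [conjTranspose_conjTranspose, ← Matrix.mul_assoc, hA', hB', Matrix.one_mul] at h3
  simp only [Matrix.mul_assoc _ UAᴴ, Matrix.mul_assoc _ UBᴴ, hA', hB', Matrix.mul_one] at h3
  rw [min_obj V α αA αB δ GA GB h.1.1 h.2.1.1 hA hB hC, h3]
  simpa using h.2.2 _ _ h1 h2

theorem Rel.conj {c s : ℝ} {V : Matrix (C × D) (A × B) ℂ} {a Q : Matrix A A ℂ}
    {a' Q' : Matrix B B ℂ} {b : Matrix C C ℂ} {d : Matrix D D ℂ} (h : Rel c s V a Q a' Q' b d)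
    {UA : Matrix A A ℂ} {UB : Matrix B B ℂ} {UC : Matrix C C ℂ}
    (hA : UA * UAᴴ = 1) (hB : UB * UBᴴ = 1) (hC : UC * UCᴴ = 1) :
    Rel c s (conjV V UA UB UC) (UAᴴ * a * UA) (UAᴴ * Q * UA) (UBᴴ * a' * UB) (UBᴴ * Q' * UB)
      (UCᴴ * b * UC) d := by
  have hA' : UAᴴ * UA = 1 := mul_eq_one_comm.mp hA
  have hB' : UBᴴ * UB = 1 := mul_eq_one_comm.mp hB
  have hC' : UCᴴ * UC = 1 := mul_eq_one_comm.mp hC
  set K := UA ⊗ₖ UB with hK
  set L := UC ⊗ₖ (1 : Matrix D D ℂ) with hL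
  have eV : conjV V UA UB UC = Lᴴ * V * K := by simp [conjV, hL, hK, conjTranspose_kronecker]
  have k0 : K * Kᴴ = 1 := by
    rw [hK, conjTranspose_kronecker, ← mul_kronecker_mul, hA, hB, one_kronecker_one]
  have l0 : L * Lᴴ = 1 := by
    rw [hL, conjTranspose_kronecker, ← mul_kronecker_mul, hC]; simp
  have k1 : ∀ x : Matrix A A ℂ, (UAᴴ * x * UA) ⊗ₖ (1 : Matrix B B ℂ) =
      Kᴴ * (x ⊗ₖ (1 : Matrix B B ℂ)) * K := fun x => by
    rw [hK, conjTranspose_kronecker, ← mul_kronecker_mul, ← mul_kronecker_mul, Matrix.mul_one, hB']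
  have k2 : ∀ x : Matrix B B ℂ, (1 : Matrix A A ℂ) ⊗ₖ (UBᴴ * x * UB) =
      Kᴴ * ((1 : Matrix A A ℂ) ⊗ₖ x) * K := fun x => by
    rw [hK, conjTranspose_kronecker, ← mul_kronecker_mul, ← mul_kronecker_mul, Matrix.mul_one, hA']
  have l1 : (UCᴴ * b * UC) ⊗ₖ (1 : Matrix D D ℂ) = Lᴴ * (b ⊗ₖ (1 : Matrix D D ℂ)) * L := by
    rw [hL, conjTranspose_kronecker, ← mul_kronecker_mul, ← mul_kronecker_mul]; simp
  have l2 : (1 : Matrix C C ℂ) ⊗ₖ d = Lᴴ * ((1 : Matrix C C ℂ) ⊗ₖ d) * L := by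
    rw [hL, conjTranspose_kronecker, ← mul_kronecker_mul, ← mul_kronecker_mul]; simp [hC']
  have q1 : 1 - UAᴴ * Q * UA = UAᴴ * (1 - Q) * UA := by simp [Matrix.mul_sub, Matrix.sub_mul, hA']
  have q2 : 1 - UBᴴ * Q' * UB = UBᴴ * (1 - Q') * UB := by simp [Matrix.mul_sub, Matrix.sub_mul, hB']
  have k3 : ∀ x : Matrix (A × B) (C × D) ℂ, K * (Kᴴ * x) = x := fun x => by
    rw [← Matrix.mul_assoc, k0, Matrix.one_mul]
  have k4 : ∀ x : Matrix (A × B) (A × B) ℂ, K * (Kᴴ * x) = x := fun x => by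
    rw [← Matrix.mul_assoc, k0, Matrix.one_mul]
  have l3 : ∀ x : Matrix (C × D) (A × B) ℂ, L * (Lᴴ * x) = x := fun x => by
    rw [← Matrix.mul_assoc, l0, Matrix.one_mul]
  have l4 : ∀ x : Matrix (C × D) (C × D) ℂ, L * (Lᴴ * x) = x := fun x => by
    rw [← Matrix.mul_assoc, l0, Matrix.one_mul]
  have u : ∀ {ι : Type} [Fintype ι] [DecidableEq ι] {U : Matrix ι ι ℂ}, U * Uᴴ = 1 →
      ∀ x y : Matrix ι ι ℂ, Uᴴ * x * U * (Uᴴ * y * U) = Uᴴ * (x * y) * U := fun hU x y => by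
    simp only [Matrix.mul_assoc]
    rw [← Matrix.mul_assoc _ _ (y * _), hU, Matrix.one_mul]
  refine ⟨h.cs, ?_, ?_, ?_, ?_, ?_, ?_, ?_, ?_, ?_, ?_, ?_⟩
  · rw [eV]
    simp only [conjTranspose_mul, conjTranspose_conjTranspose, Matrix.mul_assoc, l3]
    rw [← Matrix.mul_assoc Vᴴ, h.iso, Matrix.one_mul, mul_eq_one_comm.mp k0]
  · have := congrArg (fun x => Lᴴ * x * K) h.r1
    rw [eV, l1, k1, k2]
    simpa only [Matrix.mul_assoc, Matrix.mul_add, Matrix.add_mul, Matrix.mul_smul,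
      Matrix.smul_mul, l3, k4] using this
  · have := congrArg (fun x => Lᴴ * x * K) h.r1'
    rw [eV, l2, k1, k2]
    simpa only [Matrix.mul_assoc, Matrix.mul_sub, Matrix.sub_mul, Matrix.mul_smul,
      Matrix.smul_mul, l3, k4] using this
  · have := congrArg (fun x => Kᴴ * x * L) h.r2
    rw [eV, l1, l2, q1, k1, k1]
    simpa only [conjTranspose_mul, conjTranspose_conjTranspose, Matrix.mul_assoc, Matrix.mul_sub,
      Matrix.sub_mul, Matrix.mul_smul, Matrix.smul_mul, k3, l4] using this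
  · have := congrArg (fun x => Kᴴ * x * L) h.r2'
    rw [eV, l1, l2, q2, k2, k2]
    simpa only [conjTranspose_mul, conjTranspose_conjTranspose, Matrix.mul_assoc, Matrix.mul_add,
      Matrix.add_mul, Matrix.mul_smul, Matrix.smul_mul, k3, l4] using this
  · exact isHermitian_conjTranspose_mul_mul UA h.hQ
  · rw [u hA, h.QQ]
  · rw [u hA, h.Qa]; simp
  · exact isHermitian_conjTranspose_mul_mul UB h.hQ'
  · rw [u hB, h.QQ']
  · rw [u hB, h.Qa']; simp

theorem fro2_conj (a : Matrix A A ℂ) {U : Matrix A A ℂ} (hU : U * Uᴴ = 1) :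
    fro2 (Uᴴ * a * U) = fro2 a := by
  rw [fro2_eq_trace, fro2_eq_trace, ← min_tr hU aᴴ a]
  simp only [conjTranspose_mul, conjTranspose_conjTranspose, Matrix.mul_assoc]

end Vale.Agent.P369
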