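import Vale.Agent.P369.Cone
import Vale.Agent.P369.Min

/-! Auxiliary matrix estimates for the key inequality. -/

set_option linter.unusedSectionVars false

namespace Vale.Agent.P369

open Matrix Finset Real
open Vale.Agent.P358 (S)
open scoped ComplexOrder Kronecker

/-! ### Frobenius norm -/

noncomputable def fn {ι κ : Type} [Fintype ι] [Fintype κ] (X : Matrix ι κ ℂ) : ℝ := √(fro2 X)

section
variable {ι κ μ : Type} [Fintype ι] [Fintype κ] [Fintype μ]

lemma fn_nonneg (X : Matrix ι κ ℂ) : 0 ≤ fn X := Real.sqrt_nonneg _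

lemma fn_sq (X : Matrix ι κ ℂ) : fn X ^ 2 = fro2 X := Real.sq_sqrt (fro2_nonneg X)

open scoped Matrix.Norms.Frobenius in
lemma fn_eq (X : Matrix ι κ ℂ) : fn X = ‖X‖ := by
  rw [frobenius_norm_def, fn, fro2, Real.sqrt_eq_rpow]
  simp

open scoped Matrix.Norms.Frobenius in
lemma fn_mul (X : Matrix ι κ ℂ) (Y : Matrix κ μ ℂ) : fn (X * Y) ≤ fn X * fn Y := by
  simp only [fn_eq]; exact frobenius_norm_mul X Y

open scoped Matrix.Norms.Frobenius in
lemma fn_add (X Y : Matrix ι κ ℂ) : fn (X + Y) ≤ fn X + fn Y := by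
  simp only [fn_eq]; exact norm_add_le X Y

open scoped Matrix.Norms.Frobenius in
lemma fn_sub (X Y : Matrix ι κ ℂ) : fn (X - Y) ≤ fn X + fn Y := by
  simp only [fn_eq]; exact norm_sub_le X Y

open scoped Matrix.Norms.Frobenius in
lemma fn_smul (c : ℝ) (X : Matrix ι κ ℂ) : fn ((c : ℂ) • X) = |c| * fn X := by
  simp only [fn_eq]; rw [norm_smul]; simp

open scoped Matrix.Norms.Frobenius in
lemma fn_conjTranspose (X : Matrix ι κ ℂ) : fn Xᴴ = fn X := by
  simp only [fn_eq]; exact frobenius_norm_conjTranspose X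

lemma fn_le {X : Matrix ι κ ℂ} {u : ℝ} (hu : 0 ≤ u) (h : fro2 X ≤ u ^ 2) : fn X ≤ u :=
  Real.sqrt_le_iff.mpr ⟨hu, h⟩

lemma fn_mul_le {X : Matrix ι κ ℂ} {Y : Matrix κ μ ℂ} {u v : ℝ} (hX : fn X ≤ u) (hY : fn Y ≤ v) :
    fn (X * Y) ≤ u * v :=
  (fn_mul X Y).trans (mul_le_mul hX hY (fn_nonneg _) ((fn_nonneg _).trans hX))

lemma fro2_kron_one [DecidableEq κ] (X : Matrix ι ι ℂ) :
    fro2 (X ⊗ₖ (1 : Matrix κ κ ℂ)) = Fintype.card κ * fro2 X := by
  rw [fro2_eq_trace, fro2_eq_trace, conjTranspose_kronecker, ← mul_kronecker_mul, trace_kronecker]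
  simp [mul_comm]

lemma fro2_one_kron [DecidableEq κ] (X : Matrix ι ι ℂ) :
    fro2 ((1 : Matrix κ κ ℂ) ⊗ₖ X) = Fintype.card κ * fro2 X := by
  rw [fro2_eq_trace, fro2_eq_trace, conjTranspose_kronecker, ← mul_kronecker_mul, trace_kronecker]
  simp

end

/-! ### weighted norms -/

/-- `tr ρ U† U` for diagonal `ρ` -/
noncomputable def wn {ι κ : Type} [Fintype ι] [Fintype κ] (p : ι → ℝ) (U : Matrix κ ι ℂ) : ℝ :=
  ∑ i, ∑ k, p k * ‖U i k‖ ^ 2

section
variable {ι κ : Type} [Fintype ι] [Fintype κ] [DecidableEq ι]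

lemma ip_eq (p : ι → ℝ) (U W : Matrix κ ι ℂ) :
    (rdiag p * (Uᴴ * W)).trace = ∑ i, ∑ k, (p k : ℂ) * (star (U i k) * W i k) := by
  simp only [trace, diag_apply, rdiag, diagonal_mul]
  simp only [Matrix.mul_apply, conjTranspose_apply, Finset.mul_sum]
  rw [Finset.sum_comm]

lemma wn_eq' (p : ι → ℝ) (U : Matrix κ ι ℂ) : (rdiag p * (Uᴴ * U)).trace = (wn p U : ℝ) := by
  rw [ip_eq, wn]
  push_cast
  refine Finset.sum_congr rfl fun i _ => Finset.sum_congr rfl fun k _ => ?_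
  simp [Complex.conj_mul']

lemma wn_eq (p : ι → ℝ) (U : Matrix κ ι ℂ) : wn p U = (rdiag p * (Uᴴ * U)).trace.re := by
  rw [wn_eq', Complex.ofReal_re]

lemma wn_nonneg {p : ι → ℝ} (hp : ∀ i, 0 ≤ p i) (U : Matrix κ ι ℂ) : 0 ≤ wn p U :=
  Finset.sum_nonneg fun _ _ => Finset.sum_nonneg fun k _ => mul_nonneg (hp k) (by positivity)

lemma wn_le_fro2 {p : ι → ℝ} (hp : ∀ i, p i ≤ 1) (U : Matrix κ ι ℂ) : wn p U ≤ fro2 U :=
  Finset.sum_le_sum fun _ _ => Finset.sum_le_sum fun k _ =>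
    mul_le_of_le_one_left (by positivity) (hp k)

lemma ip_re_le {p : ι → ℝ} (hp : ∀ i, 0 ≤ p i) (U W : Matrix κ ι ℂ) :
    2 * (rdiag p * (Uᴴ * W)).trace.re ≤ wn p U + wn p W := by
  rw [ip_eq, wn, wn, Complex.re_sum, Finset.mul_sum, ← Finset.sum_add_distrib]
  refine Finset.sum_le_sum fun i _ => ?_
  rw [Complex.re_sum, Finset.mul_sum, ← Finset.sum_add_distrib]
  refine Finset.sum_le_sum fun k _ => ?_
  have := re_star_mul_le (U i k) (W i k) one_pos
  rw [Complex.re_ofReal_mul]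
  have := mul_le_mul_of_nonneg_left this (hp k)
  simp only [inv_one, one_mul] at this
  linarith

lemma ip_cs {p : ι → ℝ} (hp : ∀ i, 0 ≤ p i) (U W : Matrix κ ι ℂ) :
    ‖(rdiag p * (Uᴴ * W)).trace‖ ^ 2 ≤ wn p U * wn p W := by
  rw [ip_eq, wn, wn, ← Fintype.sum_prod_type', ← Fintype.sum_prod_type',
    ← Fintype.sum_prod_type']
  refine le_trans (pow_le_pow_left₀ (norm_nonneg _) (norm_sum_le _ _) 2) ?_
  refine Finset.sum_sq_le_sum_mul_sum_of_sq_le_mul _ (fun x _ => mul_nonneg (hp _) (by positivity))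
    (fun x _ => mul_nonneg (hp _) (by positivity)) fun x _ => le_of_eq ?_
  rw [norm_mul, norm_mul, norm_star, Complex.norm_real, Real.norm_eq_abs, abs_of_nonneg (hp _)]
  ring

lemma wn_iso_le [DecidableEq κ] {μ : Type} [Fintype μ] [DecidableEq μ] {p : ι → ℝ}
    (hp : ∀ i, 0 ≤ p i) {V : Matrix κ μ ℂ}
    (hV : Vᴴ * V = 1) (N : Matrix κ ι ℂ) : wn p (Vᴴ * N) ≤ wn p N := by
  have h := wn_nonneg hp (N - V * (Vᴴ * N))
  have e : (N - V * (Vᴴ * N))ᴴ * (N - V * (Vᴴ * N)) = Nᴴ * N - (Vᴴ * N)ᴴ * (Vᴴ * N) := by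
    have h2 : (V * (Vᴴ * N))ᴴ * (V * (Vᴴ * N)) = (Vᴴ * N)ᴴ * (Vᴴ * N) := by
      rw [conjTranspose_mul V, Matrix.mul_assoc, ← Matrix.mul_assoc Vᴴ V, hV, Matrix.one_mul]
    have h3 : Nᴴ * (V * (Vᴴ * N)) = (Vᴴ * N)ᴴ * (Vᴴ * N) := by
      rw [conjTranspose_mul, conjTranspose_conjTranspose, Matrix.mul_assoc]
    have h4 : (V * (Vᴴ * N))ᴴ * N = (Vᴴ * N)ᴴ * (Vᴴ * N) := by
      rw [conjTranspose_mul V, Matrix.mul_assoc]
    rw [conjTranspose_sub, Matrix.sub_mul, Matrix.mul_sub, Matrix.mul_sub, h2, h3, h4]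
    abel
  rw [wn_eq, e, Matrix.mul_sub, trace_sub, Complex.sub_re, ← wn_eq, ← wn_eq] at h
  linarith

end

lemma rdiag_kron {A B : Type} [DecidableEq A] [DecidableEq B] (p : A → ℝ) (q : B → ℝ) :
    rdiag p ⊗ₖ rdiag q = rdiag (fun x : A × B => p x.1 * q x.2) := by
  simp only [rdiag, diagonal_kronecker_diagonal]
  congr 1; funext x; push_cast; rfl

lemma trace_rdiag {A : Type} [Fintype A] [DecidableEq A] (p : A → ℝ) :
    (rdiag p).trace = ((∑ i, p i : ℝ) : ℂ) := by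
  simp [rdiag]

lemma rdiag_comm {A : Type} [Fintype A] [DecidableEq A] (p q : A → ℝ) :
    rdiag p * rdiag q = rdiag q * rdiag p := by
  simp [rdiag, diagonal_mul_diagonal, mul_comm]

lemma trace_star {A : Type} [Fintype A] (M : Matrix A A ℂ) : Mᴴ.trace = star M.trace :=
  trace_conjTranspose M

/-- weighted norm with a function of the modular operator -/
noncomputable def nrm {A : Type} [Fintype A] (f : ℝ → ℝ) (p : A → ℝ) (M : Matrix A A ℂ) : ℝ :=
  ∑ m, ∑ m', f (p m / p m') * (p m' * ‖M m m'‖ ^ 2)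

section
variable {A B C : Type} [Fintype A] [Fintype B] [Fintype C]
  [DecidableEq A] [DecidableEq B] [DecidableEq C]

lemma nrm_one (p : A → ℝ) (M : Matrix A A ℂ) : nrm (fun _ => 1) p M = wn p M := by
  simp [nrm, wn]

lemma nrm_id {p : A → ℝ} (hp : ∀ i, 0 < p i) (M : Matrix A A ℂ) :
    nrm (fun x => x) p M = wn p Mᴴ := by
  unfold nrm wn
  rw [Finset.sum_comm]
  refine Finset.sum_congr rfl fun i _ => Finset.sum_congr rfl fun k _ => ?_
  have := hp i
  rw [conjTranspose_apply, norm_star]; field_simp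

lemma nrm_L {p : A → ℝ} (hp : ∀ i, 0 < p i) (c : ℝ) (M : Matrix A A ℂ) :
    nrm (fun x => c * logMean x 1) p M = c * ∑ m, ∑ m', logMean (p m) (p m') * ‖M m m'‖ ^ 2 := by
  unfold nrm
  simp only [Finset.mul_sum]
  refine Finset.sum_congr rfl fun i _ => Finset.sum_congr rfl fun k _ => ?_
  rw [logMean_div (hp i) (hp k)]; ring

theorem interp_ops (FA : Matrix C C ℂ →ₗ[ℂ] Matrix A A ℂ) (FB : Matrix C C ℂ →ₗ[ℂ] Matrix B B ℂ)
    {p : A → ℝ} {q : B → ℝ} {w : C → ℝ} (hp : ∀ i, 0 < p i) (hq : ∀ i, 0 < q i)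
    (hw : ∀ i, 0 < w i) {r s t ε : ℝ} (hr : 0 < r) (hs : 0 < s) (ht : 0 < t) (hε : 0 ≤ ε)
    (hε1 : ε ≤ 1) (h1 : ∀ W, wn p (FA W) + wn q (FB W) ≤ wn w W)
    (h2 : ∀ W, wn p (FA W)ᴴ + wn q (FB W)ᴴ ≤ wn w Wᴴ)
    (h3 : ∀ lA lB lC : ℝ, (lA = bet r * r ∧ lB = bet s * s ∧ lC = bet t * t) ∨
      (lA = bet r * (r + 1) ∧ lB = bet s * (s + 1) ∧ lC = bet t * (t + 1)) ∨
      (lA = bet r ^ 2 * r * (r + 1) ∧ lB = bet s ^ 2 * s * (s + 1) ∧ lC = bet t ^ 2 * t * (t + 1)) →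
      ∀ W, (1 - ε) * (nrm (fun x => lA * logMean x 1) p (FA W)
        + nrm (fun x => lB * logMean x 1) q (FB W)) ≤ nrm (fun x => lC * logMean x 1) w W) :
    ∃ sm sp : C × C → ℝ, (∀ i k, kk t (w i / w k) = w i / w k * sm (i, k) + sp (i, k)) ∧ ∀ W,
      (1 - ε) * (nrm (kk r) p (FA W) + nrm (kk s) q (FB W)) +
        ε * ∑ i, ∑ k, (w i / w k * sm (i, k) ^ 2 + sp (i, k) ^ 2) * (w k * ‖W i k‖ ^ 2)
          ≤ nrm (kk t) w W := by
  let unv : (C × C → ℂ) → Matrix C C ℂ := fun z i k => (((√(w k))⁻¹ : ℝ) : ℂ) * z (i, k)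
  have unv_add : ∀ z z', unv (z + z') = unv z + unv z' := fun z z' => by
    ext i k; rw [Matrix.add_apply]; simp [unv, mul_add]
  have unv_smul : ∀ (c : ℂ) z, unv (c • z) = c • unv z := fun c z => by
    ext i k; rw [Matrix.smul_apply]; simp [unv, mul_left_comm]
  let Tl : (C × C → ℂ) →ₗ[ℂ] ((A × A) ⊕ (B × B) → ℂ) :=
    { toFun := fun z => Sum.elim
        (fun x => ((√(1 - ε) * √(p x.2) : ℝ) : ℂ) * FA (unv z) x.1 x.2)
        (fun x => ((√(1 - ε) * √(q x.2) : ℝ) : ℂ) * FB (unv z) x.1 x.2)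
      map_add' := fun z z' => by
        funext j; cases j <;> simp [unv_add, mul_add]
      map_smul' := fun c z => by
        funext j; cases j <;> simp [unv_smul, mul_left_comm] }
  have hT : ∀ (f : (A × A) ⊕ (B × B) → ℝ) z,
      ∑ j, f j * ‖(LinearMap.toMatrix' Tl *ᵥ z) j‖ ^ 2
        = (1 - ε) * (∑ m, ∑ m', f (Sum.inl (m, m')) * (p m' * ‖FA (unv z) m m'‖ ^ 2)
          + ∑ m, ∑ m', f (Sum.inr (m, m')) * (q m' * ‖FB (unv z) m m'‖ ^ 2)) := by
    intro f z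
    rw [LinearMap.toMatrix'_mulVec, Fintype.sum_sum_type, Fintype.sum_prod_type,
      Fintype.sum_prod_type, mul_add]
    simp only [Finset.mul_sum]
    congr 1
    all_goals
      refine Finset.sum_congr rfl fun i _ => Finset.sum_congr rfl fun k _ => ?_
      simp only [Tl, LinearMap.coe_mk, AddHom.coe_mk, Sum.elim_inl, Sum.elim_inr, norm_mul,
        Complex.norm_real, Real.norm_eq_abs, mul_pow, sq_abs]
    · rw [Real.sq_sqrt (by linarith), Real.sq_sqrt (hp k).le]; ring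
    · rw [Real.sq_sqrt (by linarith), Real.sq_sqrt (hq k).le]; ring
  have hz : ∀ (h : C × C → ℝ) z, ∑ i, h i * ‖z i‖ ^ 2
      = ∑ i, ∑ k, h (i, k) * (w k * ‖unv z i k‖ ^ 2) := by
    intro h z
    rw [Fintype.sum_prod_type]
    refine Finset.sum_congr rfl fun i _ => Finset.sum_congr rfl fun k _ => ?_
    have := hw k
    simp only [unv, norm_mul, Complex.norm_real, Real.norm_eq_abs, mul_pow, sq_abs, inv_pow,
      Real.sq_sqrt this.le]
    field_simp
  have dom : ∀ (fA fB fC : ℝ → ℝ), (∀ W, (1 - ε) * (nrm fA p (FA W) + nrm fB q (FB W))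
      ≤ nrm fC w W) → Dom (LinearMap.toMatrix' Tl)
        (Sum.elim (fun x => fA (p x.1 / p x.2)) (fun x => fB (q x.1 / q x.2)))
        (fun i => fC (w i.1 / w i.2)) := by
    intro fA fB fC h z
    rw [hT, hz]
    exact h (unv z)
  obtain ⟨sm, sp, hk, hI⟩ := interpolation (LinearMap.toMatrix' Tl)
    (Sum.elim (fun x => p x.1 / p x.2) (fun x => q x.1 / q x.2))
    (Sum.elim (fun _ => r) (fun _ => s)) (fun i => w i.1 / w i.2) (t := t) (ε := ε)
    (fun j => by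
      cases j
      · exact div_pos (hp _) (hp _)
      · exact div_pos (hq _) (hq _))
    (fun j => by cases j <;> assumption) (fun i => div_pos (hw _) (hw _)) ht hε
    ((dom (fun _ => 1) (fun _ => 1) (fun _ => 1 - ε) fun W => by
        have e : nrm (fun _ => 1 - ε) w W = (1 - ε) * wn w W := by
          simp [nrm, wn, Finset.mul_sum]
        rw [nrm_one, nrm_one, e]
        exact mul_le_mul_of_nonneg_left (h1 W) (by linarith)).congr
      (fun j => by cases j <;> rfl) fun _ => rfl)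
    ((dom (fun x => x) (fun x => x) (fun x => (1 - ε) * x) fun W => by
        have e : nrm (fun x => (1 - ε) * x) w W = (1 - ε) * nrm (fun x => x) w W := by
          simp [nrm, Finset.mul_sum, mul_assoc]
        rw [e, nrm_id hp, nrm_id hq, nrm_id hw]
        exact mul_le_mul_of_nonneg_left (h2 W) (by linarith)).congr
      (fun j => by cases j <;> rfl) fun _ => rfl)
    ((dom _ _ _ (h3 _ _ _ (Or.inl ⟨rfl, rfl, rfl⟩))).congr
      (fun j => by cases j <;> rfl) fun _ => rfl)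
    ((dom _ _ _ (h3 _ _ _ (Or.inr (Or.inl ⟨rfl, rfl, rfl⟩)))).congr
      (fun j => by cases j <;> rfl) fun _ => rfl)
    ((dom _ _ _ (h3 _ _ _ (Or.inr (Or.inr ⟨rfl, rfl, rfl⟩)))).congr
      (fun j => by cases j <;> rfl) fun _ => rfl)
  refine ⟨sm, sp, fun i k => hk (i, k), fun W => ?_⟩
  have := hI fun x => ((√(w x.2) : ℝ) : ℂ) * W x.1 x.2
  have e : unv (fun x => ((√(w x.2) : ℝ) : ℂ) * W x.1 x.2) = W := by
    ext i k
    have : ((√(w k) : ℝ) : ℂ) ≠ 0 := by exact_mod_cast (Real.sqrt_pos.mpr (hw k)).ne'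
    simp only [unv]; push_cast; field_simp
  rw [hT, hz, hz, e] at this
  exact this

/-- `Z = a + α [a, log ρ]` -/
noncomputable def Zop (N : ℝ) (a : Matrix A A ℂ) (p : A → ℝ) : Matrix A A ℂ :=
  a + (al N : ℂ) • (a * rdiag (fun i => log (p i)) - rdiag (fun i => log (p i)) * a)

lemma Jop_apply {N : ℝ} (hN : 0 < N) (a : Matrix A A ℂ) {p : A → ℝ} (hp : ∀ i, 0 < p i)
    (m m' : A) :
    Jop N a (rdiag p) m m' = ((kk N (p m / p m') * p m' : ℝ) : ℂ) * Zop N a p m m' := by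
  have h := kk_mul hN (div_pos (hp m) (hp m'))
  rw [Real.log_div (hp m).ne' (hp m').ne'] at h
  have h2 : kk N (p m / p m') * p m' * (1 + al N * (log (p m') - log (p m)))
      = (N + 1) * p m' - N * p m := by
    have := hp m'
    calc _ = p m' * (kk N (p m / p m') * (1 - al N * (log (p m) - log (p m')))) := by ring
      _ = _ := by rw [h]; field_simp
  have h3 := congrArg (fun x : ℝ => (x : ℂ) * a m m') h2
  simp only [Jop, Zop, rdiag, Matrix.sub_apply, Matrix.add_apply, Matrix.smul_apply, mul_diagonal,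
    diagonal_mul, smul_eq_mul]
  push_cast at h3 ⊢
  linear_combination -h3

lemma trace_weighted (U W : Matrix A A ℂ) (k : A → A → ℝ) (J : Matrix A A ℂ)
    (hJ : ∀ m m', J m m' = (k m m' : ℂ) * W m m') :
    (Uᴴ * J).trace = ∑ m, ∑ m', (k m m' : ℂ) * (star (U m m') * W m m') := by
  simp only [trace, diag_apply, Matrix.mul_apply, conjTranspose_apply, hJ]
  rw [Finset.sum_comm]
  exact Finset.sum_congr rfl fun i _ => Finset.sum_congr rfl fun j _ => by ring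

end

end Vale.Agent.P369
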