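import Vale.Agent.P369.KeyAux

/-! Conditional expectations, the swap symmetry and the ANOVA inequality. -/

set_option linter.unusedSectionVars false

namespace Vale.Agent.P369

open Matrix Finset Real
open scoped ComplexOrder Kronecker

variable {A B C D : Type} [Fintype A] [Fintype B] [Fintype C] [Fintype D]
  [DecidableEq A] [DecidableEq B] [DecidableEq C] [DecidableEq D]

lemma sub_kron (X X' : Matrix A A ℂ) (Y : Matrix B B ℂ) : (X - X') ⊗ₖ Y = X ⊗ₖ Y - X' ⊗ₖ Y := by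
  ext i j; simp [sub_mul]

lemma kron_neg (X : Matrix A A ℂ) (Y : Matrix B B ℂ) : X ⊗ₖ (-Y) = -(X ⊗ₖ Y) := by
  ext i j; simp

/-- conditional expectation on the first factor -/
noncomputable def cexp (Y : Matrix B B ℂ) (M : Matrix (A × B) (A × B) ℂ) : Matrix A A ℂ :=
  ptr (((1 : Matrix A A ℂ) ⊗ₖ Y) * M)

lemma trace_mul_cexp (Z : Matrix A A ℂ) (Y : Matrix B B ℂ) (M : Matrix (A × B) (A × B) ℂ) :
    (Z * cexp Y M).trace = ((Z ⊗ₖ Y) * M).trace := by
  rw [trace_mul_comm, cexp, trace_ptr_mul, trace_mul_comm, ← Matrix.mul_assoc,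
    ← mul_kronecker_mul, Matrix.mul_one, Matrix.one_mul]

lemma mul_cexp (a : Matrix A A ℂ) (Y : Matrix B B ℂ) (M : Matrix (A × B) (A × B) ℂ) :
    a * cexp Y M = cexp Y ((a ⊗ₖ (1 : Matrix B B ℂ)) * M) := by
  refine Matrix.ext_iff_trace_mul_left.mpr fun Z => ?_
  rw [← Matrix.mul_assoc, trace_mul_cexp, trace_mul_cexp, ← Matrix.mul_assoc, ← mul_kronecker_mul,
    Matrix.mul_one]

lemma cexp_mul (a : Matrix A A ℂ) (Y : Matrix B B ℂ) (M : Matrix (A × B) (A × B) ℂ) :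
    cexp Y M * a = cexp Y (M * (a ⊗ₖ (1 : Matrix B B ℂ))) := by
  refine Matrix.ext_iff_trace_mul_left.mpr fun Z => ?_
  rw [← Matrix.mul_assoc, trace_mul_cycle, trace_mul_cexp, trace_mul_cexp, ← Matrix.mul_assoc,
    trace_mul_cycle, ← mul_kronecker_mul, Matrix.one_mul]

lemma cexp_add (Y : Matrix B B ℂ) (M N : Matrix (A × B) (A × B) ℂ) :
    cexp Y (M + N) = cexp Y M + cexp Y N := by
  simp [cexp, Matrix.mul_add, ptr_add]

lemma cexp_sub (Y : Matrix B B ℂ) (M N : Matrix (A × B) (A × B) ℂ) :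
    cexp Y (M - N) = cexp Y M - cexp Y N := by
  simp [cexp, Matrix.mul_sub, ptr_sub]

lemma cexp_smul (Y : Matrix B B ℂ) (z : ℂ) (M : Matrix (A × B) (A × B) ℂ) :
    cexp Y (z • M) = z • cexp Y M := by
  simp [cexp, ptr_smul]

lemma cexp_kron (Y Z2 : Matrix B B ℂ) (Z1 : Matrix A A ℂ) :
    cexp Y (Z1 ⊗ₖ Z2) = (Y * Z2).trace • Z1 := by
  refine Matrix.ext_iff_trace_mul_left.mpr fun Z => ?_
  rw [trace_mul_cexp, ← mul_kronecker_mul, trace_kronecker, Matrix.mul_smul, trace_smul,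
    smul_eq_mul, mul_comm]

/-- the adjoint of `X ↦ Phi V X Y` -/
noncomputable def EAl (V : Matrix (C × D) (A × B) ℂ) (Y : Matrix B B ℂ) :
    Matrix C C ℂ →ₗ[ℂ] Matrix A A ℂ where
  toFun W := cexp Y (Vᴴ * (W ⊗ₖ (1 : Matrix D D ℂ)) * V)
  map_add' W W' := by rw [add_kronecker, Matrix.mul_add, Matrix.add_mul, cexp_add]
  map_smul' z W := by rw [smul_kronecker, Matrix.mul_smul, Matrix.smul_mul, cexp_smul]; rfl

lemma EAl_apply (V : Matrix (C × D) (A × B) ℂ) (Y : Matrix B B ℂ) (W : Matrix C C ℂ) :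
    EAl V Y W = cexp Y (Vᴴ * (W ⊗ₖ (1 : Matrix D D ℂ)) * V) := rfl

noncomputable def PhiA (V : Matrix (C × D) (A × B) ℂ) (Y : Matrix B B ℂ) :
    Matrix A A ℂ →ₗ[ℂ] Matrix C C ℂ where
  toFun X := Phi V X Y
  map_add' X X' := by simp only [Phi]; rw [add_kronecker, Matrix.mul_add, Matrix.add_mul, ptr_add]
  map_smul' z X := by
    simp only [Phi]; rw [smul_kronecker, Matrix.mul_smul, Matrix.smul_mul, ptr_smul]; rfl

lemma Phi_adj (V : Matrix (C × D) (A × B) ℂ) (Y : Matrix B B ℂ) (X : Matrix A A ℂ)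
    (W : Matrix C C ℂ) : (Phi V X Y * W).trace = (X * EAl V Y W).trace := by
  rw [trace_Phi_mul, EAl_apply, trace_mul_cexp]

lemma Phi_star (V : Matrix (C × D) (A × B) ℂ) {Y : Matrix B B ℂ} (hY : Yᴴ = Y)
    (X : Matrix A A ℂ) : Phi V Xᴴ Y = (Phi V X Y)ᴴ := by
  rw [Phi, Phi, ptr_conjTranspose, conjTranspose_mul, conjTranspose_mul,
    conjTranspose_conjTranspose, conjTranspose_kronecker, hY, Matrix.mul_assoc]

lemma EAl_star (V : Matrix (C × D) (A × B) ℂ) {Y : Matrix B B ℂ} (hY : Yᴴ = Y)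
    (W : Matrix C C ℂ) : EAl V Y Wᴴ = (EAl V Y W)ᴴ :=
  adj_star (fun X => Phi V X Y) (EAl V Y) (Phi_adj V Y) (Phi_star V hY) W

/-- centring in the state `X` -/
noncomputable def cen (X : Matrix A A ℂ) : Matrix A A ℂ →ₗ[ℂ] Matrix A A ℂ where
  toFun M := M - (X * M).trace • 1
  map_add' M N := by rw [Matrix.mul_add, trace_add, add_smul]; abel
  map_smul' z M := by
    rw [Matrix.mul_smul, trace_smul, smul_eq_mul, mul_smul, ← smul_sub]; rfl

lemma cen_apply (X M : Matrix A A ℂ) : cen X M = M - (X * M).trace • 1 := rfl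

lemma trace_cen {X : Matrix A A ℂ} (h1 : X.trace = 1) (M : Matrix A A ℂ) :
    (X * cen X M).trace = 0 := by
  rw [cen_apply, Matrix.mul_sub, trace_sub, Matrix.mul_smul, Matrix.mul_one, trace_smul, h1]
  simp

lemma trace_herm_mul_star {X : Matrix A A ℂ} (hX : Xᴴ = X) (M : Matrix A A ℂ) :
    (X * Mᴴ).trace = star (X * M).trace := by
  rw [← trace_star, conjTranspose_mul, hX, trace_mul_comm]

lemma cen_star {X : Matrix A A ℂ} (hX : Xᴴ = X) (M : Matrix A A ℂ) :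
    cen X Mᴴ = (cen X M)ᴴ := by
  rw [cen_apply, cen_apply, trace_herm_mul_star hX, conjTranspose_sub, conjTranspose_smul,
    conjTranspose_one]

lemma ip_cen {X : Matrix A A ℂ} (hX : Xᴴ = X) (h1 : X.trace = 1) (M : Matrix A A ℂ) :
    (X * (cen X M)ᴴ * M).trace = (X * ((cen X M)ᴴ * cen X M)).trace := by
  have h0 : (X * (cen X M)ᴴ).trace = 0 := by
    rw [trace_herm_mul_star hX, trace_cen h1, star_zero]
  conv_rhs => enter [1, 2, 2]; rw [cen_apply]
  rw [Matrix.mul_sub, Matrix.mul_sub, trace_sub, Matrix.mul_smul, Matrix.mul_one, Matrix.mul_smul,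
    trace_smul, h0, Matrix.mul_assoc]
  simp

/-! ### swap -/

def swV (V : Matrix (C × D) (A × B) ℂ) : Matrix (C × D) (B × A) ℂ :=
  V.submatrix id (Equiv.prodComm B A)

def swM (M : Matrix (A × B) (A × B) ℂ) : Matrix (B × A) (B × A) ℂ :=
  M.submatrix (Equiv.prodComm B A) (Equiv.prodComm B A)

def swH (U : Matrix (A × B) (C × D) ℂ) : Matrix (B × A) (C × D) ℂ :=
  U.submatrix (Equiv.prodComm B A) id

lemma kron_swap (X : Matrix A A ℂ) (Y : Matrix B B ℂ) : Y ⊗ₖ X = swM (X ⊗ₖ Y) := by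
  ext i j; simp [swM, mul_comm]

lemma mul_swV (M : Matrix (C × D) (C × D) ℂ) (V : Matrix (C × D) (A × B) ℂ) :
    M * swV V = swV (M * V) := rfl

lemma swV_mul (V : Matrix (C × D) (A × B) ℂ) (M : Matrix (A × B) (A × B) ℂ) :
    swV V * swM M = swV (V * M) := submatrix_mul_equiv V M _ _ _

lemma swV_conjTranspose (V : Matrix (C × D) (A × B) ℂ) : (swV V)ᴴ = swH Vᴴ := rfl

lemma swM_mul_swH (M : Matrix (A × B) (A × B) ℂ) (U : Matrix (A × B) (C × D) ℂ) :
    swM M * swH U = swH (M * U) := submatrix_mul_equiv M U _ _ _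

lemma swH_mul (U : Matrix (A × B) (C × D) ℂ) (M : Matrix (C × D) (C × D) ℂ) :
    swH U * M = swH (U * M) := rfl

lemma swH_mul_swV (U : Matrix (A × B) (C × D) ℂ) (V : Matrix (C × D) (A × B) ℂ) :
    swH U * swV V = swM (U * V) := rfl

lemma swV_mul_swH (V : Matrix (C × D) (A × B) ℂ) (U : Matrix (A × B) (C × D) ℂ) :
    swV V * swH U = V * U := submatrix_mul_equiv V U _ _ _

lemma swM_mul (M N : Matrix (A × B) (A × B) ℂ) : swM M * swM N = swM (M * N) :=
  submatrix_mul_equiv M N _ _ _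

lemma trace_swM (M : Matrix (A × B) (A × B) ℂ) : (swM M).trace = M.trace :=
  Equiv.sum_comp (Equiv.prodComm B A) (fun i => M i i)

lemma swM_add (M N : Matrix (A × B) (A × B) ℂ) : swM (M + N) = swM M + swM N := rfl
lemma swM_sub (M N : Matrix (A × B) (A × B) ℂ) : swM (M - N) = swM M - swM N := rfl
lemma swM_smul (z : ℂ) (M : Matrix (A × B) (A × B) ℂ) : swM (z • M) = z • swM M := rfl

lemma swap_omega (V : Matrix (C × D) (A × B) ℂ) (X : Matrix A A ℂ) (Y : Matrix B B ℂ) :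
    swV V * (Y ⊗ₖ X) * (swV V)ᴴ = V * (X ⊗ₖ Y) * Vᴴ := by
  rw [kron_swap, swV_mul, swV_conjTranspose, swV_mul_swH]

lemma Phi_swap (V : Matrix (C × D) (A × B) ℂ) (X : Matrix A A ℂ) (Y : Matrix B B ℂ) :
    Phi (swV V) Y X = Phi V X Y := by
  rw [Phi, swap_omega, Phi]

lemma fro2_swV (V : Matrix (C × D) (A × B) ℂ) : fro2 (swV V) = fro2 V :=
  Finset.sum_congr rfl fun i _ => Equiv.sum_comp (Equiv.prodComm B A) (fun j => ‖V i j‖ ^ 2)

lemma Rel.swap {c s : ℝ} {V : Matrix (C × D) (A × B) ℂ} {a Q : Matrix A A ℂ}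
    {a' Q' : Matrix B B ℂ} {b : Matrix C C ℂ} {d : Matrix D D ℂ} (h : Rel c s V a Q a' Q' b d) :
    Rel s c (swV V) a' Q' a Q b (-d) where
  cs := by linarith [h.cs]
  iso := by
    rw [swV_conjTranspose, swH_mul_swV, h.iso]
    exact submatrix_one_equiv _
  r1 := by
    rw [mul_swV, h.r1, kron_swap (1 : Matrix A A ℂ) a', kron_swap a (1 : Matrix B B ℂ),
      ← swM_smul, ← swM_smul, ← swM_add, swV_mul, add_comm]
  r1' := by
    rw [mul_swV, kron_neg, Matrix.neg_mul, h.r1', kron_swap (1 : Matrix A A ℂ) a',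
      kron_swap a (1 : Matrix B B ℂ), ← swM_smul, ← swM_smul, ← swM_sub, swV_mul,
      ← Matrix.mul_neg, neg_sub]
  r2 := by
    rw [swV_conjTranspose, kron_swap (1 : Matrix A A ℂ) a', kron_swap (1 : Matrix A A ℂ) (1 - Q'),
      swM_mul_swH, swM_mul_swH, swH_mul, h.r2', kron_neg, smul_neg, sub_neg_eq_add]
  r2' := by
    rw [swV_conjTranspose, kron_swap a (1 : Matrix B B ℂ), kron_swap (1 - Q) (1 : Matrix B B ℂ),
      swM_mul_swH, swM_mul_swH, swH_mul, h.r2, kron_neg, smul_neg, ← sub_eq_add_neg]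
  hQ := h.hQ'
  QQ := h.QQ'
  Qa := h.Qa'
  hQ' := h.hQ
  QQ' := h.QQ
  Qa' := h.Qa

lemma IsMinimiser.swap {V : Matrix (C × D) (A × B) ℂ} {α αA αB δ : ℝ} {GA : Matrix A A ℂ}
    {GB : Matrix B B ℂ} {X : Matrix A A ℂ} {Y : Matrix B B ℂ}
    (h : IsMinimiser V α αA αB δ GA GB X Y) : IsMinimiser (swV V) α αB αA δ GB GA Y X := by
  refine ⟨h.2.1, h.1, fun Y' X' hY hX => ?_⟩
  have := h.2.2 X' Y' hX hY
  simp only [Obj, Phi_swap] at this ⊢
  linarith

lemma anova {V : Matrix (C × D) (A × B) ℂ} (hV : Vᴴ * V = 1) {p : A → ℝ} {q : B → ℝ}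
    (hp : ∀ i, 0 ≤ p i) (hq : ∀ i, 0 ≤ q i) (hp1 : ∑ i, p i = 1) (hq1 : ∑ i, q i = 1)
    (W : Matrix C C ℂ) :
    wn p (cen (rdiag p) (EAl V (rdiag q) W)) + wn q (cen (rdiag q) (EAl (swV V) (rdiag p) W))
      ≤ (Phi V (rdiag p) (rdiag q) * (Wᴴ * W)).trace.re := by
  have tX : (rdiag p).trace = 1 := by rw [trace_rdiag, hp1]; simp
  have tY : (rdiag q).trace = 1 := by rw [trace_rdiag, hq1]; simp
  have hX := rdiag_conjTranspose p
  have hY := rdiag_conjTranspose q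
  have hρ : ∀ x : A × B, 0 ≤ p x.1 * q x.2 := fun x => mul_nonneg (hp _) (hq _)
  set YA := cen (rdiag p) (EAl V (rdiag q) W) with hYA
  set YB := cen (rdiag q) (EAl (swV V) (rdiag p) W) with hYB
  set M := Vᴴ * (W ⊗ₖ (1 : Matrix D D ℂ)) * V with hM
  set U := YA ⊗ₖ (1 : Matrix B B ℂ) + (1 : Matrix A A ℂ) ⊗ₖ YB with hU
  have cA : (rdiag p * YA).trace = 0 := trace_cen tX _
  have cB : (rdiag q * YB).trace = 0 := trace_cen tY _
  have t1 : ((rdiag p * YAᴴ) ⊗ₖ rdiag q * M).trace = (wn p YA : ℝ) := by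
    rw [← trace_mul_cexp, ← wn_eq', hM, ← EAl_apply, hYA, ip_cen hX tX]
  have t2 : (rdiag p ⊗ₖ (rdiag q * YBᴴ) * M).trace = (wn q YB : ℝ) := by
    rw [← trace_swM, ← swM_mul, ← kron_swap, hM, ← swH_mul_swV, ← swH_mul, ← swV_conjTranspose,
      ← trace_mul_cexp, ← wn_eq', ← EAl_apply, hYB, ip_cen hY tY]
  have e1 : (rdiag (fun x : A × B => p x.1 * q x.2) * (Uᴴ * M)).trace.re = wn p YA + wn q YB := by
    rw [← rdiag_kron, hU, conjTranspose_add, conjTranspose_kronecker, conjTranspose_kronecker,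
      conjTranspose_one, conjTranspose_one, ← Matrix.mul_assoc, Matrix.mul_add, ← mul_kronecker_mul,
      ← mul_kronecker_mul, Matrix.mul_one, Matrix.mul_one, Matrix.add_mul, trace_add, t1, t2]
    simp
  have e2 : wn (fun x : A × B => p x.1 * q x.2) U = wn p YA + wn q YB := by
    rw [wn_eq, ← rdiag_kron, hU, conjTranspose_add, conjTranspose_kronecker,
      conjTranspose_kronecker, conjTranspose_one, conjTranspose_one]
    simp only [Matrix.add_mul, Matrix.mul_add, ← mul_kronecker_mul, Matrix.mul_one,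
      Matrix.one_mul, trace_add, trace_kronecker, wn_eq', tX, tY, cA, cB]
    simp
  have e3 : wn (fun x : A × B => p x.1 * q x.2) M
      ≤ (Phi V (rdiag p) (rdiag q) * (Wᴴ * W)).trace.re := by
    rw [hM, Matrix.mul_assoc]
    refine (wn_iso_le hρ hV _).trans (le_of_eq ?_)
    rw [wn_eq, trace_Phi_mul, rdiag_kron, conjTranspose_mul, conjTranspose_kronecker,
      conjTranspose_one]
    congr 3
    rw [← Matrix.mul_assoc, Matrix.mul_assoc Vᴴ, ← mul_kronecker_mul, Matrix.mul_one]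
  have := ip_re_le hρ U M
  linarith

end Vale.Agent.P369
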