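import Vale.Agent.P369.KeyOps

/-! The one-sided estimate at a stationary point. -/

set_option linter.unusedSectionVars false

namespace Vale.Agent.P369

open Matrix Finset Real
open scoped ComplexOrder Kronecker

variable {A B C D : Type} [Fintype A] [Fintype B] [Fintype C] [Fintype D]
  [DecidableEq A] [DecidableEq B] [DecidableEq C] [DecidableEq D]

/-- `c b - s d` -/
noncomputable def G1 (c s : ℝ) (b : Matrix C C ℂ) (d : Matrix D D ℂ) : Matrix (C × D) (C × D) ℂ :=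
  (c : ℂ) • (b ⊗ₖ (1 : Matrix D D ℂ)) - (s : ℂ) • ((1 : Matrix C C ℂ) ⊗ₖ d)

noncomputable def Et (c s : ℝ) (V : Matrix (C × D) (A × B) ℂ) (b : Matrix C C ℂ)
    (d : Matrix D D ℂ) (W : Matrix C C ℂ) : Matrix (A × B) (A × B) ℂ :=
  Vᴴ * G1 c s b d * (W ⊗ₖ (1 : Matrix D D ℂ)) * V

section
variable {c s : ℝ} {V : Matrix (C × D) (A × B) ℂ} {a Q : Matrix A A ℂ}
    {a' Q' : Matrix B B ℂ} {b : Matrix C C ℂ} {d : Matrix D D ℂ}

lemma G1_mul (W : Matrix C C ℂ) : G1 c s b d * (W ⊗ₖ (1 : Matrix D D ℂ))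
    = (c : ℂ) • ((b * W) ⊗ₖ (1 : Matrix D D ℂ)) - (s : ℂ) • (W ⊗ₖ d) := by
  simp [G1, Matrix.sub_mul, ← mul_kronecker_mul]

lemma mul_G1 (W : Matrix C C ℂ) : (W ⊗ₖ (1 : Matrix D D ℂ)) * G1 c s b d
    = (c : ℂ) • ((W * b) ⊗ₖ (1 : Matrix D D ℂ)) - (s : ℂ) • (W ⊗ₖ d) := by
  simp [G1, Matrix.mul_sub, ← mul_kronecker_mul]

lemma Rel.Va (h : Rel c s V a Q a' Q' b d) :
    V * (a ⊗ₖ (1 : Matrix B B ℂ)) = G1 c s b d * V := by
  have hcs : (c : ℂ) ^ 2 + (s : ℂ) ^ 2 = 1 := by exact_mod_cast h.cs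
  rw [G1, Matrix.sub_mul, Matrix.smul_mul, Matrix.smul_mul, h.r1, h.r1', Matrix.mul_add,
    Matrix.mul_sub]
  simp only [Matrix.mul_smul]
  generalize V * (a ⊗ₖ (1 : Matrix B B ℂ)) = M
  generalize V * ((1 : Matrix A A ℂ) ⊗ₖ a') = N
  have : M = ((c : ℂ) ^ 2 + (s : ℂ) ^ 2) • M := by rw [hcs, one_smul]
  conv_lhs => rw [this]
  module

lemma Rel.EA_b (h : Rel c s V a Q a' Q' b d) {Y : Matrix B B ℂ} (hY : Y.trace = 1) :
    EAl V Y b = (c : ℂ) • a + ((s : ℂ) * (Y * a').trace) • 1 := by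
  rw [EAl_apply, Matrix.mul_assoc, h.r1, ← Matrix.mul_assoc, h.iso, Matrix.one_mul, cexp_add,
    cexp_smul, cexp_smul, cexp_kron, cexp_kron, Matrix.mul_one, hY, one_smul, smul_smul]

lemma Rel.mul_EA (h : Rel c s V a Q a' Q' b d) (Y : Matrix B B ℂ) (W : Matrix C C ℂ) :
    a * EAl V Y W = cexp Y (Et c s V b d W) - Q * cexp Y (Et c s V b d W) := by
  have h2 : (a ⊗ₖ (1 : Matrix B B ℂ)) * Vᴴ = ((1 - Q) ⊗ₖ (1 : Matrix B B ℂ)) * Vᴴ * G1 c s b d :=
    h.r2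
  rw [EAl_apply, mul_cexp, mul_cexp, ← cexp_sub, ← Matrix.mul_assoc, ← Matrix.mul_assoc, h2,
    sub_kron, one_kronecker_one, Et]
  simp only [Matrix.sub_mul, Matrix.one_mul, Matrix.mul_assoc]

lemma Rel.EA_mul (h : Rel c s V a Q a' Q' b d) (Y : Matrix B B ℂ) (W : Matrix C C ℂ) :
    EAl V Y W * a = cexp Y (Vᴴ * ((W ⊗ₖ (1 : Matrix D D ℂ)) * G1 c s b d) * V) := by
  rw [EAl_apply, cexp_mul, Matrix.mul_assoc, h.Va]
  simp only [Matrix.mul_assoc]

lemma Rel.comm_EA (h : Rel c s V a Q a' Q' b d) (Y : Matrix B B ℂ) (W : Matrix C C ℂ) :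
    a * EAl V Y W - EAl V Y W * a
      = (c : ℂ) • EAl V Y (b * W - W * b) - Q * cexp Y (Et c s V b d W) := by
  have : cexp Y (Et c s V b d W) - cexp Y (Vᴴ * ((W ⊗ₖ (1 : Matrix D D ℂ)) * G1 c s b d) * V)
      = (c : ℂ) • EAl V Y (b * W - W * b) := by
    rw [← cexp_sub, EAl_apply, ← cexp_smul, Et, Matrix.mul_assoc Vᴴ, ← Matrix.sub_mul,
      ← Matrix.mul_sub, G1_mul, mul_G1, sub_kron, ← Matrix.smul_mul, ← Matrix.mul_smul]
    congr 3
    module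
  rw [h.mul_EA, h.EA_mul, ← this]
  abel

lemma trace_cexp_lift (V : Matrix (C × D) (A × B) ℂ) (X : Matrix A A ℂ) (Y : Matrix B B ℂ)
    (N : Matrix (C × D) (C × D) ℂ) :
    (X * cexp Y (Vᴴ * N * V)).trace = (V * (X ⊗ₖ Y) * Vᴴ * N).trace := by
  rw [trace_mul_cexp, ← Matrix.mul_assoc, trace_mul_comm _ V]
  simp only [Matrix.mul_assoc]

lemma Rel.trace_EA_a (h : Rel c s V a Q a' Q' b d) (X : Matrix A A ℂ) (Y : Matrix B B ℂ)
    (W : Matrix C C ℂ) : (X * (EAl V Y W * a)).trace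
      = c * (Phi V X Y * (W * b)).trace - s * (V * (X ⊗ₖ Y) * Vᴴ * (W ⊗ₖ d)).trace := by
  rw [h.EA_mul, trace_cexp_lift, mul_G1, Matrix.mul_sub, trace_sub, Matrix.mul_smul,
    Matrix.mul_smul, trace_smul, trace_smul, Phi, trace_ptr_mul]
  rfl

lemma trace_Et (X : Matrix A A ℂ) (Y : Matrix B B ℂ) (W : Matrix C C ℂ) :
    (X * cexp Y (Et c s V b d W)).trace
      = c * (Phi V X Y * (b * W)).trace - s * (V * (X ⊗ₖ Y) * Vᴴ * (W ⊗ₖ d)).trace := by
  rw [Et, Matrix.mul_assoc Vᴴ, trace_cexp_lift, G1_mul, Matrix.mul_sub, trace_sub, Matrix.mul_smul,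
    Matrix.mul_smul, trace_smul, trace_smul, Phi, trace_ptr_mul]
  rfl

end

lemma le_one_of_sum {p : A → ℝ} (hp : ∀ i, 0 ≤ p i) (hp1 : ∑ i, p i = 1) (i : A) : p i ≤ 1 :=
  hp1 ▸ Finset.single_le_sum (fun j _ => hp j) (Finset.mem_univ i)

lemma top_bound {p : A → ℝ} {q : B → ℝ} (hp : ∀ i, 0 ≤ p i) (hq : ∀ i, 0 ≤ q i)
    (hp1 : ∑ i, p i = 1) (hq1 : ∑ i, q i = 1) {Q : Matrix A A ℂ} (hQ : Qᴴ = Q) (QQ : Q * Q = Q)
    {P ζ κ : ℝ} (hζ : 0 ≤ ζ) (hκ : 0 ≤ κ) (htop : P ^ 16 * (rdiag p * Q).trace.re ≤ ζ ^ 2)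
    {M : Matrix (A × B) (A × B) ℂ} (hM : fn M ≤ κ * P ^ 8) :
    ‖(rdiag p * Q * cexp (rdiag q) M).trace‖ ≤ κ * ζ := by
  have hρ : ∀ x : A × B, 0 ≤ p x.1 * q x.2 := fun x => mul_nonneg (hp _) (hq _)
  have hρ1 : ∀ x : A × B, p x.1 * q x.2 ≤ 1 := fun x =>
    mul_le_one₀ (le_one_of_sum hp hp1 _) (hq _) (le_one_of_sum hq hq1 _)
  have tY : (rdiag q).trace = 1 := by rw [trace_rdiag, hq1]; simp
  have cs := ip_cs hρ (Q ⊗ₖ (1 : Matrix B B ℂ)) M
  have e1 : (rdiag (fun x : A × B => p x.1 * q x.2) * ((Q ⊗ₖ (1 : Matrix B B ℂ))ᴴ * M)).trace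
      = (rdiag p * Q * cexp (rdiag q) M).trace := by
    rw [trace_mul_cexp, ← rdiag_kron, conjTranspose_kronecker, hQ, conjTranspose_one,
      ← Matrix.mul_assoc, ← mul_kronecker_mul, Matrix.mul_one]
  have e2 : wn (fun x : A × B => p x.1 * q x.2) (Q ⊗ₖ (1 : Matrix B B ℂ))
      = (rdiag p * Q).trace.re := by
    rw [wn_eq, ← rdiag_kron, conjTranspose_kronecker, hQ, conjTranspose_one, ← mul_kronecker_mul,
      ← mul_kronecker_mul, QQ, Matrix.mul_one, Matrix.mul_one, trace_kronecker, tY, mul_one]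
  have e3 : wn (fun x : A × B => p x.1 * q x.2) M ≤ (κ * P ^ 8) ^ 2 :=
    (wn_le_fro2 hρ1 M).trans (fn_sq M ▸ pow_le_pow_left₀ (fn_nonneg _) hM 2)
  have h0 : 0 ≤ (rdiag p * Q).trace.re := e2 ▸ wn_nonneg hρ _
  rw [e1, e2] at cs
  refine abs_le_of_sq_le_sq' ?_ (by positivity) |>.2
  calc _ ≤ (rdiag p * Q).trace.re * (κ * P ^ 8) ^ 2 :=
        cs.trans (mul_le_mul_of_nonneg_left e3 h0)
    _ = κ ^ 2 * (P ^ 16 * (rdiag p * Q).trace.re) := by ring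
    _ ≤ κ ^ 2 * ζ ^ 2 := mul_le_mul_of_nonneg_left htop (by positivity)
    _ = _ := by ring

lemma trace_comm_diag (p l : A → ℝ) (a : Matrix A A ℂ) :
    (rdiag p * (a * rdiag l - rdiag l * a)).trace = 0 := by
  rw [Matrix.mul_sub, trace_sub, ← Matrix.mul_assoc, trace_mul_cycle, ← Matrix.mul_assoc,
    rdiag_comm, sub_self]

lemma trace_Zop (p l : A → ℝ) (N : ℝ) (a : Matrix A A ℂ) :
    (rdiag p * Zop N a l).trace = (rdiag p * a).trace := by
  rw [Zop, Matrix.mul_add, Matrix.mul_smul, trace_add, trace_smul, trace_comm_diag]; simp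

lemma weighted_amgm (k : A → A → ℝ) (hk : ∀ m m', 0 ≤ k m m') (U W J : Matrix A A ℂ)
    (hJ : ∀ m m', J m m' = (k m m' : ℂ) * W m m') (e c : ℝ) :
    2 * e * c * (Uᴴ * J).trace.re
      ≤ e ^ 2 * ∑ m, ∑ m', k m m' * ‖U m m'‖ ^ 2 + c ^ 2 * (Wᴴ * J).trace.re := by
  rw [trace_weighted U W k J hJ, trace_weighted W W k J hJ]
  simp only [Complex.re_sum, Finset.mul_sum, ← Finset.sum_add_distrib]
  refine Finset.sum_le_sum fun m _ => Finset.sum_le_sum fun m' _ => ?_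
  rw [Complex.re_ofReal_mul, Complex.re_ofReal_mul, ← Complex.normSq_eq_norm_sq,
    Complex.normSq_apply]
  simp only [Complex.mul_re, Complex.star_def, Complex.conj_re, Complex.conj_im]
  have := mul_nonneg (hk m m') (add_nonneg (sq_nonneg (e * (U m m').re - c * (W m m').re))
    (sq_nonneg (e * (U m m').im - c * (W m m').im)))
  nlinarith

lemma err_bound {c s r α α0 K ζ : ℝ} {V : Matrix (C × D) (A × B) ℂ} {a Q : Matrix A A ℂ}
    {a' Q' : Matrix B B ℂ} {b : Matrix C C ℂ} {d : Matrix D D ℂ} (h : Rel c s V a Q a' Q' b d)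
    {X DA T : Matrix A A ℂ} (hX : Xᴴ = X) (hr : 0 < r) (hα0 : 0 ≤ α) (hα1 : α ≤ α0) {xb : ℂ}
    (bxb1 : ‖xb‖ ≤ K) (h1 : ‖(X * DA).trace‖ ≤ ζ) (h2 : -((DAᴴ * Jop r a X).trace.re) ≤ ζ)
    (t1 : ‖(X * Q * T).trace‖ ≤ 2 * ζ) (t2 : ‖(X * Q * (T * aᴴ)).trace‖ ≤ 2 * ζ) :
    -((DA + (α : ℂ) • (Q * T))ᴴ * (Jop r a X - xb • X)).trace.re
      ≤ (1 + K + α0 * (2 * r + 2 * K)) * ζ := by
  have hK1 : 0 ≤ K := (norm_nonneg _).trans bxb1
  have e1 : ((DA + (α : ℂ) • (Q * T))ᴴ * (Jop r a X - xb • X)).trace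
      = (DAᴴ * Jop r a X).trace - xb * star (X * DA).trace + (α : ℂ) *
        (-(r * star (X * Q * (T * aᴴ)).trace) - xb * star (X * Q * T).trace) := by
    have f1 : (DAᴴ * X).trace = star (X * DA).trace := by
      rw [trace_mul_comm, trace_herm_mul_star hX]
    have f2 : ((Q * T)ᴴ * X).trace = star (X * Q * T).trace := by
      rw [trace_mul_comm, trace_herm_mul_star hX, Matrix.mul_assoc]
    have f3 : ((Q * T)ᴴ * (a * X)).trace = 0 := by
      rw [conjTranspose_mul, h.hQ, Matrix.mul_assoc, ← Matrix.mul_assoc Q, h.Qa]; simp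
    have f4 : ((Q * T)ᴴ * (X * a)).trace = star (X * Q * (T * aᴴ)).trace := by
      rw [← trace_star, conjTranspose_mul, conjTranspose_mul, conjTranspose_mul,
        conjTranspose_mul, conjTranspose_conjTranspose, hX, ← Matrix.mul_assoc, trace_mul_comm]
      simp only [Matrix.mul_assoc]
    have f5 : ((Q * T)ᴴ * Jop r a X).trace = -(r * star (X * Q * (T * aᴴ)).trace) := by
      rw [Jop, Matrix.mul_sub, Matrix.mul_smul, Matrix.mul_smul, trace_sub, trace_smul,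
        trace_smul, f3, f4]
      simp
    rw [conjTranspose_add, conjTranspose_smul]
    simp only [Matrix.add_mul, Matrix.mul_sub, Matrix.mul_smul, Matrix.smul_mul, trace_add,
      trace_sub, trace_smul, smul_eq_mul, f1, f2, f5, Complex.star_def, Complex.conj_ofReal]
    ring
  have g1 : ‖xb * star (X * DA).trace‖ ≤ K * ζ := by
    rw [norm_mul, norm_star]; exact mul_le_mul bxb1 h1 (norm_nonneg _) hK1
  have g2 : ‖(α : ℂ) * (-(r * star (X * Q * (T * aᴴ)).trace) - xb * star (X * Q * T).trace)‖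
      ≤ α0 * (r * (2 * ζ) + K * (2 * ζ)) := by
    rw [norm_mul, Complex.norm_real, Real.norm_eq_abs, abs_of_nonneg hα0]
    refine mul_le_mul hα1 ((norm_sub_le _ _).trans (add_le_add ?_ ?_)) (norm_nonneg _)
      (hα0.trans hα1)
    · rw [norm_neg, norm_mul, norm_star, Complex.norm_real, Real.norm_eq_abs, abs_of_pos hr]
      exact mul_le_mul_of_nonneg_left t2 hr.le
    · rw [norm_mul, norm_star]; exact mul_le_mul bxb1 t1 (norm_nonneg _) hK1
  rw [e1, Complex.add_re, Complex.sub_re]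
  have k1 := Complex.re_le_norm (xb * star (X * DA).trace)
  have k3 := (abs_le.mp ((Complex.abs_re_le_norm _).trans g2)).1
  linarith

lemma balance {c s : ℝ} {V : Matrix (C × D) (A × B) ℂ} {a Q : Matrix A A ℂ}
    {a' Q' : Matrix B B ℂ} {b : Matrix C C ℂ} {d : Matrix D D ℂ} (h : Rel c s V a Q a' Q' b d)
    {X : Matrix A A ℂ} {Y : Matrix B B ℂ} (hX : Xᴴ = X) (hY : Yᴴ = Y) (r : ℝ)
    (Z : Matrix C C ℂ) (tJb : (Jop r a X - (X * a).trace • X).trace = 0) :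
    (c : ℂ) * ((cen X (EAl V Y Z))ᴴ * (Jop r a X - (X * a).trace • X)).trace
      = (c : ℂ) ^ 2 * (((r : ℂ) + 1) * (Phi V X Y * (Zᴴ * b)).trace
        - r * (Phi V X Y * (b * Zᴴ)).trace)
      - c * s * (V * (X ⊗ₖ Y) * Vᴴ * (Zᴴ ⊗ₖ d)).trace
      - c * star (X * EAl V Y Z).trace * (X * a).trace
      + c * r * (X * Q * cexp Y (Et c s V b d Zᴴ)).trace := by
  have f1 : (EAl V Y Zᴴ * (a * X)).trace = c * (Phi V X Y * (Zᴴ * b)).trace
      - s * (V * (X ⊗ₖ Y) * Vᴴ * (Zᴴ ⊗ₖ d)).trace := by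
    rw [← h.trace_EA_a, ← Matrix.mul_assoc, trace_mul_comm]
  have f2 : (EAl V Y Zᴴ * (X * a)).trace = c * (Phi V X Y * (b * Zᴴ)).trace
      - s * (V * (X ⊗ₖ Y) * Vᴴ * (Zᴴ ⊗ₖ d)).trace
      - (X * Q * cexp Y (Et c s V b d Zᴴ)).trace := by
    rw [trace_mul_comm, Matrix.mul_assoc, h.mul_EA, Matrix.mul_sub, trace_sub, trace_Et,
      Matrix.mul_assoc X Q]
  have f3 : (EAl V Y Zᴴ * X).trace = star (X * EAl V Y Z).trace := by
    rw [trace_mul_comm, EAl_star V hY, trace_herm_mul_star hX]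
  rw [cen_apply, conjTranspose_sub, conjTranspose_smul, conjTranspose_one, Matrix.sub_mul,
    Matrix.smul_mul, Matrix.one_mul, trace_sub, trace_smul, tJb, ← EAl_star V hY, Jop]
  simp only [Matrix.mul_sub, Matrix.mul_smul, trace_sub, trace_smul, smul_eq_mul, f1, f2, f3]
  push_cast
  ring

lemma side_arith {ε c y z dd n E : ℝ} (hε1 : ε ≤ 1 / 2)
    (h1 : 2 * (1 - ε) * c * y ≤ (1 - ε) ^ 2 * n + c ^ 2 * z)
    (h2 : c * (1 - ε) * y = c ^ 2 * z + dd) (h3 : -dd ≤ E) (hE : 0 ≤ E) :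
    c * y ≤ (1 - ε) * n + 2 * E := by
  refine le_of_mul_le_mul_left ?_ (show 0 < 1 - ε by linarith)
  nlinarith

lemma first_order {ε c s r t lam : ℝ} {V : Matrix (C × D) (A × B) ℂ} {a Q G DA : Matrix A A ℂ}
    {a' Q' : Matrix B B ℂ} {b : Matrix C C ℂ} {d : Matrix D D ℂ} (h : Rel c s V a Q a' Q' b d)
    {p : A → ℝ} {Y : Matrix B B ℂ} {w : C → ℝ} (tY : Y.trace = 1)
    (hstat : (((1 - ε) * al t : ℝ) : ℂ) • EAl V Y (rdiag fun i => log (w i))
      = ((c ^ 2 * al r : ℝ) : ℂ) • rdiag (fun i => log (p i)) + G + (lam : ℂ) • 1)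
    (hG : a * G - G * a = ((ε * c ^ 2 : ℝ) : ℂ) • a + DA) :
    ((c * (1 - ε) : ℝ) : ℂ) • EAl V Y (Zop t b w) = ((c ^ 2 : ℝ) : ℂ) • Zop r a p
      + (((1 - ε) * c * s : ℝ) * (Y * a').trace : ℂ) • (1 : Matrix A A ℂ)
      + (DA + (((1 - ε) * al t : ℝ) : ℂ) •
        (Q * cexp Y (Et c s V b d (rdiag fun i => log (w i))))) := by
  have hcomm : (((1 - ε) * al t : ℝ) : ℂ) • (a * EAl V Y (rdiag fun i => log (w i))
      - EAl V Y (rdiag fun i => log (w i)) * a)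
      = ((c ^ 2 * al r : ℝ) : ℂ) • (a * rdiag (fun i => log (p i)) - rdiag (fun i => log (p i)) * a)
        + (((ε * c ^ 2 : ℝ) : ℂ) • a + DA) := by
    rw [smul_sub, ← Matrix.mul_smul, ← Matrix.smul_mul, hstat, ← hG]
    simp only [Matrix.mul_add, Matrix.add_mul, Matrix.mul_smul, Matrix.smul_mul, Matrix.mul_one,
      Matrix.one_mul]
    module
  rw [h.comm_EA] at hcomm
  rw [Zop, map_add, map_smul, h.EA_b tY, Zop]
  push_cast at hcomm ⊢
  linear_combination (norm := module) hcomm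

noncomputable def K1 (ε c t : ℝ) : ℝ := (1 + 2 * al t) / (ε * c ^ 2)

noncomputable def K2 (ε c r t : ℝ) : ℝ :=
  2 * r * (1 + 2 * al t) + 2 * (1 + K1 ε c t + al t * (2 * r + 2 * K1 ε c t))

lemma side {ε c s r t δ P ζ lam : ℝ} (hε : 0 < ε) (hε1 : ε ≤ 1 / 2) (hc : 0 < c) (hr : 0 < r)
    (ht : 0 < t) {V : Matrix (C × D) (A × B) ℂ} {a Q G DA : Matrix A A ℂ}
    {a' Q' : Matrix B B ℂ} {b : Matrix C C ℂ} {d : Matrix D D ℂ} (h : Rel c s V a Q a' Q' b d)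
    {p : A → ℝ} {q : B → ℝ} {w : C → ℝ} (hp : ∀ i, 0 < p i) (hq : ∀ i, 0 ≤ q i)
    (hp1 : ∑ i, p i = 1) (hq1 : ∑ i, q i = 1)
    (hw : Phi V (rdiag p) (rdiag q) + (δ : ℂ) • 1 = rdiag w)
    (hstat : (((1 - ε) * al t : ℝ) : ℂ) • EAl V (rdiag q) (rdiag fun i => log (w i))
      = ((c ^ 2 * al r : ℝ) : ℂ) • rdiag (fun i => log (p i)) + G + (lam : ℂ) • 1)
    (hG : a * G - G * a = ((ε * c ^ 2 : ℝ) : ℂ) • a + DA) (hP : 1 ≤ P)
    (bV : fn V ≤ P) (bG : fn (G1 c s b d) ≤ 2 * P)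
    (bL : fn ((rdiag fun i => log (w i)) ⊗ₖ (1 : Matrix D D ℂ)) ≤ P ^ 2)
    (ba : fn (aᴴ ⊗ₖ (1 : Matrix B B ℂ)) ≤ P)
    (bZ : fn ((Zop t b w)ᴴ ⊗ₖ (1 : Matrix D D ℂ)) ≤ (1 + 2 * al t) * P ^ 4)
    (hζ1 : ζ ≤ 1) (htop : P ^ 16 * (rdiag p * Q).trace.re ≤ ζ ^ 2)
    (h1 : ‖(rdiag p * DA).trace‖ ≤ ζ) (h2 : -((DAᴴ * Jop r a (rdiag p)).trace.re) ≤ ζ) :
    ‖(rdiag p * a).trace‖ ≤ K1 ε c t * ζ ∧
    ((c : ℂ) ^ 2 * (((r : ℂ) + 1) * (Phi V (rdiag p) (rdiag q) * ((Zop t b w)ᴴ * b)).trace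
        - r * (Phi V (rdiag p) (rdiag q) * (b * (Zop t b w)ᴴ)).trace)
      - c * s * (V * (rdiag p ⊗ₖ rdiag q) * Vᴴ * ((Zop t b w)ᴴ ⊗ₖ d)).trace
      - c * star (Phi V (rdiag p) (rdiag q) * b).trace * (rdiag p * a).trace).re
      ≤ (1 - ε) * nrm (kk r) p (cen (rdiag p) (EAl V (rdiag q) (Zop t b w))) + K2 ε c r t * ζ := by
  have hζ : 0 ≤ ζ := (norm_nonneg _).trans h1
  have hat := al_pos ht
  have hc1 : c ≤ 1 := by nlinarith [h.cs, sq_nonneg s]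
  have hp' : ∀ i, 0 ≤ p i := fun i => (hp i).le
  have tX : (rdiag p).trace = 1 := by rw [trace_rdiag, hp1]; simp
  have tY : (rdiag q).trace = 1 := by rw [trace_rdiag, hq1]; simp
  have hX := rdiag_conjTranspose p
  have hY := rdiag_conjTranspose q
  set X := rdiag p with hXd
  set Y := rdiag q with hYd
  set L := rdiag fun i => log (w i) with hL
  set Z := Zop t b w with hZ
  set xb := (X * a).trace with hxb
  set yb := (Y * a').trace with hyb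
  set μ := (Phi V X Y * b).trace with hμ
  set T := cexp Y (Et c s V b d L) with hT
  set DD := DA + (((1 - ε) * al t : ℝ) : ℂ) • (Q * T) with hDD
  -- top-level bounds
  have P1 : ∀ k l : ℕ, k ≤ l → P ^ k ≤ P ^ l := fun k l hkl => pow_le_pow_right₀ hP hkl
  have bVH : fn Vᴴ ≤ P := by rw [fn_conjTranspose]; exact bV
  have bM1 : fn (Et c s V b d L) ≤ P * (2 * P) * P ^ 2 * P :=
    fn_mul_le (fn_mul_le (fn_mul_le bVH bG) bL) bV
  have bM2 : fn (Et c s V b d Zᴴ) ≤ P * (2 * P) * ((1 + 2 * al t) * P ^ 4) * P :=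
    fn_mul_le (fn_mul_le (fn_mul_le bVH bG) bZ) bV
  have t1 : ‖(X * Q * T).trace‖ ≤ 2 * ζ :=
    top_bound hp' hq hp1 hq1 h.hQ h.QQ hζ (by norm_num) htop
      (bM1.trans (by have := P1 5 8 (by norm_num); nlinarith))
  have t2 : ‖(X * Q * (T * aᴴ)).trace‖ ≤ 2 * ζ := by
    rw [hT, cexp_mul]
    exact top_bound hp' hq hp1 hq1 h.hQ h.QQ hζ (by norm_num) htop
      ((fn_mul_le bM1 ba).trans (by have := P1 6 8 (by norm_num); nlinarith))
  have t3 : ‖(X * Q * cexp Y (Et c s V b d Zᴴ)).trace‖ ≤ 2 * (1 + 2 * al t) * ζ :=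
    top_bound hp' hq hp1 hq1 h.hQ h.QQ hζ (by positivity) htop
      (bM2.trans (by have := P1 7 8 (by norm_num); nlinarith))
  -- the first-order identity
  have hid : ((c * (1 - ε) : ℝ) : ℂ) • EAl V Y Z = ((c ^ 2 : ℝ) : ℂ) • Zop r a p
      + (((1 - ε) * c * s : ℝ) * yb : ℂ) • (1 : Matrix A A ℂ) + DD :=
    first_order h tY hstat hG
  have hPhi : Phi V X Y = rdiag fun i => w i - δ := by
    rw [eq_sub_of_add_eq hw]
    ext i j; by_cases hij : i = j <;> simp [rdiag, hij]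
  have hμ1 : (X * EAl V Y Z).trace = μ := by
    rw [← Phi_adj, hμ, hPhi, hZ, trace_Zop]
  have hμ2 : μ = c * xb + s * yb := by
    rw [hμ, Phi_adj, h.EA_b tY, Matrix.mul_add, Matrix.mul_smul, Matrix.mul_smul, trace_add,
      trace_smul, trace_smul, Matrix.mul_one, tX]
    simp [hxb, hyb]
  have hxD : (ε * c ^ 2 : ℝ) * xb = -(X * DD).trace := by
    have := congrArg (fun M => (X * M).trace) hid
    simp only [Matrix.mul_add, Matrix.mul_smul, trace_add, trace_smul, Matrix.mul_one, tX, hμ1,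
      smul_eq_mul] at this
    rw [hXd, trace_Zop, ← hXd, ← hxb, hμ2] at this
    push_cast at this ⊢
    linear_combination -this
  have hα0 : 0 ≤ (1 - ε) * al t := mul_nonneg (by linarith) hat.le
  have hα1 : (1 - ε) * al t ≤ al t := by nlinarith
  have bxb : ‖xb‖ ≤ K1 ε c t * ζ := by
    have h3 : ‖(X * DD).trace‖ ≤ ζ + al t * (2 * ζ) := by
      rw [hDD, Matrix.mul_add, trace_add, Matrix.mul_smul, trace_smul, ← Matrix.mul_assoc]
      refine (norm_add_le _ _).trans (add_le_add h1 ?_)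
      rw [norm_smul, Complex.norm_real, Real.norm_eq_abs, abs_of_nonneg hα0]
      exact mul_le_mul hα1 t1 (norm_nonneg _) hat.le
    have h4 : ε * c ^ 2 * ‖xb‖ = ‖(X * DD).trace‖ := by
      rw [← norm_neg (X * DD).trace, ← hxD, norm_mul, Complex.norm_real, Real.norm_eq_abs,
        abs_of_pos (by positivity)]
    rw [K1, div_mul_eq_mul_div, le_div_iff₀ (by positivity)]
    nlinarith
  refine ⟨bxb, ?_⟩
  have hK1 : 0 ≤ K1 ε c t := by unfold K1; positivity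
  have bxb1 : ‖xb‖ ≤ K1 ε c t := bxb.trans (mul_le_of_le_one_right hK1 hζ1)
  -- centred operators
  set J := Jop r a X with hJ
  set Jb := J - xb • X with hJb
  set Yt := cen X (EAl V Y Z) with hYt
  set Zb := Zop r a p - xb • 1 with hZb
  have hJe : ∀ m m', Jb m m' = ((kk r (p m / p m') * p m' : ℝ) : ℂ) * Zb m m' := by
    intro m m'
    rw [hJb, hZb, Matrix.sub_apply, Matrix.sub_apply, hJ, hXd, Jop_apply hr a hp, mul_sub]
    congr 1
    by_cases hm : m = m'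
    · subst hm
      simp [rdiag, div_self (hp m).ne', kk_one hr, mul_comm]
    · simp [rdiag, hm]
  have tJ : J.trace = xb := by
    rw [hJ, Jop, trace_sub, trace_smul, trace_smul, trace_mul_comm a, ← hxb]
    simp only [smul_eq_mul]; push_cast; ring
  have tJb : Jb.trace = 0 := by rw [hJb, trace_sub, trace_smul, tJ, tX]; simp
  have hcen : ((c * (1 - ε) : ℝ) : ℂ) • Yt
      = ((c ^ 2 : ℝ) : ℂ) • Zb + DD - (X * DD).trace • (1 : Matrix A A ℂ) := by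
    rw [hYt, cen_apply, smul_sub, hid, hμ1, hμ2, hZb]
    have : (X * DD).trace = -((ε * c ^ 2 : ℝ) * xb) := by rw [hxD, neg_neg]
    rw [this]
    push_cast
    module
  have hlin : (c * (1 - ε)) * (Ytᴴ * Jb).trace.re
      = c ^ 2 * (Zbᴴ * Jb).trace.re + (DDᴴ * Jb).trace.re := by
    have := congrArg (fun M => (Mᴴ * Jb).trace.re) hcen
    simp only [conjTranspose_smul, conjTranspose_sub, conjTranspose_add, conjTranspose_one,
      Matrix.smul_mul, Matrix.sub_mul, Matrix.add_mul, Matrix.one_mul, trace_smul, trace_sub,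
      trace_add, tJb, mul_zero, sub_zero, smul_eq_mul, Complex.star_def, Complex.conj_ofReal,
      Complex.add_re, Complex.re_ofReal_mul] at this
    exact this
  have hamgm := weighted_amgm (fun m m' => kk r (p m / p m') * p m')
    (fun m m' => mul_nonneg (kk_pos hr (div_pos (hp m) (hp m'))).le (hp' m')) Yt Zb Jb hJe (1 - ε) c
  have hn : ∑ m, ∑ m', kk r (p m / p m') * p m' * ‖Yt m m'‖ ^ 2 = nrm (kk r) p Yt := by
    simp only [nrm, mul_assoc]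
  rw [hn] at hamgm
  -- the error terms and the balance identity
  have hD := err_bound h hX hr hα0 hα1 bxb1 h1 h2 t1 t2
  have hbal := balance h hX hY r Z tJb
  rw [hμ1, ← hxb, ← hJ, ← hJb, ← hYt] at hbal
  rw [← hJ, ← hJb, ← hDD] at hD
  have g3 : ‖(c : ℂ) * r * (X * Q * cexp Y (Et c s V b d Zᴴ)).trace‖
      ≤ 2 * r * (1 + 2 * al t) * ζ := by
    rw [norm_mul, norm_mul, Complex.norm_real, Complex.norm_real, Real.norm_eq_abs,
      Real.norm_eq_abs, abs_of_pos hc, abs_of_pos hr]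
    calc c * r * _ ≤ 1 * r * (2 * (1 + 2 * al t) * ζ) := by gcongr
      _ = _ := by ring
  have k4 := (abs_le.mp ((Complex.abs_re_le_norm _).trans g3)).1
  have k5 := congrArg Complex.re hbal
  rw [Complex.re_ofReal_mul, Complex.add_re] at k5
  have k7 := side_arith hε1 hamgm hlin hD (by positivity)
  unfold K2
  linarith

end Vale.Agent.P369
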