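import Vale.Agent.P369.Fock

/-! The function `g`, thermal states, and convergence to the thermal state
(task P369-Thermal). -/

namespace Vale.Agent.P369

open Matrix Finset Filter Topology
open Vale.Agent.P358 (S)
open scoped ComplexOrder

theorem thermal_bet {N : ℝ} (hN : 0 < N) : bet N = Real.log (N + 1) - Real.log N := by
  rw [bet, ← Real.log_div (by positivity) hN.ne']
  congr 1
  field_simp

theorem thermal_hasSum_prod (n : ℕ) (a : Fin n → ℕ → ℝ) (A : Fin n → ℝ) (h0 : ∀ j k, 0 ≤ a j k)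
    (h : ∀ j, HasSum (a j) (A j)) : HasSum (fun k : Occ n => ∏ j, a j (k j)) (∏ j, A j) := by
  induction n with
  | zero => simp
  | succ n ih =>
    have h1 := ih (fun j => a j.succ) (fun j => A j.succ) (fun _ _ => h0 _ _) fun _ => h _
    have h3 : Summable fun x : ℕ × Occ n => a 0 x.1 * ∏ j : Fin n, a j.succ (x.2 j) :=
      Summable.mul_of_nonneg (f := a 0) (g := fun k : Occ n => ∏ j : Fin n, a j.succ (k j))
        (h 0).summable h1.summable (h0 0) fun _ => prod_nonneg fun _ _ => h0 _ _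
    have h2 := HasSum.mul (f := a 0) (g := fun k : Occ n => ∏ j : Fin n, a j.succ (k j))
      (h 0) h1 h3
    rw [Fin.prod_univ_succ, ← (Fin.consEquiv fun _ => ℕ).hasSum_iff]
    refine h2.congr_fun fun x => ?_
    simp [Fin.prod_univ_succ, Fin.consEquiv]

theorem g_continuous : Continuous g := by
  exact (Real.continuous_mul_log.comp (continuous_id.add continuous_const)).sub
    Real.continuous_mul_log

theorem g_strictMonoOn : StrictMonoOn g (Set.Ici 0) := by
  refine strictMonoOn_of_deriv_pos (convex_Ici 0) g_continuous.continuousOn fun x hx => ?_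
  have hx' : 0 < x := by simpa using hx
  have h1 : HasDerivAt g (Real.log (x + 1) + 1 - (Real.log x + 1)) x :=
    ((Real.hasDerivAt_mul_log (by positivity : x + 1 ≠ 0)).comp_add_const x 1).fun_sub
      (Real.hasDerivAt_mul_log hx'.ne')
  rw [h1.deriv]
  linarith [Real.log_lt_log hx' (lt_add_one x)]

/-- `g 0 = 0`, `g t ≥ log (t+1) → ∞`, intermediate values. -/
theorem ginv_spec {y : ℝ} (hy : 0 ≤ y) : 0 ≤ ginv y ∧ g (ginv y) = y := by
  have h0 := Real.exp_pos y
  have h1 : y ≤ g (Real.exp y) := by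
    have h2 := Real.log_le_log h0 (lt_add_one _).le
    rw [g]
    rw [Real.log_exp] at h2 ⊢
    nlinarith
  have h3 : ∃ t ∈ Set.Ici (0 : ℝ), g t = y := by
    obtain ⟨t, ht, h4⟩ := intermediate_value_Icc h0.le g_continuous.continuousOn
      (show y ∈ Set.Icc (g 0) (g (Real.exp y)) from ⟨by simpa [g] using hy, h1⟩)
    exact ⟨t, ht.1, h4⟩
  exact ⟨Function.invFunOn_mem h3, Function.invFunOn_eq h3⟩

theorem le_ginv {t y : ℝ} (ht : 0 ≤ t) (h : g t ≤ y) : t ≤ ginv y := by
  have h1 : g 0 ≤ g t := g_strictMonoOn.monotoneOn Set.self_mem_Ici ht ht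
  obtain ⟨h2, h3⟩ := ginv_spec (y := y) (by
    have h4 : g 0 = 0 := by simp [g]
    linarith)
  exact (g_strictMonoOn.le_iff_le ht h2).mp (h3.symm ▸ h)

theorem al_mul_g {N : ℝ} (hN : 0 < N) : al N * g N = al N * Real.log (N + 1) + N := by
  have h1 := al_mul_bet hN
  rw [thermal_bet hN] at h1
  rw [g]
  linear_combination N * h1

theorem al_le {N : ℝ} (hN : 0 < N) : al N ≤ N + 1 := by
  have h1 := Real.one_sub_inv_le_log_of_pos (x := 1 + 1 / N) (by positivity)
  have h2 : 1 - (1 + 1 / N)⁻¹ = 1 / (N + 1) := by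
    field_simp
    ring
  rw [h2, div_le_iff₀' (by positivity)] at h1
  rw [al, div_le_iff₀ (bet_pos hN)]
  exact h1

theorem summable_exp_occ (n : ℕ) {θ : ℝ} (hθ : 0 < θ) :
    Summable (fun k : Occ n => Real.exp (-(θ * ∑ j, (k j : ℝ)))) := by
  have h1 := thermal_hasSum_prod n (fun _ k => Real.exp (-θ) ^ k) _ (fun _ _ => by positivity)
    fun _ => hasSum_geometric_of_lt_one (Real.exp_pos _).le
      (Real.exp_lt_one_iff.mpr (neg_lt_zero.mpr hθ))
  refine h1.summable.congr fun k => ?_
  rw [prod_pow_eq_pow_sum, ← Real.exp_nat_mul, Nat.cast_sum]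
  congr 1
  ring

theorem summable_exp_occ2 (n : ℕ) {θ : ℝ} (hθ : 0 < θ) :
    Summable (fun x : Occ n × Occ n =>
      Real.exp (-(θ * (∑ j, (x.1 j : ℝ) + ∑ j, (x.2 j : ℝ))))) := by
  refine ((summable_exp_occ n hθ).mul_of_nonneg (summable_exp_occ n hθ)
    (fun _ => (Real.exp_pos _).le) fun _ => (Real.exp_pos _).le).congr fun x => ?_
  rw [← Real.exp_add]
  congr 1
  ring

theorem thermal_q {t : ℝ} (ht : 0 < t) :
    0 < t / (t + 1) ∧ t / (t + 1) < 1 ∧ (1 - t / (t + 1))⁻¹ = t + 1 := by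
  refine ⟨by positivity, (div_lt_one (by positivity)).mpr (lt_add_one t), ?_⟩
  field_simp
  ring

theorem thermal_hasSum_q (n : ℕ) {t : ℝ} (ht : 0 < t) :
    HasSum (fun k : Occ n => (t / (t + 1)) ^ ∑ j, k j) ((t + 1) ^ n) := by
  obtain ⟨h0, h1, h2⟩ := thermal_q ht
  have h3 := thermal_hasSum_prod n (fun _ k => (t / (t + 1)) ^ k) _ (fun _ _ => by positivity)
    fun _ => hasSum_geometric_of_lt_one h0.le h1
  simpa only [prod_pow_eq_pow_sum, h2, prod_const, card_univ, Fintype.card_fin] using h3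

theorem thermal_hasSum_mean (n : ℕ) {t : ℝ} (ht : 0 < t) (i : Fin n) :
    HasSum (fun k : Occ n => (k i : ℝ) * (t / (t + 1)) ^ ∑ j, k j) (t * (t + 1) ^ n) := by
  classical
  obtain ⟨h0, h1, h2⟩ := thermal_q ht
  have h3 := thermal_hasSum_prod n (fun j k => (if j = i then (k : ℝ) else 1) * (t / (t + 1)) ^ k)
    (fun j => (if j = i then t else 1) * (t + 1)) (fun _ _ => by positivity) fun j => by
      have h4 := hasSum_coe_mul_geometric_of_norm_lt_one (r := t / (t + 1))
        (by rwa [Real.norm_of_nonneg h0.le])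
      rw [div_eq_mul_inv _ (_ ^ 2), ← inv_pow, h2] at h4
      split_ifs
      · have h5 : t / (t + 1) * (t + 1) ^ 2 = t * (t + 1) := by field_simp
        rwa [h5] at h4
      · simpa only [one_mul, h2] using hasSum_geometric_of_lt_one h0.le h1
  simpa only [prod_mul_distrib, prod_ite_eq', mem_univ, if_true, prod_pow_eq_pow_sum, prod_const,
    card_univ, Fintype.card_fin] using h3

theorem thermal_hasSum_ent (n : ℕ) {t : ℝ} (ht : 0 < t) :
    HasSum (fun k : Occ n => Real.negMulLog ((t / (t + 1)) ^ (∑ j, k j) * ((t + 1) ^ n)⁻¹))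
      (n * g t) := by
  have h1 := ((thermal_hasSum_q n ht).mul_left (n * Real.log (t + 1))).add
    ((hasSum_sum fun i (_ : i ∈ univ) => thermal_hasSum_mean n ht i).mul_left
      (Real.log (t + 1) - Real.log t))
  have h2 := h1.mul_right ((t + 1) ^ n)⁻¹
  have h3 : (n * Real.log (t + 1) * (t + 1) ^ n + (Real.log (t + 1) - Real.log t) *
      ∑ _ : Fin n, t * (t + 1) ^ n) * ((t + 1) ^ n)⁻¹ = n * g t := by
    rw [sum_const, card_univ, Fintype.card_fin, nsmul_eq_mul, g]
    field_simp
    ring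
  rw [h3] at h2
  refine h2.congr_fun fun k => ?_
  rw [Real.negMulLog, Real.log_mul (by positivity) (by positivity), Real.log_inv, Real.log_pow,
    Real.log_pow, Real.log_div ht.ne' (by positivity), ← sum_mul, Nat.cast_sum]
  ring

theorem thermal_zext_star {κ ι : Type} [Fintype κ] [DecidableEq ι] (e : κ → ι)
    {M : Matrix κ κ ℂ} (hM : M.IsHermitian) (k l : ι) : zext e M k l = star (zext e M l k) := by
  rw [zext, zext, sum_comm, star_sum]
  refine sum_congr rfl fun i _ => ?_
  rw [star_sum]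
  refine sum_congr rfl fun j _ => ?_
  by_cases h : e i = l ∧ e j = k
  · rw [if_pos h, if_pos h.symm, hM.apply]
  · rw [if_neg h, if_neg (fun h' => h h'.symm), star_zero]

theorem thermal_split {n : ℕ} {k : Occ n} (hk : k ≠ 0) :
    ∃ (j : Fin n) (k' : Occ n), k = k' + Pi.single j 1 := by
  obtain ⟨j, hj⟩ := Function.ne_iff.mp hk
  have h1 : Pi.single j 1 ≤ k := fun i => by
    by_cases h : i = j
    · subst h
      simpa using Nat.one_le_iff_ne_zero.mpr hj
    · simp [h]
  exact ⟨j, k - Pi.single j 1, (tsub_add_cancel_of_le h1).symm⟩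

theorem thermal_entries {n : ℕ} {t : ℝ} (ht : 0 < t) (c : ℕ → Occ n → Occ n → ℂ)
    (hc : ∀ N k l, c N k l = star (c N l k))
    (hJ : ∀ (j : Fin n) (k l : Occ n), Tendsto (fun N =>
      (((t + 1) * √((k j : ℝ) + 1) : ℝ) : ℂ) * c N (k + Pi.single j 1) l
        - ((t * √(l j : ℝ) : ℝ) : ℂ) * c N k (l - Pi.single j 1)) atTop (𝓝 0))
    (m : ℕ) (k : Occ n) (hk : ∑ j, k j = m) (l : Occ n) :
    Tendsto (fun N => c N k l -
      (if k = l then (((t / (t + 1)) ^ ∑ j, k j : ℝ) : ℂ) else 0) * c N 0 0) atTop (𝓝 0) := by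
  have hne : ∀ (j : Fin n) (k : Occ n), (((t + 1) * √((k j : ℝ) + 1) : ℝ) : ℂ) ≠ 0 :=
    fun j k => Complex.ofReal_ne_zero.mpr (by positivity)
  induction m generalizing k l with
  | zero =>
    obtain rfl : k = 0 := funext fun j => (sum_eq_zero_iff.mp hk) j (mem_univ j)
    by_cases hl : 0 = l
    · subst hl
      simp
    · obtain ⟨j, l', rfl⟩ := thermal_split (Ne.symm hl)
      have h1 := ((hJ j l' 0).const_mul (((t + 1) * √((l' j : ℝ) + 1) : ℝ) : ℂ)⁻¹).star
      rw [mul_zero, star_zero] at h1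
      refine h1.congr fun N => ?_
      rw [if_neg hl, zero_mul, sub_zero, hc N 0, Pi.zero_apply, Nat.cast_zero, Real.sqrt_zero,
        mul_zero, Complex.ofReal_zero, zero_mul, sub_zero, inv_mul_cancel_left₀ (hne j l')]
  | succ m ih =>
    obtain ⟨j, k', rfl⟩ := thermal_split (k := k) (by
      rintro rfl
      simp at hk)
    have hs : ∑ i, (k' + Pi.single j 1 : Occ n) i = ∑ i, k' i + 1 := by
      simp [sum_add_distrib]
    have h1 := ((hJ j k' l).add ((ih k' (by omega) (l - Pi.single j 1)).const_mul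
      ((t * √(l j : ℝ) : ℝ) : ℂ))).const_mul (((t + 1) * √((k' j : ℝ) + 1) : ℝ) : ℂ)⁻¹
    have h2 : ((t * √(l j : ℝ) : ℝ) : ℂ) *
        (if k' = l - Pi.single j 1 then (((t / (t + 1)) ^ ∑ j, k' j : ℝ) : ℂ) else 0) =
        (((t + 1) * √((k' j : ℝ) + 1) : ℝ) : ℂ) * if k' + Pi.single j 1 = l then
          (((t / (t + 1)) ^ ∑ i, (k' + Pi.single j 1 : Occ n) i : ℝ) : ℂ) else 0 := by
      by_cases h : k' + Pi.single j 1 = l
      · subst h
        rw [if_pos rfl, if_pos (add_tsub_cancel_right _ _).symm, hs, ← Complex.ofReal_mul,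
          ← Complex.ofReal_mul, Pi.add_apply, Pi.single_eq_same, pow_succ]
        congr 1
        push_cast
        field_simp
      · rw [if_neg h, mul_zero]
        by_cases h3 : l j = 0
        · simp [h3]
        · rw [if_neg, mul_zero]
          rintro rfl
          refine h (tsub_add_cancel_of_le fun i => ?_)
          by_cases h4 : i = j
          · subst h4
            simpa using Nat.one_le_iff_ne_zero.mpr h3
          · simp [h4]
    rw [mul_zero, add_zero, mul_zero] at h1
    refine h1.congr fun N => ?_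
    rw [inv_mul_eq_iff_eq_mul₀ (hne j k')]
    linear_combination (-c N 0 0) * h2

/-- States with bounded energy that asymptotically satisfy the detailed-balance relation of
the thermal state have entropy tending to `n g(t)`.
Suggested proof. Write `c N k l = zext occ (C N) k l`, `q = t/(t+1)`. By induction on `∑ k j`:
`c N k l - (if k = l then q^(∑ k j) else 0) * c N 0 0 → 0` (for `k = 0`, `l ≠ 0` use
`c N 0 l = conj (c N l 0)` and the relation with `l` in the first slot and `0` in the second).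
With `F_R = {∑ k j ≤ R}`: `1 - E/R ≤ ∑_{k ∈ F_R} c N k k ≤ 1` and `∑_k q^(∑ k j) = (t+1)^n`, so
`c N 0 0 → (t+1)^(-n)`. Apply fock_limit in `H = lp (fun _ : Occ n => ℂ) 2` with the basis
`default`; the limit `T` is diagonal (entry_ext or `HilbertBasis.hasSum_repr`), cfc_eigen gives
`entropyTerm e T k = negMulLog (τ k)`, and `∑ negMulLog (τ k) = n g t`. -/
theorem thermal_limit (n : ℕ) {t : ℝ} (ht : 0 < t) (L : ℕ → ℕ)
    (C : ∀ N, Matrix (Box n (L N)) (Box n (L N)) ℂ) (hC : ∀ N, DState (C N))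
    (E : ℝ) (hE : ∀ N, en (C N) ≤ E)
    (hJ : ∀ (j : Fin n) (k l : Occ n), Tendsto (fun N =>
      (((t + 1) * √((k j : ℝ) + 1) : ℝ) : ℂ) * zext occ (C N) (k + Pi.single j 1) l
        - ((t * √(l j : ℝ) : ℝ) : ℂ) * zext occ (C N) k (l - Pi.single j 1)) atTop (𝓝 0)) :
    Tendsto (fun N => S (C N)) atTop (𝓝 (n * g t)) := by
  classical
  refine tendsto_of_subseq_tendsto fun ns hns => ?_
  have hb : ∀ i, zext occ (C (ns i)) 0 0 ∈ Metric.closedBall (0 : ℂ) 1 := fun i => by
    obtain ⟨a, ha⟩ := exists_occ (n := n) (M := L (ns i)) (k := 0) fun _ => Nat.zero_le _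
    have h1 := (hC (ns i)).1.diag_nonneg (i := a)
    have h2 : C (ns i) a a ≤ 1 := (single_le_sum (f := fun b => C (ns i) b b)
      (fun b _ => (hC (ns i)).1.diag_nonneg) (mem_univ a)).trans_eq (hC (ns i)).2
    rw [← ha, zext_apply occ_injective, mem_closedBall_zero_iff,
      ← Complex.re_eq_norm.mpr h1]
    exact (Complex.le_def.mp h2).1
  obtain ⟨z, -, φ, hφ, hz⟩ := (isCompact_closedBall (0 : ℂ) 1).tendsto_subseq hb
  refine ⟨φ, ?_⟩
  let e : HilbertBasis (Occ n) ℂ (lp (fun _ : Occ n => ℂ) 2) := default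
  obtain ⟨T, hT, hs, -, -, hlim⟩ := fock_limit e (fun k => ∑ j, (k j : ℝ))
    (fun k => by positivity) (fun θ hθ => summable_exp_occ n hθ) (fun N => Box n (L (ns (φ N))))
    (fun _ => occ) (fun _ => occ_injective) (fun N => C (ns (φ N))) (fun N => hC _) E
    (fun N => hE _)
    (fun k l => (if k = l then (((t / (t + 1)) ^ ∑ j, k j : ℝ) : ℂ) else 0) * z) fun k l => by
      have h1 := (thermal_entries ht (fun N => zext occ (C N))
        (fun N k l => thermal_zext_star occ (hC N).1.isHermitian k l) hJ _ k rfl l).comp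
        (hns.comp hφ.tendsto_atTop)
      have h2 := h1.add (hz.const_mul
        (if k = l then (((t / (t + 1)) ^ ∑ j, k j : ℝ) : ℂ) else 0))
      simpa using h2
  have hz1 : z = ((((t + 1) ^ n)⁻¹ : ℝ) : ℂ) := by
    have h1 := hs.2
    simp only [hT, if_true] at h1
    have h2 := h1.unique ((Complex.hasSum_ofReal.mpr (thermal_hasSum_q n ht)).mul_right z)
    rw [Complex.ofReal_inv]
    exact eq_inv_of_mul_eq_one_right h2.symm
  have hv : ∀ k, T (e k) =
      (((t / (t + 1)) ^ (∑ j, k j) * ((t + 1) ^ n)⁻¹ : ℝ) : ℂ) • e k := fun k => by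
    refine e.repr.injective (lp.ext (funext fun l => ?_))
    rw [e.repr_apply_apply, e.repr_apply_apply, inner_smul_right,
      orthonormal_iff_ite.mp e.orthonormal l k]
    refine (hT l k).trans ?_
    split_ifs with h
    · rw [h, hz1, mul_one, Complex.ofReal_mul]
    · rw [zero_mul, mul_zero]
  have hent : entropy e T = n * g t := by
    rw [← (thermal_hasSum_ent n ht).tsum_eq, entropy]
    refine tsum_congr fun k => ?_
    rw [entropyTerm, entry, cfc_eigen hs.1.isSelfAdjoint (hv k) Real.continuous_negMulLog,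
      inner_smul_right, orthonormal_iff_ite.mp e.orthonormal k k, if_pos rfl, mul_one,
      Complex.ofReal_re]
  rwa [hent] at hlim

end Vale.Agent.P369
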