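import Vale.Agent.P369.LimitAux
import Vale.Agent.P369.Thermal

/-! The inequality for states supported in a box (task P369-Limit). -/

namespace Vale.Agent.P369

open Matrix Finset Filter Topology Real
open Vale.Agent.P358 (S)
open scoped ComplexOrder Kronecker

lemma lim_lower (n : ℕ) {ε η c c' x y α : ℝ} (hε : 0 < ε) (hη : 0 ≤ η) (hη1 : η ≤ 1)
    (hx : 0 < x) (hy : 0 < y) (hα : 0 ≤ α) (hc : c ^ 2 + c' ^ 2 = 1) :
    ∃ L : ℝ, ∀ (M : ℕ) (δ : ℝ), 0 ≤ δ → δ ≤ 1 → Fintype.card (Box n (2 * M)) * δ ≤ 1 →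
      ∀ X Y, DState X → DState Y →
        -L ≤ limF (Vb n M c c') α (η * x) ((1 - η) * y) δ (ε * η) (ε * (1 - η)) X Y := by
  have hr : 0 < (x + y) / ε := by positivity
  have hb : bet ((x + y) / ε) * (x + y) ≤ ε := by
    have := Real.log_le_sub_one_of_pos (show 0 < 1 + 1 / ((x + y) / ε) by positivity)
    rw [← le_div_iff₀ (by positivity), bet, ← one_div_div (x + y) ε]
    linarith
  have hb0 := bet_pos hr
  refine ⟨2 * α + (η * x + (1 - η) * y) * (n * log ((x + y) / ε + 1)),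
    fun M δ h0 h1 h2 X Y hX hY => ?_⟩
  have hC := Phi_dstate (Vb_iso n M hc) hX hY
  have h3 := S_shift_ge hC h0 h1
  have h4 := P358.S_nonneg hC.1 hC.2
  have h5 := mul_le_mul_of_nonneg_left (gibbs hX hr) (mul_nonneg hη hx.le)
  have h6 := mul_le_mul_of_nonneg_left (gibbs hY hr) (mul_nonneg (sub_nonneg.mpr hη1) hy.le)
  have h7 := mul_le_mul_of_nonneg_left (show bet ((x + y) / ε) * x ≤ ε by nlinarith)
    (mul_nonneg hη (en_nonneg hX.1))
  have h8 := mul_le_mul_of_nonneg_left (show bet ((x + y) / ε) * y ≤ ε by nlinarith)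
    (mul_nonneg (sub_nonneg.mpr hη1) (en_nonneg hY.1))
  have h9 := mul_le_mul_of_nonneg_left
    (show -2 ≤ S (Phi (Vb n M c c') X Y + (δ : ℂ) • 1) by linarith) hα
  unfold limF
  linarith

lemma lim_side {n N : ℕ} {γ θ K1 K2 r ζ P : ℝ} (hγ : 1 < γ) (hN : 0 < N) (j : Fin n)
    {X : Matrix (Box n (3 * N)) (Box n (3 * N)) ℂ} (hX : DState X) (hθ1 : γ⁻¹ ^ (N + N) ≤ θ)
    (hθ2 : θ ≤ γ⁻¹ ^ N) (hp : θ * pen γ X ≤ K1 / N) (hK2 : 0 ≤ K2)
    (hd : -(((ann n _ j * Gam n _ γ - Gam n _ γ * ann n _ j)ᴴ * Jop r (ann n _ j) X).trace.re)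
      ≤ K2) (h1 : √(P ^ 16 * γ⁻¹ ^ N * K1) ≤ ζ)
    (h2 : (γ - 1) * K1 * (√((3 * N : ℕ) : ℝ) / N) ≤ ζ) (h3 : γ⁻¹ ^ N * K2 ≤ ζ) :
    P ^ 16 * (X * top n _ j).trace.re ≤ ζ ^ 2 ∧
    ‖(X * ((θ : ℂ) • (ann n _ j * Gam n _ γ - Gam n _ γ * ann n _ j))).trace‖ ≤ ζ ∧
    -((((θ : ℂ) • (ann n _ j * Gam n _ γ - Gam n _ γ * ann n _ j))ᴴ
      * Jop r (ann n _ j) X).trace.re) ≤ ζ := by
  have h0 : 0 < γ := by linarith
  have hθ : 0 ≤ θ := le_trans (by positivity) hθ1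
  have hN' : (1 : ℝ) ≤ N := by exact_mod_cast hN
  have hpen := pen_nonneg h0.le hX.1
  have hK1 : 0 ≤ K1 := by
    have := (mul_nonneg hθ hpen).trans hp
    rwa [le_div_iff₀ (by linarith), zero_mul] at this
  refine ⟨?_, ?_, ?_⟩
  · have h4 := mul_le_mul_of_nonneg_left (top_weight h0.le j hX.1)
      (show 0 ≤ γ⁻¹ ^ (3 * N) by positivity)
    rw [← mul_assoc, ← mul_pow, inv_mul_cancel₀ h0.ne', one_pow, one_mul,
      show γ⁻¹ ^ (3 * N) = γ⁻¹ ^ N * γ⁻¹ ^ (N + N) by ring, mul_assoc] at h4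
    have h5 : γ⁻¹ ^ (N + N) * pen γ X ≤ K1 :=
      ((mul_le_mul_of_nonneg_right hθ1 hpen).trans hp).trans (div_le_self hK1 hN')
    refine le_trans ?_ (Real.sqrt_le_iff.mp h1).2
    rw [mul_assoc]
    exact mul_le_mul_of_nonneg_left (h4.trans (mul_le_mul_of_nonneg_left h5 (by positivity)))
      (by positivity)
  · rw [Matrix.mul_smul, trace_smul, norm_smul, Complex.norm_real, Real.norm_of_nonneg hθ]
    have h4 := mul_le_mul_of_nonneg_left (penalty_mean hγ.le j hX.1) hθ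
    have h5 := mul_le_mul_of_nonneg_left hp
      (mul_nonneg (sub_nonneg.mpr hγ.le) (Real.sqrt_nonneg ((3 * N : ℕ) : ℝ)))
    refine le_trans ?_ h2
    refine h4.trans (le_trans (le_of_eq ?_) (h5.trans (le_of_eq ?_))) <;> ring
  · rw [conjTranspose_smul, Matrix.smul_mul, trace_smul, smul_eq_mul, RCLike.star_def,
      Complex.conj_ofReal, Complex.re_ofReal_mul, ← mul_neg]
    exact ((mul_le_mul_of_nonneg_left hd hθ).trans (mul_le_mul_of_nonneg_right hθ2 hK2)).trans h3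

lemma lim_card (n N : ℕ) :
    (Fintype.card (Box n (2 * (3 * N))) : ℝ) = (6 * (N : ℝ) + 1) ^ n := by
  simp only [Fintype.card_fun, Fintype.card_fin]; push_cast; ring

lemma lim_delta (k : ℕ) :
    Tendsto (fun N : ℕ => (6 * (N : ℝ) + 1) ^ k * exp (-N)) atTop (𝓝 0) := by
  refine (lim_poly k (exp_pos (-1)).le (by simp)).congr fun N => ?_
  rw [← Real.exp_nat_mul, mul_neg_one]

lemma lim_step {n K : ℕ} {ε η r s t : ℝ} (hε : 0 < ε) (hε1 : ε ≤ 1 / 2) (hη : 0 < η)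
    (hη1 : η < 1) (hr : 0 < r) (hs : 0 < s) (ht : t = η * r + (1 - η) * s)
    {X0 Y0 : Matrix (Box n K) (Box n K) ℂ} (hX : DState X0) (hY : DState Y0) :
    ∃ (κ ω : ℕ → ℝ) (X Y : ∀ N, Matrix (Box n (3 * N)) (Box n (3 * N)) ℂ),
      Tendsto κ atTop (𝓝 0) ∧ Tendsto ω atTop (𝓝 0) ∧ (∀ N, DState (X N) ∧ DState (Y N)) ∧
      ∀ᶠ N : ℕ in atTop, 0 ≤ κ N ∧ (∀ j, ‖(X N * ann n _ j).trace‖ ≤ κ N ∧
        ‖(Y N * ann n _ j).trace‖ ≤ κ N ∧ ∀ W, ‖(Wᴴ * Jop t (ann n _ j)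
          (Phi (Vb n _ √η √(1 - η)) (X N) (Y N) + ((exp (-N) : ℝ) : ℂ) • 1)).trace‖ ^ 2 ≤ κ N *
          ((Phi (Vb n _ √η √(1 - η)) (X N) (Y N) + ((exp (-N) : ℝ) : ℂ) • 1) *
            (Wᴴ * W + W * Wᴴ)).trace.re) ∧
        limF (Vb n _ √η √(1 - η)) ((1 - ε) * al t) (η * al r) ((1 - η) * al s) (exp (-N))
          (ε * η) (ε * (1 - η)) (X N) (Y N) ≤ limF (Vb n _ √η √(1 - η)) ((1 - ε) * al t)
          (η * al r) ((1 - η) * al s) 0 (ε * η) (ε * (1 - η)) X0 Y0 + ω N := by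
  have hcs : √η ^ 2 + √(1 - η) ^ 2 = 1 := by
    rw [Real.sq_sqrt hη.le, Real.sq_sqrt (by linarith)]; ring
  have ht0 : 0 < t := by rw [ht]; nlinarith [mul_pos hη hr, mul_pos (sub_pos.mpr hη1) hs]
  have hα : 0 ≤ (1 - ε) * al t := mul_nonneg (by linarith) (al_pos ht0).le
  obtain ⟨γ, hγ, hγr, hγs⟩ : ∃ γ : ℝ, 1 < γ ∧ r * γ < r + 1 ∧ s * γ < s + 1 := by
    have h1 : 0 < 1 / (r + s) := by positivity
    have h2 : (r + s) * (1 / (r + s)) = 1 := by field_simp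
    exact ⟨1 + 1 / (r + s), by linarith, by nlinarith, by nlinarith⟩
  have hγ0 : 0 < γ⁻¹ := by positivity
  have hγ1 : γ⁻¹ < 1 := inv_lt_one_of_one_lt₀ hγ
  obtain ⟨Kc, hKc, hkey⟩ := key hε hε1 hη hη1 hr hs ht
  obtain ⟨KA, hKA, hdA⟩ := penalty_drift hγ.le hr hγr
  obtain ⟨KB, hKB, hdB⟩ := penalty_drift hγ.le hs hγs
  obtain ⟨L, hL⟩ := lim_lower n hε hη.le hη1.le (al_pos hr) (al_pos hs) hα hcs
  set α := (1 - ε) * al t with hαd
  set F0 := limF (Vb n _ √η √(1 - η)) α (η * al r) ((1 - η) * al s) 0 (ε * η) (ε * (1 - η)) X0 Y0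
    with hF0
  set p0 := pen γ X0 + pen γ Y0 with hp0
  set K1 := (F0 + α + p0 + L) / (1 - γ⁻¹) with hK1
  set ζ : ℕ → ℝ := fun N => ((6 * (N : ℝ) + 1) ^ (n + 1)) ^ 8 * exp (-N)
    + √(((6 * (N : ℝ) + 1) ^ (n + 1)) ^ 16 * γ⁻¹ ^ N * K1)
    + (γ - 1) * |K1| * (√((3 * N : ℕ) : ℝ) / N) + γ⁻¹ ^ N * (KA + KB) with hζ
  have hγN := tendsto_pow_atTop_nhds_zero_of_lt_one hγ0.le hγ1
  have hζ0 : Tendsto ζ atTop (𝓝 0) := by
    have := (((lim_delta ((n + 1) * 8)).add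
      ((lim_poly ((n + 1) * 16) hγ0.le hγ1).mul_const K1).sqrt).add
      (lim_sqrt.const_mul ((γ - 1) * |K1|))).add (hγN.mul_const (KA + KB))
    simpa only [pow_mul, zero_mul, mul_zero, add_zero, Real.sqrt_zero] using this
  have main : ∀ N : ℕ, ∃ X Y : Matrix (Box n (3 * N)) (Box n (3 * N)) ℂ, (DState X ∧ DState Y) ∧
      (K ≤ 3 * N → 0 < N → (6 * (N : ℝ) + 1) ^ (n + 1) * exp (-N) < 1 → ζ N < 1 →
      0 ≤ Kc * ζ N ∧ (∀ j, ‖(X * ann n _ j).trace‖ ≤ Kc * ζ N ∧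
        ‖(Y * ann n _ j).trace‖ ≤ Kc * ζ N ∧ ∀ W, ‖(Wᴴ * Jop t (ann n _ j)
          (Phi (Vb n _ √η √(1 - η)) X Y + ((exp (-N) : ℝ) : ℂ) • 1)).trace‖ ^ 2 ≤ Kc * ζ N *
          ((Phi (Vb n _ √η √(1 - η)) X Y + ((exp (-N) : ℝ) : ℂ) • 1) *
            (Wᴴ * W + W * Wᴴ)).trace.re) ∧
        limF (Vb n _ √η √(1 - η)) α (η * al r) ((1 - η) * al s) (exp (-N))
          (ε * η) (ε * (1 - η)) X Y ≤ F0 + (α * ((6 * (N : ℝ) + 1) ^ (n + 1) * exp (-N))
            + γ⁻¹ ^ N * p0)) := by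
    intro N
    by_cases hN : K ≤ 3 * N ∧ 0 < N ∧ (6 * (N : ℝ) + 1) ^ (n + 1) * exp (-N) < 1
    swap
    · exact ⟨_, _, ⟨min_mixed, min_mixed⟩, fun h1 h2 h3 => (hN ⟨h1, h2, h3⟩).elim⟩
    obtain ⟨hK, hN, hd⟩ := hN
    have hN0 : (0 : ℝ) ≤ N := N.cast_nonneg
    set P := (6 * (N : ℝ) + 1) ^ (n + 1) with hP
    have hP1 : (6 * (N : ℝ) + 1) ^ n ≤ P := pow_le_pow_right₀ (by linarith) n.le_succ
    have hP2 : 6 * (N : ℝ) + 1 ≤ P := le_self_pow₀ (by linarith) n.succ_ne_zero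
    have hδ0 := exp_pos (-(N : ℝ))
    have hδ1 : exp (-(N : ℝ)) ≤ 1 := exp_le_one_iff.mpr (by linarith)
    have hC0 := Phi_dstate (Vb_iso n K hcs) hX hY
    have hiso := inc_iso (n := n) (show 2 * K ≤ 2 * (3 * N) by omega)
    have hcomp : limF (Vb n _ √η √(1 - η)) α (η * al r) ((1 - η) * al s) (exp (-N)) (ε * η)
        (ε * (1 - η)) (inc n K (3 * N) * X0 * (inc n K (3 * N))ᴴ)
        (inc n K (3 * N) * Y0 * (inc n K (3 * N))ᴴ) ≤ F0 + α * (P * exp (-N)) := by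
      have h1 := S_shift_le (hC0.1.mul_mul_conjTranspose_same (inc n (2 * K) (2 * (3 * N))))
        hδ0.le
      rw [S_isometry hC0.1.1 _ hiso, lim_card, negMulLog, log_exp] at h1
      have h2 : (6 * (N : ℝ) + 1) ^ n * (-exp (-N) * -N) ≤ P * exp (-N) := by
        rw [hP, pow_succ]
        have : 0 ≤ (6 * (N : ℝ) + 1) ^ n * exp (-N) := by positivity
        nlinarith
      have h3 := mul_le_mul_of_nonneg_left (h1.trans (add_le_add_right h2 _)) hα
      simp only [hF0, limF, Phi_inc hK, S_isometry hX.1.1 _ (inc_iso hK),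
        S_isometry hY.1.1 _ (inc_iso hK), en_inc hK, Complex.ofReal_zero, zero_smul, add_zero]
      linarith
    obtain ⟨θ, X, Y, h1, h2, h3, h4, h5⟩ := lim_exists (Vb n _ √η √(1 - η)) α (η * al r)
      ((1 - η) * al s) hδ0.le (ε * η) (ε * (1 - η)) (U := F0 + α + p0) hγ hN
      (hL (3 * N) _ hδ0.le hδ1 (by rw [lim_card]; nlinarith)) (inc_dstate hK hX)
      (inc_dstate hK hY) (by rw [pen_inc hK, pen_inc hK]; nlinarith)
    rw [pen_inc hK, pen_inc hK] at h5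
    refine ⟨X, Y, ⟨h3.1, h3.2.1⟩, fun _ _ _ hζ1 => ?_⟩
    have z1 : 0 ≤ P ^ 8 * exp (-N) := by positivity
    have z2 := Real.sqrt_nonneg (P ^ 16 * γ⁻¹ ^ N * K1)
    have z3 : 0 ≤ (γ - 1) * |K1| * (√((3 * N : ℕ) : ℝ) / N) :=
      mul_nonneg (mul_nonneg (by linarith) (abs_nonneg _)) (by positivity)
    have z4 : (γ - 1) * K1 * (√((3 * N : ℕ) : ℝ) / N)
        ≤ (γ - 1) * |K1| * (√((3 * N : ℕ) : ℝ) / N) :=
      mul_le_mul_of_nonneg_right (mul_le_mul_of_nonneg_left (le_abs_self _) (by linarith))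
        (by positivity)
    have z5 : 0 ≤ γ⁻¹ ^ N * KA := by positivity
    have z6 : 0 ≤ γ⁻¹ ^ N * KB := by positivity
    have z7 : ζ N = P ^ 8 * exp (-N) + √(P ^ 16 * γ⁻¹ ^ N * K1)
      + (γ - 1) * |K1| * (√((3 * N : ℕ) : ℝ) / N) + γ⁻¹ ^ N * (KA + KB) := rfl
    have hθ : 0 ≤ θ := le_trans (by positivity) h1
    have q1 := mul_nonneg hθ (pen_nonneg (γ := γ) (by linarith) h3.1.1)
    have q2 := mul_nonneg hθ (pen_nonneg (γ := γ) (by linarith) h3.2.1.1)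
    refine ⟨mul_nonneg hKc (by linarith), fun j => ?_, by linarith⟩
    obtain ⟨a1, a2, a3⟩ := lim_side (P := P) (ζ := ζ N) (K1 := K1) hγ hN j h3.1 h1 h2
      (by linarith) hKA (hdA _ _ j X h3.1) (by linarith) (by linarith) (by linarith)
    obtain ⟨b1, b2, b3⟩ := lim_side (P := P) (ζ := ζ N) (K1 := K1) hγ hN j h3.2.1 h1 h2
      (by linarith) hKB (hdB _ _ j Y h3.2.1) (by linarith) (by linarith) (by linarith)
    have c1 : (Fintype.card (Box n (3 * N)) : ℝ) ≤ P := by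
      simp only [Fintype.card_fun, Fintype.card_fin]; push_cast
      exact le_trans (by gcongr; linarith) hP1
    have c2 : (Fintype.card (Box n (2 * (3 * N))) : ℝ) ≤ P := by rwa [lim_card]
    have c3 : fro2 (ann n (3 * N) j) ≤ P :=
      (fro2_ann_le j).trans (by rw [hP]; push_cast; gcongr; linarith)
    have c4 : fro2 (ann n (2 * (3 * N)) j) ≤ P :=
      (fro2_ann_le j).trans (le_of_eq (by rw [hP]; push_cast; ring))
    exact hkey _ _ _ _ _ _ _ _ _ _ _ _ _ _ P (ζ N) (rel_box n _ hcs j) (limG_herm _ _ _)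
      (limG_herm _ _ _) (limG_comm _ _ _ j) (limG_comm _ _ _ j) h3 (by linarith)
      (exp_le_exp.mpr (by linarith)) hδ1 c1 c1 c2 c2 c3 c3 c4 c4 hζ1.le (by linarith) a1 b1 a2 b2
      a3 b3
  choose X Y h1 h2 using main
  refine ⟨fun N => Kc * ζ N, fun N => α * ((6 * (N : ℝ) + 1) ^ (n + 1) * exp (-N)) + γ⁻¹ ^ N * p0,
    X, Y, by simpa using hζ0.const_mul Kc, ?_, h1, ?_⟩
  · simpa using ((lim_delta (n + 1)).const_mul α).add (hγN.mul_const p0)
  · filter_upwards [eventually_ge_atTop K, eventually_gt_atTop 0,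
      (lim_delta (n + 1)).eventually (gt_mem_nhds one_pos), hζ0.eventually (gt_mem_nhds one_pos)]
      with N a1 a2 a3 a4
    exact h2 N (by omega) a2 a3 a4

/-- Fixed `ε`. Choose `γ > 1` with `rγ < r+1`, `sγ < s+1`. For `N ≥ K` let `M = 3N`,
`δ = exp(-M)`, `P = (2M+1)^(n+1)`, `d = (2M+1)^n`, and for `i : ℕ`
`GA i = (εη) • Hn + γ^(-i) • Gam`, `GB i = ε(1-η) • Hn + γ^(-i) • Gam`, with minimisers
`X i, Y i` (exists_minimiser) and minimum `m i`.
Upper bound: the competitor `inc X0 incᴴ, inc Y0 incᴴ` (Phi_inc, S_isometry, S_shift_le, en_inc,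
pen_inc) gives `m i ≤ comp + α' d η(δ) + γ^(-i) (pen X0 + pen Y0)`, where
`comp = α' S C0 - η al r S X0 - (1-η) al s S Y0 + ε(η en X0 + (1-η) en Y0)`, `α' = (1-ε) al t`.
Lower bound: S_shift_ge, S_nonneg and gibbs with a large parameter `r'` (`bet r' * al r ≤ ε`,
`bet r' * al s ≤ ε`) give `m i ≥ -L0` as soon as `d δ ≤ 1`.
Pigeonhole: `m (i+1) ≤ m i - γ^(-i)(1 - 1/γ)(pen (X i) + pen (Y i))`, so some `i ∈ [N, 2N)` has
`γ^(-i)(pen (X i) + pen (Y i)) ≤ K1/N`. For this `i`, with `DA = γ^(-i) • (a Γ - Γ a)`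
(ann_comm_Hn): penalty_mean gives `‖tr X DA‖ ≤ (γ-1) √(3N) K1/N`, penalty_drift gives the drift
`≤ γ^(-N) K2`, top_weight gives `tr X Q ≤ K1 γ^(-N)/N`. So `key` applies for every mode `j` with
a null sequence `ζ N`. With `C' = C + δ`: `W = single k l 1` gives the entries of
`Jop t b C' → 0` (ann_mul_apply, mul_ann_apply; `Jop t b C' = Jop t b C + δ b`);
`W = b` gives `u = tr C' b†b - t tr C' ≤ re tr b† J` (annH_mul_ann, ann_mul_annH) and
`u² ≤ κ (2u + (2t+1) tr C')` when `u ≥ 0`, so `limsup tr C b†b ≤ t`. thermal_limit gives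
`S C → n g t`; energy_rel gives `η en X + (1-η) en Y ≤ n t + o(1)`; gibbs with `r` and `s` gives
`m i ≥ α'(S C - 2dδ) - (1-ε)(η en X + (1-η) en Y) - n(η al r log(r+1) + (1-η) al s log(s+1))`. -/
theorem fin_epni_eps {n K : ℕ} {ε η r s t : ℝ} (hε : 0 < ε) (hε1 : ε ≤ 1 / 2) (hη : 0 < η)
    (hη1 : η < 1) (hr : 0 < r) (hs : 0 < s) (ht : t = η * r + (1 - η) * s)
    {X Y : Matrix (Box n K) (Box n K) ℂ} (hX : DState X) (hY : DState Y) :
    (1 - ε) * n * (al t * g t - t)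
        - n * (η * al r * log (r + 1) + (1 - η) * al s * log (s + 1))
      ≤ (1 - ε) * al t * S (Phi (Vb n K (√η) (√(1 - η))) X Y) - η * al r * S X
        - (1 - η) * al s * S Y + ε * (η * en X + (1 - η) * en Y) := by
  obtain ⟨κ, ω, A, B, hκ, hω, hAB, h⟩ := lim_step hε hε1 hη hη1 hr hs ht hX hY
  have e1 : √η ^ 2 = η := Real.sq_sqrt hη.le
  have e2 : √(1 - η) ^ 2 = 1 - η := Real.sq_sqrt (by linarith)
  have hcs : √η ^ 2 + √(1 - η) ^ 2 = 1 := by rw [e1, e2]; ring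
  have ht0 : 0 < t := by rw [ht]; nlinarith [mul_pos hη hr, mul_pos (sub_pos.mpr hη1) hs]
  have hα : 0 ≤ (1 - ε) * al t := mul_nonneg (by linarith) (al_pos ht0).le
  set C := fun N => Phi (Vb n (3 * N) √η √(1 - η)) (A N) (B N) with hC
  have hCs : ∀ N, DState (C N) := fun N => Phi_dstate (Vb_iso n _ hcs) (hAB N).1 (hAB N).2
  set d : ℕ → ℝ := fun N => Fintype.card (Box n (2 * (3 * N))) * exp (-N) with hd
  have hd0 : Tendsto d atTop (𝓝 0) := by simpa only [hd, lim_card] using lim_delta n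
  set v : ℕ → ℝ := fun N => t + (t * d N + 2 * κ N + √(κ N * (2 * (2 * t + 1)))) with hv
  have hv0 : Tendsto v atTop (𝓝 t) := by
    simpa using (((hd0.const_mul t).add (hκ.const_mul 2)).add
      (hκ.mul_const (2 * (2 * t + 1))).sqrt).const_add t
  have hu : ∀ᶠ N : ℕ in atTop, ∀ j, (C N * ((ann n _ j)ᴴ * ann n _ j)).trace.re ≤ v N ∧
      ∀ k l, ‖Jop t (ann n _ j) (C N) k l‖ ≤ √(4 * κ N) + exp (-N) * √(occ l j : ℝ) := by
    filter_upwards [h, hd0.eventually (gt_mem_nhds one_pos)] with N h1 h2 j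
    exact lim_u (hCs N) ht0.le (exp_pos _).le h2.le h1.1 j (h1.2.1 j).2.2
  have hen : ∀ᶠ N : ℕ in atTop, en (C N) ≤ n * v N := by
    filter_upwards [hu] with N h1
    rw [en_eq]
    simpa using Finset.sum_le_sum fun j (_ : j ∈ Finset.univ) => (h1 j).1
  obtain ⟨E, hE⟩ : BddAbove (Set.range fun N => en (C N)) :=
    ((hv0.const_mul (n : ℝ)).isBoundedUnder_le.mono_le hen).bddAbove_range
  have hS := thermal_limit n ht0 (fun N => 2 * (3 * N)) C hCs E (fun N => hE ⟨N, rfl⟩)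
    fun j k l => by
      have h0 : Tendsto (fun N : ℕ => √(4 * κ N) + exp (-N) * √(l j : ℝ)) atTop (𝓝 0) := by
        simpa using (hκ.const_mul 4).sqrt.add ((lim_delta 0).mul_const √(l j : ℝ))
      refine squeeze_zero_norm' ?_ h0
      filter_upwards [hu, eventually_all.mpr fun i => eventually_ge_atTop (k i),
        eventually_all.mpr fun i => eventually_ge_atTop (l i)] with N h1 h2 h3
      obtain ⟨k', rfl⟩ := exists_occ (M := 2 * (3 * N)) (k := k) fun i => by have := h2 i; omega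
      obtain ⟨l', rfl⟩ := exists_occ (M := 2 * (3 * N)) (k := l) fun i => by have := h3 i; omega
      have := (h1 j).2 k' l'
      simpa only [Jop, Matrix.sub_apply, Matrix.smul_apply, ann_mul_apply, mul_ann_apply,
        smul_eq_mul, ← mul_assoc, ← Complex.ofReal_mul] using this
  have hl := (((hS.sub (hd0.const_mul 2)).const_mul ((1 - ε) * al t)).sub
    (((hv0.const_mul (n : ℝ)).add ((hκ.mul hκ).const_mul (n : ℝ))).const_mul (1 - ε))).sub hω
  have hfin := le_of_tendsto hl (b := limF (Vb n _ √η √(1 - η)) ((1 - ε) * al t)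
      (η * al r) ((1 - η) * al s) 0 (ε * η) (ε * (1 - η)) X Y
      + n * (η * al r * log (r + 1) + (1 - η) * al s * log (s + 1))) (by
    filter_upwards [h, hen] with N h1 h2
    have h3 := mul_le_mul_of_nonneg_left (S_shift_ge (hCs N) (exp_pos (-N)).le
      (exp_le_one_iff.mpr (by simp))) hα
    have h4 := mul_le_mul_of_nonneg_left (gibbs (hAB N).1 hr) (mul_pos hη (al_pos hr)).le
    have h5 := mul_le_mul_of_nonneg_left (gibbs (hAB N).2 hs)
      (mul_pos (sub_pos.mpr hη1) (al_pos hs)).le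
    have h6 : η * en (A N) + (1 - η) * en (B N) ≤ en (C N) + n * (κ N * κ N) := by
      have := Finset.sum_le_sum fun j (_ : j ∈ Finset.univ) =>
        (energy_rel (rel_box n _ hcs j) (hAB N).1 (hAB N).2).trans (add_le_add_right
          (mul_le_mul (h1.2.1 j).1 (h1.2.1 j).2.1 (norm_nonneg _) h1.1) _)
      simp only [e1, e2, Finset.sum_add_distrib, ← Finset.mul_sum, ← en_eq, Finset.sum_const,
        card_univ, Fintype.card_fin, nsmul_eq_mul] at this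
      simp only [hC]
      linarith
    have h7 := mul_le_mul_of_nonneg_left (h6.trans (add_le_add_left h2 _))
      (show 0 ≤ 1 - ε by linarith)
    have h8 := h1.2.2
    have e3 : η * al r * (bet r * en (A N)) = η * en (A N) := by
      rw [← mul_assoc, mul_assoc η, al_mul_bet hr, mul_one]
    have e4 : (1 - η) * al s * (bet s * en (B N)) = (1 - η) * en (B N) := by
      rw [← mul_assoc, mul_assoc (1 - η), al_mul_bet hs, mul_one]
    rw [mul_add, e3] at h4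
    rw [mul_add, e4] at h5
    rw [limF] at h8
    simp only [hd, hC] at h3 h7 ⊢
    linarith)
  simp only [limF, Complex.ofReal_zero, zero_smul, add_zero] at hfin
  linarith

/-- `ε → 0` in fin_epni_eps (al_mul_g), then the endpoints `η = 0, 1` by continuity
(Phi_Vb_continuous, S_continuousOn, g_continuous, continuity of `al` on ` (0,∞)`). -/
theorem fin_epni {n K : ℕ} {η r s t : ℝ} (hη : 0 ≤ η) (hη1 : η ≤ 1) (hr : 0 < r) (hs : 0 < s)
    (ht : t = η * r + (1 - η) * s)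
    {X Y : Matrix (Box n K) (Box n K) ℂ} (hX : DState X) (hY : DState Y) :
    n * (al t * g t - η * al r * g r - (1 - η) * al s * g s)
      ≤ al t * S (Phi (Vb n K (√η) (√(1 - η))) X Y) - η * al r * S X - (1 - η) * al s * S Y := by
  subst ht
  have hpos : 0 < η * r + (1 - η) * s := by
    nlinarith [mul_nonneg hη hr.le, mul_nonneg (sub_nonneg.mpr hη1) hs.le, lt_min hr hs,
      mul_nonneg hη (sub_nonneg.mpr (min_le_left r s)),
      mul_nonneg (sub_nonneg.mpr hη1) (sub_nonneg.mpr (min_le_right r s))]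
  have hal : ContinuousAt (fun x : ℝ => al (x * r + (1 - x) * s)) η := by
    have h1 := (bet_pos hpos).ne'
    have h2 : 0 < 1 + 1 / (η * r + (1 - η) * s) := by positivity
    unfold al bet at *
    fun_prop (disch := first | assumption | exact ne_of_gt ‹_›)
  have hg : Continuous fun x : ℝ => g (x * r + (1 - x) * s) := g_continuous.comp (by fun_prop)
  have hS : Continuous fun x : ℝ => S (Phi (Vb n K (√x) (√(1 - x))) X Y) :=
    S_continuousOn.comp_continuous ((Phi_Vb_continuous X Y).comp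
      (f := fun x : ℝ => (√x, √(1 - x))) (by fun_prop)) fun x => Phi_posSemidef _ hX.1 hY.1
  refine ContinuousWithinAt.closure_le (s := Set.Ioo 0 1) (x := η)
    (f := fun x => n * (al (x * r + (1 - x) * s) * g (x * r + (1 - x) * s) - x * al r * g r
      - (1 - x) * al s * g s))
    (g := fun x => al (x * r + (1 - x) * s) * S (Phi (Vb n K (√x) (√(1 - x))) X Y)
      - x * al r * S X - (1 - x) * al s * S Y)
    (by rw [closure_Ioo zero_ne_one]; exact ⟨hη, hη1⟩)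
    (continuousAt_const.mul (((hal.mul hg.continuousAt).sub (by fun_prop)).sub
      (by fun_prop))).continuousWithinAt
    (((hal.mul hS.continuousAt).sub (by fun_prop)).sub (by fun_prop)).continuousWithinAt
    fun x hx => ?_
  have h := ContinuousWithinAt.closure_le (s := Set.Ioo 0 (1 / 2)) (x := (0 : ℝ))
    (by rw [closure_Ioo (by norm_num)]; exact ⟨le_rfl, by norm_num⟩)
    (Continuous.continuousWithinAt (by fun_prop)) (Continuous.continuousWithinAt (by fun_prop))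
    fun ε hε => fin_epni_eps hε.1 hε.2.le hx.1 hx.2 hr hs rfl hX hY
  simp only [sub_zero, one_mul, zero_mul, add_zero] at h
  simp only [mul_assoc, al_mul_g hr, al_mul_g hs] at h ⊢
  linarith

end Vale.Agent.P369
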