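import Vale.Agent.P369.Key
import Vale.Agent.P369.Box

/-! Auxiliary facts for the limit argument. -/

namespace Vale.Agent.P369

open Matrix Finset Filter Topology Real
open Vale.Agent.P358 (S)
open scoped ComplexOrder Kronecker

lemma lim_pigeon (m u : ℕ → ℝ) {c U L : ℝ} (hc : 0 < c) (h : ∀ i, m (i + 1) ≤ m i - c * u i)
    {N : ℕ} (hN : 0 < N) (hU : m N ≤ U) (hL : -L ≤ m (N + N)) :
    ∃ i, N ≤ i ∧ i ≤ N + N ∧ u i ≤ (U + L) / c / N := by
  have hN' : (0 : ℝ) < N := by exact_mod_cast hN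
  obtain ⟨k, hk, h1⟩ := Finset.exists_le_of_sum_le (s := range N) (f := fun k => c * u (N + k))
    (g := fun _ => (U + L) / N) ⟨0, by simpa using hN⟩ (by
      have h2 := Finset.sum_range_sub' (fun k => m (N + k)) N
      have h3 : ∑ k ∈ range N, c * u (N + k) ≤ ∑ k ∈ range N, (m (N + k) - m (N + (k + 1))) :=
        Finset.sum_le_sum fun k _ => by have := h (N + k); rw [← add_assoc]; linarith
      rw [Finset.sum_const, card_range, nsmul_eq_mul, mul_div_cancel₀ _ hN'.ne']
      simp only [add_zero] at h2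
      linarith)
  refine ⟨N + k, by omega, by have := mem_range.mp hk; omega, ?_⟩
  rw [div_right_comm, le_div_iff₀ hc, mul_comm]
  exact h1

variable {n M : ℕ}

/-- the penalty operator -/
noncomputable def limG (n M : ℕ) (a θ γ : ℝ) : Matrix (Box n M) (Box n M) ℂ :=
  (a : ℂ) • Hn n M + (θ : ℂ) • Gam n M γ

lemma limG_tr (a θ γ : ℝ) (X : Matrix (Box n M) (Box n M) ℂ) :
    (X * limG n M a θ γ).trace.re = a * en X + θ * pen γ X := by
  simp only [limG, Matrix.mul_add, Matrix.mul_smul, trace_add, trace_smul, smul_eq_mul,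
    Complex.add_re, Complex.re_ofReal_mul, trace_mul_Hn, trace_mul_Gam]

lemma limG_herm (a θ γ : ℝ) : (limG n M a θ γ).IsHermitian := by
  rw [IsHermitian]
  simp [limG, Hn, Gam, rdiag_conjTranspose]

lemma limG_comm (a θ γ : ℝ) (j : Fin n) :
    ann n M j * limG n M a θ γ - limG n M a θ γ * ann n M j
      = (a : ℂ) • ann n M j + (θ : ℂ) • (ann n M j * Gam n M γ - Gam n M γ * ann n M j) := by
  have h := congrArg ((a : ℂ) • ·) (ann_comm_Hn (M := M) j)
  simp only [limG, Matrix.mul_add, Matrix.add_mul, Matrix.mul_smul, Matrix.smul_mul, ← h, smul_sub]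
  abel

lemma pen_nonneg {γ : ℝ} (hγ : 0 ≤ γ) {X : Matrix (Box n M) (Box n M) ℂ} (hX : X.PosSemidef) :
    0 ≤ pen γ X :=
  Finset.sum_nonneg fun k _ => mul_nonneg (by positivity) (P358.diag_re_nonneg hX k)

lemma en_nonneg {X : Matrix (Box n M) (Box n M) ℂ} (hX : X.PosSemidef) : 0 ≤ en X :=
  Finset.sum_nonneg fun k _ => mul_nonneg (by positivity) (P358.diag_re_nonneg hX k)

lemma en_eq (X : Matrix (Box n M) (Box n M) ℂ) :
    en X = ∑ j, (X * ((ann n M j)ᴴ * ann n M j)).trace.re := by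
  simp only [annH_mul_ann, trace_mul_rdiag, en, Finset.sum_mul]
  exact Finset.sum_comm

/-- the objective without the exponential penalty -/
noncomputable def limF {C : Type} [Fintype C] [DecidableEq C]
    (V : Matrix (C × C) (Box n M × Box n M) ℂ) (α αA αB δ a b : ℝ)
    (X Y : Matrix (Box n M) (Box n M) ℂ) : ℝ :=
  α * S (Phi V X Y + (δ : ℂ) • 1) - αA * S X - αB * S Y + a * en X + b * en Y

lemma lim_exists {C : Type} [Fintype C] [DecidableEq C]
    (V : Matrix (C × C) (Box n M × Box n M) ℂ) (α αA αB : ℝ) {δ : ℝ} (hδ : 0 ≤ δ) (a b : ℝ)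
    {γ L U : ℝ} (hγ : 1 < γ) {N : ℕ} (hN : 0 < N)
    (hL : ∀ X Y, DState X → DState Y → -L ≤ limF V α αA αB δ a b X Y)
    {X1 Y1 : Matrix (Box n M) (Box n M) ℂ} (hX : DState X1) (hY : DState Y1)
    (hU : limF V α αA αB δ a b X1 Y1 + (pen γ X1 + pen γ Y1) ≤ U) :
    ∃ θ X Y, γ⁻¹ ^ (N + N) ≤ θ ∧ θ ≤ γ⁻¹ ^ N ∧
      IsMinimiser V α αA αB δ (limG n M a θ γ) (limG n M b θ γ) X Y ∧
      θ * (pen γ X + pen γ Y) ≤ (U + L) / (1 - γ⁻¹) / N ∧
      limF V α αA αB δ a b X Y ≤ limF V α αA αB δ a b X1 Y1 + γ⁻¹ ^ N * (pen γ X1 + pen γ Y1) := by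
  have h0 : 0 < γ⁻¹ := by positivity
  have h1 : γ⁻¹ < 1 := inv_lt_one_of_one_lt₀ hγ
  have hO : ∀ θ X Y, Obj V α αA αB δ (limG n M a θ γ) (limG n M b θ γ) X Y =
      limF V α αA αB δ a b X Y + θ * (pen γ X + pen γ Y) := fun θ X Y => by
    rw [Obj, limG_tr, limG_tr, limF]; ring
  choose X Y h using fun i : ℕ =>
    exists_minimiser V α αA αB hδ (limG n M a (γ⁻¹ ^ i) γ) (limG n M b (γ⁻¹ ^ i) γ)
  have hp : ∀ {X Y : Matrix (Box n M) (Box n M) ℂ}, DState X → DState Y →
      0 ≤ pen γ X + pen γ Y := fun hX hY =>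
    add_nonneg (pen_nonneg (by linarith) hX.1) (pen_nonneg (by linarith) hY.1)
  have hc : ∀ i, limF V α αA αB δ a b (X i) (Y i) + γ⁻¹ ^ i * (pen γ (X i) + pen γ (Y i)) ≤
      limF V α αA αB δ a b X1 Y1 + γ⁻¹ ^ i * (pen γ X1 + pen γ Y1) := fun i => by
    rw [← hO, ← hO]; exact (h i).2.2 _ _ hX hY
  obtain ⟨i, h2, h3, h4⟩ := lim_pigeon
    (fun i => limF V α αA αB δ a b (X i) (Y i) + γ⁻¹ ^ i * (pen γ (X i) + pen γ (Y i)))
    (fun i => γ⁻¹ ^ i * (pen γ (X i) + pen γ (Y i))) (U := U) (L := L) (sub_pos.mpr h1)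
    (fun i => by
      have := (h (i + 1)).2.2 _ _ (h i).1 (h i).2.1
      rw [hO, hO] at this
      rw [pow_succ] at this ⊢
      linarith) hN
    ((hc N).trans (by
      have := mul_le_mul_of_nonneg_right (pow_le_one₀ (n := N) h0.le h1.le) (hp hX hY)
      linarith))
    (by
      have := mul_nonneg (pow_pos h0 (N + N)).le (hp (h (N + N)).1 (h (N + N)).2.1)
      linarith [hL _ _ (h (N + N)).1 (h (N + N)).2.1])
  have h5 := pow_le_pow_of_le_one h0.le h1.le h2
  refine ⟨γ⁻¹ ^ i, X i, Y i, pow_le_pow_of_le_one h0.le h1.le h3, h5, h i, h4, ?_⟩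
  have := mul_nonneg (pow_pos h0 i).le (hp (h i).1 (h i).2.1)
  have := mul_le_mul_of_nonneg_right h5 (hp hX hY)
  linarith [hc i]

lemma lim_u {C : Matrix (Box n M) (Box n M) ℂ} (hC : DState C) {t δ κ : ℝ} (ht : 0 ≤ t)
    (hδ : 0 ≤ δ) (hd : Fintype.card (Box n M) * δ ≤ 1) (hκ : 0 ≤ κ) (j : Fin n)
    (hW : ∀ W : Matrix (Box n M) (Box n M) ℂ,
      ‖(Wᴴ * Jop t (ann n M j) (C + (δ : ℂ) • 1)).trace‖ ^ 2
        ≤ κ * ((C + (δ : ℂ) • 1) * (Wᴴ * W + W * Wᴴ)).trace.re) :
    (C * ((ann n M j)ᴴ * ann n M j)).trace.re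
      ≤ t + (t * (Fintype.card (Box n M) * δ) + 2 * κ + √(κ * (2 * (2 * t + 1)))) ∧
    ∀ k l, ‖Jop t (ann n M j) C k l‖ ≤ √(4 * κ) + δ * √(occ l j : ℝ) := by
  set C' := C + (δ : ℂ) • 1 with hC'
  have hP : C'.PosSemidef := hC.1.add (min_smul_one hδ)
  have hdiag : ∀ k, (C' k k).re = (C k k).re + δ := fun k => by simp [hC']
  have h1 : ∑ k, (C k k).re = 1 := by
    have := congrArg Complex.re hC.2
    simpa only [trace, diag_apply, Complex.re_sum, Complex.one_re] using this
  have htr : ∑ k, (C' k k).re = 1 + Fintype.card (Box n M) * δ := by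
    simp only [hdiag, Finset.sum_add_distrib, h1, Finset.sum_const, card_univ, nsmul_eq_mul]
  constructor
  · set b := ann n M j with hb
    set x := (C' * (bᴴ * b)).trace.re with hx
    set y := (C' * (b * bᴴ)).trace.re with hy
    have h2 : (bᴴ * Jop t b C').trace.re = (t + 1) * x - t * y := by
      rw [Jop, Matrix.mul_sub, Matrix.mul_smul, Matrix.mul_smul, trace_sub, trace_smul,
        trace_smul, ← Matrix.mul_assoc bᴴ b, trace_mul_comm (bᴴ * b), trace_mul_comm bᴴ,
        Matrix.mul_assoc]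
      simp only [smul_eq_mul, Complex.sub_re, Complex.re_ofReal_mul, hx, hy]
    have h3 : y ≤ x + (1 + Fintype.card (Box n M) * δ) := by
      rw [hx, hy, hb, annH_mul_ann, ann_mul_annH, trace_mul_rdiag, trace_mul_rdiag, ← htr,
        ← Finset.sum_add_distrib]
      refine Finset.sum_le_sum fun k _ => ?_
      have := P358.diag_re_nonneg hP k
      split_ifs
      · linarith
      · have := mul_nonneg (Nat.cast_nonneg (α := ℝ) (occ k j)) this
        linarith
    have h4 : (C * (bᴴ * b)).trace.re ≤ x := by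
      rw [hx, hb, annH_mul_ann, trace_mul_rdiag, trace_mul_rdiag]
      exact Finset.sum_le_sum fun k _ =>
        mul_le_mul_of_nonneg_left (by rw [hdiag]; linarith) (by positivity)
    have h5 := hW b
    rw [Matrix.mul_add, trace_add, Complex.add_re, ← hx, ← hy] at h5
    have h6 := Complex.re_le_norm (bᴴ * Jop t b C').trace
    set d := Fintype.card (Box n M) * δ with hdd
    have hd0 : 0 ≤ d := by positivity
    set u := x - t * (1 + d) with hu
    have h7 : u ≤ ‖(bᴴ * Jop t b C').trace‖ := by nlinarith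
    have h8 : u ≤ 2 * κ + √(κ * (2 * (2 * t + 1))) := by
      by_contra h9
      rw [not_le] at h9
      have h10 := Real.sqrt_nonneg (κ * (2 * (2 * t + 1)))
      have h11 := Real.sq_sqrt (show 0 ≤ κ * (2 * (2 * t + 1)) by positivity)
      have h12 := (pow_le_pow_left₀ (by linarith) h7 2).trans h5
      have h13 : x + y ≤ 2 * u + 2 * (2 * t + 1) := by nlinarith
      have h14 := mul_le_mul_of_nonneg_left h13 hκ
      nlinarith
    linarith
  · intro k l
    have h2 := hW (single k l 1)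
    have h3 : ∀ k, (C' k k).re ≤ 2 := fun k => by
      have := Finset.single_le_sum (f := fun k => (C' k k).re)
        (fun k _ => P358.diag_re_nonneg hP k) (Finset.mem_univ k)
      linarith
    rw [conjTranspose_single, star_one, single_mul_single_same, single_mul_single_same,
      Matrix.mul_add, trace_add, trace_single_mul, trace_mul_single, trace_mul_single] at h2
    have h4 : ‖Jop t (ann n M j) C' k l‖ ≤ √(4 * κ) := by
      refine Real.le_sqrt_of_sq_le ?_
      simp only [mul_one, one_smul, MulOpposite.op_one, Complex.add_re] at h2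
      nlinarith [h3 k, h3 l]
    have h5 : Jop t (ann n M j) C k l = Jop t (ann n M j) C' k l - δ * ann n M j k l := by
      simp [Jop, hC', Matrix.mul_add, Matrix.add_mul]
      ring
    have h6 : ‖ann n M j k l‖ ≤ √(occ l j : ℝ) := by
      unfold ann
      split_ifs <;> simp [abs_of_nonneg]
    rw [h5]
    refine (norm_sub_le _ _).trans (add_le_add h4 ?_)
    rw [norm_mul, Complex.norm_real, Real.norm_of_nonneg hδ]
    exact mul_le_mul_of_nonneg_left h6 hδ

lemma lim_poly (k : ℕ) {q : ℝ} (h0 : 0 ≤ q) (h1 : q < 1) :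
    Tendsto (fun N : ℕ => (6 * (N : ℝ) + 1) ^ k * q ^ N) atTop (𝓝 0) := by
  have h := (tendsto_pow_const_mul_const_pow_of_abs_lt_one k
    (r := q) (by rwa [abs_of_nonneg h0])).const_mul (7 ^ k)
  rw [mul_zero] at h
  refine squeeze_zero' (Eventually.of_forall fun N => by positivity) ?_ h
  filter_upwards [eventually_ge_atTop 1] with N hN
  have : (1 : ℝ) ≤ N := by exact_mod_cast hN
  rw [← mul_assoc, ← mul_pow]
  gcongr
  linarith

lemma lim_sqrt : Tendsto (fun N : ℕ => √((3 * N : ℕ) : ℝ) / N) atTop (𝓝 0) := by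
  have h := (tendsto_const_div_atTop_nhds_zero_nat (3 : ℝ)).sqrt
  rw [Real.sqrt_zero] at h
  refine h.congr' ?_
  filter_upwards [eventually_gt_atTop 0] with N hN
  have : (0 : ℝ) < N := by exact_mod_cast hN
  rw [Real.sqrt_eq_iff_mul_self_eq (by positivity) (by positivity), div_mul_div_comm,
    Real.mul_self_sqrt (by positivity)]
  push_cast
  field_simp

end Vale.Agent.P369
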