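import Vale.Agent.P369.Limit
import Vale.Agent.P369.Beam

/-! Auxiliary facts for the reduction to boxes: tails of series, extensions by zero,
truncations of a state. -/

set_option linter.unusedSectionVars false

namespace Vale.Agent.P369

open Matrix Finset Filter Topology Real
open Vale.Agent.P358 (S)
open scoped ComplexOrder Kronecker

section tails
variable {ι : Type}

lemma norm_sub_sum_le {u : ι → ℂ} {a : ℂ} (hu : HasSum u a) {w : ι → ℝ}
    {E R : ℝ} (hR : 0 < R) (hE : ∀ G : Finset ι, ∑ l ∈ G, w l * ‖u l‖ ≤ E) (F : Finset ι)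
    (hF : ∀ l, l ∉ F → R ≤ w l) : ‖a - ∑ l ∈ F, u l‖ ≤ E / R := by
  classical
  have h1 : Tendsto (fun G : Finset ι => ‖∑ l ∈ G, u l - ∑ l ∈ F, u l‖) atTop
      (𝓝 ‖a - ∑ l ∈ F, u l‖) := (Tendsto.sub_const hu _).norm
  refine le_of_tendsto h1 ?_
  filter_upwards [eventually_ge_atTop F] with G hG
  rw [← Finset.sum_sdiff hG, add_sub_cancel_right, le_div_iff₀ hR]
  calc ‖∑ l ∈ G \ F, u l‖ * R ≤ (∑ l ∈ G \ F, ‖u l‖) * R := by
        gcongr; exact norm_sum_le _ _
    _ = ∑ l ∈ G \ F, R * ‖u l‖ := by rw [Finset.sum_mul]; simp [mul_comm]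
    _ ≤ ∑ l ∈ G \ F, w l * ‖u l‖ := by
        refine Finset.sum_le_sum fun l hl => ?_
        have := hF l (Finset.mem_sdiff.mp hl).2
        gcongr
    _ ≤ E := hE _

lemma tendsto_of_tails {u : ℕ → ι → ℂ} {a : ℕ → ℂ} (hu : ∀ N, HasSum (u N) (a N)) {v : ι → ℂ}
    (hv : ∀ l, Tendsto (fun N => u N l) atTop (𝓝 (v l))) {w : ι → ℝ} (hw : ∀ l, 0 ≤ w l)
    (hfin : ∀ R : ℝ, {l | w l < R}.Finite) {E : ℝ}
    (hE : ∀ N, ∀ G : Finset ι, ∑ l ∈ G, w l * ‖u N l‖ ≤ E) :
    Summable v ∧ Tendsto a atTop (𝓝 (∑' l, v l)) := by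
  classical
  have hEv : ∀ G : Finset ι, ∑ l ∈ G, w l * ‖v l‖ ≤ E := fun G =>
    le_of_tendsto' (tendsto_finsetSum G fun l _ => (hv l).norm.const_mul (w l)) fun N => hE N G
  have hE0 : 0 ≤ E := by simpa using hEv ∅
  have hsw : Summable (fun l => w l * ‖v l‖) :=
    summable_of_sum_le (fun l => mul_nonneg (hw l) (norm_nonneg _)) hEv
  have hs : Summable v := by
    refine Summable.of_norm_bounded_eventually hsw ?_
    rw [Filter.eventually_cofinite]
    refine (hfin 1).subset fun l hl => ?_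
    simp only [Set.mem_ofPred_eq, not_le] at hl ⊢
    by_contra h
    push Not at h
    nlinarith [norm_nonneg (v l)]
  refine ⟨hs, ?_⟩
  rw [Metric.tendsto_atTop]
  intro ε hε
  set R : ℝ := 3 * (E + 1) / ε with hR
  have hR0 : 0 < R := by positivity
  have hER : E / R < ε / 3 := by
    rw [div_lt_iff₀ hR0, hR]
    have : ε / 3 * (3 * (E + 1) / ε) = E + 1 := by field_simp
    linarith
  set F := (hfin R).toFinset with hF
  have hFc : ∀ l, l ∉ F → R ≤ w l := fun l hl => by
    simpa [hF] using hl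
  have h1 : Tendsto (fun N => ∑ l ∈ F, u N l) atTop (𝓝 (∑ l ∈ F, v l)) :=
    tendsto_finsetSum F fun l _ => hv l
  obtain ⟨N0, hN0⟩ := Metric.tendsto_atTop.mp h1 (ε / 3) (by positivity)
  refine ⟨N0, fun N hN => ?_⟩
  have h2 := norm_sub_sum_le (hu N) hR0 (hE N) F hFc
  have h3 := norm_sub_sum_le hs.hasSum hR0 hEv F hFc
  have h4 := hN0 N hN
  rw [dist_eq_norm] at h4 ⊢
  have : a N - ∑' l, v l = (a N - ∑ l ∈ F, u N l) + (∑ l ∈ F, u N l - ∑ l ∈ F, v l)
      - (∑' l, v l - ∑ l ∈ F, v l) := by ring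
  rw [this]
  have h5 := norm_sub_le ((a N - ∑ l ∈ F, u N l) + (∑ l ∈ F, u N l - ∑ l ∈ F, v l))
    (∑' l, v l - ∑ l ∈ F, v l)
  have h6 := norm_add_le (a N - ∑ l ∈ F, u N l) (∑ l ∈ F, u N l - ∑ l ∈ F, v l)
  linarith

lemma finite_lt_of_summable {w : ι → ℝ} (h : Summable fun l => Real.exp (-(1 * w l))) (R : ℝ) :
    {l | w l < R}.Finite := by
  have h1 := h.tendsto_cofinite_zero
  have h2 := h1.eventually (gt_mem_nhds (Real.exp_pos (-R)))
  rw [Filter.eventually_cofinite] at h2
  refine h2.subset fun l hl => ?_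
  simp only [Set.mem_ofPred_eq, not_lt] at hl ⊢
  exact Real.exp_le_exp.mpr (by linarith)

end tails

section zext
variable {κ ι : Type} [Fintype κ] [DecidableEq ι]

lemma psd_norm_le {W : Matrix κ κ ℂ} (hW : W.PosSemidef) (i j : κ) :
    ‖W i j‖ ≤ ((W i i).re + (W j j).re) / 2 := by
  classical
  have h2 := (hW.submatrix (![i, j] : Fin 2 → κ))
  have hd := h2.det_nonneg
  rw [Matrix.det_fin_two] at hd
  simp only [submatrix_apply, Matrix.cons_val_zero, Matrix.cons_val_one] at hd
  have hji : W j i = star (W i j) := (hW.isHermitian.apply j i).symm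
  have hi := P358.diag_re_nonneg hW i
  have hj := P358.diag_re_nonneg hW j
  have hii : (W i i).im = 0 := (Complex.nonneg_iff.mp (hW.diag_nonneg (i := i))).2.symm
  have hjj : (W j j).im = 0 := (Complex.nonneg_iff.mp (hW.diag_nonneg (i := j))).2.symm
  have h3 := (Complex.nonneg_iff.mp hd).1
  rw [hji] at h3
  simp only [Complex.sub_re, Complex.mul_re, hii, hjj, Complex.star_def, Complex.conj_re,
    Complex.conj_im] at h3
  have h4 : ‖W i j‖ ^ 2 = (W i j).re * (W i j).re + (W i j).im * (W i j).im := by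
    rw [Complex.sq_norm, Complex.normSq_apply]
  refine le_of_sq_le_sq ?_ (by positivity) |>.trans le_rfl
  nlinarith [sq_nonneg ((W i i).re - (W j j).re)]

lemma zext_diag_nonneg {e : κ → ι} (he : Function.Injective e) {W : Matrix κ κ ℂ}
    (hW : W.PosSemidef) (x : ι) : 0 ≤ (zext e W x x).re := by
  by_cases hx : ∃ i, e i = x
  · obtain ⟨i, rfl⟩ := hx
    rw [zext_apply he]; exact P358.diag_re_nonneg hW i
  · push Not at hx
    simp [zext_left W hx]

lemma zext_norm_le {e : κ → ι} (he : Function.Injective e) {W : Matrix κ κ ℂ}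
    (hW : W.PosSemidef) (x y : ι) :
    ‖zext e W x y‖ ≤ ((zext e W x x).re + (zext e W y y).re) / 2 := by
  have hx0 := zext_diag_nonneg he hW x
  have hy0 := zext_diag_nonneg he hW y
  by_cases hx : ∃ i, e i = x
  · by_cases hy : ∃ i, e i = y
    · obtain ⟨i, rfl⟩ := hx
      obtain ⟨j, rfl⟩ := hy
      simp only [zext_apply he]
      exact psd_norm_le hW i j
    · push Not at hy
      rw [zext_right W x hy, norm_zero]; positivity
  · push Not at hx
    rw [zext_left W hx y, norm_zero]; positivity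

lemma hasSum_zext_diag {e : κ → ι} (he : Function.Injective e) (W : Matrix κ κ ℂ) (h : ι → ℝ) :
    HasSum (fun x => h x * (zext e W x x).re) (∑ i, h (e i) * (W i i).re) := by
  rw [← he.hasSum_iff]
  · have := hasSum_fintype (fun i => h (e i) * (W i i).re)
    refine this.congr_fun fun i => ?_
    simp [zext_apply he]
  · intro x hx
    have hx' : ∀ i, e i ≠ x := fun i hi => hx ⟨i, hi⟩
    simp [zext_left W hx']

lemma hasSum_zext_ptr {e : κ → ι} (he : Function.Injective e) (W : Matrix (κ × κ) (κ × κ) ℂ)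
    (k k' : ι) :
    HasSum (fun l => zext (Prod.map e e) W (k, l) (k', l)) (zext e (ptr W) k k') := by
  have he2 : Function.Injective (Prod.map e e) := he.prodMap he
  by_cases hk : ∃ i, e i = k
  · by_cases hk' : ∃ i, e i = k'
    · obtain ⟨i, rfl⟩ := hk
      obtain ⟨i', rfl⟩ := hk'
      rw [zext_apply he, ← he.hasSum_iff]
      · have := hasSum_fintype (fun l => W (i, l) (i', l))
        refine this.congr_fun fun l => ?_
        exact zext_apply he2 W (i, l) (i', l)
      · intro x hx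
        refine zext_left W (fun y hy => hx ⟨y.2, ?_⟩) _
        exact congrArg Prod.snd hy
    · push Not at hk'
      rw [zext_right _ k hk']
      refine hasSum_zero.congr_fun fun l => ?_
      exact zext_right W _ fun y hy => hk' y.1 (congrArg Prod.fst hy)
  · push Not at hk
    rw [zext_left _ hk]
    refine hasSum_zero.congr_fun fun l => ?_
    exact zext_left W (fun y hy => hk y.1 (congrArg Prod.fst hy)) _

end zext

section trunc
variable {n : ℕ} {H : Type} [NormedAddCommGroup H] [InnerProductSpace ℂ H] [CompleteSpace H]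

/-- the compression of an operator to a box -/
noncomputable def trunc (e : HilbertBasis (Occ n) ℂ H) (ρ : H →L[ℂ] H) (K : ℕ) :
    Matrix (Box n K) (Box n K) ℂ :=
  Matrix.of fun i j => entry e ρ (occ i) (occ j)

lemma eventually_box (k : Occ n) : ∀ᶠ K in atTop, ∃ i : Box n K, occ i = k := by
  filter_upwards [eventually_ge_atTop (∑ j, k j)] with K hK
  exact exists_occ fun j =>
    (Finset.single_le_sum (fun j _ => Nat.zero_le (k j)) (Finset.mem_univ j)).trans hK

lemma tendsto_box : Tendsto (fun K => (univ : Finset (Box n K)).image occ) atTop atTop := by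
  rw [tendsto_atTop]
  intro F
  have : ∀ᶠ K in atTop, ∀ k ∈ F, ∃ i : Box n K, occ i = k :=
    (Filter.eventually_all_finset F).mpr fun k _ => eventually_box k
  filter_upwards [this] with K hK k hk
  obtain ⟨i, hi⟩ := hK k hk
  exact Finset.mem_image.mpr ⟨i, Finset.mem_univ _, hi⟩

lemma entry_diag_nonneg {ι : Type} (e : HilbertBasis ι ℂ H) {ρ : H →L[ℂ] H} (h : ρ.IsPositive)
    (k : ι) : 0 ≤ (entry e ρ k k).re := by
  have := P358.diag_re_nonneg (compress_posSemidef e h (fun _ : Unit => k)) ()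
  simpa using this

lemma occ_sum_nonneg (k : Occ n) : 0 ≤ ∑ j, (k j : ℝ) := by positivity

lemma exists_trunc (e : HilbertBasis (Occ n) ℂ H) {ρ : H →L[ℂ] H} (hρ : IsState e ρ)
    (hE : FiniteEnergy e ρ) :
    ∃ (A : ∀ K, Matrix (Box n K) (Box n K) ℂ) (c : ℕ → ℝ) (E : ℝ), (∀ K, DState (A K)) ∧
      (∀ K, en (A K) ≤ E) ∧ Tendsto c atTop (𝓝 1) ∧
      ∀ᶠ K in atTop, A K = (c K : ℂ) • trunc e ρ K := by
  classical
  set τ : ℕ → ℝ := fun K => (trunc e ρ K).trace.re with hτ
  have hpsd : ∀ K, (trunc e ρ K).PosSemidef := fun K => compress_posSemidef e hρ.1 occ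
  have hτ1 : Tendsto τ atTop (𝓝 1) := by
    have h0 : Tendsto (fun G : Finset (Occ n) => ∑ k ∈ G, entry e ρ k k) atTop (𝓝 1) := hρ.2
    have h1 : Tendsto (fun K => ∑ k ∈ (univ : Finset (Box n K)).image occ, entry e ρ k k) atTop
        (𝓝 1) := h0.comp tendsto_box
    have h2 := (Complex.continuous_re.tendsto 1).comp h1
    refine h2.congr fun K => ?_
    simp only [Function.comp, hτ, trace, diag_apply, trunc, of_apply]
    rw [Finset.sum_image fun a _ b _ h => occ_injective h]
  set E0 : ℝ := ∑' k : Occ n, (∑ j, (k j : ℝ)) * (entry e ρ k k).re with hE0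
  have hE00 : 0 ≤ E0 :=
    tsum_nonneg fun k => mul_nonneg (occ_sum_nonneg k) (entry_diag_nonneg e hρ.1 k)
  have hen : ∀ K, en (trunc e ρ K) ≤ E0 := fun K => by
    have := hE.sum_le_tsum ((univ : Finset (Box n K)).image occ)
      fun k _ => mul_nonneg (occ_sum_nonneg k) (entry_diag_nonneg e hρ.1 k)
    rw [Finset.sum_image fun a _ b _ h => occ_injective h] at this
    exact this
  refine ⟨fun K => if 1 / 2 ≤ τ K then (((τ K)⁻¹ : ℝ) : ℂ) • trunc e ρ K
    else rdiag (fun i => if i = 0 then 1 else 0), fun K => (τ K)⁻¹, 2 * E0, ?_, ?_, ?_, ?_⟩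
  · intro K
    dsimp only
    split_ifs with h
    · have h0 : 0 < τ K := by linarith
      refine ⟨(hpsd K).smul (by exact_mod_cast (inv_pos.mpr h0).le), ?_⟩
      rw [trace_smul, P358.trace_eq_re (hpsd K).isHermitian, smul_eq_mul, ← Complex.ofReal_mul]
      have : (τ K)⁻¹ * (trunc e ρ K).trace.re = 1 := inv_mul_cancel₀ h0.ne'
      rw [this]; simp
    · refine ⟨?_, ?_⟩
      · refine posSemidef_diagonal_iff.mpr fun i => ?_
        by_cases hi : i = 0 <;> simp [hi]
      · simp [rdiag, trace, apply_ite]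
  · intro K
    dsimp only
    split_ifs with h
    · have h0 : 0 < τ K := by linarith
      have h1 : en ((((τ K)⁻¹ : ℝ) : ℂ) • trunc e ρ K) = (τ K)⁻¹ * en (trunc e ρ K) := by
        simp only [en, Matrix.smul_apply, smul_eq_mul, Complex.re_ofReal_mul, Finset.mul_sum]
        exact Finset.sum_congr rfl fun i _ => by ring
      rw [h1]
      have h2 : (τ K)⁻¹ ≤ 2 := by
        rw [inv_le_comm₀ h0 (by norm_num)]; linarith
      calc (τ K)⁻¹ * en (trunc e ρ K) ≤ (τ K)⁻¹ * E0 := by
            gcongr; exact hen K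
        _ ≤ 2 * E0 := by gcongr
    · have : en (rdiag (fun i : Box n K => if i = 0 then (1 : ℝ) else 0)) = 0 := by
        refine Finset.sum_eq_zero fun i _ => ?_
        by_cases hi : i = 0
        · subst hi; simp [occ]
        · simp [rdiag, hi]
      rw [this]; positivity
  · simpa using hτ1.inv₀ one_ne_zero
  · filter_upwards [hτ1.eventually (lt_mem_nhds (show (1 / 2 : ℝ) < 1 by norm_num))] with K hK
    rw [if_pos hK.le]

lemma tendsto_zext_trunc (e : HilbertBasis (Occ n) ℂ H) {ρ : H →L[ℂ] H}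
    {A : ∀ K, Matrix (Box n K) (Box n K) ℂ} {c : ℕ → ℝ} (hc : Tendsto c atTop (𝓝 1))
    (hA : ∀ᶠ K in atTop, A K = (c K : ℂ) • trunc e ρ K) (k l : Occ n) :
    Tendsto (fun K => zext occ (A K) k l) atTop (𝓝 (entry e ρ k l)) := by
  have h1 : Tendsto (fun K => (c K : ℂ) * entry e ρ k l) atTop (𝓝 (entry e ρ k l)) := by
    have := ((Complex.continuous_ofReal.tendsto 1).comp hc).mul_const (entry e ρ k l)
    simpa using this
  refine h1.congr' ?_
  filter_upwards [hA, eventually_box k, eventually_box l] with K hK hk hl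
  obtain ⟨i, rfl⟩ := hk
  obtain ⟨j, rfl⟩ := hl
  rw [zext_apply occ_injective, hK]
  simp [trunc]

lemma trunc_limit (e : HilbertBasis (Occ n) ℂ H) {ρ : H →L[ℂ] H}
    {A : ∀ K, Matrix (Box n K) (Box n K) ℂ} {c : ℕ → ℝ} {E : ℝ} (hD : ∀ K, DState (A K))
    (hE : ∀ K, en (A K) ≤ E) (hc : Tendsto c atTop (𝓝 1))
    (hA : ∀ᶠ K in atTop, A K = (c K : ℂ) • trunc e ρ K) :
    Summable (entropyTerm e ρ) ∧ Tendsto (fun K => S (A K)) atTop (𝓝 (entropy e ρ)) := by
  obtain ⟨T, hT, -, -, hs, hl⟩ := fock_limit e (fun k => ∑ j, (k j : ℝ)) occ_sum_nonneg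
    (fun θ hθ => summable_exp_occ n hθ) (fun K => Box n K) (fun K => occ)
    (fun K => occ_injective) A hD E hE (entry e ρ) (tendsto_zext_trunc e hc hA)
  obtain rfl : T = ρ := entry_ext e hT
  exact ⟨hs, hl⟩

lemma dstate_kron {A B : Type} [Fintype A] [Fintype B] [DecidableEq A] [DecidableEq B]
    {X : Matrix A A ℂ} {Y : Matrix B B ℂ} (hX : DState X) (hY : DState Y) : DState (X ⊗ₖ Y) :=
  ⟨hX.1.kronecker hY.1, by rw [trace_kronecker, hX.2, hY.2, one_mul]⟩

lemma sum_diag_re {A : Type} [Fintype A] {X : Matrix A A ℂ} (hX : DState X) :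
    ∑ i, (X i i).re = 1 := by
  have := congrArg Complex.re hX.2
  simpa [trace] using this

lemma energy_kron {M : ℕ} {X Y : Matrix (Box n M) (Box n M) ℂ} (hX : DState X) (hY : DState Y) :
    ∑ y : Box n M × Box n M, (∑ j, (occ y.1 j : ℝ) + ∑ j, (occ y.2 j : ℝ)) * ((X ⊗ₖ Y) y y).re
      = en X + en Y := by
  have him : ∀ i, (X i i).im = 0 := fun i =>
    (Complex.nonneg_iff.mp (hX.1.diag_nonneg (i := i))).2.symm
  have h1 : ∀ y : Box n M × Box n M, ((X ⊗ₖ Y) y y).re = (X y.1 y.1).re * (Y y.2 y.2).re := by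
    intro y; simp [kroneckerMap_apply, him]
  simp only [h1, add_mul, Finset.sum_add_distrib, Fintype.sum_prod_type]
  congr 1
  · refine Finset.sum_congr rfl fun i _ => ?_
    simp only [← mul_assoc, ← Finset.mul_sum, sum_diag_re hY, mul_one]
  · rw [Finset.sum_comm]
    refine Finset.sum_congr rfl fun i _ => ?_
    have : ∀ x : Box n M, (∑ j, (occ i j : ℝ)) * ((X x x).re * (Y i i).re)
        = (∑ j, (occ i j : ℝ)) * (Y i i).re * (X x x).re := fun x => by ring
    simp only [this, ← Finset.mul_sum, sum_diag_re hX, mul_one]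

end trunc

end Vale.Agent.P369
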