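import Vale.Agent.P369.Limit
import Vale.Agent.P369.Beam
import Vale.Agent.P369.MainAux

/-! Reduction of the inequality for finite-energy states to boxes (task P369-Main).

Truncations: `A K = (τ K)⁻¹ • (entries of ρA on Box n K)`, `τ K` its trace, `τ K → 1`; shift the
sequence so that `τ K ≥ 1/2`. They are states (compress_posSemidef) with energy `≤ 2E`, and
`zext occ (A K) k l → entry e ρA k l`. fock_limit and entry_ext give `S (A K) → entropy e ρA` and
summability. `A K ⊗ B K` and fock_limit on `Occ n × Occ n` (embedding `Prod.map occ occ`) give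
the existence of `σ`. `ω K = Vb (A K ⊗ B K) Vbᴴ` is a state with bounded energy (Vb_energy) whose
entries converge to those of `U σ U*` (entry_beam, entry_conj); fock_limit shows that `U σ U*` is
a state. The entries of `C K = Phi .. = ptr (ω K)` converge to `∑' l, entry f (U σ U*) (k,l) (k',l)`:
`|ω (k,l) (k',l)| ≤ (ω (k,l)(k,l) + ω (k',l)(k',l))/2` and the tails over `∑ l j > R` are at most
`E/R` uniformly. fock_limit for `C K` gives existence of `ρC`, the state property, finite energy and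
`S (C K) → entropy e ρC`. Pass to the limit in fin_epni. Finally put `a = photonN e ρA`,
`b = photonN e ρB`, `t = η a + (1-η) b`; if `t = 0` use ginv_spec; otherwise use the inequality
with `r = a + 1/k`, `s = b + 1/k`, `al_le`, continuity of `g` and `bet`, and le_ginv. -/

set_option linter.unusedSectionVars false

namespace Vale.Agent.P369

open Matrix Finset Filter Topology Real
open Vale.Agent.P358 (S)
open scoped ComplexOrder Kronecker

section
variable {n : ℕ} {H : Type} [NormedAddCommGroup H] [InnerProductSpace ℂ H] [CompleteSpace H]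
  {K : Type} [NormedAddCommGroup K] [InnerProductSpace ℂ K] [CompleteSpace K]

lemma occ2_injective {M : ℕ} :
    Function.Injective (Prod.map occ occ : Box n M × Box n M → Occ n × Occ n) :=
  occ_injective.prodMap occ_injective

lemma occ2_sum_nonneg (x : Occ n × Occ n) : 0 ≤ ∑ j, (x.1 j : ℝ) + ∑ j, (x.2 j : ℝ) := by
  positivity

lemma tendsto_mul_const_one {c c' : ℕ → ℝ} (hc : Tendsto c atTop (𝓝 1))
    (hc' : Tendsto c' atTop (𝓝 1)) (z : ℂ) :
    Tendsto (fun N => ((c N : ℂ) * (c' N : ℂ)) * z) atTop (𝓝 z) := by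
  have := (((Complex.continuous_ofReal.tendsto 1).comp hc).mul
    ((Complex.continuous_ofReal.tendsto 1).comp hc')).mul_const z
  simpa using this

lemma exists_tensor (e : HilbertBasis (Occ n) ℂ H) (f : HilbertBasis (Occ n × Occ n) ℂ K)
    {ρA ρB : H →L[ℂ] H} {A B : ∀ N, Matrix (Box n N) (Box n N) ℂ} {cA cB : ℕ → ℝ} {EA EB : ℝ}
    (hA : ∀ N, DState (A N)) (hB : ∀ N, DState (B N)) (eA : ∀ N, en (A N) ≤ EA)
    (eB : ∀ N, en (B N) ≤ EB) (hcA : Tendsto cA atTop (𝓝 1)) (hcB : Tendsto cB atTop (𝓝 1))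
    (tA : ∀ᶠ N in atTop, A N = (cA N : ℂ) • trunc e ρA N)
    (tB : ∀ᶠ N in atTop, B N = (cB N : ℂ) • trunc e ρB N) :
    ∃ σ : K →L[ℂ] K, IsTensor e f ρA ρB σ := by
  obtain ⟨T, hT, -⟩ := fock_limit f (fun x => ∑ j, (x.1 j : ℝ) + ∑ j, (x.2 j : ℝ))
    occ2_sum_nonneg (fun θ hθ => summable_exp_occ2 n hθ) (fun N => Box n N × Box n N)
    (fun N => Prod.map occ occ) (fun N => occ2_injective) (fun N => A N ⊗ₖ B N)
    (fun N => dstate_kron (hA N) (hB N)) (EA + EB)
    (fun N => (energy_kron (hA N) (hB N)).trans_le (add_le_add (eA N) (eB N)))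
    (fun x y => entry e ρA x.1 y.1 * entry e ρB x.2 y.2) (by
      rintro ⟨x1, x2⟩ ⟨y1, y2⟩
      refine (tendsto_mul_const_one hcA hcB _).congr' ?_
      filter_upwards [tA, tB, eventually_box x1, eventually_box x2, eventually_box y1,
        eventually_box y2] with N h1 h2 h3 h4 h5 h6
      obtain ⟨i1, rfl⟩ := h3
      obtain ⟨i2, rfl⟩ := h4
      obtain ⟨j1, rfl⟩ := h5
      obtain ⟨j2, rfl⟩ := h6
      have := zext_apply occ2_injective (A N ⊗ₖ B N) (i1, i2) (j1, j2)
      simp only [Prod.map] at this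
      rw [this, h1, h2]
      simp only [kroneckerMap_apply, Matrix.smul_apply, smul_eq_mul, trunc, of_apply]
      ring)
  exact ⟨T, hT⟩

lemma eventually_box2 (x : Occ n × Occ n) :
    ∀ᶠ N in atTop, ∃ i : Box n (2 * N) × Box n (2 * N),
      (occ i.1, occ i.2) = x ∧ ∀ j, occ i.1 j + occ i.2 j ≤ N := by
  filter_upwards [eventually_ge_atTop (∑ j, (x.1 j + x.2 j))] with N hN
  have h : ∀ j, x.1 j + x.2 j ≤ N := fun j =>
    (Finset.single_le_sum (f := fun j => x.1 j + x.2 j) (fun j _ => Nat.zero_le _)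
      (Finset.mem_univ j)).trans hN
  obtain ⟨i1, h1⟩ := exists_occ (M := 2 * N) (k := x.1) fun j => by have := h j; omega
  obtain ⟨i2, h2⟩ := exists_occ (M := 2 * N) (k := x.2) fun j => by have := h j; omega
  exact ⟨(i1, i2), by simp [h1, h2], by simpa [h1, h2] using h⟩

lemma output_limit (e : HilbertBasis (Occ n) ℂ H) (f : HilbertBasis (Occ n × Occ n) ℂ K)
    {η : ℝ} (hη0 : 0 ≤ η) (hη1 : η ≤ 1)
    {ρA ρB : H →L[ℂ] H} {A B : ∀ N, Matrix (Box n N) (Box n N) ℂ} {cA cB : ℕ → ℝ} {EA EB : ℝ}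
    (hA : ∀ N, DState (A N)) (hB : ∀ N, DState (B N)) (eA : ∀ N, en (A N) ≤ EA)
    (eB : ∀ N, en (B N) ≤ EB) (hcA : Tendsto cA atTop (𝓝 1)) (hcB : Tendsto cB atTop (𝓝 1))
    (tA : ∀ᶠ N in atTop, A N = (cA N : ℂ) • trunc e ρA N)
    (tB : ∀ᶠ N in atTop, B N = (cB N : ℂ) • trunc e ρB N)
    {σ U : K →L[ℂ] K} (hσ : IsTensor e f ρA ρB σ) (hU : IsBeamSplitter f η U) :
    ∃ ρC : H →L[ℂ] H, IsReduced e f (U * σ * star U) ρC ∧ IsState e ρC ∧ FiniteEnergy e ρC ∧
      Summable (entropyTerm e ρC) ∧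
      Tendsto (fun N => S (Phi (Vb n N (√η) (√(1 - η))) (A N) (B N))) atTop
        (𝓝 (entropy e ρC)) := by
  have hcs : (√η) ^ 2 + (√(1 - η)) ^ 2 = 1 := by
    rw [Real.sq_sqrt hη0, Real.sq_sqrt (by linarith)]; ring
  set ω : ∀ N, Matrix (Box n (2 * N) × Box n (2 * N)) (Box n (2 * N) × Box n (2 * N)) ℂ :=
    fun N => Vb n N (√η) (√(1 - η)) * (A N ⊗ₖ B N) * (Vb n N (√η) (√(1 - η)))ᴴ with hω
  have hpsd : ∀ N, (ω N).PosSemidef := fun N =>
    ((hA N).1.kronecker (hB N).1).mul_mul_conjTranspose_same _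
  have hen : ∀ N, ∑ x : Box n (2 * N) × Box n (2 * N),
      (∑ j, (occ x.1 j : ℝ) + ∑ j, (occ x.2 j : ℝ)) * (ω N x x).re ≤ EA + EB := fun N =>
    ((Vb_energy hcs _).trans (energy_kron (hA N) (hB N))).trans_le (add_le_add (eA N) (eB N))
  have hlim : ∀ x y, Tendsto (fun N => zext (Prod.map occ occ) (ω N) x y) atTop
      (𝓝 (entry f (U * σ * star U) x y)) := by
    intro x y
    refine (tendsto_mul_const_one hcA hcB _).congr' ?_
    filter_upwards [tA, tB, eventually_box2 x, eventually_box2 y] with N h1 h2 h3 h4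
    obtain ⟨i, rfl, hi⟩ := h3
    obtain ⟨i', rfl, hi'⟩ := h4
    have h5 := zext_apply occ2_injective (ω N) i i'
    simp only [Prod.map] at h5
    rw [h5, entry_conj f (entry_beam f hU) σ N i i' hi hi']
    have h6 : A N ⊗ₖ B N = ((cA N : ℂ) * (cB N : ℂ)) • (Matrix.of fun y y' : Box n N × Box n N =>
        entry f σ (occ y.1, occ y.2) (occ y'.1, occ y'.2)) := by
      ext y y'
      rw [h1, h2]
      simp only [kroneckerMap_apply, Matrix.smul_apply, smul_eq_mul, trunc, of_apply, hσ _ _]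
      ring
    simp only [hω]
    rw [h6, Matrix.mul_smul, Matrix.smul_mul, Matrix.smul_apply, smul_eq_mul]
  have hdiag : ∀ N (k : Occ n) (G : Finset (Occ n)),
      ∑ l ∈ G, (∑ j, (l j : ℝ)) * (zext (Prod.map occ occ) (ω N) (k, l) (k, l)).re
        ≤ EA + EB := by
    intro N k G
    have h1 := hasSum_zext_diag occ2_injective (ω N)
      (fun x => ∑ j, (x.1 j : ℝ) + ∑ j, (x.2 j : ℝ))
    have h2 := sum_le_hasSum (G.map ⟨fun l => (k, l), Prod.mk_right_injective k⟩)
      (fun x _ => mul_nonneg (occ2_sum_nonneg x) (zext_diag_nonneg occ2_injective (hpsd N) x)) h1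
    rw [Finset.sum_map] at h2
    refine le_trans (Finset.sum_le_sum fun l _ => ?_) (h2.trans (hen N))
    have := zext_diag_nonneg occ2_injective (hpsd N) (k, l)
    have h3 := occ_sum_nonneg k
    simp only [Function.Embedding.coeFn_mk]
    nlinarith
  have hker : ∀ k k' : Occ n, Summable (fun l => entry f (U * σ * star U) (k, l) (k', l)) ∧
      Tendsto (fun N => zext occ (ptr (ω N)) k k') atTop
        (𝓝 (∑' l, entry f (U * σ * star U) (k, l) (k', l))) := by
    intro k k'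
    refine tendsto_of_tails (fun N => hasSum_zext_ptr occ_injective (ω N) k k')
      (fun l => hlim _ _) (w := fun l : Occ n => ∑ j, (l j : ℝ)) occ_sum_nonneg
      (finite_lt_of_summable (summable_exp_occ n one_pos)) (E := EA + EB) fun N G => ?_
    have h1 := hdiag N k G
    have h2 := hdiag N k' G
    calc _ ≤ ∑ l ∈ G, ((∑ j, (l j : ℝ)) * (zext (Prod.map occ occ) (ω N) (k, l) (k, l)).re
          + (∑ j, (l j : ℝ)) * (zext (Prod.map occ occ) (ω N) (k', l) (k', l)).re) / 2 := by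
          refine Finset.sum_le_sum fun l _ => ?_
          have h3 := zext_norm_le occ2_injective (hpsd N) (k, l) (k', l)
          have h4 := mul_le_mul_of_nonneg_left h3 (occ_sum_nonneg l)
          linarith
      _ ≤ EA + EB := by
          rw [← Finset.sum_div, Finset.sum_add_distrib]; linarith
  have henC : ∀ N, en (ptr (ω N)) ≤ EA + EB := by
    intro N
    refine le_trans ?_ (hen N)
    rw [en, Fintype.sum_prod_type]
    refine Finset.sum_le_sum fun i _ => ?_
    simp only [ptr, Complex.re_sum]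
    rw [Finset.mul_sum]
    refine Finset.sum_le_sum fun l _ => ?_
    have h1 := P358.diag_re_nonneg (hpsd N) (i, l)
    have h2 := occ_sum_nonneg (occ l)
    nlinarith
  obtain ⟨T, hT, hst, hfe, hs, hl⟩ := fock_limit e (fun k => ∑ j, (k j : ℝ)) occ_sum_nonneg
    (fun θ hθ => summable_exp_occ n hθ) (fun N => Box n (2 * N)) (fun N => occ)
    (fun N => occ_injective) (fun N => ptr (ω N))
    (fun N => Phi_dstate (Vb_iso n N hcs) (hA N) (hB N)) (EA + EB) henC
    (fun k k' => ∑' l, entry f (U * σ * star U) (k, l) (k', l)) (fun k k' => (hker k k').2)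
  refine ⟨T, fun k k' => ?_, hst, ?_, hs, hl⟩
  · rw [hT]; exact (hker k k').1.hasSum
  · unfold FiniteEnergy
    simp only [hT]; exact hfe

end

lemma al_continuousAt {t : ℝ} (ht : 0 < t) : ContinuousAt al t := by
  have h1 : ContinuousAt bet t := by
    unfold bet
    refine ContinuousAt.log (continuousAt_const.add (continuousAt_const.div continuousAt_id ht.ne'))
      ?_
    positivity
  exact continuousAt_const.div h1 (bet_pos ht).ne'

lemma al_mul_lower {a x : ℝ} (ha : 0 ≤ a) (hx : 0 < x) (hx1 : x ≤ 1) :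
    -((a + 2) * |g (a + x) - g a|) ≤ al (a + x) * (g a - g (a + x)) := by
  have h1 : 0 < al (a + x) := al_pos (by linarith)
  have h2 : al (a + x) ≤ a + 2 := (al_le (by linarith)).trans (by linarith)
  have h3 := le_abs_self (g (a + x) - g a)
  have h4 := abs_nonneg (g (a + x) - g a)
  nlinarith

lemma scalar_finish {m η a b SC : ℝ} (hm : 0 < m) (hη0 : 0 ≤ η) (hη1 : η ≤ 1) (ha : 0 ≤ a)
    (hb : 0 ≤ b) (hSC : 0 ≤ SC)
    (h : ∀ r s : ℝ, 0 < r → 0 < s →
      m * (al (η * r + (1 - η) * s) * g (η * r + (1 - η) * s) - η * al r * g r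
          - (1 - η) * al s * g s)
        ≤ al (η * r + (1 - η) * s) * SC - η * al r * (m * g a) - (1 - η) * al s * (m * g b)) :
    η * a + (1 - η) * b ≤ ginv (SC / m) := by
  have hη2 : 0 ≤ 1 - η := by linarith
  set t := η * a + (1 - η) * b with ht
  have ht0 : 0 ≤ t := by positivity
  rcases ht0.eq_or_lt with h0 | h0
  · rw [← h0]; exact (ginv_spec (by positivity)).1
  refine le_ginv ht0 ?_
  have hx : Tendsto (fun k : ℕ => (1 : ℝ) / ((k : ℝ) + 1)) atTop (𝓝 0) :=
    tendsto_one_div_add_atTop_nhds_zero_nat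
  have hg : ∀ y : ℝ, Tendsto (fun k : ℕ => g (y + 1 / ((k : ℝ) + 1))) atTop (𝓝 (g y)) := by
    intro y
    refine (g_continuous.tendsto y).comp ?_
    simpa using hx.const_add y
  have hal : Tendsto (fun k : ℕ => al (t + 1 / ((k : ℝ) + 1))) atTop (𝓝 (al t)) := by
    refine (al_continuousAt h0).tendsto.comp ?_
    simpa using hx.const_add t
  have hL : Tendsto (fun k : ℕ => -(m * (η * ((a + 2) * |g (a + 1 / ((k : ℝ) + 1)) - g a|)
      + (1 - η) * ((b + 2) * |g (b + 1 / ((k : ℝ) + 1)) - g b|)))) atTop (𝓝 0) := by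
    have h1 := ((((hg a).sub_const (g a)).abs.const_mul (a + 2)).const_mul η).add
      ((((hg b).sub_const (g b)).abs.const_mul (b + 2)).const_mul (1 - η))
    simpa using (h1.const_mul m).neg
  have hR : Tendsto (fun k : ℕ => al (t + 1 / ((k : ℝ) + 1))
      * (SC - m * g (t + 1 / ((k : ℝ) + 1)))) atTop (𝓝 (al t * (SC - m * g t))) :=
    hal.mul (((hg t).const_mul m).const_sub SC)
  have hle : 0 ≤ al t * (SC - m * g t) := by
    refine le_of_tendsto_of_tendsto' hL hR fun k => ?_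
    have hk : (0 : ℝ) < 1 / ((k : ℝ) + 1) := by positivity
    have hk1 : (1 : ℝ) / ((k : ℝ) + 1) ≤ 1 := by
      rw [div_le_one (by positivity)]; linarith [Nat.cast_nonneg (α := ℝ) k]
    generalize (1 : ℝ) / ((k : ℝ) + 1) = x at hk hk1
    have h1 := h (a + x) (b + x) (by linarith) (by linarith)
    have h2 : η * (a + x) + (1 - η) * (b + x) = t + x := by rw [ht]; ring
    rw [h2] at h1
    have h3 := mul_le_mul_of_nonneg_left (al_mul_lower ha hk hk1) (mul_nonneg hm.le hη0)
    have h4 := mul_le_mul_of_nonneg_left (al_mul_lower hb hk hk1) (mul_nonneg hm.le hη2)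
    linarith
  have h1 := al_pos h0
  have h2 : 0 ≤ SC - m * g t := by
    by_contra h3
    push Not at h3
    nlinarith
  rw [le_div_iff₀ hm]; linarith

theorem epni (n : ℕ) (hn : 1 ≤ n)
    (H : Type) [NormedAddCommGroup H] [InnerProductSpace ℂ H] [CompleteSpace H]
    (K : Type) [NormedAddCommGroup K] [InnerProductSpace ℂ K] [CompleteSpace K]
    (e : HilbertBasis (Occ n) ℂ H) (f : HilbertBasis (Occ n × Occ n) ℂ K)
    (η : ℝ) (hη0 : 0 ≤ η) (hη1 : η ≤ 1)
    (ρA ρB : H →L[ℂ] H) (hA : IsState e ρA) (hB : IsState e ρB)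
    (eA : FiniteEnergy e ρA) (eB : FiniteEnergy e ρB) :
    (∃ (σ U : K →L[ℂ] K) (ρC : H →L[ℂ] H),
        IsTensor e f ρA ρB σ ∧ IsBeamSplitter f η U ∧ IsReduced e f (U * σ * star U) ρC) ∧
    ∀ (σ U : K →L[ℂ] K) (ρC : H →L[ℂ] H),
      IsTensor e f ρA ρB σ → IsBeamSplitter f η U → IsReduced e f (U * σ * star U) ρC →
        IsState e ρC ∧ FiniteEnergy e ρC ∧
        Summable (entropyTerm e ρA) ∧ Summable (entropyTerm e ρB) ∧ Summable (entropyTerm e ρC) ∧
        η * photonN e ρA + (1 - η) * photonN e ρB ≤ photonN e ρC := by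
  obtain ⟨A, cA, EA, dA, enA, hcA, tA⟩ := exists_trunc e hA eA
  obtain ⟨B, cB, EB, dB, enB, hcB, tB⟩ := exists_trunc e hB eB
  constructor
  · obtain ⟨σ, hσ⟩ := exists_tensor e f dA dB enA enB hcA hcB tA tB
    obtain ⟨U, hU⟩ := exists_beam f hη0 hη1
    obtain ⟨ρC, hC, -⟩ := output_limit e f hη0 hη1 dA dB enA enB hcA hcB tA tB hσ hU
    exact ⟨σ, U, ρC, hσ, hU, hC⟩
  intro σ U ρC hσ hU hC
  obtain ⟨T, hT, hst, hfe, hs, hl⟩ :=
    output_limit e f hη0 hη1 dA dB enA enB hcA hcB tA tB hσ hU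
  obtain rfl : T = ρC := entry_ext e fun k k' => (hT k k').unique (hC k k')
  obtain ⟨sA, lA⟩ := trunc_limit e dA enA hcA tA
  obtain ⟨sB, lB⟩ := trunc_limit e dB enB hcB tB
  refine ⟨hst, hfe, sA, sB, hs, ?_⟩
  have hn0 : (0 : ℝ) < n := by exact_mod_cast hn
  have hcs : (√η) ^ 2 + (√(1 - η)) ^ 2 = 1 := by
    rw [Real.sq_sqrt hη0, Real.sq_sqrt (by linarith)]; ring
  have pA : 0 ≤ entropy e ρA := ge_of_tendsto' lA fun N => P358.S_nonneg (dA N).1 (dA N).2
  have pB : 0 ≤ entropy e ρB := ge_of_tendsto' lB fun N => P358.S_nonneg (dB N).1 (dB N).2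
  have pC : 0 ≤ entropy e T := ge_of_tendsto' hl fun N =>
    P358.S_nonneg (Phi_dstate (Vb_iso n N hcs) (dA N) (dB N)).1
      (Phi_dstate (Vb_iso n N hcs) (dA N) (dB N)).2
  obtain ⟨a0, ga⟩ := ginv_spec (y := entropy e ρA / n) (by positivity)
  obtain ⟨b0, gb⟩ := ginv_spec (y := entropy e ρB / n) (by positivity)
  refine scalar_finish hn0 hη0 hη1 a0 b0 pC fun r s hr hs' => ?_
  unfold photonN
  rw [ga, gb, mul_div_cancel₀ _ hn0.ne', mul_div_cancel₀ _ hn0.ne']
  exact ge_of_tendsto' (((hl.const_mul _).sub (lA.const_mul _)).sub (lB.const_mul _))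
    fun N => fin_epni hη0 hη1 hr hs' rfl (dA N) (dB N)

end Vale.Agent.P369
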