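import Vale.Agent.P369.Basic

/-! Hyperbolic inequalities and the construction of the function `H0`. -/

namespace Vale.Agent.P369

open Real Set Filter Topology

theorem scalar_nonneg {f f' : ℝ → ℝ} (hf : ∀ x, HasDerivAt f (f' x) x) (h0 : f 0 = 0)
    (h : ∀ x, 0 < x → 0 ≤ f' x) {w : ℝ} (hw : 0 ≤ w) : 0 ≤ f w := by
  have h1 : MonotoneOn f (Ici 0) :=
    monotoneOn_of_deriv_nonneg (convex_Ici 0) (fun x _ => (hf x).continuousAt.continuousWithinAt)
      (fun x _ => (hf x).differentiableAt.differentiableWithinAt) fun x hx => by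
        rw [(hf x).deriv]
        exact h x (by simpa using hx)
  exact h0 ▸ h1 self_mem_Ici hw hw

theorem scalar_pos {f f' : ℝ → ℝ} (hf : ∀ x, HasDerivAt f (f' x) x) (h0 : f 0 = 0)
    (h : ∀ x, 0 < x → 0 < f' x) {w : ℝ} (hw : 0 < w) : 0 < f w := by
  have h1 : StrictMonoOn f (Ici 0) :=
    strictMonoOn_of_deriv_pos (convex_Ici 0) (fun x _ => (hf x).continuousAt.continuousWithinAt)
      fun x hx => by
        rw [(hf x).deriv]
        exact h x (by simpa using hx)
  exact h0 ▸ h1 self_mem_Ici hw.le hw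

theorem scalar_chain {f f1 f2 f3 : ℝ → ℝ} (hf : ∀ x, HasDerivAt f (f1 x) x)
    (hf1 : ∀ x, HasDerivAt f1 (f2 x) x) (hf2 : ∀ x, HasDerivAt f2 (f3 x) x) (h0 : f 0 = 0)
    (h1 : f1 0 = 0) (h2 : f2 0 = 0) (h3 : ∀ x, 0 < x → 0 ≤ f3 x) {w : ℝ} (hw : 0 ≤ w) :
    0 ≤ f w ∧ f w ≤ w ^ 2 * f2 w := by
  have a2 : ∀ x, 0 < x → 0 ≤ f2 x := fun x hx => scalar_nonneg hf2 h2 h3 hx.le
  have a1 : ∀ x, 0 < x → 0 ≤ f1 x := fun x hx => scalar_nonneg hf1 h1 a2 hx.le
  have b1 : ∀ x, 0 < x → 0 ≤ x * f2 x - f1 x := fun x hx =>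
    scalar_nonneg (f := fun x => x * f2 x - f1 x) (f' := fun x => x * f3 x)
      (fun x => (((hasDerivAt_id' x).fun_mul (hf2 x)).fun_sub (hf1 x)).congr_deriv (by ring))
      (by simp [h1]) (fun x hx => mul_nonneg hx.le (h3 x hx)) hx.le
  refine ⟨scalar_nonneg hf h0 a1 hw, sub_nonneg.mp ?_⟩
  refine scalar_nonneg (f := fun x => x ^ 2 * f2 x - f x)
    (f' := fun x => x * f2 x + x ^ 2 * f3 x + (x * f2 x - f1 x))
    (fun x => (((hasDerivAt_pow 2 x).fun_mul (hf2 x)).fun_sub (hf x)).congr_deriv (by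
      push_cast
      ring)) (by simp [h0]) (fun x hx => ?_) hw
  have := a2 x hx
  have := h3 x hx
  have := b1 x hx
  positivity

/-- `2 cosh w - 2` -/
noncomputable def scC (w : ℝ) : ℝ := 2 * cosh w - 2

/-- `2 cosh w - 2 - w²` -/
noncomputable def scN (w : ℝ) : ℝ := 2 * cosh w - 2 - w ^ 2

/-- `w sinh w - 2 cosh w + 2` -/
noncomputable def scD (w : ℝ) : ℝ := w * sinh w - 2 * cosh w + 2

theorem scC_deriv (w : ℝ) : HasDerivAt scC (2 * sinh w) w :=
  ((hasDerivAt_cosh w).const_mul 2).sub_const 2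

theorem scN_deriv (w : ℝ) : HasDerivAt scN (2 * sinh w - 2 * w) w :=
  ((scC_deriv w).fun_sub (hasDerivAt_pow 2 w)).congr_deriv (by
    push_cast
    ring)

theorem scD_deriv (w : ℝ) : HasDerivAt scD (w * cosh w - sinh w) w :=
  ((((hasDerivAt_id' w).fun_mul (hasDerivAt_sinh w)).fun_sub
    ((hasDerivAt_cosh w).const_mul 2)).add_const 2).congr_deriv (by ring)

theorem scN_pos {w : ℝ} (hw : 0 < w) : 0 < scN w :=
  scalar_pos scN_deriv (by simp [scN]) (fun x hx => by linarith [self_lt_sinh_iff.mpr hx]) hw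

theorem scN_le {w : ℝ} (hw : 0 ≤ w) : scN w ≤ w ^ 2 * scC w :=
  (scalar_chain (f1 := fun w => 2 * sinh w - 2 * w) scN_deriv
    (fun x => (((hasDerivAt_sinh x).const_mul 2).fun_sub
      ((hasDerivAt_id' x).const_mul 2)).congr_deriv (by rw [scC, mul_one]))
    scC_deriv (by simp [scN]) (by simp) (by simp [scC])
    (fun x hx => by linarith [sinh_pos_iff.mpr hx]) hw).2

theorem scD_sub {w : ℝ} (hw : 0 ≤ w) : 0 ≤ scD w - scN w ∧ scD w - scN w ≤ w ^ 2 * scD w :=
  scalar_chain (f := fun w => scD w - scN w) (f1 := fun w => w * cosh w - 3 * sinh w + 2 * w)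
    (fun x => ((scD_deriv x).fun_sub (scN_deriv x)).congr_deriv (by ring))
    (fun x => ((((hasDerivAt_id' x).fun_mul (hasDerivAt_cosh x)).fun_sub
      ((hasDerivAt_sinh x).const_mul 3)).fun_add ((hasDerivAt_id' x).const_mul 2)).congr_deriv
        (by rw [scD]; ring))
    scD_deriv (by simp [scD, scN]) (by simp) (by simp [scD])
    (fun x hx => scalar_nonneg (f := fun w => w * cosh w - sinh w) (f' := fun w => w * sinh w)
      (fun x => (((hasDerivAt_id' x).fun_mul (hasDerivAt_cosh x)).fun_sub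
        (hasDerivAt_sinh x)).congr_deriv (by ring))
      (by simp) (fun x hx => mul_nonneg hx.le (sinh_pos_iff.mpr hx).le) hx.le) hw

theorem scD_pos {w : ℝ} (hw : 0 < w) : 0 < scD w := by
  linarith [scN_pos hw, (scD_sub hw.le).1]

theorem scC_pos {w : ℝ} (hw : 0 < w) : 0 < scC w := by
  have h1 := scN_pos hw
  have h2 : scC w = scN w + w ^ 2 := by rw [scC, scN]; ring
  rw [h2]
  positivity

/-- `1/χ`, extended to an increasing bijection of the line -/
noncomputable def scPsi (w : ℝ) : ℝ := if 0 < w then scC w / w ^ 2 else 1 + w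

/-- `H0` as a function of `w` -/
noncomputable def scH (w : ℝ) : ℝ := if 0 < w then scN w / scD w else 1

theorem scalar_glue {f g : ℝ → ℝ} (hf : ∀ w, 0 < w → ContinuousAt f w) (hg : Continuous g)
    (h0 : Tendsto f (𝓝[>] 0) (𝓝 (g 0))) : Continuous fun w => if 0 < w then f w else g w := by
  refine continuous_iff_continuousAt.mpr fun w => ?_
  rcases lt_trichotomy w 0 with h | h | h
  · exact hg.continuousAt.congr ((gt_mem_nhds h).mono fun x hx => (if_neg (not_lt.mpr hx.le)).symm)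
  · subst h
    rw [continuousAt_iff_continuous_left_right, ← continuousWithinAt_Ioi_iff_Ici,
      ContinuousWithinAt, ContinuousWithinAt, if_neg (lt_irrefl _)]
    constructor
    · exact (hg.continuousWithinAt (s := Iic 0)).congr'
        (eventually_mem_nhdsWithin.mono fun x hx => (if_neg (not_lt.mpr hx)).symm)
    · exact h0.congr' (eventually_mem_nhdsWithin.mono fun x hx => (if_pos hx).symm)
  · exact (hf w h).congr ((lt_mem_nhds h).mono fun x hx => (if_pos hx).symm)

theorem scPsi_deriv {w : ℝ} (hw : 0 < w) : HasDerivAt scPsi (2 * scD w / w ^ 3) w := by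
  have h1 : HasDerivAt (fun w => scC w / w ^ 2) (2 * scD w / w ^ 3) w :=
    ((scC_deriv w).fun_div (hasDerivAt_pow 2 w) (by positivity)).congr_deriv (by
      rw [scC, scD]
      push_cast
      field_simp
      ring)
  exact h1.congr_of_eventuallyEq ((lt_mem_nhds hw).mono fun x hx => if_pos hx)

theorem scPsi_zero : scPsi 0 = 1 := by simp [scPsi]

theorem scPsi_cont : Continuous scPsi := by
  have hC : Continuous scC := by unfold scC; fun_prop
  refine scalar_glue (fun w hw => hC.continuousAt.div (by fun_prop) (by positivity))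
    (by fun_prop) ?_
  have h1 : Tendsto (fun w => 1 + scC w) (𝓝[>] 0) (𝓝 (1 + 0)) := by
    have h2 := (hC.const_add 1).continuousWithinAt (s := Ioi 0) (x := 0)
    simpa [ContinuousWithinAt, scC] using h2
  refine tendsto_of_tendsto_of_tendsto_of_le_of_le' (by simpa using tendsto_const_nhds) h1
    (eventually_mem_nhdsWithin.mono fun x (hx : 0 < x) => ?_)
    (eventually_mem_nhdsWithin.mono fun x (hx : 0 < x) => ?_)
  · have h3 := scN_pos hx
    rw [scN] at h3
    rw [le_div_iff₀ (by positivity), scC]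
    linarith
  · have h3 := scN_le hx.le
    rw [scN] at h3
    rw [div_le_iff₀ (by positivity), add_mul, mul_comm (scC x)]
    rw [scC] at h3 ⊢
    linarith

theorem scPsi_mono : StrictMono scPsi := by
  refine StrictMonoOn.Iic_union_Ici (a := 0) (fun x hx y hy hxy => ?_)
    (strictMonoOn_of_deriv_pos (convex_Ici 0) scPsi_cont.continuousOn fun x hx => ?_)
  · rw [scPsi, scPsi, if_neg (not_lt.mpr hx), if_neg (not_lt.mpr hy)]
    linarith
  · have hx' : 0 < x := by simpa using hx
    have := scD_pos hx'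
    rw [(scPsi_deriv hx').deriv]
    positivity

theorem scPsi_surj : Function.Surjective scPsi := by
  refine scPsi_cont.surjective ?_ ?_
  · refine tendsto_atTop_mono' _ ((eventually_ge_atTop 1).mono fun x hx => ?_)
      (tendsto_atTop_add_const_right _ (-2) (tendsto_id.atTop_div_const (by norm_num : (0 : ℝ) < 6)))
    have h0 : 0 < x := by linarith
    have h1 := pow_div_factorial_le_exp x h0.le 3
    have h2 := exp_pos (-x)
    have h3 : 1 ≤ x ^ 2 := one_le_pow₀ hx
    rw [scPsi, if_pos h0, le_div_iff₀ (by positivity), scC, cosh_eq]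
    norm_num [Nat.factorial] at h1 ⊢
    nlinarith
  · refine (tendsto_atBot_add_const_left _ 1 tendsto_id).congr'
      ((eventually_le_atBot 0).mono fun x hx => ?_)
    rw [scPsi, if_neg (not_lt.mpr hx)]
    rfl

theorem scH_bounds (w : ℝ) : 0 < scH w ∧ scH w ≤ 1 := by
  unfold scH
  split_ifs with h
  · exact ⟨div_pos (scN_pos h) (scD_pos h),
      (div_le_one (scD_pos h)).mpr (by linarith [(scD_sub h.le).1])⟩
  · exact ⟨one_pos, le_rfl⟩

theorem scH_cont : Continuous scH := by
  refine scalar_glue (g := fun _ => 1) (fun w hw => (scN_deriv w).continuousAt.div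
    (scD_deriv w).continuousAt (scD_pos hw).ne') continuous_const ?_
  have h1 : Tendsto (fun w : ℝ => 1 - w ^ 2) (𝓝[>] 0) (𝓝 1) := by
    have h2 : ContinuousWithinAt (fun w : ℝ => 1 - w ^ 2) (Ioi 0) 0 := by fun_prop
    simpa [ContinuousWithinAt] using h2
  refine tendsto_of_tendsto_of_tendsto_of_le_of_le' h1 tendsto_const_nhds
    (eventually_mem_nhdsWithin.mono fun x (hx : 0 < x) => ?_)
    (eventually_mem_nhdsWithin.mono fun x (hx : 0 < x) => ?_)
  · rw [le_div_iff₀ (scD_pos hx)]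
    linarith [(scD_sub hx.le).2]
  · exact (div_le_one (scD_pos hx)).mpr (by linarith [(scD_sub hx.le).1])

/-- `scPsi` as an order isomorphism -/
noncomputable def scIso : ℝ ≃o ℝ := scPsi_mono.orderIsoOfSurjective scPsi scPsi_surj

/-- `w` as a function of `y = χ` -/
noncomputable def scZ (y : ℝ) : ℝ := scIso.symm y⁻¹

/-- the function `H0` -/
noncomputable def scH0 (y : ℝ) : ℝ := scH (scZ y)

/-- `m` as a function of `y = χ` -/
noncomputable def scM (y : ℝ) : ℝ := 1 + (1 - y) / scH0 y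

theorem scPsi_Z (y : ℝ) : scPsi (scZ y) = y⁻¹ := scIso.apply_symm_apply _

theorem scZ_Psi (w : ℝ) : scZ (scPsi w)⁻¹ = w := by
  rw [scZ, inv_inv]
  exact scIso.symm_apply_apply w

theorem scZ_cont {y : ℝ} (hy : 0 < y) : ContinuousAt scZ y :=
  scIso.symm.continuous.continuousAt.comp (continuousAt_inv₀ hy.ne')

theorem scH0_cont {y : ℝ} (hy : 0 < y) : ContinuousAt scH0 y :=
  scH_cont.continuousAt.comp (scZ_cont hy)

theorem scM_cont {y : ℝ} (hy : 0 < y) : ContinuousAt scM y :=
  continuousAt_const.add ((continuousAt_const.sub continuousAt_id).div (scH0_cont hy)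
    (scH_bounds _).1.ne')

theorem scZ_pos {y : ℝ} (h0 : 0 < y) (h1 : y < 1) : 0 < scZ y := by
  rw [← scPsi_mono.lt_iff_lt, scPsi_Z, scPsi_zero]
  exact (one_lt_inv₀ h0).mpr h1

theorem scM_eq {y : ℝ} (h : 0 < scZ y) : scM y = scZ y * sinh (scZ y) / scC (scZ y) := by
  have h1 := scPsi_Z y
  rw [scPsi, if_pos h] at h1
  have h2 : y = scZ y ^ 2 / scC (scZ y) := by rw [← inv_div, h1, inv_inv]
  have h3 := scN_pos h
  have h4 := scD_pos h
  have h5 := scC_pos h
  rw [scM, scH0, scH, if_pos h]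
  generalize scZ y = w at *
  have h6 : 1 - y = scN w / scC w := by
    rw [h2]
    field_simp
    rw [scC, scN]
  rw [h6]
  field_simp
  rw [scC, scD]
  ring

theorem scM_deriv {y : ℝ} (h0 : 0 < y) (h1 : y < 1) :
    HasDerivAt scM (-((1 + scH0 y) / (2 * y))) y := by
  have hw := scZ_pos h0 h1
  have hD := scD_pos hw
  have hC := scC_pos hw
  have h2 : HasDerivAt scIso.symm (2 * scD (scZ y) / scZ y ^ 3)⁻¹ y⁻¹ :=
    HasDerivAt.of_local_left_inverse (f := scPsi) scIso.symm.continuous.continuousAt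
      (scPsi_deriv hw) (by positivity) (Eventually.of_forall fun x => scIso.apply_symm_apply x)
  have h3 : HasDerivAt scZ ((2 * scD (scZ y) / scZ y ^ 3)⁻¹ * -(y ^ 2)⁻¹) y :=
    h2.comp y (hasDerivAt_inv h0.ne')
  have h4 : HasDerivAt (fun w => w * sinh w / scC w) ((sinh (scZ y) - scZ y) / scC (scZ y))
      (scZ y) :=
    (((hasDerivAt_id' _).fun_mul (hasDerivAt_sinh _)).fun_div (scC_deriv _) hC.ne').congr_deriv
      (by
        have h5 := cosh_sq (scZ y)
        field_simp
        rw [scC]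
        linear_combination (2 * scZ y) * h5)
  have h6 := h4.comp y h3
  have h7 := scPsi_Z y
  rw [scPsi, if_pos hw] at h7
  have h8 : y = scZ y ^ 2 / scC (scZ y) := by rw [← inv_div, h7, inv_inv]
  refine (h6.congr_of_eventuallyEq (((scZ_cont h0).eventually (lt_mem_nhds hw)).mono
    fun x hx => scM_eq hx)).congr_deriv ?_
  rw [scH0, scH, if_pos hw]
  generalize scZ y = w at *
  subst h8
  field_simp
  rw [scD, scN]
  ring

theorem scM_link {x : ℝ} (hx : 0 < x) : x / logMean x 1 ^ 2 ≤ 1 ∧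
    scM (x / logMean x 1 ^ 2) = (x / logMean x 1 + 1 / logMean x 1) / 2 := by
  by_cases h1 : x = 1
  · subst h1
    simp [logMean_self, scM]
  have hu : log x ≠ 0 := fun h => h1 (by rw [← exp_log hx, h, exp_zero])
  have hw : 0 < |log x| := abs_pos.mpr hu
  have hL : logMean x 1 = (x - 1) / log x := by rw [logMean, if_neg h1, log_one, sub_zero]
  have hx1 : x - 1 ≠ 0 := sub_ne_zero.mpr h1
  have hC : scC |log x| = (x - 1) ^ 2 / x := by
    rw [scC, cosh_abs, cosh_log hx]
    field_simp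
    ring
  have h2 : x / logMean x 1 ^ 2 = (scPsi |log x|)⁻¹ := by
    rw [scPsi, if_pos hw, hC, hL, sq_abs]
    field_simp
  rw [h2]
  refine ⟨inv_le_one_of_one_le₀ (scPsi_zero ▸ scPsi_mono.monotone hw.le), ?_⟩
  rw [scM_eq (by rwa [scZ_Psi]), scZ_Psi, hC, ← abs_sinh, ← abs_mul, hL, abs_of_nonneg, sinh_log hx]
  · field_simp
    ring
  · rcases le_total 0 (log x) with h | h
    · exact mul_nonneg h (sinh_nonneg_iff.mpr h)
    · exact mul_nonneg_of_nonpos_of_nonpos h (sinh_nonpos_iff.mpr h)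

end Vale.Agent.P369
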