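import Vale.Agent.P369.Basic
import Vale.Agent.P369.ScalarAux

/-! One-variable analysis for the interpolation theorem (task P369-Scalar). -/

namespace Vale.Agent.P369

open Real Set

/-- `1/H(y,y')` -/
noncomputable def Iint (H0 : ℝ → ℝ) (y y' : ℝ) : ℝ :=
  ∫ θ in (0 : ℝ)..1, (1 + H0 (θ * y + (1 - θ) * y')) / (2 * (θ * y + (1 - θ) * y'))

theorem scalar_seg {y y' θ : ℝ} (hy : 0 < y) (hy' : 0 < y') (hθ : θ ∈ Icc (0 : ℝ) 1) :
    0 < θ * y + (1 - θ) * y' :=
  convex_Ioi (𝕜 := ℝ) (0 : ℝ) hy hy' hθ.1 (sub_nonneg.mpr hθ.2) (add_sub_cancel _ _)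

theorem scalar_Iint_self (H0 : ℝ → ℝ) (y : ℝ) : Iint H0 y y = (1 + H0 y) / (2 * y) := by
  have h : ∀ θ : ℝ, θ * y + (1 - θ) * y = y := fun θ => by ring
  simp [Iint, h]

theorem scalar_Iint_cont {y y' : ℝ} (hy : 0 < y) (hy' : 0 < y') :
    ContinuousOn (fun θ : ℝ => (1 + scH0 (θ * y + (1 - θ) * y')) / (2 * (θ * y + (1 - θ) * y')))
      (Icc 0 1) := fun θ hθ => by
  have h1 := scalar_seg hy hy' hθ
  have h2 : ContinuousAt (fun θ : ℝ => θ * y + (1 - θ) * y') θ := by fun_prop
  exact ((continuousAt_const.add (ContinuousAt.comp (f := fun θ : ℝ => θ * y + (1 - θ) * y')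
    (scH0_cont h1) h2)).div (continuousAt_const.mul h2) (mul_pos two_pos h1).ne').continuousWithinAt

theorem scalar_Iint_pos {y y' : ℝ} (hy : y ∈ Ioc (0 : ℝ) 1) (hy' : y' ∈ Ioc (0 : ℝ) 1) :
    0 < Iint scH0 y y' := by
  refine intervalIntegral.intervalIntegral_pos_of_pos_on
    ((scalar_Iint_cont hy.1 hy'.1).intervalIntegrable_of_Icc zero_le_one) (fun θ hθ => ?_) one_pos
  have h1 := scalar_seg hy.1 hy'.1 (Ioo_subset_Icc_self hθ)
  have h2 : 0 < scH0 (θ * y + (1 - θ) * y') := (scH_bounds _).1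
  positivity

theorem scalar_Iint {y y' : ℝ} (hy : y ∈ Ioc (0 : ℝ) 1) (hy' : y' ∈ Ioc (0 : ℝ) 1) :
    Iint scH0 y y' * (y' - y) = scM y - scM y' := by
  by_cases h : y = y'
  · simp [h]
  rw [Iint, ← intervalIntegral.integral_mul_const,
    intervalIntegral.integral_eq_sub_of_hasDerivAt_of_le zero_le_one
      (f := fun θ => scM (θ * y + (1 - θ) * y'))
      (f' := fun θ => (1 + scH0 (θ * y + (1 - θ) * y')) / (2 * (θ * y + (1 - θ) * y')) * (y' - y))
      (fun θ hθ => ?_) (fun θ hθ => ?_)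
      (((scalar_Iint_cont hy.1 hy'.1).mul continuousOn_const).intervalIntegrable_of_Icc
        zero_le_one)]
  · simp
  · exact (ContinuousAt.comp (f := fun θ : ℝ => θ * y + (1 - θ) * y')
      (scM_cont (scalar_seg hy.1 hy'.1 hθ)) (by fun_prop)).continuousWithinAt
  · have h1 : θ * y + (1 - θ) * y' < 1 := by
      rcases lt_or_gt_of_ne h with h2 | h2
      · nlinarith [hθ.1, hθ.2, hy.2, hy'.2]
      · nlinarith [hθ.1, hθ.2, hy.2, hy'.2]
    have h2 : HasDerivAt (fun θ : ℝ => θ * y + (1 - θ) * y') (y - y') θ :=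
      (((hasDerivAt_id' θ).mul_const y).fun_add
        (((hasDerivAt_id' θ).const_sub 1).mul_const y')).congr_deriv (by ring)
    refine (HasDerivAt.comp (h := fun θ : ℝ => θ * y + (1 - θ) * y') θ
      (scM_deriv (scalar_seg hy.1 hy'.1 (Ioo_subset_Icc_self hθ)) h1) h2).congr_deriv ?_
    ring

theorem inv_logMean_one {x : ℝ} (hx : 0 < x) :
    (logMean x 1)⁻¹ = ∫ θ in (0 : ℝ)..1, (θ * x + (1 - θ))⁻¹ := by
  by_cases h1 : x = 1
  · subst h1
    simp [logMean_self]
  have hx1 : x - 1 ≠ 0 := sub_ne_zero.mpr h1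
  have hpos : ∀ θ ∈ uIcc (0 : ℝ) 1, θ * x + (1 - θ) ≠ 0 := fun θ hθ => by
    rw [uIcc_of_le zero_le_one] at hθ
    exact (scalar_seg hx one_pos hθ |>.trans_eq (by ring)).ne'
  rw [intervalIntegral.integral_eq_sub_of_hasDerivAt
    (f := fun θ => log (θ * x + (1 - θ)) / (x - 1)) (f' := fun θ => (θ * x + (1 - θ))⁻¹)
    (fun θ hθ => ?_)
    (ContinuousOn.intervalIntegrable (ContinuousOn.inv₀ (by fun_prop) hpos))]
  · simp [logMean, h1]
  · refine (((((hasDerivAt_id' θ).mul_const x).fun_add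
      ((hasDerivAt_id' θ).const_sub 1)).log (hpos θ hθ)).div_const _).congr_deriv ?_
    have := hpos θ hθ
    field_simp
    ring

/-- `N ↦ N(N+1) log(1+1/N)` is concave on ` (0,∞)`: its second derivative is
`2 log(1+1/N) - (1/N + 1/(N+1)) ≤ 0`. -/
theorem phi_concave {r s η : ℝ} (hr : 0 < r) (hs : 0 < s) (h0 : 0 ≤ η) (h1 : η ≤ 1) :
    η * (bet r * r * (r + 1)) + (1 - η) * (bet s * s * (s + 1))
      ≤ bet (η * r + (1 - η) * s) * (η * r + (1 - η) * s) * (η * r + (1 - η) * s + 1) := by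
  have hb : ∀ N : ℝ, 0 < N → HasDerivAt bet (-(1 / (N * (N + 1)))) N := fun N hN => by
    have h2 : HasDerivAt (fun N : ℝ => 1 + 1 / N) (-(N ^ 2)⁻¹) N := by
      simpa using (hasDerivAt_inv hN.ne').const_add 1
    refine (h2.log (by positivity)).congr_deriv ?_
    field_simp
  have hd : ∀ N : ℝ, 0 < N →
      HasDerivAt (fun N => bet N * N * (N + 1)) (bet N * (2 * N + 1) - 1) N := fun N hN => by
    refine (((hb N hN).fun_mul (hasDerivAt_id' N)).fun_mul
      ((hasDerivAt_id' N).add_const 1)).congr_deriv ?_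
    field_simp
    ring
  have hc : ConcaveOn ℝ (Ioi 0) fun N => bet N * N * (N + 1) := by
    refine concaveOn_of_hasDerivWithinAt2_nonpos (convex_Ioi 0)
      (f' := fun N => bet N * (2 * N + 1) - 1)
      (f'' := fun N => 2 * bet N - (2 * N + 1) / (N * (N + 1)))
      (fun N hN => (hd N hN).continuousAt.continuousWithinAt)
      (fun N hN => (hd N (interior_subset hN)).hasDerivWithinAt) (fun N hN => ?_) fun N hN => ?_
    · have hN' : 0 < N := interior_subset hN
      refine (((hb N hN').fun_mul (((hasDerivAt_id' N).const_mul 2).add_const 1)).sub_const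
        1).hasDerivWithinAt.congr_deriv ?_
      field_simp
      ring
    · have hN' : 0 < N := interior_subset hN
      have h3 := self_le_sinh_iff.mpr (bet_pos hN').le
      have h4 : sinh (bet N) = (2 * N + 1) / (N * (N + 1)) / 2 := by
        rw [bet, sinh_log (by positivity)]
        field_simp
        ring
      linarith
  simpa only [smul_eq_mul] using hc.2 hr hs h0 (sub_nonneg.mpr h1) (add_sub_cancel _ _)

/-- Construction. For `z > 0` let `χ(z) = (z / sinh z)²`, `m(z) = z cosh z / sinh z`, and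
`χ(0) = m(0) = 1`. `χ` is a continuous strictly decreasing bijection `[0,∞) → (0,1]`; let `Mf`
be `m` as a function of `y = χ` (continuous on ` (0,1]`). `m' = (m-χ)/z`, `χ' = 2χ(1-m)/z`, so on
` (0,1)`: `Mf' y = -(Mf y - y)/(2y(Mf y - 1)) = -(1 + H0 y)/(2y)` with
`H0 y = (1-y)/(Mf y - 1)` for `y < 1` and `H0 1 = 1` (both `1-χ` and `m-1` are `z²/3 + O(z⁴)`, so
`H0` is continuous at `1`). `H0 ≤ 1` is `m + χ ≥ 2`, i.e.
`z cosh z sinh z + z² ≥ 2 sinh² z` (differentiate repeatedly, or use power series).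
By the fundamental theorem of calculus `Iint H0 y y' * (y' - y) = Mf y - Mf y'`, and
`Iint H0 y y = (1 + H0 y)/(2y)`.
Link: with `u = log x`, `L = logMean x 1`, `a = x/L`, `b = 1/L`: `a - b = u`,
`a b = χ(|u|/2)`, ` (a+b)/2 = m(|u|/2)`. The numbers `l2 = bet N (N+1)`, `l1 = bet N N` are the
`a`, `b` of `x' = (N+1)/N` (`u' = bet N`). From `kk_mul`: `F (u - β) = a l1 - b l2`.
Write `a = m + u/2`, `b = m - u/2`, `l2 = m' + β/2`, `l1 = m' - β/2`.
Case `χ ≠ χ'`: `H (m - m') = χ' - χ`, `u ≠ β`, and both identities follow by algebra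
(multiply by `u - β`, resp. also use `m ≠ m'`).
Case `χ = χ'`: then `m = m'`, `u² = β²`. If `u = -β`: `a = l1`, `b = l2`, `F = m`, `A = B`.
If `u = β`: `x = x'`, `F = l1 l2 = χ`, and `H (m - χ) = 2χ(m-1)` (here `χ < 1`). -/
theorem exists_H0 : ∃ H0 : ℝ → ℝ, ContinuousOn H0 (Ioc 0 1) ∧
    (∀ y ∈ Ioc (0 : ℝ) 1, 0 < H0 y ∧ H0 y ≤ 1) ∧
    (∀ y ∈ Ioc (0 : ℝ) 1, Iint H0 y 1 = (H0 y)⁻¹) ∧
    (∀ x, 0 < x → x / logMean x 1 ^ 2 ≤ 1) ∧
    (∀ N, 0 < N → bet N ^ 2 * N * (N + 1) ≤ 1) ∧
    ∀ N x L H A B F : ℝ, 0 < N → 0 < x → L = logMean x 1 →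
      H = (Iint H0 (x / L ^ 2) (bet N ^ 2 * N * (N + 1)))⁻¹ →
      A = x / L + bet N * (N + 1) + H → B = 1 / L + bet N * N + H → F = kk N x / L →
      (F + H / 2) * (A + B) = A * B ∧ F * (A + B) = x / L * B + 1 / L * A := by
  have hb := fun y => scH_bounds (scZ y)
  have hlink : ∀ N, 0 < N → (1 + 1 / N) / logMean (1 + 1 / N) 1 = bet N * (N + 1) ∧
      1 / logMean (1 + 1 / N) 1 = bet N * N ∧
      (1 + 1 / N) / logMean (1 + 1 / N) 1 ^ 2 = bet N ^ 2 * N * (N + 1) := fun N hN => by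
    have h1 : 1 + 1 / N ≠ 1 := by
      have : 0 < 1 / N := by positivity
      linarith
    have h2 := bet_pos hN
    have h3 : logMean (1 + 1 / N) 1 = 1 / N / bet N := by
      rw [logMean, if_neg h1, log_one, sub_zero, add_sub_cancel_left, bet]
    rw [h3]
    refine ⟨?_, ?_, ?_⟩ <;> field_simp
  have hN1 : ∀ N, 0 < N → bet N ^ 2 * N * (N + 1) ≤ 1 := fun N hN => by
    rw [← (hlink N hN).2.2]
    exact (scM_link (by positivity)).1
  refine ⟨scH0, fun y hy => (scH0_cont hy.1).continuousWithinAt, fun y _ => hb y,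
    fun y hy => ?_, fun x hx => (scM_link hx).1, hN1, ?_⟩
  · rcases eq_or_lt_of_le hy.2 with h | h
    · subst h
      have h1 : scH0 1 = 1 := by
        have h2 := scZ_Psi 0
        rw [scPsi_zero, inv_one] at h2
        simp [scH0, scH, h2]
      rw [scalar_Iint_self, h1]
      norm_num
    · have h1 := scalar_Iint hy ⟨one_pos, le_rfl⟩
      have h2 : 1 - y ≠ 0 := by linarith
      refine mul_right_cancel₀ h2 (h1.trans ?_)
      simp only [scM]
      ring
  · intro N x L H A B F hN hx hL hH hA hB hF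
    have hL0 : 0 < L := hL ▸ logMean_pos hx one_pos
    have hβ := bet_pos hN
    obtain ⟨hy1, hm⟩ := scM_link hx
    have hm' := (scM_link (x := 1 + 1 / N) (by positivity)).2
    rw [(hlink N hN).1, (hlink N hN).2.1, (hlink N hN).2.2] at hm'
    rw [← hL] at hy1 hm
    have hy : x / L ^ 2 ∈ Ioc (0 : ℝ) 1 := ⟨by positivity, hy1⟩
    have hy' : bet N ^ 2 * N * (N + 1) ∈ Ioc (0 : ℝ) 1 := ⟨by positivity, hN1 N hN⟩
    have hu : x / L - 1 / L = log x := by
      have h1 := logMean_mul_log hx one_pos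
      rw [← hL, log_one, sub_zero] at h1
      field_simp
      linarith
    have hab : x / L ^ 2 = x / L * (1 / L) := by field_simp
    have hFu : F * (log x - bet N) = x / L * (bet N * N) - 1 / L * (bet N * (N + 1)) := by
      have h1 := kk_mul hN hx
      have h2 := al_mul_bet hN
      rw [hF]
      field_simp
      linear_combination (-bet N) * h1 - kk N x * log x * h2
    by_cases hub : log x = bet N
    · have hx' : x = 1 + 1 / N := log_injOn_pos hx (by simp only [mem_Ioi]; positivity) hub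
      have ha : x / L = bet N * (N + 1) := by rw [hL, hx']; exact (hlink N hN).1
      have hb' : 1 / L = bet N * N := by rw [hL, hx']; exact (hlink N hN).2.1
      have hyy : x / L ^ 2 = bet N ^ 2 * N * (N + 1) := by rw [hab, ha, hb']; ring
      have hF' : F = bet N ^ 2 * N * (N + 1) := by
        have h1 : N * x = N + 1 := by rw [hx']; field_simp
        rw [hF, kk, h1, logMean_self, div_eq_mul_one_div, hb']
        ring
      rw [hyy, scalar_Iint_self] at hH
      have h0 : 0 < scH0 (bet N ^ 2 * N * (N + 1)) := (hb _).1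
      have h2 : H * (1 + scH0 (bet N ^ 2 * N * (N + 1))) = 2 * (bet N ^ 2 * N * (N + 1)) := by
        rw [hH]
        field_simp
      have h3 : scH0 (bet N ^ 2 * N * (N + 1)) * ((bet N * (N + 1) + bet N * N) / 2 - 1) =
          1 - bet N ^ 2 * N * (N + 1) := by
        rw [← hm', scM]
        field_simp
        ring
      have h4 : H * ((bet N * (N + 1) + bet N * N) / 2 - bet N ^ 2 * N * (N + 1)) =
          2 * (bet N ^ 2 * N * (N + 1)) * ((bet N * (N + 1) + bet N * N) / 2 - 1) := by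
        linear_combination ((bet N * (N + 1) + bet N * N) / 2 - 1) * h2 - H * h3
      rw [hA, hB, hF', ha, hb']
      constructor
      · linear_combination (-2) * h4
      · linear_combination (-2) * h4
    · have h1 := scalar_Iint hy hy'
      have h2 := scalar_Iint_pos hy hy'
      have h3 : H * ((x / L + 1 / L) / 2 - (bet N * (N + 1) + bet N * N) / 2) =
          bet N ^ 2 * N * (N + 1) - x / L * (1 / L) := by
        rw [← hm, ← hm', ← h1, hH, ← hab]
        field_simp
      have h4 : log x - bet N ≠ 0 := sub_ne_zero.mpr hub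
      rw [hA, hB]
      rw [← hu] at h4 hFu
      generalize x / L = a at *
      generalize 1 / L = b at *
      constructor
      · refine mul_left_cancel₀ h4 ?_
        linear_combination (a + b + bet N * (N + 1) + bet N * N + 2 * H) * hFu -
          (a - b + bet N) * h3
      · refine mul_left_cancel₀ h4 ?_
        linear_combination (a + b + bet N * (N + 1) + bet N * N + 2 * H) * hFu -
          2 * (a - b) * h3

end Vale.Agent.P369
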