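import Vale.Agent.P369.Basic

/-! Analytic facts on the matrix entropy `S` (task P369-Second).
Available from P358/Entropy: trf_eq, trf_of_charpoly, trf_conj, trf_diagonal, spectral, S_conj,
S_conj', S_le_diag (pinching), S_nonneg, trf_log (log det), diag_re_nonneg. -/

set_option linter.unusedSectionVars false

namespace Vale.Agent.P369

open Matrix Finset Filter Topology Real
open Vale.Agent.P358 (S)
open scoped ComplexOrder Kronecker

variable {ι κ : Type} [Fintype ι] [DecidableEq ι] [Fintype κ] [DecidableEq κ]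

lemma sec_trf_affine {M : Matrix ι ι ℂ} (h : M.IsHermitian) (a b : ℝ) (f : ℝ → ℝ) :
    P358.trf ((a : ℂ) • M + (b : ℂ) • 1) f = ∑ i, f (a * h.eigenvalues i + b) := by
  obtain ⟨U, h1, h2, h3, -⟩ := P358.spectral h
  have e : (a : ℂ) • M + (b : ℂ) • 1
      = U * diagonal (fun i => ((a * h.eigenvalues i + b : ℝ) : ℂ)) * Uᴴ := by
    have : diagonal (fun i => ((a * h.eigenvalues i + b : ℝ) : ℂ))
        = (a : ℂ) • diagonal (fun i => (h.eigenvalues i : ℂ)) + (b : ℂ) • (1 : Matrix ι ι ℂ) := by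
      ext i j; by_cases hij : i = j <;> simp [hij]
    rw [this, Matrix.mul_add, Matrix.add_mul, Matrix.mul_smul, Matrix.smul_mul, ← h3,
      Matrix.mul_smul, Matrix.mul_one, Matrix.smul_mul, h2]
  rw [e, P358.trf_conj (P358.isHermitian_diag_real _) h1, P358.trf_diagonal]

lemma sec_scalar_klein {x w : ℝ} (hx : 0 ≤ x) (hw : 0 < w) :
    negMulLog x ≤ -(x * log w) + w - x := by
  rcases hx.eq_or_lt with rfl | hx
  · simp [hw.le]
  · have h := Real.log_le_sub_one_of_pos (div_pos hw hx)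
    rw [Real.log_div hw.ne' hx.ne'] at h
    have h2 := mul_le_mul_of_nonneg_left h hx.le
    have h3 : x * (w / x - 1) = w - x := by field_simp
    unfold negMulLog
    nlinarith

lemma sec_mul_log_le {x y : ℝ} (hx : 0 ≤ x) (hxy : x ≤ y) : x * log x ≤ x * log y := by
  rcases hx.eq_or_lt with rfl | hx
  · simp
  · exact mul_le_mul_of_nonneg_left (Real.log_le_log hx hxy) hx.le

lemma sec_eig_le_trace {C : Matrix ι ι ℂ} (hC : C.PosSemidef) (i : ι) :
    hC.1.eigenvalues i ≤ C.trace.re := by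
  rw [← P358.trf_id hC.1, P358.trf_eq hC.1]
  exact Finset.single_le_sum (fun j _ => hC.eigenvalues_nonneg j) (Finset.mem_univ i)

/-- Klein inequality against a diagonal weight. Proof: S_le_diag and the scalar bound
`negMulLog x ≤ -x log w + w - x` for `x ≥ 0`, `w > 0`. -/
theorem klein {ρ : Matrix ι ι ℂ} (hρ : ρ.PosSemidef) (w : ι → ℝ) (hw : ∀ i, 0 < w i) :
    S ρ ≤ -∑ i, (ρ i i).re * log (w i) + ∑ i, w i - ρ.trace.re := by
  refine (P358.S_le_diag hρ).trans ?_
  have ht : ρ.trace.re = ∑ i, (ρ i i).re := by simp [trace]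
  rw [ht, ← Finset.sum_neg_distrib, ← Finset.sum_add_distrib, ← Finset.sum_sub_distrib]
  exact Finset.sum_le_sum fun i _ => sec_scalar_klein (P358.diag_re_nonneg hρ i) (hw i)

/-- eigenvalues of `C + δ` are those of `C` shifted; `η(x+δ) ≤ η(x) + η(δ)`. -/
theorem S_shift_le {C : Matrix ι ι ℂ} (hC : C.PosSemidef) {δ : ℝ} (hδ : 0 ≤ δ) :
    S (C + (δ : ℂ) • 1) ≤ S C + Fintype.card ι * negMulLog δ := by
  have h := sec_trf_affine hC.1 1 δ negMulLog
  simp only [Complex.ofReal_one, one_smul, one_mul] at h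
  unfold S
  rw [h, P358.trf_eq hC.1]
  have : (Fintype.card ι : ℝ) * negMulLog δ = ∑ _i : ι, negMulLog δ := by simp
  rw [this, ← Finset.sum_add_distrib]
  refine Finset.sum_le_sum fun i _ => ?_
  have h0 := hC.eigenvalues_nonneg i
  have h1 := sec_mul_log_le h0 (le_add_of_nonneg_right hδ)
  have h2 := sec_mul_log_le hδ (le_add_of_nonneg_left h0)
  unfold negMulLog
  nlinarith

/-- `x ↦ η(x) + 2x` is monotone on `[0,2]`. -/
theorem S_shift_ge {C : Matrix ι ι ℂ} (hC : DState C) {δ : ℝ} (hδ : 0 ≤ δ) (hδ1 : δ ≤ 1) :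
    S C - 2 * Fintype.card ι * δ ≤ S (C + (δ : ℂ) • 1) := by
  have h := sec_trf_affine hC.1.1 1 δ negMulLog
  simp only [Complex.ofReal_one, one_smul, one_mul] at h
  unfold S
  rw [h, P358.trf_eq hC.1.1]
  have : 2 * (Fintype.card ι : ℝ) * δ = ∑ _i : ι, 2 * δ := by simp; ring
  rw [this, ← Finset.sum_sub_distrib]
  refine Finset.sum_le_sum fun i _ => ?_
  have h0 := hC.1.eigenvalues_nonneg i
  have h1 : hC.1.1.eigenvalues i ≤ 1 :=
    (sec_eig_le_trace hC.1 i).trans_eq (by rw [hC.2, Complex.one_re])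
  generalize hC.1.1.eigenvalues i = x at h0 h1
  rcases (add_nonneg h0 hδ).eq_or_lt with h2 | h2
  · have hx : x = 0 := by linarith
    have hd : δ = 0 := by linarith
    simp [hx, hd]
  · have h3 := sec_scalar_klein h0 h2
    have h4 := Real.log_le_sub_one_of_pos h2
    have h5 : δ * log (x + δ) ≤ δ * 1 := mul_le_mul_of_nonneg_left (by linarith) hδ
    have h6 : negMulLog (x + δ) = -(x * log (x + δ)) - δ * log (x + δ) := by
      unfold negMulLog; ring
    linarith

lemma sec_S_roots {M : Matrix ι ι ℂ} (hM : M.IsHermitian) :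
    S M = (M.charpoly.roots.map (fun z => negMulLog z.re)).sum := by
  unfold S
  rw [P358.trf_eq hM, hM.roots_charpoly_eq_eigenvalues, Multiset.map_map,
    Finset.sum_eq_multiset_sum]
  rfl

lemma sec_roots_X_pow (k : ℕ) {q : Polynomial ℂ} (hq : q ≠ 0) :
    ((Polynomial.X ^ k * q).roots.map (fun z : ℂ => negMulLog z.re)).sum
      = (q.roots.map (fun z => negMulLog z.re)).sum := by
  rw [Polynomial.roots_mul (mul_ne_zero (pow_ne_zero _ Polynomial.X_ne_zero) hq),
    Polynomial.roots_X_pow, Multiset.map_add, Multiset.sum_add]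
  simp [Multiset.map_nsmul, Multiset.sum_nsmul]

/-- use `Matrix.charpoly_mul_comm'` (or of_le) and `negMulLog 0 = 0`; or complete the columns
of `E U` to see the characteristic polynomial. -/
theorem S_isometry {M : Matrix ι ι ℂ} (hM : M.IsHermitian) (E : Matrix κ ι ℂ) (hE : Eᴴ * E = 1) :
    S (E * M * Eᴴ) = S M := by
  have h := Matrix.charpoly_mul_comm' (E * M) Eᴴ
  rw [← Matrix.mul_assoc, hE, Matrix.one_mul] at h
  rw [sec_S_roots (isHermitian_mul_mul_conjTranspose E hM), sec_S_roots hM,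
    ← sec_roots_X_pow _ (Matrix.charpoly_monic _).ne_zero, h,
    sec_roots_X_pow _ (Matrix.charpoly_monic _).ne_zero]

/-- mixing a singular state with the maximally mixed state: in the eigenbasis, concavity of
`η` on the nonzero eigenvalues, and the zero eigenvalue contributes `η(σ/d)`. -/
theorem S_mix {A : Matrix ι ι ℂ} (hA : DState A) (hs : ¬ A.PosDef) {σ : ℝ} (h0 : 0 ≤ σ)
    (h1 : σ ≤ 1) :
    (1 - σ) * S A + negMulLog (σ / Fintype.card ι)
      ≤ S (((1 - σ : ℝ) : ℂ) • A + ((σ / Fintype.card ι : ℝ) : ℂ) • 1) := by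
  rw [hA.1.1.posDef_iff_eigenvalues_pos] at hs
  push Not at hs
  obtain ⟨i₀, hi⟩ := hs
  have hz : hA.1.1.eigenvalues i₀ = 0 := le_antisymm hi (hA.1.eigenvalues_nonneg i₀)
  have hd : (1 : ℝ) ≤ Fintype.card ι := by
    exact_mod_cast Fintype.card_pos_iff.2 ⟨i₀⟩
  unfold S
  rw [sec_trf_affine hA.1.1, P358.trf_eq hA.1.1, Finset.mul_sum]
  have e : negMulLog (σ / Fintype.card ι)
      = ∑ i, if i = i₀ then negMulLog (σ / Fintype.card ι) else 0 := by simp
  rw [e, ← Finset.sum_add_distrib]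
  refine Finset.sum_le_sum fun i _ => ?_
  split_ifs with h
  · subst h; simp [hz]
  · have hi1 : (0 : ℝ) ≤ 1 / Fintype.card ι := by positivity
    have h2 := concaveOn_negMulLog.2 (hA.1.eigenvalues_nonneg i) hi1 (sub_nonneg.2 h1) h0
      (by ring)
    have h3 : 0 ≤ negMulLog (1 / (Fintype.card ι : ℝ)) :=
      negMulLog_nonneg hi1 (by rw [div_le_one (by linarith)]; exact hd)
    simp only [smul_eq_mul, mul_one_div] at h2
    nlinarith [mul_nonneg h0 h3]

lemma sec_trf_pow {M : Matrix ι ι ℂ} (h : M.IsHermitian) (k : ℕ) :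
    P358.trf M (fun x => x ^ k) = (M ^ k).trace.re := by
  obtain ⟨U, h1, h2, h3, -⟩ := P358.spectral h
  have e : M ^ k = U * diagonal (fun i => ((h.eigenvalues i ^ k : ℝ) : ℂ)) * Uᴴ := by
    induction k with
    | zero => simp [h2]
    | succ k ih =>
      rw [pow_succ, ih]
      conv_lhs => rhs; rw [h3]
      simp only [Matrix.mul_assoc]
      rw [← Matrix.mul_assoc Uᴴ, h1, Matrix.one_mul, ← Matrix.mul_assoc (diagonal _),
        diagonal_mul_diagonal]
      simp [pow_succ]
  rw [e, trace_mul_comm, ← Matrix.mul_assoc, h1, Matrix.one_mul, P358.trf_eq h, trace_diagonal,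
    Complex.re_sum]
  simp only [Complex.ofReal_re]

lemma sec_poly_cont (q : Polynomial ℝ) : ∃ F : Matrix ι ι ℂ → ℝ, Continuous F ∧
    ∀ M : Matrix ι ι ℂ, M.IsHermitian → P358.trf M (fun x => q.eval x) = F M := by
  induction q using Polynomial.induction_on' with
  | add p q hp hq =>
    obtain ⟨F, hF, hF'⟩ := hp
    obtain ⟨G, hG, hG'⟩ := hq
    refine ⟨fun M => F M + G M, hF.add hG, fun M hM => ?_⟩
    simp only [← hF' M hM, ← hG' M hM, P358.trf_eq hM, Polynomial.eval_add,
      Finset.sum_add_distrib]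
  | monomial k c =>
    refine ⟨fun M => c * (M ^ k).trace.re, by fun_prop, fun M hM => ?_⟩
    simp only [← sec_trf_pow hM, P358.trf_eq hM, Polynomial.eval_monomial, Finset.mul_sum]

/-- Continuity. Either `continuousOn_cfc` (S M = re tr (cfc negMulLog M), open scoped
Matrix.Norms.L2Operator), or by hand: upper semicontinuity from S_le_diag in the eigenbasis of
the base point, lower semicontinuity from klein at the shifted matrix plus S_shift_le/ge. -/
theorem S_continuousOn : ContinuousOn (S : Matrix ι ι ℂ → ℝ) {M | M.PosSemidef} := by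
  intro M₀ hM₀
  rw [ContinuousWithinAt, Metric.tendsto_nhds]
  intro ε hε
  set d : ℝ := (Fintype.card ι : ℝ) with hd
  have hd0 : 0 ≤ d := by positivity
  obtain ⟨q, hq⟩ := exists_polynomial_near_of_continuousOn 0 (M₀.trace.re + 1) negMulLog
    continuous_negMulLog.continuousOn (ε / (3 * (d + 1))) (by positivity)
  obtain ⟨F, hF, hF'⟩ := sec_poly_cont (ι := ι) q
  have key : ∀ M : Matrix ι ι ℂ, M.PosSemidef → M.trace.re ≤ M₀.trace.re + 1 →
      |F M - S M| ≤ ε / 3 := by
    intro M hM ht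
    unfold S
    rw [← hF' M hM.1, P358.trf_eq hM.1, P358.trf_eq hM.1, ← Finset.sum_sub_distrib]
    refine (Finset.abs_sum_le_sum_abs _ _).trans ?_
    refine (Finset.sum_le_sum fun i _ => (hq _ ⟨hM.eigenvalues_nonneg i,
      (sec_eig_le_trace hM i).trans ht⟩).le).trans ?_
    simp only [Finset.sum_const, Finset.card_univ, nsmul_eq_mul, ← hd]
    rw [mul_div_assoc', div_le_div_iff₀ (by positivity) (by positivity)]
    nlinarith
  have c1 : Continuous fun M : Matrix ι ι ℂ => M.trace.re := by fun_prop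
  have e1 : ∀ᶠ M in 𝓝 M₀, M.trace.re < M₀.trace.re + 1 :=
    c1.continuousAt.eventually_lt continuousAt_const (by linarith)
  have e2 : ∀ᶠ M in 𝓝 M₀, dist (F M) (F M₀) < ε / 3 :=
    Metric.tendsto_nhds.1 hF.continuousAt _ (by positivity)
  filter_upwards [nhdsWithin_le_nhds e1, nhdsWithin_le_nhds e2, self_mem_nhdsWithin] with M a b c
  have k1 := abs_le.1 (key M c a.le)
  have k2 := abs_le.1 (key M₀ hM₀ (by linarith))
  rw [Real.dist_eq, abs_lt] at b ⊢
  constructor <;> linarith [b.1, b.2, k1.1, k1.2, k2.1, k2.2]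

lemma sec_geom {r : ℝ} (hr : 0 < r) (m : ℕ) :
    ∑ t ∈ Finset.range m, r ^ t / (r + 1) ^ (t + 1) = 1 - r ^ m / (r + 1) ^ m := by
  induction m with
  | zero => simp
  | succ m ih =>
    rw [Finset.sum_range_succ, ih]
    field_simp
    ring

/-- Gibbs variational bound: klein with `w k = ∏ j, r^(k j)/(r+1)^(k j+1)`, `∑ w ≤ 1`,
`-log (w k) = bet r * |k| + n log (r+1)`. -/
theorem gibbs {n M : ℕ} {A : Matrix (Box n M) (Box n M) ℂ} (hA : DState A) {r : ℝ} (hr : 0 < r) :
    S A ≤ bet r * en A + n * log (r + 1) := by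
  have h := klein hA.1 (fun k => ∏ j, r ^ occ k j / (r + 1) ^ (occ k j + 1))
    (fun k => Finset.prod_pos fun j _ => by positivity)
  have hs : ∑ k : Box n M, ∏ j, r ^ occ k j / (r + 1) ^ (occ k j + 1) ≤ 1 := by
    have e := Finset.prod_univ_sum (fun _ : Fin n => (Finset.univ : Finset (Fin (M + 1))))
      (fun _ t => r ^ (t : ℕ) / (r + 1) ^ ((t : ℕ) + 1))
    rw [Fintype.piFinset_univ] at e
    unfold occ
    rw [← e]
    refine Finset.prod_le_one (fun j _ => by positivity) fun j _ => ?_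
    rw [Fin.sum_univ_eq_sum_range (fun t => r ^ t / (r + 1) ^ (t + 1)), sec_geom hr]
    have : 0 ≤ r ^ (M + 1) / (r + 1) ^ (M + 1) := by positivity
    linarith
  have hb : bet r = log (r + 1) - log r := by
    unfold bet
    rw [← Real.log_div (by positivity) hr.ne']; congr 1; field_simp
  have hl : ∀ k : Box n M, log (∏ j, r ^ occ k j / (r + 1) ^ (occ k j + 1))
      = -(bet r * ∑ j, (occ k j : ℝ)) - n * log (r + 1) := by
    intro k
    rw [Real.log_prod (fun j _ => by positivity)]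
    have : ∀ j, log (r ^ occ k j / (r + 1) ^ (occ k j + 1))
        = -(bet r * (occ k j : ℝ)) - log (r + 1) := by
      intro j
      rw [Real.log_div (by positivity) (by positivity), Real.log_pow, Real.log_pow, hb]
      push_cast; ring
    simp only [this, Finset.sum_sub_distrib, Finset.sum_neg_distrib, ← Finset.mul_sum]
    simp
  have ht : ∑ k, (A k k).re = 1 := by
    have := congrArg Complex.re hA.2
    simpa [trace] using this
  simp only [hl] at h
  have e : ∑ k, (A k k).re * (-(bet r * ∑ j, (occ k j : ℝ)) - n * log (r + 1))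
      = -(bet r * en A) - n * log (r + 1) * ∑ k, (A k k).re := by
    unfold en
    rw [Finset.mul_sum, Finset.mul_sum, ← Finset.sum_neg_distrib, ← Finset.sum_sub_distrib]
    exact Finset.sum_congr rfl fun k _ => by ring
  rw [e, ht, hA.2, Complex.one_re] at h
  linarith

/-- first divided differences of powers -/
def secH : ℕ → ℝ → ℝ → ℝ
  | 0, _, _ => 0
  | k + 1, a, b => a * secH k a b + b ^ k

/-- second divided differences of powers -/
def secG : ℕ → ℝ → ℝ → ℝ
  | 0, _, _ => 0
  | k + 1, a, b => a * secG k a b + secH k b a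

lemma secH_mul (k : ℕ) (a b : ℝ) : (a - b) * secH k a b = a ^ k - b ^ k := by
  induction k with
  | zero => simp [secH]
  | succ k ih =>
    have : (a - b) * secH (k + 1) a b = a * ((a - b) * secH k a b) + (a - b) * b ^ k := by
      simp only [secH]; ring
    rw [this, ih]; ring

open Polynomial in
lemma secH_self (k : ℕ) (a : ℝ) : secH k a a = (derivative (X ^ k : ℝ[X])).eval a := by
  induction k with
  | zero => simp [secH]
  | succ k ih =>
    rw [pow_succ', derivative_mul, secH, ih]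
    simp only [derivative_X, one_mul, eval_add, eval_mul, eval_pow, eval_X]
    ring

lemma secG_mul (k : ℕ) (a b : ℝ) : (a - b) * secG k a b = secH k a a - secH k a b := by
  induction k with
  | zero => simp [secH, secG]
  | succ k ih =>
    have : (a - b) * secG (k + 1) a b = a * ((a - b) * secG k a b) - (b - a) * secH k b a := by
      simp only [secG]; ring
    rw [this, ih, secH_mul]; simp only [secH]; ring

open Polynomial in
lemma secG_self (k : ℕ) (a : ℝ) :
    2 * secG k a a = (derivative (derivative (X ^ k : ℝ[X]))).eval a := by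
  induction k with
  | zero => simp [secG]
  | succ k ih =>
    rw [pow_succ', derivative_mul, derivative_X, one_mul, derivative_add, derivative_mul,
      derivative_X, one_mul, secG, secH_self]
    simp only [eval_add, eval_mul, eval_X, ← ih]
    ring

/-- divided difference of the derivative -/
noncomputable def secDD (f' f'' : ℝ → ℝ) (a b : ℝ) : ℝ :=
  if a = b then f'' a else (f' a - f' b) / (a - b)

open Polynomial in
lemma secG_symm (k : ℕ) (a b : ℝ) : secG k a b + secG k b a =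
    secDD (fun x => (derivative (X ^ k : ℝ[X])).eval x)
      (fun x => (derivative (derivative (X ^ k : ℝ[X]))).eval x) a b := by
  unfold secDD
  split_ifs with h
  · subst h; beta_reduce; rw [← secG_self]; ring
  · have h0 : a - b ≠ 0 := sub_ne_zero.2 h
    have h1 : secH k a b = secH k b a := by
      apply mul_left_cancel₀ h0
      rw [secH_mul, ← neg_sub b a, neg_mul, secH_mul]; ring
    rw [eq_div_iff h0]
    simp only [← secH_self]
    have e1 := secG_mul k a b
    have e2 := secG_mul k b a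
    rw [h1] at e1
    linear_combination e1 - e2

lemma sec_pow_expand (p : ι → ℝ) (X : Matrix ι ι ℂ) (k : ℕ) :
    ∃ (C : Matrix ι ι ℂ) (E : ℝ → Matrix ι ι ℂ), Continuous E ∧
      (∀ i, C i i = ∑ j, X i j * X j i * (secG k (p i) (p j) : ℝ)) ∧
      ∀ σ : ℝ, (rdiag p + (σ : ℂ) • X) ^ k = rdiag (fun i => p i ^ k)
        + (σ : ℂ) • Matrix.of (fun i j => X i j * (secH k (p i) (p j) : ℝ))
        + (σ : ℂ) ^ 2 • C + (σ : ℂ) ^ 3 • E σ := by
  induction k with
  | zero =>
    refine ⟨0, fun _ => 0, continuous_const, fun i => by simp [secG], fun σ => ?_⟩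
    ext i j
    by_cases h : i = j <;> simp [secH, rdiag, h]
  | succ k ih =>
    obtain ⟨C, E, hE, hC, h⟩ := ih
    set B : Matrix ι ι ℂ := Matrix.of (fun i j => X i j * (secH k (p i) (p j) : ℝ)) with hB
    refine ⟨rdiag p * C + X * B, fun σ => (rdiag p + (σ : ℂ) • X) * E σ + X * C, by fun_prop,
      fun i => ?_, fun σ => ?_⟩
    · rw [Matrix.add_apply, rdiag, diagonal_mul, hC, Matrix.mul_apply, Finset.mul_sum,
        ← Finset.sum_add_distrib]
      refine Finset.sum_congr rfl fun j _ => ?_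
      simp only [hB, Matrix.of_apply, secG]
      push_cast; ring
    · have e1 : rdiag (fun i => p i ^ (k + 1)) = rdiag p * rdiag (fun i => p i ^ k) := by
        simp only [rdiag, diagonal_mul_diagonal]
        congr 1; funext i; push_cast; ring
      have e2 : Matrix.of (fun i j => X i j * (secH (k + 1) (p i) (p j) : ℝ))
          = rdiag p * B + X * rdiag (fun i => p i ^ k) := by
        ext i j
        simp only [rdiag, Matrix.add_apply, diagonal_mul, mul_diagonal, hB, Matrix.of_apply, secH]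
        push_cast; ring
      rw [pow_succ', h σ, e1, e2]
      simp only [Matrix.mul_add, Matrix.add_mul, Matrix.mul_smul, Matrix.smul_mul, smul_add,
        smul_smul]
      module

/-- the second-order remainder of `tr f` -/
noncomputable def secR (p : ι → ℝ) (X : Matrix ι ι ℂ) (f f' f'' : ℝ → ℝ) (σ : ℝ) : ℝ :=
  P358.trf (rdiag p + (σ : ℂ) • X) f - ∑ i, f (p i) - σ * ∑ i, (X i i).re * f' (p i)
    - σ ^ 2 / 2 * ∑ i, ∑ j, ‖X i j‖ ^ 2 * secDD f' f'' (p i) (p j)

lemma sec_herm (p : ι → ℝ) {X : Matrix ι ι ℂ} (hX : X.IsHermitian) (σ : ℝ) :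
    (rdiag p + (σ : ℂ) • X).IsHermitian :=
  (rdiag_herm p).add (hX.smul (by simp [IsSelfAdjoint]))

lemma secR_lin (p : ι → ℝ) {X : Matrix ι ι ℂ} (hX : X.IsHermitian) (c : ℝ)
    (f f' f'' g g' g'' : ℝ → ℝ) (σ : ℝ) :
    secR p X (fun x => c * f x + g x) (fun x => c * f' x + g' x) (fun x => c * f'' x + g'' x) σ
      = c * secR p X f f' f'' σ + secR p X g g' g'' σ := by
  have e : ∀ a b, secDD (fun x => c * f' x + g' x) (fun x => c * f'' x + g'' x) a b
      = c * secDD f' f'' a b + secDD g' g'' a b := by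
    intro a b
    unfold secDD
    split_ifs
    · rfl
    · ring
  unfold secR
  simp only [P358.trf_eq (sec_herm p hX σ), e, mul_add, Finset.sum_add_distrib, mul_left_comm _ c,
    ← Finset.mul_sum]
  ring

open Polynomial Asymptotics in
lemma secR_poly (p : ι → ℝ) {Y : Matrix ι ι ℂ} (hY : Y.IsHermitian) (q : ℝ[X]) :
    (secR p Y (fun x => q.eval x) (fun x => (derivative q).eval x)
      (fun x => (derivative (derivative q)).eval x)) =o[𝓝 0] fun σ : ℝ => σ ^ 2 := by
  induction q using Polynomial.induction_on' with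
  | add q r hq hr =>
    refine (hq.add hr).congr_left fun σ => ?_
    have := secR_lin p hY 1 (fun x => q.eval x) (fun x => (derivative q).eval x)
      (fun x => (derivative (derivative q)).eval x) (fun x => r.eval x)
      (fun x => (derivative r).eval x) (fun x => (derivative (derivative r)).eval x) σ
    simp only [one_mul] at this
    simp only [derivative_add, eval_add, this]
  | monomial k c =>
    obtain ⟨C', E, hE, hC, h⟩ := sec_pow_expand p Y k
    have key : ∀ σ : ℝ, secR p Y (fun x => (X ^ k : ℝ[X]).eval x)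
        (fun x => (derivative (X ^ k : ℝ[X])).eval x)
        (fun x => (derivative (derivative (X ^ k : ℝ[X]))).eval x) σ
        = σ ^ 2 * (σ * (E σ).trace.re) := by
      intro σ
      unfold secR
      simp only [← secG_symm]
      simp only [← secH_self, eval_pow, eval_X]
      rw [sec_trf_pow (sec_herm p hY σ), h σ]
      have hn : ∀ i j, Y i j * Y j i = ((‖Y i j‖ ^ 2 : ℝ) : ℂ) := by
        intro i j
        rw [← hY.apply j i]
        simp [Complex.mul_conj, Complex.normSq_eq_norm_sq]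
      have hs : ∀ i j, ‖Y j i‖ = ‖Y i j‖ := by
        intro i j
        rw [← hY.apply j i]; simp
      have t1 : (rdiag fun i => p i ^ k).trace.re = ∑ i, p i ^ k := by
        simp only [rdiag, trace_diagonal, Complex.re_sum, Complex.ofReal_re]
      have t2 : (Matrix.of (fun i j => Y i j * (secH k (p i) (p j) : ℝ))).trace.re
          = ∑ i, (Y i i).re * secH k (p i) (p i) := by
        simp [trace]
      have t3 : C'.trace.re = ∑ i, ∑ j, ‖Y i j‖ ^ 2 * secG k (p i) (p j) := by
        simp only [trace, diag_apply, hC, hn, Complex.re_sum, ← Complex.ofReal_mul,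
          Complex.ofReal_re]
      have t4 : ∑ i, ∑ j, ‖Y i j‖ ^ 2 * (secG k (p i) (p j) + secG k (p j) (p i))
          = 2 * ∑ i, ∑ j, ‖Y i j‖ ^ 2 * secG k (p i) (p j) := by
        simp only [mul_add, Finset.sum_add_distrib]
        rw [Finset.sum_comm (f := fun i j => ‖Y i j‖ ^ 2 * secG k (p j) (p i))]
        simp only [hs]; ring
      simp only [trace_add, trace_smul, Complex.add_re, smul_eq_mul, ← Complex.ofReal_pow,
        Complex.re_ofReal_mul, t1, t2, t3, t4]
      ring
    have h0 : (fun σ : ℝ => c * (σ * (E σ).trace.re)) =o[𝓝 0] fun _ => (1 : ℝ) := by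
      rw [isLittleO_one_iff]
      have : Continuous fun σ : ℝ => c * (σ * (E σ).trace.re) := by fun_prop
      simpa using this.tendsto 0
    refine (((isBigO_refl (fun σ : ℝ => σ ^ 2) (𝓝 0)).mul_isLittleO h0).congr_left
      fun σ => ?_).congr_right fun σ => mul_one _
    have := secR_lin p hY c (fun x => (X ^ k : ℝ[X]).eval x)
      (fun x => (derivative (X ^ k : ℝ[X])).eval x)
      (fun x => (derivative (derivative (X ^ k : ℝ[X]))).eval x) (fun _ => 0) (fun _ => 0)
      (fun _ => 0) σ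
    have z : secR p Y (fun _ => 0) (fun _ => 0) (fun _ => 0) σ = 0 := by
      unfold secR
      rw [P358.trf_eq (sec_herm p hY σ)]
      simp [secDD]
    rw [z, key] at this
    simp only [add_zero] at this
    simp only [← C_mul_X_pow_eq_monomial, derivative_C_mul, eval_mul, eval_C, this]
    ring

lemma sec_antideriv (r : Polynomial ℝ) : ∃ q : Polynomial ℝ, Polynomial.derivative q = r := by
  induction r using Polynomial.induction_on' with
  | add p q hp hq =>
    obtain ⟨p', rfl⟩ := hp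
    obtain ⟨q', rfl⟩ := hq
    exact ⟨p' + q', by simp⟩
  | monomial k c =>
    refine ⟨Polynomial.monomial (k + 1) (c / (k + 1)), ?_⟩
    rw [Polynomial.derivative_monomial]
    simp only [Nat.add_sub_cancel]
    congr 1
    push_cast
    field_simp

lemma sec_mvt {f f' : ℝ → ℝ} {a b e : ℝ} (hf : ∀ x ∈ Set.Icc a b, HasDerivAt f (f' x) x)
    (hb : ∀ x ∈ Set.Icc a b, |f' x| ≤ e) {x y : ℝ} (hx : x ∈ Set.Icc a b) (hy : y ∈ Set.Icc a b) :
    |f y - f x| ≤ e * |y - x| :=
  (convex_Icc a b).norm_image_sub_le_of_norm_hasDerivWithin_le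
    (fun z hz => (hf z hz).hasDerivWithinAt) hb hx hy

lemma sec_taylor {f f' f'' : ℝ → ℝ} {a b e : ℝ} (hf : ∀ x ∈ Set.Icc a b, HasDerivAt f (f' x) x)
    (hf' : ∀ x ∈ Set.Icc a b, HasDerivAt f' (f'' x) x) (hb : ∀ x ∈ Set.Icc a b, |f'' x| ≤ e)
    {x y : ℝ} (hx : x ∈ Set.Icc a b) (hy : y ∈ Set.Icc a b) :
    |f y - f x - f' x * (y - x)| ≤ e * (y - x) ^ 2 := by
  have he : 0 ≤ e := (abs_nonneg _).trans (hb x hx)
  have hsub : Set.Icc (min x y) (max x y) ⊆ Set.Icc a b :=
    Set.Icc_subset_Icc (le_min hx.1 hy.1) (max_le hx.2 hy.2)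
  have h := sec_mvt (f := fun z => f z - f' x * z) (f' := fun z => f' z - f' x)
    (a := min x y) (b := max x y) (e := e * |y - x|) (x := x) (y := y)
    (fun z hz => ((hf z (hsub hz)).sub ((hasDerivAt_id z).const_mul (f' x))).congr_deriv
      (by ring))
    (fun z hz => (sec_mvt hf' hb hx (hsub hz)).trans (mul_le_mul_of_nonneg_left (by
      obtain ⟨h1, h2⟩ := hz
      rcases le_total x y with h | h
      · rw [min_eq_left h] at h1; rw [max_eq_right h] at h2
        rw [abs_of_nonneg (by linarith), abs_of_nonneg (by linarith)]; linarith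
      · rw [min_eq_right h] at h1; rw [max_eq_left h] at h2
        rw [abs_of_nonpos (by linarith), abs_of_nonpos (by linarith)]; linarith) he))
    ⟨min_le_left _ _, le_max_left _ _⟩ ⟨min_le_right _ _, le_max_right _ _⟩
  rw [mul_assoc, abs_mul_abs_self] at h
  have e1 : f y - f x - f' x * (y - x) = f y - f' x * y - (f x - f' x * x) := by ring
  rw [sq, e1]
  exact h

lemma secR_small (p : ι → ℝ) {X : Matrix ι ι ℂ} (hX : X.IsHermitian) {f f' f'' : ℝ → ℝ}
    {a b e σ : ℝ} (ha : 0 < a) (hp : ∀ i, 2 * a ≤ p i ∧ p i + a ≤ b)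
    (hf : ∀ x ∈ Set.Icc a b, HasDerivAt f (f' x) x)
    (hf' : ∀ x ∈ Set.Icc a b, HasDerivAt f' (f'' x) x) (hb : ∀ x ∈ Set.Icc a b, |f'' x| ≤ e)
    (hσ : σ ^ 2 * fro2 X ≤ a ^ 2) :
    |secR p X f f' f'' σ| ≤ 3 / 2 * e * fro2 X * σ ^ 2 := by
  have hB := sec_herm p hX σ
  obtain ⟨U, h1, h2, h3, -⟩ := P358.spectral hB
  set l := hB.eigenvalues with hl
  have hrow : ∀ k, ∑ j, ‖U k j‖ ^ 2 = 1 := by
    intro k
    have := congrArg Complex.re (congrFun (congrFun h2 k) k)
    simpa [mul_apply, Complex.mul_conj, Complex.normSq_eq_norm_sq, ← Complex.ofReal_pow] using this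
  have hcol : ∀ j, ∑ k, ‖U k j‖ ^ 2 = 1 := by
    intro j
    have := congrArg Complex.re (congrFun (congrFun h1 j) j)
    simpa [mul_apply, Complex.conj_mul', ← Complex.ofReal_pow] using this
  have hM : ∀ k, p k + σ * (X k k).re = ∑ j, ‖U k j‖ ^ 2 * l j := by
    intro k
    have : ((rdiag p + (σ : ℂ) • X) k k).re = p k + σ * (X k k).re := by simp [rdiag]
    rw [← this]
    conv_lhs => rw [h3]
    rw [mul_apply, Complex.re_sum]
    refine Finset.sum_congr rfl fun j _ => ?_
    rw [mul_diagonal, conjTranspose_apply, mul_right_comm]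
    simp [Complex.mul_conj, Complex.normSq_eq_norm_sq, ← Complex.ofReal_pow]
  have hF : ∑ k, ∑ j, ‖U k j‖ ^ 2 * (l j - p k) ^ 2 = σ ^ 2 * fro2 X := by
    have e1 : ((σ : ℂ) • X) * U = U * diagonal (fun i => (l i : ℂ)) - rdiag p * U := by
      have : (rdiag p + (σ : ℂ) • X) * U = U * diagonal (fun i => (l i : ℂ)) := by
        conv_lhs => rw [h3]
        rw [Matrix.mul_assoc, h1, Matrix.mul_one]
      rw [← this, Matrix.add_mul]; abel
    have e2 : fro2 (((σ : ℂ) • X) * U) = fro2 ((σ : ℂ) • X) := by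
      rw [fro2_eq_trace, fro2_eq_trace, conjTranspose_mul, Matrix.mul_assoc, trace_mul_comm,
        Matrix.mul_assoc, Matrix.mul_assoc, h2, Matrix.mul_one]
    have e3 : fro2 ((σ : ℂ) • X) = σ ^ 2 * fro2 X := by
      simp [fro2, Finset.mul_sum, mul_pow]
    rw [← e3, ← e2, e1]
    unfold fro2
    refine Finset.sum_congr rfl fun k _ => Finset.sum_congr rfl fun j _ => ?_
    have : (U * diagonal (fun i => (l i : ℂ)) - rdiag p * U) k j
        = U k j * ((l j - p k : ℝ) : ℂ) := by
      simp only [rdiag, Matrix.sub_apply, mul_diagonal, diagonal_mul]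
      push_cast; ring
    rw [this, norm_mul, mul_pow, Complex.norm_real, Real.norm_eq_abs, sq_abs]
  have hpI : ∀ k, p k ∈ Set.Icc a b := fun k => ⟨by linarith [(hp k).1], by linarith [(hp k).2]⟩
  have hlI : ∀ j, l j ∈ Set.Icc a b := by
    intro j
    have h5 : ∑ k, ‖U k j‖ ^ 2 * (l j - p k) ^ 2 ≤ ∑ k, ‖U k j‖ ^ 2 * a ^ 2 := by
      rw [← Finset.sum_mul, hcol, one_mul]
      refine le_trans ?_ (hF.le.trans hσ)
      exact Finset.sum_le_sum fun k _ => Finset.single_le_sum
        (f := fun j => ‖U k j‖ ^ 2 * (l j - p k) ^ 2) (fun j _ => by positivity)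
        (Finset.mem_univ j)
    by_contra hc
    have h6 : ∀ k, a ^ 2 < (l j - p k) ^ 2 := by
      intro k
      by_contra h7
      have h8 := abs_le.1 (abs_le_of_sq_le_sq' (not_lt.1 h7) ha.le |> abs_le.2)
      exact hc ⟨by linarith [(hp k).1, h8.1], by linarith [(hp k).2, h8.2]⟩
    obtain ⟨k, -, hk⟩ : ∃ k ∈ Finset.univ, ‖U k j‖ ^ 2 ≠ 0 :=
      Finset.exists_ne_zero_of_sum_ne_zero (by rw [hcol]; exact one_ne_zero)
    refine absurd h5 (not_le.2 (Finset.sum_lt_sum (fun k _ =>
      mul_le_mul_of_nonneg_left (h6 k).le (by positivity)) ⟨k, Finset.mem_univ _, ?_⟩))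
    exact mul_lt_mul_of_pos_left (h6 k) (lt_of_le_of_ne (by positivity) hk.symm)
  have e4 : P358.trf (rdiag p + (σ : ℂ) • X) f - ∑ i, f (p i) - σ * ∑ i, (X i i).re * f' (p i)
      = ∑ k, ∑ j, ‖U k j‖ ^ 2 * (f (l j) - f (p k) - f' (p k) * (l j - p k)) := by
    have s1 : ∑ k, ∑ j, ‖U k j‖ ^ 2 * f (l j) = ∑ j, f (l j) := by
      rw [Finset.sum_comm]; simp only [← Finset.sum_mul, hcol, one_mul]
    have s2 : ∀ k, ∑ j, ‖U k j‖ ^ 2 * (f (l j) - f (p k) - f' (p k) * (l j - p k))
        = ∑ j, ‖U k j‖ ^ 2 * f (l j) - f (p k) - σ * ((X k k).re * f' (p k)) := by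
      intro k
      have : ∀ j, ‖U k j‖ ^ 2 * (f (l j) - f (p k) - f' (p k) * (l j - p k))
          = ‖U k j‖ ^ 2 * f (l j) - (f (p k) - f' (p k) * p k) * ‖U k j‖ ^ 2
            - f' (p k) * (‖U k j‖ ^ 2 * l j) := fun j => by ring
      simp only [this, Finset.sum_sub_distrib, ← Finset.mul_sum, hrow, ← hM]
      ring
    rw [P358.trf_eq hB, ← hl]
    simp only [s2, Finset.sum_sub_distrib, s1, ← Finset.mul_sum]
  have b1 : |∑ k, ∑ j, ‖U k j‖ ^ 2 * (f (l j) - f (p k) - f' (p k) * (l j - p k))|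
      ≤ e * (σ ^ 2 * fro2 X) := by
    rw [← hF, Finset.mul_sum]
    refine (Finset.abs_sum_le_sum_abs _ _).trans (Finset.sum_le_sum fun k _ => ?_)
    rw [Finset.mul_sum]
    refine (Finset.abs_sum_le_sum_abs _ _).trans (Finset.sum_le_sum fun j _ => ?_)
    rw [abs_mul, abs_of_nonneg (by positivity), mul_left_comm]
    exact mul_le_mul_of_nonneg_left (sec_taylor hf hf' hb (hpI k) (hlI j)) (by positivity)
  have b2 : |∑ i, ∑ j, ‖X i j‖ ^ 2 * secDD f' f'' (p i) (p j)| ≤ e * fro2 X := by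
    unfold fro2
    rw [Finset.mul_sum]
    refine (Finset.abs_sum_le_sum_abs _ _).trans (Finset.sum_le_sum fun k _ => ?_)
    rw [Finset.mul_sum]
    refine (Finset.abs_sum_le_sum_abs _ _).trans (Finset.sum_le_sum fun j _ => ?_)
    rw [abs_mul, abs_of_nonneg (by positivity), mul_comm e]
    refine mul_le_mul_of_nonneg_left ?_ (by positivity)
    unfold secDD
    split_ifs with h
    · exact hb _ (hpI k)
    · rw [abs_div, div_le_iff₀ (abs_pos.2 (sub_ne_zero.2 h))]
      exact sec_mvt hf' hb (hpI j) (hpI k)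
  unfold secR
  rw [e4]
  refine (abs_sub _ _).trans ?_
  rw [abs_mul, abs_of_nonneg (by positivity : 0 ≤ σ ^ 2 / 2)]
  have := mul_le_mul_of_nonneg_left b2 (by positivity : 0 ≤ σ ^ 2 / 2)
  nlinarith

/-- Second-order expansion of the entropy at a positive diagonal matrix.
Suggested proof. `η(x) + x = ∫_0^∞ [log(1 + x/w) - x/(1+w)] dw`. For `w ≥ 0` put
`K_w = (p+w)^(-1/2) X (p+w)^(-1/2)` (Hermitian). Then
`∑ log(λ_i(σ) + w) = log det(p + w + σX) = ∑ log(p_i + w) + ∑ log(1 + σ κ_i)` with `κ_i` the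
eigenvalues of `K_w`; `|log(1+y) - y + y²/2| ≤ 2|y|³` for `|y| ≤ 1/2`;
`∑ κ_i = ∑ X_ii/(p_i+w)`, `∑ κ_i² = ∑ |X_ij|²/((p_i+w)(p_j+w))`,
`∑ |κ_i|³ ≤ (∑ κ_i²)^(3/2) ≤ F³/(m+w)³` with `m = min p`, `F² = fro2 X`.
Integrate in `w`: `∫_0^∞ dw/((p+w)(q+w)) = 1/logMean p q`,
`∫_0^∞ (1/(p+w) - 1/(1+w)) dw = -log p`. One can avoid improper integrals: the function
`Ψ(w) = ∑ η(λ_i+w) - ∑ η(p_i+w) + σ ∑ X_ii (log(p_i+w)+1) + σ²/2 ∑ |X_ij|²/logMean(p_i+w)(p_j+w)`
has `|Ψ'(w)| ≤ 2|σ|³F³/(m+w)³` and tends to `0` at infinity (or apply the bound itself to the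
rescaled matrix ` (p + w)`), so `|Ψ(0)| ≤ |σ|³F³/m²` by monotonicity of `Ψ ± |σ|³F³/(m+w)²`. -/
theorem second_order (p : ι → ℝ) (hp : ∀ i, 0 < p i) {X : Matrix ι ι ℂ} (hX : X.IsHermitian)
    {ε : ℝ} (hε : 0 < ε) :
    ∀ᶠ σ : ℝ in 𝓝 0, |S (rdiag p + (σ : ℂ) • X) - ∑ i, negMulLog (p i)
      + σ * ∑ i, (X i i).re * (log (p i) + 1)
      + σ ^ 2 / 2 * ∑ i, ∑ j, ‖X i j‖ ^ 2 / logMean (p i) (p j)| ≤ ε * σ ^ 2 := by
  have hF := fro2_nonneg X
  obtain ⟨a, ha, hap⟩ : ∃ a : ℝ, 0 < a ∧ ∀ i, 2 * a ≤ p i := by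
    have h1 : ∀ᶠ a : ℝ in 𝓝[>] 0, ∀ i, 2 * a < p i := by
      refine eventually_all.2 fun i => nhdsWithin_le_nhds ?_
      exact (by fun_prop : Continuous fun a : ℝ => 2 * a).continuousAt.eventually_lt
        continuousAt_const (by simpa using hp i)
    obtain ⟨a, h2, h3⟩ := (h1.and self_mem_nhdsWithin).exists
    exact ⟨a, h3, fun i => (h2 i).le⟩
  set b : ℝ := ∑ i, p i + a with hb
  have hpb : ∀ i, 2 * a ≤ p i ∧ p i + a ≤ b := fun i => ⟨hap i, by
    have := Finset.single_le_sum (f := p) (fun j _ => (hp j).le) (Finset.mem_univ i)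
    linarith⟩
  set e : ℝ := ε / (3 * (fro2 X + 1)) with he
  have he0 : 0 < e := by positivity
  obtain ⟨r, hr⟩ := exists_polynomial_near_of_continuousOn a b (fun x => -x⁻¹)
    (continuousOn_inv₀.mono fun x hx => (ha.trans_le hx.1).ne').neg e he0
  obtain ⟨q', rfl⟩ := sec_antideriv r
  obtain ⟨q, rfl⟩ := sec_antideriv q'
  have h1 := (secR_poly p hX q).bound (half_pos hε)
  have h2 : ∀ᶠ σ : ℝ in 𝓝 0, σ ^ 2 * fro2 X < a ^ 2 :=
    (by fun_prop : Continuous fun σ : ℝ => σ ^ 2 * fro2 X).continuousAt.eventually_lt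
      continuousAt_const (by simpa using by positivity)
  filter_upwards [h1, h2] with σ k1 k2
  have k3 := secR_small p hX (f := fun x => (-1) * q.eval x + negMulLog x)
    (f' := fun x => (-1) * (Polynomial.derivative q).eval x + (-log x - 1))
    (f'' := fun x => (-1) * (Polynomial.derivative (Polynomial.derivative q)).eval x + -x⁻¹)
    (e := e) ha hpb
    (fun x hx => ((q.hasDerivAt x).const_mul (-1)).add
      (hasDerivAt_negMulLog (ha.trans_le hx.1).ne'))
    (fun x hx => (((Polynomial.derivative q).hasDerivAt x).const_mul (-1)).add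
      ((Real.hasDerivAt_log (ha.trans_le hx.1).ne').neg.sub_const 1))
    (fun x hx => by
      have := hr x hx
      rw [abs_sub_comm] at this
      refine le_trans (le_of_eq ?_) this.le
      congr 1; ring) k2.le
  rw [secR_lin p hX] at k3
  have k4 : secR p X negMulLog (fun x => -log x - 1) (fun x => -x⁻¹) σ
      = S (rdiag p + (σ : ℂ) • X) - ∑ i, negMulLog (p i)
      + σ * ∑ i, (X i i).re * (log (p i) + 1)
      + σ ^ 2 / 2 * ∑ i, ∑ j, ‖X i j‖ ^ 2 / logMean (p i) (p j) := by
    have d1 : ∀ i j, ‖X i j‖ ^ 2 * secDD (fun x => -log x - 1) (fun x => -x⁻¹) (p i) (p j)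
        = -(‖X i j‖ ^ 2 / logMean (p i) (p j)) := by
      intro i j
      unfold secDD logMean
      split_ifs with h
      · ring
      · rw [div_div_eq_mul_div]; ring
    have d2 : ∀ i, (X i i).re * (-log (p i) - 1) = -((X i i).re * (log (p i) + 1)) :=
      fun i => by ring
    unfold secR S
    simp only [d1, d2, Finset.sum_neg_distrib]
    ring
  rw [← k4]
  rw [Real.norm_eq_abs, Real.norm_eq_abs, abs_of_nonneg (sq_nonneg σ)] at k1
  have k5 : 3 / 2 * e * fro2 X ≤ ε / 2 := by
    rw [he, mul_div_assoc', div_mul_eq_mul_div, div_le_iff₀ (by positivity)]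
    nlinarith
  have k6 := mul_le_mul_of_nonneg_right k5 (sq_nonneg σ)
  have k7 := abs_le.1 k1
  have k8 := abs_le.1 k3
  rw [abs_le]
  constructor <;> linarith [k7.1, k7.2, k8.1, k8.2]

end Vale.Agent.P369
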